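import Crest.Agent.R121.Spec

/-!
# Row 121: gluing averaging operators of corners along a quasi-central net
-/

open scoped InnerProductSpace ComplexOrder Topology
open Filter

set_option linter.unusedSectionVars false

namespace Crest.Agent.R121

noncomputable section

variable {H : Type*} [NormedAddCommGroup H] [InnerProductSpace ℂ H] [CompleteSpace H]
  {M : VonNeumannAlgebra H}

/-- A directed, unitarily invariant family of projections exhausting `z`. -/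
structure Exhaust (z : Alg M) (𝓖 : Set (Alg M)) : Prop where
  proj : ∀ e ∈ 𝓖, IsStarProjection e
  le : ∀ e ∈ 𝓖, e * z = e
  directed : ∀ e ∈ 𝓖, ∀ e' ∈ 𝓖, ∃ e'' ∈ 𝓖, e'' * e = e ∧ e'' * e' = e'
  conj : ∀ e ∈ 𝓖, ∀ u ∈ unitary (Alg M), u * e * star u ∈ 𝓖
  dense : ∀ ζ : H, (z : H →L[ℂ] H) ζ = ζ → ∀ ε > 0, ∃ e ∈ 𝓖, ‖(e : H →L[ℂ] H) ζ - ζ‖ ≤ ε

theorem QC_rev {p q : Alg M} (hp : IsStarProjection p) (hq : IsStarProjection q)
    (h : q * p = p) : p * q = p := by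
  simpa [hp.isSelfAdjoint.star_eq, hq.isSelfAdjoint.star_eq] using congrArg star h

theorem QC_Q_le {p q : Alg M} (hp : IsStarProjection p) (hq : IsStarProjection q)
    (h : q * p = p) (ζ : H) : SpecQ p ζ ≤ SpecQ q ζ := by
  rw [SpecQ_proj hp, SpecQ_proj hq]
  have h1 : (p : H →L[ℂ] H) ζ = (p : H →L[ℂ] H) ((q : H →L[ℂ] H) ζ) := by
    rw [← Alg.mul_apply, QC_rev hp hq h]
  rw [h1]
  gcongr
  exact Spec_norm_proj_apply_le hp _

theorem QC_sub_le {p q : Alg M} (hq : IsStarProjection q) (h : q * p = p) (ζ : H) :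
    ‖(q : H →L[ℂ] H) ζ - ζ‖ ≤ ‖(p : H →L[ℂ] H) ζ - ζ‖ := by
  have h1 : (q : H →L[ℂ] H) ζ - ζ =
      ((1 - q : Alg M) : H →L[ℂ] H) ((p : H →L[ℂ] H) ζ - ζ) := by
    have h2 : (q : H →L[ℂ] H) ((p : H →L[ℂ] H) ζ) = (p : H →L[ℂ] H) ζ := by
      rw [← Alg.mul_apply, h]
    simp [h2]
  rw [h1]
  exact Spec_norm_proj_apply_le hq.one_sub _

theorem QC_Q_sum {ι : Type*} (s : Finset ι) (x : ι → Alg M) (ζ : H) :
    SpecQ (∑ i ∈ s, x i) ζ = ∑ i ∈ s, SpecQ (x i) ζ := by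
  simp [SpecQ]

theorem QC_Q_conj (u x : Alg M) (ζ : H) :
    SpecQ (star u * x * u) ζ = SpecQ x ((u : H →L[ℂ] H) ζ) := by
  rw [SpecQ, SpecQ, Alg.mul_apply, Alg.mul_apply, Alg.inner_star_right]

theorem Exhaust.QC_bound {z : Alg M} {𝓖 : Set (Alg M)} (h : Exhaust z 𝓖) {ι : Type*}
    (s : Finset ι) (f : ι → Alg M) (hf : ∀ i ∈ s, f i ∈ 𝓖) :
    ∃ e ∈ 𝓖, ∀ i ∈ s, e * f i = f i := by
  classical
  induction s using Finset.induction_on with
  | empty =>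
    obtain ⟨e, he, -⟩ := h.dense 0 (map_zero _) 1 one_pos
    exact ⟨e, he, by simp⟩
  | insert a s ha ih =>
    obtain ⟨e, he, he'⟩ := ih fun i hi => hf i (Finset.mem_insert_of_mem hi)
    obtain ⟨e', h1, h2, h3⟩ := h.directed e he (f a) (hf a (Finset.mem_insert_self _ _))
    refine ⟨e', h1, fun i hi => ?_⟩
    rcases Finset.mem_insert.1 hi with rfl | hi
    · exact h3
    · rw [← he' i hi, ← mul_assoc, h2]

theorem Exhaust.QC_step {z : Alg M} {𝓖 : Set (Alg M)} (h : Exhaust z 𝓖)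
    (F : Finset (Alg M)) (hF : ∀ u ∈ F, u ∈ unitary (Alg M)) (e : 𝓖) :
    ∃ e' : 𝓖, e'.1 * e.1 = e.1 ∧ ∀ u ∈ F, e'.1 * (u * e.1 * star u) = u * e.1 * star u ∧
      e'.1 * (star u * e.1 * u) = star u * e.1 * u := by
  obtain ⟨e₁, h1, h1'⟩ := h.QC_bound F (fun u => u * e.1 * star u)
    fun u hu => h.conj _ e.2 u (hF u hu)
  obtain ⟨e₂, h2, h2'⟩ := h.QC_bound F (fun u => star u * e.1 * u) fun u hu => by
    simpa using h.conj _ e.2 (star u) (Unitary.star_mem (hF u hu))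
  obtain ⟨e₃, h3, h31, h32⟩ := h.directed e₁ h1 e₂ h2
  obtain ⟨e₄, h4, h41, h42⟩ := h.directed e₃ h3 e.1 e.2
  have tr : ∀ {a b c : Alg M}, a * b = b → b * c = c → a * c = c := fun h h' => by
    rw [← h', ← mul_assoc, h]
  exact ⟨⟨e₄, h4⟩, h42, fun u hu =>
    ⟨tr h41 (tr h31 (h1' u hu)), tr h41 (tr h32 (h2' u hu))⟩⟩

/-- The telescoping estimate. -/
theorem QC_tele {e f : ℕ → Alg M} (he : ∀ k, IsStarProjection (e k))
    (hf : ∀ k, IsStarProjection (f k)) (h : ∀ k, e (k + 1) * f k = f k) (N : ℕ) (ζ : H) :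
    SpecQ (∑ k ∈ Finset.range N, f k) ζ ≤ SpecQ (∑ k ∈ Finset.range N, e k) ζ + ‖ζ‖ ^ 2 := by
  rw [QC_Q_sum, QC_Q_sum]
  have h1 : ∑ k ∈ Finset.range N, SpecQ (f k) ζ ≤ ∑ k ∈ Finset.range N, SpecQ (e (k + 1)) ζ :=
    Finset.sum_le_sum fun k _ => QC_Q_le (hf k) (he _) (h k) ζ
  have h2 := Finset.sum_range_succ (fun k => SpecQ (e k) ζ) N
  have h3 := Finset.sum_range_succ' (fun k => SpecQ (e k) ζ) N
  have h4 : 0 ≤ SpecQ (e 0) ζ := by rw [SpecQ_proj (he 0)]; positivity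
  have h5 : SpecQ (e N) ζ ≤ ‖ζ‖ ^ 2 := by
    rw [SpecQ_proj (he N)]
    gcongr
    exact Spec_norm_proj_apply_le (he N) ζ
  linarith

/-- Quasi-central averages.  Recipe: choose `e 0 ∈ 𝓖` almost fixing `z ζ`, `ζ ∈ Z` (`dense`,
`directed`; `‖e' ζ - ζ‖ ≤ ‖e ζ - ζ‖` if `e' e = e`), and `e (k+1) ∈ 𝓖` above `e k`, `u (e k) u⋆`,
`u⋆ (e k) u` (`u ∈ F`).  Put `x = N⁻¹ ∑ k < N, e k`, `e' = e N`.  Then `u x u⋆ ≤ x + 1/N` and
`x ≤ u x u⋆ + 1/N` (telescoping, in the Loewner order or with quadratic forms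
`‖e ζ‖²`), so `‖u x u⋆ - x‖ ≤ 1/N`. -/
theorem Exhaust.exists_qc {z : Alg M} {𝓖 : Set (Alg M)} (h : Exhaust z 𝓖) (hz : z * z = z)
    (F : Finset (Alg M)) (hF : ∀ u ∈ F, u ∈ unitary (Alg M)) (Z : Finset H) {ε : ℝ}
    (hε : 0 < ε) :
    ∃ e' ∈ 𝓖, ∃ x : Alg M, ‖x‖ ≤ 1 ∧ x * z = x ∧ e' * x * e' = x ∧
      (∀ u ∈ F, e' * (u * x) * e' = u * x ∧ ‖u * x - x * u‖ ≤ ε) ∧
      ∀ ζ ∈ Z, ‖(x : H →L[ℂ] H) ((z : H →L[ℂ] H) ζ) - (z : H →L[ℂ] H) ζ‖ ≤ ε := by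
  choose g hg hg' using fun ζ : H =>
    h.dense ((z : H →L[ℂ] H) ζ) (by rw [← Alg.mul_apply, hz]) ε hε
  obtain ⟨e₀, he₀, he₀'⟩ := h.QC_bound Z g fun ζ _ => hg ζ
  choose s hs hs' using h.QC_step F hF
  let E : ℕ → 𝓖 := fun k => s^[k] ⟨e₀, he₀⟩
  let e : ℕ → Alg M := fun k => (E k).1
  have hE : ∀ k, E (k + 1) = s (E k) := fun k => Function.iterate_succ_apply' s k _
  have hp : ∀ k, IsStarProjection (e k) := fun k => h.proj _ (E k).2
  have h1 : ∀ k, e (k + 1) * e k = e k := fun k => by simp only [e, hE]; exact hs _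
  have h2 : ∀ u ∈ F, ∀ k, e (k + 1) * (u * e k * star u) = u * e k * star u := fun u hu k => by
    simp only [e, hE]; exact (hs' _ u hu).1
  have h3 : ∀ u ∈ F, ∀ k, e (k + 1) * (star u * e k * u) = star u * e k * u := fun u hu k => by
    simp only [e, hE]; exact (hs' _ u hu).2
  have hmono : ∀ k l, k ≤ l → e l * e k = e k := fun k l hkl => by
    induction l, hkl using Nat.le_induction with
    | base => exact (hp k).isIdempotentElem.eq
    | succ l _ ih => rw [← ih, ← mul_assoc, h1]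
  obtain ⟨n, hn⟩ := exists_nat_one_div_lt hε
  set N := n + 1 with hN
  have hNpos : (0 : ℝ) < N := by positivity
  have hNε : (N : ℝ)⁻¹ ≤ ε := by rw [hN]; push_cast; rw [← one_div]; exact hn.le
  set y : Alg M := ∑ k ∈ Finset.range N, e k with hy
  have hye : y * e N = y := by
    rw [hy, Finset.sum_mul]
    exact Finset.sum_congr rfl fun k hk =>
      QC_rev (hp k) (hp N) (hmono k N (Finset.mem_range.1 hk).le)
  have hys : IsSelfAdjoint y := isSelfAdjoint_sum _ fun k _ => (hp k).isSelfAdjoint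
  refine ⟨e N, (E N).2, (((N : ℝ)⁻¹ : ℝ) : ℂ) • y, ?_, ?_, ?_, fun u hu => ⟨?_, ?_⟩,
    fun ζ hζ => ?_⟩
  · rw [norm_smul, Complex.norm_real, norm_inv, Real.norm_natCast, inv_mul_le_iff₀ hNpos]
    refine (norm_sum_le _ _).trans ((Finset.sum_le_card_nsmul _ _ 1 fun k _ =>
      (hp k).norm_le).trans (by simp))
  · rw [smul_mul_assoc, hy, Finset.sum_mul]
    exact congrArg _ (Finset.sum_congr rfl fun k _ => h.le _ (E k).2)
  · rw [mul_smul_comm, smul_mul_assoc, mul_assoc, hye, hy, Finset.mul_sum]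
    exact congrArg _ (Finset.sum_congr rfl fun k hk => hmono k N (Finset.mem_range.1 hk).le)
  · rw [mul_smul_comm, mul_smul_comm, smul_mul_assoc, mul_assoc, mul_assoc, hye, hy,
      Finset.mul_sum, Finset.mul_sum]
    refine congrArg _ (Finset.sum_congr rfl fun k hk => ?_)
    have h4 : e (k + 1) * (u * e k) = u * e k := by
      have := congrArg (· * u) (h2 u hu k)
      simpa only [mul_assoc, (hF u hu).1, mul_one] using this
    rw [← h4, ← mul_assoc, hmono (k + 1) N (Finset.mem_range.1 hk)]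
  · have hu1 : star u * u = 1 := (hF u hu).1
    have hu2 : u * star u = 1 := (hF u hu).2
    have hc : ∀ v ∈ unitary (Alg M), ∀ k, IsStarProjection (star v * e k * v) := fun v hv k => by
      simpa using h.proj _ (h.conj _ (E k).2 (star v) (Unitary.star_mem hv))
    have hA : ∀ ζ, SpecQ (star u * y * u) ζ ≤ SpecQ y ζ + ‖ζ‖ ^ 2 := fun ζ => by
      have := QC_tele hp (hc u (hF u hu)) (h3 u hu) N ζ
      rwa [← Finset.sum_mul, ← Finset.mul_sum] at this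
    have hB : ∀ ζ, SpecQ y ζ ≤ SpecQ (star u * y * u) ζ + ‖ζ‖ ^ 2 := fun ζ => by
      have := QC_tele hp (by simpa using hc (star u) (Unitary.star_mem (hF u hu))) (h2 u hu) N
        ((u : H →L[ℂ] H) ζ)
      have h4 : ‖(u : H →L[ℂ] H) ζ‖ ^ 2 = ‖ζ‖ ^ 2 := by
        rw [← SpecQ_star_mul, hu1, SpecQ_proj (.one _)]
        rfl
      rw [← Finset.sum_mul, ← Finset.mul_sum, ← QC_Q_conj u, ← QC_Q_conj u, ← hy, h4] at this
      simpa only [← mul_assoc, hu1, one_mul, mul_assoc _ (star u) u, mul_one] using this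
    have hC : ‖star u * y * u - y‖ ≤ 1 := by
      refine Spec_norm_le ((hys.conjugate' u).sub hys) zero_le_one fun ζ => ?_
      rw [SpecQ_sub, abs_le, one_mul]
      constructor <;> linarith [hA ζ, hB ζ]
    have hD : u * y - y * u = -(u * (star u * y * u - y)) := by
      rw [mul_sub, ← mul_assoc, ← mul_assoc, hu2, one_mul, neg_sub]
    rw [mul_smul_comm, smul_mul_assoc, ← smul_sub, norm_smul, Complex.norm_real, norm_inv,
      Real.norm_natCast, hD, norm_neg, CStarRing.norm_mem_unitary_mul _ (hF u hu)]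
    exact (mul_le_of_le_one_right (by positivity) hC).trans hNε
  · set v := (z : H →L[ℂ] H) ζ
    have h4 : ∀ k, ‖(e k : H →L[ℂ] H) v - v‖ ≤ ε := fun k =>
      (QC_sub_le (hp k) (p := g ζ) (by
        rw [← he₀' ζ hζ, ← mul_assoc]
        exact congrArg (· * g ζ) (hmono 0 k k.zero_le)) v).trans (hg' ζ)
    have h5 : (((((N : ℝ)⁻¹ : ℝ) : ℂ) • y : Alg M) : H →L[ℂ] H) v - v =
        (((N : ℝ)⁻¹ : ℝ) : ℂ) • ∑ k ∈ Finset.range N, ((e k : H →L[ℂ] H) v - v) := by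
      have hN' : (N : ℂ) ≠ 0 := by exact_mod_cast hNpos.ne'
      simp [hy, Finset.sum_sub_distrib, smul_sub, ← Nat.cast_smul_eq_nsmul ℂ, smul_smul, hN']
    rw [h5, norm_smul, Complex.norm_real, norm_inv, Real.norm_natCast, inv_mul_le_iff₀ hNpos]
    exact (norm_sum_le _ _).trans ((Finset.sum_le_card_nsmul _ _ ε fun k _ => h4 k).trans
      (by simp))

/-- **Gluing lemma.**  Recipe: index set `Finset (Alg M) × Finset H × ℕ`,
`𝒰 = Ultrafilter.of atTop`, `(e', x)` from `exists_qc` (unitary members of `F`, `ε = 1/(n+1)`),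
`P = wlimL 𝒰 (fun α => Rm (x α) ∘L P_{e' α}) 1 _`.  For `φ ∈ 𝓒` and `u ∈ F`:
`P_{e'} (φ ∘ Lm u) * x = P_{e'} (φ ∘ Lm u ∘ Lm x) = P_{e'} (φ ∘ Lm (u x)) = P_{e'} φ * (u x)`, which is
close to `P_{e'} φ * x * u`.  `P id = wlim x = z`.  All `y` by `exists_four_cu` (`e = 1`). -/
theorem avg_glue {z : Alg M} (hz : IsCentralProj M z) {𝓖 : Set (Alg M)} (h : Exhaust z 𝓖)
    {𝓒 : (Alg M →L[ℂ] Alg M) → Prop} (h𝓒 : ∀ φ, 𝓒 φ → ∀ y, 𝓒 (φ ∘L Lm y))
    (hP : ∀ e ∈ 𝓖, ∃ P, AvgOn M e 𝓒 P) : ∃ P, AvgZ M z 𝓒 P := by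
  classical
  choose e he x hx1 hxz hxe hxu hxζ using fun α : Finset (Alg M) × Finset H × ℕ =>
    h.exists_qc hz.1.isIdempotentElem.eq (α.1.filter (· ∈ unitary (Alg M)))
      (fun u hu => (Finset.mem_filter.1 hu).2) α.2.1
      (ε := 1 / ((α.2.2 : ℝ) + 1)) (by positivity)
  choose P hP using fun α => hP (e α) (he α)
  let 𝒰 : Ultrafilter (Finset (Alg M) × Finset H × ℕ) := Ultrafilter.of atTop
  have h𝒰 : (𝒰 : Filter (Finset (Alg M) × Finset H × ℕ)) ≤ atTop := Ultrafilter.of_le _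
  have hε : Tendsto (fun α : Finset (Alg M) × Finset H × ℕ => 1 / ((α.2.2 : ℝ) + 1)) 𝒰 (𝓝 0) := by
    refine (tendsto_one_div_add_atTop_nhds_zero_nat.comp ?_).mono_left h𝒰
    exact tendsto_atTop.2 fun n => (eventually_ge_atTop (∅, ∅, n)).mono fun α hα => hα.2.2
  have hb : ∀ α, ‖Rm (x α) ∘L P α‖ ≤ 1 := fun α =>
    (ContinuousLinearMap.opNorm_comp_le _ _).trans (mul_le_one₀ ((norm_Rm_le _).trans (hx1 α))
      (norm_nonneg _) (hP α).norm_le)
  have hb' : ∀ φ α, ‖P α φ * x α‖ ≤ 1 * ‖φ‖ := fun φ α =>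
    (Rm (x α) ∘L P α).le_of_opNorm_le (hb α) φ
  have hQ : ∀ φ, wlimL 𝒰 (fun α => Rm (x α) ∘L P α) 1 hb φ = wlim 𝒰 fun α => P α φ * x α :=
    fun φ => rfl
  have hu : ∀ φ, 𝓒 φ → ∀ u ∈ unitary (Alg M),
      wlimL 𝒰 (fun α => Rm (x α) ∘L P α) 1 hb (φ ∘L Lm u) =
        wlimL 𝒰 (fun α => Rm (x α) ∘L P α) 1 hb φ * u := by
    intro φ hφ u hu
    have hb2 : ∀ α, ‖P α φ * x α * u‖ ≤ 1 * ‖φ‖ * ‖u‖ := fun α =>
      (norm_mul_le _ _).trans (by gcongr; exact hb' φ α)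
    rw [hQ, hQ, ← wlim_mul_right 𝒰 (hb' φ), ← sub_eq_zero, ← wlim_sub 𝒰 (hb' _) hb2]
    refine wlim_of_tendsto 𝒰 (fun α => (norm_sub_le _ _).trans (add_le_add (hb' _ α) (hb2 α))) ?_
    refine squeeze_zero_norm' ?_ (by simpa using hε.const_mul ‖φ‖)
    filter_upwards [h𝒰 (eventually_ge_atTop ({u}, ∅, 0))] with α hα
    obtain ⟨h1, h2⟩ := hxu α u (Finset.mem_filter.2 ⟨hα.1 (Finset.mem_singleton_self u), hu⟩)
    have h3 : (φ ∘L Lm u) ∘L Lm (x α) = φ ∘L Lm (u * x α) := by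
      ext1 w
      simp [mul_assoc]
    rw [← (hP α).modular _ (h𝓒 φ hφ u) _ (hxe α), h3, (hP α).modular _ hφ _ h1, mul_assoc,
      ← mul_sub]
    refine (norm_mul_le _ _).trans (mul_le_mul ?_ (by simpa using h2) (norm_nonneg _)
      (norm_nonneg _))
    simpa using (P α).le_of_opNorm_le (hP α).norm_le φ
  refine ⟨wlimL 𝒰 (fun α => Rm (x α) ∘L P α) 1 hb, norm_wlimL_le _ _ _ _, fun a φ => ?_, ?_,
    fun φ => ?_, fun φ hφ y => ?_⟩
  · rw [hQ, hQ, ← wlim_mul_left 𝒰 (hb' φ)]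
    simp only [(hP _).left, mul_assoc]
  · rw [hQ]
    have h1 : ∀ α, P α (ContinuousLinearMap.id ℂ _) * x α = x α := fun α => by
      rw [(hP α).unit, ← hxe α, ← mul_assoc, ← mul_assoc, (h.proj _ (he α)).isIdempotentElem.eq]
    simp only [h1]
    refine wlim_eq 𝒰 hx1 fun η ξ => Tendsto.inner tendsto_const_nhds ?_
    rw [tendsto_iff_norm_sub_tendsto_zero]
    refine squeeze_zero' (Eventually.of_forall fun _ => norm_nonneg _) ?_ hε
    filter_upwards [h𝒰 (eventually_ge_atTop (∅, {ξ}, 0))] with α hα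
    have := hxζ α ξ (hα.2.1 (Finset.mem_singleton_self ξ))
    rwa [← Alg.mul_apply, hxz] at this
  · rw [hQ, ← wlim_mul_right 𝒰 (hb' φ)]
    simp only [mul_assoc, hxz]
  · obtain ⟨u, c, h1, rfl, -⟩ := exists_four_cu (.one (Alg M)) (one_mul y) (mul_one y)
    have h2 : φ ∘L Lm (∑ i, c i • u i) = ∑ i, c i • (φ ∘L Lm (u i)) := by
      ext1 w
      simp
    rw [h2, map_sum, Finset.mul_sum]
    exact Finset.sum_congr rfl fun i _ => by
      rw [map_smul, hu φ hφ _ (isCU_one_iff.1 (h1 i)), mul_smul_comm]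

end

end Crest.Agent.R121
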