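import Crest.Agent.R121.Trace
import Crest.Agent.R121.QC

/-!
# Row 121: projections without trace are properly infinite
-/

open scoped InnerProductSpace ComplexOrder Topology
open Filter

set_option linter.unusedSectionVars false

namespace Crest.Agent.R121

noncomputable section

variable {H : Type*} [NormedAddCommGroup H] [InnerProductSpace ℂ H] [CompleteSpace H]
  {M : VonNeumannAlgebra H}

/-- Isometries of the corner `p M p` with orthogonal ranges. -/
structure Isoms (p : Alg M) (s : ℕ → Alg M) : Prop where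
  orth : ∀ i j, star (s i) * s j = if i = j then p else 0
  left : ∀ i, p * s i = s i

theorem NoTr.mono {p q : Alg M} (h : NoTr M p) (hq : q * p = q) : NoTr M q := fun f hf =>
  h f (by rw [← hf, mul_assoc, hq])

theorem Isom_zorn {A : Type*} (P : A → Prop) (R : A → A → Prop) (hR : ∀ a b, R a b → R b a) :
    ∃ S : Set A, (∀ a ∈ S, P a) ∧ S.Pairwise R ∧ ∀ b, P b → (∀ a ∈ S, R a b) → b ∈ S := by
  obtain ⟨S, hS⟩ := zorn_subset {S : Set A | (∀ a ∈ S, P a) ∧ S.Pairwise R} (fun c hc hch =>
    ⟨⋃₀ c, ⟨fun a ⟨s, hs, ha⟩ => (hc hs).1 a ha, hch.pairwise_sUnion.2 fun s hs => (hc hs).2⟩,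
      fun s hs => Set.subset_sUnion_of_mem hs⟩)
  refine ⟨S, hS.prop.1, hS.prop.2, fun b hb h => ?_⟩
  have h1 : insert b S ∈ {S : Set A | (∀ a ∈ S, P a) ∧ S.Pairwise R} := by
    refine ⟨?_, hS.prop.2.insert fun a ha _ => ⟨hR _ _ (h a ha), h a ha⟩⟩
    rintro a (rfl | ha)
    · exact hb
    · exact hS.prop.1 a ha
  exact hS.le_of_ge h1 (Set.subset_insert b S) (Set.mem_insert b S)

/-- `w` is the sum of the partial isometries `v i`. -/
structure IsomSum {I : Type*} (v : I → Alg M) (w : Alg M) : Prop where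
  pi : w * star w * w = w
  each : ∀ i, v i * star (v i) * v i = v i
  ini : ∀ i, w * (star (v i) * v i) = v i
  fin : ∀ i, v i * star (v i) * w = v i
  annL : ∀ y, (∀ i, y * v i = 0) → y * w = 0
  annR : ∀ y, (∀ i, v i * y = 0) → w * y = 0

theorem Isom_exists_sum {I : Type*} (v : I → Alg M) (hv : ∀ i, v i * star (v i) * v i = v i)
    (h₁ : ∀ i j, i ≠ j → star (v i) * v j = 0) (h₂ : ∀ i j, i ≠ j → v i * star (v j) = 0) :
    ∃ w, IsomSum v w := by
  obtain ⟨w, a, b, c, d, e, -⟩ := exists_orth_sum v hv h₁ h₂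
  exact ⟨w, a, hv, b, c, d, e⟩

theorem Isom_star_pi {v : Alg M} (hv : v * star v * v = v) : star v * v * star v = star v := by
  simpa [mul_assoc] using congrArg star hv

theorem Isom_flip {p q : Alg M} (hp : IsStarProjection p) (hq : IsStarProjection q)
    (h : p * q = q) : q * p = q := by
  simpa [hp.isSelfAdjoint.star_eq, hq.isSelfAdjoint.star_eq] using congrArg star h

theorem Isom_flip' {p q : Alg M} (hp : IsStarProjection p) (hq : IsStarProjection q)
    (h : q * p = q) : p * q = q := by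
  simpa [hp.isSelfAdjoint.star_eq, hq.isSelfAdjoint.star_eq] using congrArg star h

theorem Isom_flip0 {p q : Alg M} (hp : IsStarProjection p) (hq : IsStarProjection q)
    (h : p * q = 0) : q * p = 0 := by
  simpa [hp.isSelfAdjoint.star_eq, hq.isSelfAdjoint.star_eq] using congrArg star h

theorem Isom_star_left {p x : Alg M} (hp : IsStarProjection p) (h : p * x = x) :
    star x * p = star x := by
  simpa [hp.isSelfAdjoint.star_eq] using congrArg star h

theorem Isom_star_right {p x : Alg M} (hp : IsStarProjection p) (h : x * p = x) :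
    p * star x = star x := by
  simpa [hp.isSelfAdjoint.star_eq] using congrArg star h

theorem Isom_proj_sub {p q : Alg M} (hp : IsStarProjection p) (hq : IsStarProjection q)
    (h : q * p = q) : IsStarProjection (p - q) :=
  ⟨by rw [IsIdempotentElem, sub_mul, mul_sub, mul_sub, hp.isIdempotentElem.eq,
      hq.isIdempotentElem.eq, h, Isom_flip' hp hq h, sub_self, sub_zero],
    hp.isSelfAdjoint.sub hq.isSelfAdjoint⟩

section sum

variable {I : Type*} {v : I → Alg M} {w : Alg M}

theorem IsomSum.left (h : IsomSum v w) {p : Alg M} (hp : ∀ i, p * v i = v i) : p * w = w := by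
  have := h.annL (1 - p) fun i => by rw [sub_mul, one_mul, hp, sub_self]
  rw [sub_mul, one_mul, sub_eq_zero] at this
  exact this.symm

theorem IsomSum.right (h : IsomSum v w) {p : Alg M} (hp : ∀ i, v i * p = v i) : w * p = w := by
  have := h.annR (1 - p) fun i => by rw [mul_sub, mul_one, hp, sub_self]
  rw [mul_sub, mul_one, sub_eq_zero] at this
  exact this.symm

theorem IsomSum.star_mul (h : IsomSum v w) (i : I) : star (v i) * w = star (v i) * v i := by
  conv_lhs => rw [← Isom_star_pi (h.each i)]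
  rw [mul_assoc (star (v i)), mul_assoc, h.fin]

theorem IsomSum.mul_star (h : IsomSum v w) (i : I) : w * star (v i) = v i * star (v i) := by
  conv_lhs => rw [← Isom_star_pi (h.each i)]
  rw [← mul_assoc, h.ini]

theorem IsomSum.star_mul' (h : IsomSum v w) (i : I) : star w * v i = star (v i) * v i := by
  simpa using congrArg star (h.star_mul i)

theorem IsomSum.mul_star' (h : IsomSum v w) (i : I) : v i * star w = v i * star (v i) := by
  simpa using congrArg star (h.mul_star i)

/-- The initial projection of the sum dominates the initial projections. -/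
theorem IsomSum.mul_ini (h : IsomSum v w) (i : I) : v i * (star w * w) = v i := by
  rw [← mul_assoc, h.mul_star', h.fin]

/-- The final projection of the sum dominates the final projections. -/
theorem IsomSum.star_mul_fin (h : IsomSum v w) (i : I) :
    star (v i) * (w * star w) = star (v i) := by
  rw [← mul_assoc, h.star_mul, mul_assoc, h.mul_star', ← mul_assoc, Isom_star_pi (h.each i)]

theorem IsomSum.orth {J : Type*} {v' : J → Alg M} {w' : Alg M} (h : IsomSum v w)
    (h' : IsomSum v' w') (ho : ∀ i j, star (v i) * v' j = 0) : star w * w' = 0 := by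
  refine h'.annL _ fun j => ?_
  have := h.annL (star (v' j)) fun i => by simpa using congrArg star (ho i j)
  simpa using congrArg star this

theorem IsomSum.ini_le {v' : I → Alg M} {w' : Alg M} (h : IsomSum v w) (h' : IsomSum v' w')
    (he : ∀ i, star (v i) * v i = star (v' i) * v' i) : w * (star w' * w') = w :=
  h.right fun i => by
    conv_lhs => rw [← h.each i, mul_assoc (v i), he, mul_assoc, mul_assoc, h'.mul_ini, ← he]
    rw [← mul_assoc, h.each]

theorem IsomSum.ini_eq {v' : I → Alg M} {w' : Alg M} (h : IsomSum v w) (h' : IsomSum v' w')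
    (he : ∀ i, star (v i) * v i = star (v' i) * v' i) : star w * w = star w' * w' := by
  have a : star w * w * (star w' * w') = star w * w := by rw [mul_assoc, h.ini_le h' he]
  have b : star w' * w' * (star w * w) = star w' * w' := by
    rw [mul_assoc, h'.ini_le h fun i => (he i).symm]
  rw [← a, Isom_flip' (proj_star_mul h.pi) (proj_star_mul h'.pi) b]

end sum

/-- A sequence of isometries from `p₁` with orthogonal ranges gives a properly infinite
projection. -/
theorem Isom_of_seq {r p₁ : Alg M} (hr : IsStarProjection r) (hp : IsStarProjection p₁)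
    (h0 : p₁ ≠ 0) (t : ℕ → Alg M) (ht : ∀ k l, star (t k) * t l = if k = l then p₁ else 0)
    (hrt : ∀ k, r * t k = t k) :
    ∃ q s, IsStarProjection q ∧ q ≠ 0 ∧ q * r = q ∧ Isoms q s := by
  have t1 : ∀ k, star (t k) * t k = p₁ := fun k => by rw [ht, if_pos rfl]
  have t2 : ∀ k l, k ≠ l → star (t k) * t l = 0 := fun k l h => by rw [ht, if_neg h]
  have t3 : ∀ k, t k * p₁ = t k := fun k => mul_eq_self_of_star_mul_self hp (t1 k)
  have t4 : ∀ k, p₁ * star (t k) = star (t k) := fun k => Isom_star_right hp (t3 k)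
  let u : ℕ → ℕ → Alg M := fun i k => t (Nat.pair i k) * star (t k)
  have u0 : ∀ i k j l, star (u i k) * u j l =
      t k * (star (t (Nat.pair i k)) * t (Nat.pair j l)) * star (t l) := fun i k j l => by
    simp only [u, star_mul, star_star, mul_assoc]
  have u1 : ∀ i k, star (u i k) * u i k = t k * star (t k) := fun i k => by
    rw [u0, t1, t3]
  have u2 : ∀ i k j l, i ≠ j ∨ k ≠ l → star (u i k) * u j l = 0 := fun i k j l h => by
    rw [u0, t2, mul_zero, zero_mul]
    intro e
    rw [Nat.pair_eq_pair] at e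
    tauto
  have u3 : ∀ i k, u i k * star (u i k) * u i k = u i k := fun i k => by
    rw [mul_assoc, u1]
    simp only [u]
    rw [mul_assoc, ← mul_assoc (star (t k)), t1, t4]
  have u4 : ∀ i k l, k ≠ l → u i k * star (u i l) = 0 := fun i k l h => by
    simp only [u, star_mul, star_star]
    rw [mul_assoc, ← mul_assoc (star (t k)), t2 k l h, zero_mul, mul_zero]
  choose s hs using fun i => Isom_exists_sum (u i) (u3 i)
    (fun k l h => u2 i k i l (Or.inr h)) (u4 i)
  have s1 : ∀ i, star (s i) * s i = star (s 0) * s 0 := fun i =>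
    (hs i).ini_eq (hs 0) fun k => by rw [u1, u1]
  have hq := proj_star_mul (hs 0).pi
  have q1 : ∀ k, star (s 0) * s 0 * t k = t k := fun k => by
    have a : star (t k) * (star (s 0) * s 0) = star (t k) := by
      have b : star (t k) = star (t (Nat.pair 0 k)) * u 0 k := by
        simp only [u]
        rw [← mul_assoc, t1, t4]
      rw [b, mul_assoc, (hs 0).mul_ini]
    simpa using congrArg star a
  refine ⟨star (s 0) * s 0, s, hq, fun h => h0 ?_, ?_, fun i j => ?_, fun i => ?_⟩
  · rw [← t1 0, ← q1 0, h, zero_mul, mul_zero]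
  · rw [mul_assoc, (hs 0).right fun k => ?_]
    simp only [u]
    rw [mul_assoc, Isom_star_left hr (hrt k)]
  · split_ifs with h
    · rw [h, s1]
    · exact (hs i).orth (hs j) fun k l => u2 i k j l (Or.inl h)
  · refine (hs i).left fun k => ?_
    simp only [u]
    rw [← mul_assoc, q1]

theorem Isom_re_vecF (x : Alg M) (ξ : H) :
    (vecF M ξ ξ (star x * x)).re = ‖(x : H →L[ℂ] H) ξ‖ ^ 2 := SpecQ_star_mul x ξ

theorem Isom_vecF_nonneg (x : Alg M) (ξ : H) : 0 ≤ vecF M ξ ξ (star x * x) := by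
  rw [vecF_apply, Alg.mul_apply, Alg.inner_star_right, inner_self_eq_norm_sq_to_K]
  have := Complex.zero_le_real.2 (sq_nonneg ‖(x : H →L[ℂ] H) ξ‖)
  rwa [Complex.ofReal_pow] at this

theorem Isom_mul_cyc {S : Set H} {p : Alg M} (h : ∀ ξ ∈ S, (p : H →L[ℂ] H) ξ = ξ) :
    p * cyc M S = cyc M S := by
  have := mul_cyc_eq_zero (M := M) (S := S) (x := 1 - p) fun ξ hξ => by
    change ξ - (p : H →L[ℂ] H) ξ = 0
    rw [h ξ hξ, sub_self]
  rw [sub_mul, one_mul, sub_eq_zero] at this
  exact this.symm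

/-- Recipe: pick `ξ = r ξ ≠ 0`, `f = cyc M {ξ} ≤ r`; `φ = vecF M ξ ξ` is faithful on `M f`
(`mul_cyc_eq_zero`).  Zorn: a maximal set of nonzero partial isometries `v = f v f` with orthogonal
initial and orthogonal final projections and `‖v ξ‖² ≥ 2 ‖v⋆ ξ‖²`; `w` = their sum
(`exists_orth_sum`), `‖w ξ‖² ≥ 2 ‖w⋆ ξ‖²`, `p₁ = f - w w⋆ ≠ 0`, `p₂ = f - w⋆ w`.
If `p₁ a p₂ ≠ 0` take `v ≠ 0`, `p₁ v = v = v p₂` (`exists_partial_isometry`), `f' = v v⋆`,
`ψ = vecF M (v ξ) (v ξ)`; maximality applied to `r' u v` gives the hypothesis of `exists_hasTr`,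
contradicting `NoTr`.  So `p₁ M p₂ = 0`, and `t k = w ^ k * p₁` satisfy `(t k)⋆ t l = δ p₁`
(`w⋆ w t k = (f - p₂) t k = t k`, `p₁ w = 0`).  Put `s i = ∑ k, t (Nat.pair i k) * star (t k)` and
`q = ∑ k, t k * star (t k)` (`exists_orth_sum`; `star (s i) * s i = q` by comparing the limits
along ultrafilters below `atTop`, or by the annihilation clauses). -/
theorem exists_isoms_sub {r : Alg M} (hr : IsStarProjection r) (h0 : r ≠ 0) (h : NoTr M r) :
    ∃ q s, IsStarProjection q ∧ q ≠ 0 ∧ q * r = q ∧ Isoms q s := by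
  obtain ⟨ξ₀, hξ₀⟩ : ∃ ξ₀, (r : H →L[ℂ] H) ξ₀ ≠ 0 := by
    by_contra hc
    push Not at hc
    exact h0 (Subtype.ext (ContinuousLinearMap.ext hc))
  obtain ⟨ξ, hξ, hrξ⟩ : ∃ ξ : H, ξ ≠ 0 ∧ (r : H →L[ℂ] H) ξ = ξ :=
    ⟨_, hξ₀, by rw [← Alg.mul_apply, hr.isIdempotentElem.eq]⟩
  obtain ⟨f, hf, hfξ, hrf, hfaith⟩ : ∃ f : Alg M, IsStarProjection f ∧ (f : H →L[ℂ] H) ξ = ξ ∧
      r * f = f ∧ ∀ x : Alg M, x * f = x → (x : H →L[ℂ] H) ξ = 0 → x = 0 :=
    ⟨cyc M {ξ}, cyc_proj _, cyc_apply rfl, Isom_mul_cyc (by rintro _ rfl; exact hrξ),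
      fun x hx hx0 => by rw [← hx]; exact mul_cyc_eq_zero (by rintro _ rfl; exact hx0)⟩
  obtain ⟨S, hS1, hS2, hS3⟩ := Isom_zorn
    (fun v : Alg M => v ≠ 0 ∧ v * star v * v = v ∧ f * v = v ∧ v * f = v ∧
      2 * ‖((star v : Alg M) : H →L[ℂ] H) ξ‖ ^ 2 ≤ ‖(v : H →L[ℂ] H) ξ‖ ^ 2)
    (fun a b => star a * b = 0 ∧ a * star b = 0)
    (fun a b hab => ⟨by simpa using congrArg star hab.1, by simpa using congrArg star hab.2⟩)
  obtain ⟨w, a1, a2, a3, a4, a5, 𝒰, -, hlim⟩ := exists_orth_sum (fun v : S => (v : Alg M))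
    (fun v => (hS1 v v.2).2.1) (fun v v' hv => (hS2 v.2 v'.2 fun e => hv (Subtype.ext e)).1)
    (fun v v' hv => (hS2 v.2 v'.2 fun e => hv (Subtype.ext e)).2)
  have hw : IsomSum (fun v : S => (v : Alg M)) w :=
    ⟨a1, fun v => (hS1 v v.2).2.1, a2, a3, a4, a5⟩
  have fw : f * w = w := hw.left fun v => (hS1 v v.2).2.2.1
  have wf : w * f = w := hw.right fun v => (hS1 v v.2).2.2.2.1
  have hineq : 2 * ‖((star w : Alg M) : H →L[ℂ] H) ξ‖ ^ 2 ≤ ‖(w : H →L[ℂ] H) ξ‖ ^ 2 := by
    obtain ⟨l1, l2⟩ := hlim _ (isNormal_vecF ξ ξ)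
    have l1' := (Complex.continuous_re.tendsto _).comp l1
    have l2' := ((Complex.continuous_re.tendsto _).comp l2).const_mul 2
    have e : ∀ x : Alg M, (vecF M ξ ξ (x * star x)).re =
        ‖((star x : Alg M) : H →L[ℂ] H) ξ‖ ^ 2 := fun x => by
      rw [← Isom_re_vecF, star_star]
    rw [← e, ← Isom_re_vecF]
    refine le_of_tendsto_of_tendsto' l2' l1' fun F => ?_
    simp only [Function.comp, Complex.re_sum, Finset.mul_sum]
    refine Finset.sum_le_sum fun v _ => ?_
    rw [e, Isom_re_vecF]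
    exact (hS1 v v.2).2.2.2.2
  have hQ := proj_mul_star a1
  have hP := proj_star_mul a1
  have Qf : w * star w * f = w * star w := by rw [mul_assoc, Isom_star_left hf fw]
  have Pf : star w * w * f = star w * w := by rw [mul_assoc, wf]
  have hp₁ := Isom_proj_sub hf hQ Qf
  have hp₂ := Isom_proj_sub hf hP Pf
  obtain ⟨p₁, e₁⟩ : ∃ p₁, p₁ = f - w * star w := ⟨_, rfl⟩
  obtain ⟨p₂, e₂⟩ : ∃ p₂, p₂ = f - star w * w := ⟨_, rfl⟩
  rw [← e₁] at hp₁
  rw [← e₂] at hp₂
  have p1f : p₁ * f = p₁ := by rw [e₁, sub_mul, Qf, hf.isIdempotentElem.eq]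
  have p2f : p₂ * f = p₂ := by rw [e₂, sub_mul, Pf, hf.isIdempotentElem.eq]
  have fp1 := Isom_flip' hf hp₁ p1f
  have p1w : p₁ * w = 0 := by rw [e₁, sub_mul, fw, a1, sub_self]
  have Sp1 : ∀ a ∈ S, star a * p₁ = 0 := fun a ha => by
    rw [e₁, mul_sub, Isom_star_left hf (hS1 a ha).2.2.1, hw.star_mul_fin ⟨a, ha⟩, sub_self]
  have Sp2 : ∀ a ∈ S, a * p₂ = 0 := fun a ha => by
    rw [e₂, mul_sub, (hS1 a ha).2.2.2.1, hw.mul_ini ⟨a, ha⟩, sub_self]
  have p10 : p₁ ≠ 0 := fun h1 => by
    rw [e₁, sub_eq_zero] at h1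
    have b1 : ‖((star w : Alg M) : H →L[ℂ] H) ξ‖ ^ 2 = ‖ξ‖ ^ 2 := by
      rw [← SpecQ_star_mul, star_star, ← h1, SpecQ_proj hf, hfξ]
    have b2 : ‖(w : H →L[ℂ] H) ξ‖ ^ 2 ≤ ‖ξ‖ ^ 2 := by
      rw [← SpecQ_star_mul, SpecQ_proj hP]
      exact pow_le_pow_left₀ (norm_nonneg _) (Spec_norm_proj_apply_le hP ξ) 2
    have b3 : 0 < ‖ξ‖ ^ 2 := by positivity
    linarith
  have key : ∀ a, p₁ * a * p₂ = 0 := fun a => by
    by_contra hne
    obtain ⟨v, v0, v1, v2, v3⟩ := exists_partial_isometry (p := p₁) hp₂ hne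
      (by rw [← mul_assoc, ← mul_assoc, hp₁.isIdempotentElem.eq])
      (by rw [mul_assoc, hp₂.isIdempotentElem.eq])
    have vf : v * f = v := by rw [← v3, mul_assoc, p2f]
    have hf' := proj_mul_star v1
    suffices hs : ∃ g, g * (v * star v) = g ∧ HasTr M g by
      obtain ⟨g, g1, g2⟩ := hs
      refine h g ?_ g2
      have c1 : r * (v * star v) = v * star v := by
        rw [← v2, ← fp1, mul_assoc f, mul_assoc f, ← mul_assoc r, hrf]
      rw [← g1, mul_assoc, Isom_flip hr hf' c1]
    refine exists_hasTr hf' ξ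
      (vecF M ((v : H →L[ℂ] H) ξ) ((v : H →L[ℂ] H) ξ)) (fun y => Isom_vecF_nonneg y _) ?_ ?_
    · intro c
      rw [vecF_apply, ← Alg.mul_apply, v1, inner_self_eq_zero] at c
      exact v0 (hfaith v vf c)
    · intro u r' hu hr' hr'f
      have c0 : v * star v * r' = r' := Isom_flip' hf' hr' hr'f
      have c1 : r' * u * v * star (r' * u * v) = r' := by
        rw [star_mul, star_mul, hr'.isSelfAdjoint.star_eq, mul_assoc, ← mul_assoc v,
          mul_assoc r', ← mul_assoc u, hu.mul_unit hf', ← mul_assoc u, hu.2, c0,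
          hr'.isIdempotentElem.eq]
      have c2 : (vecF M ((v : H →L[ℂ] H) ξ) ((v : H →L[ℂ] H) ξ) (star u * r' * u)).re =
          ‖((r' * u * v : Alg M) : H →L[ℂ] H) ξ‖ ^ 2 := by
        rw [Alg.mul_apply (r' * u) v, ← Isom_re_vecF, star_mul, hr'.isSelfAdjoint.star_eq,
          mul_assoc, mul_assoc, ← mul_assoc r' r', hr'.isIdempotentElem.eq]
      have c3 : ‖((star (r' * u * v) : Alg M) : H →L[ℂ] H) ξ‖ ^ 2 =
          ‖(r' : H →L[ℂ] H) ξ‖ ^ 2 := by
        rw [← SpecQ_star_mul, star_star, c1, SpecQ_proj hr']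
      have c4 : p₁ * (r' * u * v) = r' * u * v := by
        rw [← c0, ← mul_assoc, ← mul_assoc, ← mul_assoc, ← mul_assoc, v2]
      have c5 : r' * u * v * p₂ = r' * u * v := by rw [mul_assoc, v3]
      rw [c2]
      generalize r' * u * v = x at c1 c3 c4 c5
      by_contra hlt
      push Not at hlt
      have x0 : x ≠ 0 := fun e => by
        rw [e] at hlt
        have : 0 ≤ ‖(r' : H →L[ℂ] H) ξ‖ ^ 2 := by positivity
        simp at hlt
        linarith
      have xpi : x * star x * x = x := by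
        have := mul_eq_self_of_star_mul_self (u := star x) hr' (by rw [star_star, c1])
        rw [c1]
        simpa [hr'.isSelfAdjoint.star_eq] using congrArg star this
      have hxS : x ∈ S := hS3 x ⟨x0, xpi, by rw [← c4, ← mul_assoc, fp1],
          by rw [← c5, mul_assoc, p2f], by rw [c3]; exact hlt.le⟩ fun a ha =>
        ⟨by rw [← c4, ← mul_assoc, Sp1 a ha, zero_mul],
          by rw [← Isom_star_right hp₂ c5, ← mul_assoc, Sp2 a ha, zero_mul]⟩
      have := Sp1 x hxS
      rw [Isom_star_left hp₁ c4, star_eq_zero] at this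
      exact x0 this
  have key' : ∀ a, p₂ * (a * p₁) = 0 := fun a => by
    simpa [hp₁.isSelfAdjoint.star_eq, hp₂.isSelfAdjoint.star_eq] using
      congrArg star (key (star a))
  let t : ℕ → Alg M := fun k => w ^ k * p₁
  have t0 : t 0 = p₁ := by simp [t]
  have ts : ∀ k, t (k + 1) = w * t k := fun k => by simp only [t]; rw [pow_succ', mul_assoc]
  have ft : ∀ k, f * t k = t k := fun k => by
    cases k with
    | zero => rw [t0, fp1]
    | succ k => rw [ts, ← mul_assoc, fw]
  have wt : ∀ k, star w * (w * t k) = t k := fun k => by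
    have : star w * w = f - p₂ := by rw [e₂, sub_sub_cancel]
    rw [← mul_assoc, this, sub_mul, ft, key', sub_zero]
  have ht : ∀ k l, star (t k) * t l = if k = l then p₁ else 0 := fun k => by
    induction k with
    | zero =>
      intro l
      rw [t0, hp₁.isSelfAdjoint.star_eq]
      cases l with
      | zero => rw [t0, if_pos rfl, hp₁.isIdempotentElem.eq]
      | succ l => rw [ts, ← mul_assoc, p1w, zero_mul, if_neg (by omega)]
    | succ k ih =>
      intro l
      rw [ts, star_mul, mul_assoc]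
      cases l with
      | zero =>
        have : star w * p₁ = 0 := by simpa [hp₁.isSelfAdjoint.star_eq] using congrArg star p1w
        rw [t0, this, mul_zero, if_neg (by omega)]
      | succ l =>
        rw [ts, wt, ih]
        simp
  exact Isom_of_seq hr hp₁ p10 t ht fun k => by rw [← ft, ← mul_assoc, hrf]

/-- Recipe: Zorn for a maximal set of nonzero pairwise orthogonal projections `q ≤ p` having
`Isoms q _`; by `exists_isoms_sub` nothing is left (`y q = 0` for all `q` and `y p = y` imply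
`y = 0`); `s i = ∑ q, s_q i` (`exists_orth_sum`). -/
theorem exists_isoms {p : Alg M} (hp : IsStarProjection p) (h : NoTr M p) : ∃ s, Isoms p s := by
  obtain ⟨S, hS1, hS2, hS3⟩ := Isom_zorn
    (fun q : Alg M => IsStarProjection q ∧ q ≠ 0 ∧ q * p = q ∧ ∃ s, Isoms q s)
    (fun a b => a * b = 0 ∧ b * a = 0) (fun a b hab => hab.symm)
  choose σ hσ using fun q : S => (hS1 q q.2).2.2.2
  have pq : ∀ q : S, IsStarProjection (q : Alg M) := fun q => (hS1 q q.2).1
  have o : ∀ q q' : S, q ≠ q' → (q : Alg M) * q' = 0 := fun q q' hq =>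
    (hS2 q.2 q'.2 fun e => hq (Subtype.ext e)).1
  have s1 : ∀ (q : S) i, star (σ q i) * σ q i = q := fun q i => by rw [(hσ q).orth, if_pos rfl]
  have s2 : ∀ (q : S) i, σ q i * q = σ q i := fun q i =>
    mul_eq_self_of_star_mul_self (pq q) (s1 q i)
  have s3 : ∀ (q q' : S) i j, q ≠ q' → star (σ q i) * σ q' j = 0 := fun q q' i j hq => by
    rw [← Isom_star_left (pq q) ((hσ q).left i), ← (hσ q').left j, mul_assoc,
      ← mul_assoc (q : Alg M), o q q' hq, zero_mul, mul_zero]
  have s4 : ∀ (q q' : S) i, q ≠ q' → σ q i * star (σ q' i) = 0 := fun q q' i hq => by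
    rw [← s2 q i, ← Isom_star_right (pq q') (s2 q' i), mul_assoc,
      ← mul_assoc (q : Alg M), o q q' hq, zero_mul, mul_zero]
  choose s hs using fun i => Isom_exists_sum (fun q : S => σ q i)
    (fun q => by rw [mul_assoc, s1, s2]) (fun q q' hq => s3 q q' i i hq)
    (fun q q' hq => s4 q q' i hq)
  refine ⟨s, fun i j => ?_, fun i => (hs i).left fun q => ?_⟩
  · split_ifs with hij
    · subst hij
      have hP := proj_star_mul (hs i).pi
      have Pp : star (s i) * s i * p = star (s i) * s i := by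
        rw [mul_assoc, (hs i).right fun q => ?_]
        rw [← s2 q i, mul_assoc, (hS1 q q.2).2.2.1]
      have hr := Isom_proj_sub hp hP Pp
      have qr : ∀ q ∈ S, q * (p - star (s i) * s i) = 0 := fun q hq => by
        have a : q * (star (s i) * s i) = q := by
          have b := s1 ⟨q, hq⟩ i
          change _ = q at b
          rw [← b, mul_assoc, (hs i).mul_ini]
        rw [mul_sub, (hS1 q hq).2.2.1, a, sub_self]
      have rp' : (p - star (s i) * s i) * p = p - star (s i) * s i := by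
        rw [sub_mul, Pp, hp.isIdempotentElem.eq]
      by_contra hne
      obtain ⟨q, t, q1, q2, q3, q4⟩ := exists_isoms_sub hr (fun e => hne (sub_eq_zero.1 e).symm)
        (h.mono rp')
      have q5 : ∀ a ∈ S, a * q = 0 := fun a ha => by
        rw [← Isom_flip' hr q1 q3, ← mul_assoc, qr a ha, zero_mul]
      have hq : q ∈ S := hS3 q ⟨q1, q2, by rw [← q3, mul_assoc, rp'], t, q4⟩ fun a ha =>
        ⟨q5 a ha, Isom_flip0 (hS1 a ha).1 q1 (q5 a ha)⟩
      exact q2 (by rw [← q3, qr q hq])
    · refine (hs i).orth (hs j) fun q q' => ?_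
      by_cases hq : q = q'
      · rw [hq, (hσ q').orth, if_neg hij]
      · exact s3 q q' i j hq
  · rw [← (hσ q).left i, ← mul_assoc, Isom_flip' hp (pq q) (hS1 q q.2).2.2.1]

/-- Bessel: a family with orthogonal initial projections moves a vector countably often. -/
theorem Isom_countable {S : Set (Alg M)} (h1 : ∀ v ∈ S, v * star v * v = v)
    (h2 : S.Pairwise fun a b => a * star b = 0) (ζ : H) :
    {v : S | ((v : Alg M) : H →L[ℂ] H) ζ ≠ 0}.Countable := by
  have hsum : Summable fun v : S => ‖((v : Alg M) : H →L[ℂ] H) ζ‖ ^ 2 := by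
    refine summable_of_sum_le (c := ‖ζ‖ ^ 2) (fun v => sq_nonneg _) fun G => ?_
    have hP : IsStarProjection (∑ v ∈ G, star (v : Alg M) * v) := by
      refine ⟨?_, isSelfAdjoint_sum _ fun v _ => IsSelfAdjoint.star_mul_self _⟩
      rw [IsIdempotentElem, Finset.sum_mul]
      refine Finset.sum_congr rfl fun v hv => ?_
      rw [Finset.mul_sum, Finset.sum_eq_single_of_mem v hv,
        (proj_star_mul (h1 v v.2)).isIdempotentElem.eq]
      intro v' _ hv'
      rw [mul_assoc, ← mul_assoc (v : Alg M), h2 v.2 v'.2 fun e => hv' (Subtype.ext e.symm),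
        zero_mul, mul_zero]
    have e : ∑ v ∈ G, ‖((v : Alg M) : H →L[ℂ] H) ζ‖ ^ 2 =
        (vecF M ζ ζ (∑ v ∈ G, star (v : Alg M) * v)).re := by
      rw [map_sum, Complex.re_sum]
      exact Finset.sum_congr rfl fun v _ => (Isom_re_vecF _ _).symm
    rw [e]
    exact (SpecQ_proj hP ζ).le.trans
      (pow_le_pow_left₀ (norm_nonneg _) (Spec_norm_proj_apply_le hP ζ) 2)
  refine hsum.countable_support.mono fun v hv => ?_
  simpa using hv

variable (M) in
/-- The finite set `F` separates `M e`. -/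
def Sep (e : Alg M) (F : Finset H) : Prop :=
  ∀ x : Alg M, x * e = x → (∀ ζ ∈ F, (x : H →L[ℂ] H) ζ = 0) → x = 0

/-- A projection is equivalent to its central support in a σ-finite corner without trace.
Recipe: Zorn for a maximal set `I` of nonzero partial isometries `v = p v = v e` with
`v * star v' = 0` for `v ≠ v'`.  `I` is countable (Bessel: `∑ ‖v ζ‖² ≤ ‖ζ‖²`,
`Summable.countable_support`, and `Sep`); with an injection `n : I → ℕ` and `s` from
`exists_isoms` put `b = ∑ v, s (n v) * v` (`exists_orth_sum`).  By maximality and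
`exists_partial_isometry`, `p * a * (e - b⋆ b) = 0` for all `a`. -/
theorem exists_fg {e p : Alg M} (he : IsStarProjection e) {F : Finset H} (hF : Sep M e F)
    (hp : IsStarProjection p) (hpe : p * e = p) (h : NoTr M p) :
    ∃ b : Alg M, b * star b * b = b ∧ p * b = b ∧ b * e = b ∧
      ∀ u, IsCU e u → star b * b * (u * p) = u * p := by
  obtain ⟨S, hS1, hS2, hS3⟩ := Isom_zorn
    (fun v : Alg M => v ≠ 0 ∧ v * star v * v = v ∧ p * v = v ∧ v * e = v)
    (fun a b => a * star b = 0) (fun a b hab => by simpa using congrArg star hab)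
  have hc : Countable S := by
    rw [← Set.countable_univ_iff]
    refine (F.countable_toSet.biUnion fun ζ _ =>
      Isom_countable (fun v hv => (hS1 v hv).2.1) hS2 ζ).mono fun v _ => ?_
    by_contra hn
    simp only [Set.mem_iUnion, Set.mem_ofPred_eq, not_exists, not_not] at hn
    exact (hS1 v v.2).1 (hF v (hS1 v v.2).2.2.2 fun ζ hζ => hn ζ hζ)
  obtain ⟨n, hn⟩ := exists_injective_nat S
  obtain ⟨s, hs⟩ := exists_isoms hp h
  have b0 : ∀ v v' : S, star (s (n v) * v) * (s (n v') * v') =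
      star (v : Alg M) * (star (s (n v)) * s (n v')) * v' := fun v v' => by
    simp only [star_mul, mul_assoc]
  have b1 : ∀ v : S, star (s (n v) * v) * (s (n v) * v) = star (v : Alg M) * v := fun v => by
    rw [b0, hs.orth, if_pos rfl, mul_assoc, (hS1 v v.2).2.2.1]
  obtain ⟨b, hb⟩ := Isom_exists_sum (fun v : S => s (n v) * (v : Alg M))
    (fun v => by rw [mul_assoc, b1, mul_assoc, ← mul_assoc (v : Alg M), (hS1 v v.2).2.1])
    (fun v v' hv => by rw [b0, hs.orth, if_neg fun e => hv (hn e), mul_zero, zero_mul])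
    (fun v v' hv => by
      rw [star_mul, mul_assoc, ← mul_assoc (v : Alg M),
        hS2 v.2 v'.2 fun e => hv (Subtype.ext e), zero_mul, mul_zero])
  have be : b * e = b := hb.right fun v => by rw [mul_assoc, (hS1 v v.2).2.2.2]
  have hB := proj_star_mul hb.pi
  have Be : star b * b * e = star b * b := by rw [mul_assoc, be]
  have hr := Isom_proj_sub he hB Be
  have vr : ∀ v ∈ S, v * (e - star b * b) = 0 := fun v hv => by
    have a : star (s (n ⟨v, hv⟩)) * (s (n ⟨v, hv⟩) * v) = v := by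
      rw [← mul_assoc, hs.orth, if_pos rfl, (hS1 v hv).2.2.1]
    have a' : v * (star b * b) = v := by
      rw [← a, mul_assoc, hb.mul_ini ⟨v, hv⟩]
    rw [mul_sub, (hS1 v hv).2.2.2, a', sub_self]
  have key : ∀ a, p * a * (e - star b * b) = 0 := fun a => by
    by_contra hne
    obtain ⟨v, v0, v1, v2, v3⟩ := exists_partial_isometry (p := p) hr hne
      (by rw [← mul_assoc, ← mul_assoc, hp.isIdempotentElem.eq])
      (by rw [mul_assoc, hr.isIdempotentElem.eq])
    have hv : v ∈ S := hS3 v ⟨v0, v1, v2, by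
        rw [← v3, mul_assoc, sub_mul, Be, he.isIdempotentElem.eq]⟩ fun a ha => by
      rw [← Isom_star_right hr v3, ← mul_assoc, vr a ha, zero_mul]
    exact v0 (by rw [← v3, vr v hv])
  refine ⟨b, hb.pi, hb.left fun v => by rw [← mul_assoc, hs.left], be, fun u hu => ?_⟩
  have k : (e - star b * b) * (u * p) = 0 := by
    have := congrArg star (key (star u))
    rwa [star_mul, star_mul, star_star, hr.isSelfAdjoint.star_eq, hp.isSelfAdjoint.star_eq,
      star_zero] at this
  rw [sub_mul, ← mul_assoc e, hu.unit_mul he, sub_eq_zero] at k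
  exact k.symm

/-- Recipe: `directed`: `cyc M (e F ∪ e' F')`; `conj`: the set `u F`; `dense`: `cyc M {ζ}`
(`mul_cyc_eq_zero`, `cyc_apply`). -/
theorem exhaust_sep {z : Alg M} (hz : IsCentralProj M z) :
    Exhaust z {e | IsStarProjection e ∧ e * z = e ∧ ∃ F, Sep M e F} := by
  classical
  have hcyc : ∀ G : Finset H, (∀ ζ ∈ G, (z : H →L[ℂ] H) ζ = ζ) →
      cyc M (G : Set H) ∈ {e | IsStarProjection e ∧ e * z = e ∧ ∃ F, Sep M e F} := fun G hG =>
    ⟨cyc_proj _, Isom_flip hz.1 (cyc_proj _) (Isom_mul_cyc hG), G, fun x hx h0 => by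
      rw [← hx]; exact mul_cyc_eq_zero h0⟩
  have hdom : ∀ (e : Alg M) (F G : Finset H), IsStarProjection e → Sep M e F →
      (∀ ζ ∈ F, (e : H →L[ℂ] H) ζ ∈ G) → cyc M (G : Set H) * e = e := fun e F G he hF hG => by
    have := hF (e - cyc M (G : Set H) * e)
      (by rw [sub_mul, mul_assoc, he.isIdempotentElem.eq]) fun ζ hζ => by
        change (e : H →L[ℂ] H) ζ - (cyc M (G : Set H) : H →L[ℂ] H) ((e : H →L[ℂ] H) ζ) = 0
        rw [cyc_apply (hG ζ hζ), sub_self]
    exact (sub_eq_zero.1 this).symm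
  refine ⟨fun e he => he.1, fun e he => he.2.1, ?_, ?_, fun ζ hζ ε hε => ?_⟩
  · rintro e ⟨he, hez, F, hF⟩ e' ⟨he', hez', F', hF'⟩
    refine ⟨_, hcyc (F.image (e : H →L[ℂ] H) ∪ F'.image (e' : H →L[ℂ] H)) fun ζ hζ => ?_,
      hdom e F _ he hF fun ζ hζ => Finset.mem_union_left _ (Finset.mem_image_of_mem _ hζ),
      hdom e' F' _ he' hF' fun ζ hζ => Finset.mem_union_right _ (Finset.mem_image_of_mem _ hζ)⟩
    rcases Finset.mem_union.1 hζ with hζ | hζ
    · obtain ⟨κ, -, rfl⟩ := Finset.mem_image.1 hζ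
      rw [← Alg.mul_apply, Isom_flip' hz.1 he hez]
    · obtain ⟨κ, -, rfl⟩ := Finset.mem_image.1 hζ
      rw [← Alg.mul_apply, Isom_flip' hz.1 he' hez']
  · rintro e ⟨he, hez, F, hF⟩ u hu
    have u1 : star u * u = 1 := hu.1
    have u2 : u * star u = 1 := hu.2
    refine ⟨⟨?_, he.isSelfAdjoint.conjugate u⟩, ?_, F.image (u : H →L[ℂ] H), fun x hx h0 => ?_⟩
    · rw [IsIdempotentElem, mul_assoc, mul_assoc u e (star u), ← mul_assoc (star u), u1, one_mul,
        mul_assoc, ← mul_assoc e, he.isIdempotentElem.eq]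
    · rw [mul_assoc, (hz.2 (star u)).eq, ← mul_assoc, mul_assoc u, hez]
    · have := hF (x * u) (by
        conv_rhs => rw [← hx]
        rw [mul_assoc x _ u, mul_assoc _ (star u), u1, mul_one, mul_assoc]) fun ζ hζ =>
          h0 _ (Finset.mem_image_of_mem _ hζ)
      rw [← mul_one x, ← u2, ← mul_assoc, this, zero_mul]
  · refine ⟨_, hcyc {ζ} (by simpa using hζ), ?_⟩
    rw [cyc_apply (by simp), sub_self, norm_zero]
    exact hε.le

end

end Crest.Agent.R121
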