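import Crest.Agent.R121.Basic

/-!
# Row 121: the uniform convexity lemma
-/

open scoped InnerProductSpace ComplexOrder Topology
open Filter

set_option linter.unusedSectionVars false

namespace Crest.Agent.R121

noncomputable section

variable {W U : Type*} [AddCommGroup W] [Module ℝ W]

/-- `N₀ = inf_{w ∈ 𝓚} sup_u b u w w`. -/
theorem var_inf [Nonempty U] (b : U → LinearMap.BilinForm ℝ W) (hpos : ∀ u w, 0 ≤ b u w w)
    {𝓚 : Set W} (hne : 𝓚.Nonempty) (hbd : ∀ w ∈ 𝓚, ∃ C, ∀ u, b u w w ≤ C) :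
    ∃ N₀ : ℝ, (∀ w ∈ 𝓚, ∀ ε > 0, ∃ u, N₀ - ε ≤ b u w w) ∧
      ∀ η > 0, ∃ w ∈ 𝓚, ∀ u, b u w w ≤ N₀ + η := by
  let S : W → ℝ := fun w => ⨆ u, b u w w
  have hbdd : ∀ w ∈ 𝓚, BddAbove (Set.range fun u => b u w w) := by
    intro w hw
    obtain ⟨C, hC⟩ := hbd w hw
    exact ⟨C, by rintro _ ⟨u, rfl⟩; exact hC u⟩
  have hle : ∀ w ∈ 𝓚, ∀ u, b u w w ≤ S w := fun w hw u => le_ciSup (hbdd w hw) u
  have hbelow : BddBelow (S '' 𝓚) := by
    refine ⟨0, ?_⟩
    rintro _ ⟨w, hw, rfl⟩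
    obtain ⟨u⟩ := ‹Nonempty U›
    exact (hpos u w).trans (hle w hw u)
  refine ⟨sInf (S '' 𝓚), fun w hw ε hε => ?_, fun η hη => ?_⟩
  · have h1 : sInf (S '' 𝓚) ≤ S w := csInf_le hbelow ⟨w, hw, rfl⟩
    have h2 : sInf (S '' 𝓚) - ε < ⨆ u, b u w w := by
      change _ < S w
      linarith
    obtain ⟨u, hu⟩ := exists_lt_of_lt_ciSup h2
    exact ⟨u, hu.le⟩
  · have h1 : sInf (S '' 𝓚) < sInf (S '' 𝓚) + η := by linarith
    obtain ⟨_, ⟨w, hw, rfl⟩, h2⟩ := exists_lt_of_csInf_lt (hne.image S) h1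
    exact ⟨w, hw, fun u => (hle w hw u).trans h2.le⟩

/-- Near-minimisers are close to each other at a common `u`.  Recipe: `w̄` = the average of the
`w j` lies in `𝓚`; pick `u` with `N₀ - η ≤ b u w̄ w̄`; the parallelogram identity
`∑ j j', b (w j - w j') (w j - w j') = 2 R ∑ j, b (w j) (w j) - 2 R² b w̄ w̄ ≤ 4 R² η`. -/
theorem var_close (b : U → LinearMap.BilinForm ℝ W) (hsym : ∀ u w w', b u w w' = b u w' w)
    (hpos : ∀ u w, 0 ≤ b u w w) {𝓚 : Set W} (hc : Convex ℝ 𝓚) {N₀ η : ℝ} (hη : 0 < η)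
    (hN : ∀ w ∈ 𝓚, ∀ ε > 0, ∃ u, N₀ - ε ≤ b u w w) {J : Type} [Fintype J] [Nonempty J]
    (w : J → W) (hw : ∀ j, w j ∈ 𝓚) (hmin : ∀ j u, b u (w j) (w j) ≤ N₀ + η) :
    ∃ u, ∀ j j', b u (w j - w j') (w j - w j') ≤ 4 * (Fintype.card J : ℝ) ^ 2 * η := by
  classical
  set R : ℝ := (Fintype.card J : ℝ) with hR
  have hR0 : 0 < R := by rw [hR]; exact_mod_cast Fintype.card_pos
  have hmem : ∑ j, (R⁻¹ : ℝ) • w j ∈ 𝓚 := by
    refine hc.sum_mem (fun _ _ => by positivity) ?_ fun j _ => hw j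
    rw [Finset.sum_const, Finset.card_univ, nsmul_eq_mul, ← hR, mul_inv_cancel₀ hR0.ne']
  obtain ⟨u, hu⟩ := hN _ hmem η hη
  refine ⟨u, fun j j' => ?_⟩
  have h1 : b u (∑ j, (R⁻¹ : ℝ) • w j) (∑ j, (R⁻¹ : ℝ) • w j) =
      R⁻¹ * R⁻¹ * ∑ j, ∑ j', b u (w j) (w j') := by
    rw [← Finset.smul_sum]
    simp only [map_smul, LinearMap.smul_apply, map_sum, LinearMap.sum_apply, smul_eq_mul]
    rw [← Finset.mul_sum, Finset.sum_comm, mul_assoc]
  have h2 : ∑ j, ∑ j', b u (w j - w j') (w j - w j') =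
      2 * R * ∑ j, b u (w j) (w j) - 2 * ∑ j, ∑ j', b u (w j) (w j') := by
    have : ∀ j j', b u (w j - w j') (w j - w j') =
        b u (w j) (w j) + b u (w j') (w j') - 2 * b u (w j) (w j') := by
      intro j j'
      simp only [map_sub, LinearMap.sub_apply]
      rw [hsym u (w j') (w j)]; ring
    simp only [this, Finset.sum_sub_distrib, Finset.sum_add_distrib, Finset.sum_const,
      Finset.card_univ, nsmul_eq_mul, ← Finset.mul_sum, ← hR]
    ring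
  have h3 : ∑ j, b u (w j) (w j) ≤ R * (N₀ + η) := by
    refine (Finset.sum_le_sum fun j _ => hmin j u).trans (le_of_eq ?_)
    rw [Finset.sum_const, Finset.card_univ, nsmul_eq_mul]
  have h4 : R ^ 2 * (N₀ - η) ≤ ∑ j, ∑ j', b u (w j) (w j') := by
    rw [h1] at hu
    have := mul_le_mul_of_nonneg_left hu (sq_nonneg R)
    refine this.trans (le_of_eq ?_)
    field_simp
  have h5 : b u (w j - w j') (w j - w j') ≤ ∑ j, ∑ j', b u (w j - w j') (w j - w j') := by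
    refine le_trans ?_ (Finset.single_le_sum (f := fun j => ∑ j', b u (w j - w j') (w j - w j'))
      (fun i _ => Finset.sum_nonneg fun i' _ => hpos u _) (Finset.mem_univ j))
    exact Finset.single_le_sum (f := fun j' => b u (w j - w j') (w j - w j'))
      (fun i _ => hpos u _) (Finset.mem_univ j')
  have h6 := mul_le_mul_of_nonneg_left h3 (by positivity : (0 : ℝ) ≤ 2 * R)
  nlinarith

end

end Crest.Agent.R121
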