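import Crest.Agent.R121.HB
import Crest.Agent.R121.Isom
import Crest.Agent.R121.Var

/-!
# Row 121: averaging completely bounded maps on the part without trace
-/

open scoped InnerProductSpace ComplexOrder Topology
open Filter

set_option linter.unusedSectionVars false

namespace Crest.Agent.R121

noncomputable section

variable {H : Type*} [NormedAddCommGroup H] [InnerProductSpace ℂ H] [CompleteSpace H]
  {M : VonNeumannAlgebra H}

/-- Recipe: apply `IsCBK` to the matrix `‖y‖⁻¹ • y * X k s` (or `(‖y‖ + 1)⁻¹ • …`). -/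
theorem IsCB.comp_Lm {φ : Alg M →L[ℂ] Alg M} (h : IsCB M φ) (y : Alg M) :
    IsCB M (φ ∘L Lm y) := by
  obtain ⟨K, hK⟩ := h
  have hc : (0 : ℝ) < ‖y‖ + 1 := by positivity
  refine ⟨(‖y‖ + 1) * K, fun κ σ _ _ X hX ζ => ?_⟩
  have h1 := hK κ σ (fun k s => (((‖y‖ + 1)⁻¹ : ℝ) : ℂ) • (y * X k s)) (fun η => by
    refine le_trans (Finset.sum_le_sum fun k _ => ?_) (hX η)
    have e1 : ∑ s, (((((‖y‖ + 1)⁻¹ : ℝ) : ℂ) • (y * X k s) : Alg M) : H →L[ℂ] H) (η s) =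
        (((‖y‖ + 1)⁻¹ : ℝ) : ℂ) • (y : H →L[ℂ] H) (∑ s, (X k s : H →L[ℂ] H) (η s)) := by
      rw [map_sum, Finset.smul_sum]
      rfl
    rw [e1, norm_smul, Complex.norm_real, Real.norm_eq_abs, abs_of_pos (inv_pos.2 hc)]
    gcongr
    rw [inv_mul_le_iff₀ hc]
    exact (Alg.norm_apply_le y _).trans (by gcongr; linarith)) ζ
  have e2 : ∀ k, ∑ s, ((φ ∘L Lm y) (X k s) : H →L[ℂ] H) (ζ s) = ((‖y‖ + 1 : ℝ) : ℂ) •
      ∑ s, (φ ((((‖y‖ + 1)⁻¹ : ℝ) : ℂ) • (y * X k s)) : H →L[ℂ] H) (ζ s) := fun k => by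
    rw [Finset.smul_sum]
    refine Finset.sum_congr rfl fun s _ => ?_
    rw [map_smul]
    change _ = ((‖y‖ + 1 : ℝ) : ℂ) • (((‖y‖ + 1)⁻¹ : ℝ) : ℂ) • (φ (y * X k s) : H →L[ℂ] H) (ζ s)
    rw [smul_smul, ← Complex.ofReal_mul, mul_inv_cancel₀ hc.ne', Complex.ofReal_one, one_smul]
    rfl
  simp only [e2, norm_smul, Complex.norm_real, Real.norm_eq_abs, mul_pow, sq_abs]
  rw [← Finset.mul_sum, mul_assoc]
  gcongr

/-- The key estimate.  Recipe: `p` from `exists_spec c he`, `b` from `exists_fg` (`NoTr.mono`),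
`b = ∑ l j • b j` from `exists_four_cu`; let `u` be given by `h`.  Then
`δ ‖p ζ‖ ≤ δ ‖b u ζ‖ ≤ ‖c b u ζ‖ ≤ 2 θ` (`p = p u⋆ b⋆ b u`, `p b = b`) and
`‖c ζ‖ ≤ ‖c (e - p) ζ‖ + ‖c‖ ‖p ζ‖`. -/
theorem norm_apply_le_of_translates {z e c : Alg M} (hz : NoTr M z) (he : IsStarProjection e)
    (hez : e * z = e) {F : Finset H} (hF : Sep M e F) (hc : c * e = c) {θ δ : ℝ} (hδ : 0 < δ)
    (h : ∀ b : Fin 4 → Alg M, (∀ j, IsCU e (b j)) → ∃ u, IsCU e u ∧
      ∀ j, ∀ ζ ∈ F, ‖((c * b j * u : Alg M) : H →L[ℂ] H) ζ‖ ≤ θ) :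
    ∀ ζ ∈ F, ‖(c : H →L[ℂ] H) ζ‖ ≤ δ * ‖ζ‖ + ‖c‖ * (2 * θ / δ) := by
  intro ζ hζ
  obtain ⟨p, hp, hpe, hc1, hc2⟩ := exists_spec c he hδ.le
  have hep : e * p = p := by
    simpa [he.isSelfAdjoint.star_eq, hp.isSelfAdjoint.star_eq] using congrArg star hpe
  obtain ⟨b, hb1, hb2, hb3, hb4⟩ := exists_fg he hF hp hpe
    (hz.mono (by rw [← hpe, mul_assoc, hez]))
  have hbn : ‖b‖ ≤ 1 := by
    have h1 := CStarRing.norm_star_mul_self (x := b)
    have h2 := (proj_star_mul hb1).norm_le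
    nlinarith [norm_nonneg b]
  obtain ⟨v, l, hv, hbv, hl, -⟩ := exists_four_cu he (b := b) (by rw [← hb2, ← mul_assoc, hep]) hb3
  obtain ⟨u, hu, hu'⟩ := h v hv
  have hθ : 0 ≤ θ := (norm_nonneg _).trans (hu' 0 ζ hζ)
  have h1 : ‖((c * b * u : Alg M) : H →L[ℂ] H) ζ‖ ≤ 2 * θ := by
    have e1 : c * b * u = ∑ j, l j • (c * v j * u) := by
      conv_lhs => rw [hbv]
      simp only [Finset.mul_sum, Finset.sum_mul, mul_smul_comm, smul_mul_assoc]
    have e2 : ((∑ j, l j • (c * v j * u) : Alg M) : H →L[ℂ] H) ζ =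
        ∑ j, l j • ((c * v j * u : Alg M) : H →L[ℂ] H) ζ := by
      rw [AddSubmonoidClass.coe_finsetSum, sum_apply]
      rfl
    rw [e1, e2]
    refine (norm_sum_le _ _).trans ?_
    calc ∑ j, ‖l j • ((c * v j * u : Alg M) : H →L[ℂ] H) ζ‖ ≤ ∑ j, ‖l j‖ * θ :=
          Finset.sum_le_sum fun j _ => by
            rw [norm_smul]; exact mul_le_mul_of_nonneg_left (hu' j ζ hζ) (norm_nonneg _)
      _ = (∑ j, ‖l j‖) * θ := (Finset.sum_mul _ _ _).symm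
      _ ≤ 2 * θ := by gcongr; linarith
  have h2 : δ * ‖((b * u : Alg M) : H →L[ℂ] H) ζ‖ ≤ 2 * θ := by
    have := hc2 (((b * u : Alg M) : H →L[ℂ] H) ζ)
    rw [← Alg.mul_apply p, ← mul_assoc, hb2, ← Alg.mul_apply c, ← mul_assoc] at this
    exact this.trans h1
  have h3 : ‖(p : H →L[ℂ] H) ζ‖ ≤ ‖((b * u : Alg M) : H →L[ℂ] H) ζ‖ := by
    have e1 : p * star u * (star b * b) = p * star u := by
      simpa [hp.isSelfAdjoint.star_eq, mul_assoc] using congrArg star (hb4 u hu)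
    have e2 : p = p * star u * star b * (b * u) := by
      rw [← mul_assoc, mul_assoc _ (star b) b, e1, mul_assoc, hu.1, hpe]
    have e3 : ‖p * star u * star b‖ ≤ 1 := by
      calc ‖p * star u * star b‖ ≤ ‖p‖ * ‖star u‖ * ‖star b‖ := norm_mul₃_le
        _ ≤ 1 * 1 * 1 := by
            gcongr
            · exact hp.norm_le
            · exact hu.star.norm_le he
            · rwa [norm_star]
        _ = 1 := by norm_num
    conv_lhs => rw [e2, Alg.mul_apply]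
    exact (Alg.norm_apply_le _ _).trans (mul_le_of_le_one_left (norm_nonneg _) e3)
  have h4 : ‖(p : H →L[ℂ] H) ζ‖ ≤ 2 * θ / δ := by
    rw [le_div_iff₀ hδ, mul_comm]
    exact le_trans (by gcongr) h2
  have e4 : (c : H →L[ℂ] H) ζ = ((c * (e - p) : Alg M) : H →L[ℂ] H) ζ +
      (c : H →L[ℂ] H) ((p : H →L[ℂ] H) ζ) := by
    rw [← Alg.mul_apply c p]
    conv_lhs => rw [show c = c * (e - p) + c * p by rw [← mul_add, sub_add_cancel, hc]]
    rfl
  rw [e4]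
  refine (norm_add_le _ _).trans (add_le_add ?_ ?_)
  · exact (Alg.norm_apply_le _ _).trans (by gcongr)
  · exact (Alg.norm_apply_le _ _).trans (by gcongr)

/-- a positive form is bounded on convex combinations -/
theorem AvgIII_convex_le {V ι : Type*} [AddCommGroup V] [Module ℝ V] (b : LinearMap.BilinForm ℝ V)
    (hsym : ∀ t t', b t t' = b t' t) (hpos : ∀ t, 0 ≤ b t t) (s : Finset ι) (r : ι → ℝ) (v : ι → V)
    (hr : ∀ i, 0 ≤ r i) (h1 : ∑ i ∈ s, r i = 1) {C : ℝ} (hC : ∀ i, b (v i) (v i) ≤ C) :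
    b (∑ i ∈ s, r i • v i) (∑ i ∈ s, r i • v i) ≤ C := by
  have h2 : ∀ i j, b (v i) (v j) ≤ C := fun i j => by
    have := hpos (v i - v j)
    simp only [map_sub, LinearMap.sub_apply] at this
    rw [hsym (v j) (v i)] at this
    linarith [hC i, hC j]
  simp only [map_sum, map_smul, LinearMap.sum_apply, LinearMap.smul_apply, smul_eq_mul]
  calc ∑ j ∈ s, r j * ∑ i ∈ s, r i * b (v i) (v j) ≤ ∑ j ∈ s, r j * ∑ i ∈ s, r i * C := by
        gcongr with j _ i _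
        · exact hr j
        · exact hr i
        · exact h2 i j
    _ = C := by rw [← Finset.sum_mul, ← Finset.sum_mul, h1, one_mul, one_mul]

/-- `lmul` as a real linear map -/
def avgLmul (h : Alg M) : (H →₀ Alg M) →ₗ[ℝ] (H →₀ Alg M) :=
  Finsupp.mapRange.linearMap (LinearMap.mulLeft ℝ h)

theorem avgLmul_eq (h : Alg M) (t : H →₀ Alg M) : avgLmul h t = lmul h t := rfl

theorem avgLmul_single (h : Alg M) (ζ : H) (g : Alg M) :
    avgLmul h (Finsupp.single ζ g) = Finsupp.single ζ (h * g) :=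
  Finsupp.mapRange_single (hf := mul_zero h)

/-- `evalL` as a real linear map -/
def avgEval (φ : Alg M →L[ℂ] Alg M) : (H →₀ Alg M) →ₗ[ℝ] H :=
  Finsupp.lsum ℝ fun ζ =>
    { toFun := fun g => (φ g : H →L[ℂ] H) ζ
      map_add' := fun g g' => by rw [map_add]; rfl
      map_smul' := fun r g => by rw [φ.map_smul_of_tower]; rfl }

theorem avgEval_eq (φ : Alg M →L[ℂ] Alg M) (t : H →₀ Alg M) : avgEval φ t = evalL φ t := rfl

theorem avgEval_single (φ : Alg M →L[ℂ] Alg M) (ζ : H) (g : Alg M) :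
    avgEval φ (Finsupp.single ζ g) = (φ g : H →L[ℂ] H) ζ :=
  Finsupp.lsum_single ℝ _ ζ g

/-- `single g r ↦ single (g⋆ ξ) (r • g)` -/
def avgTv (e : Alg M) (ξ : H) : ({u : Alg M // IsCU e u} →₀ ℝ) →ₗ[ℝ] (H →₀ Alg M) :=
  Finsupp.linearCombination ℝ fun g => Finsupp.single (((star g.1 : Alg M) : H →L[ℂ] H) ξ) g.1

/-- translation of measures -/
def avgTr {e : Alg M} (he : IsStarProjection e) (h : {u : Alg M // IsCU e u}) :
    ({u : Alg M // IsCU e u} →₀ ℝ) →ₗ[ℝ] ({u : Alg M // IsCU e u} →₀ ℝ) :=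
  Finsupp.lmapDomain ℝ ℝ fun g => ⟨h.1 * g.1, h.2.mul he g.2⟩

theorem avgTv_tr {e : Alg M} (he : IsStarProjection e) (h : {u : Alg M // IsCU e u}) (ξ : H)
    (μ : {u : Alg M // IsCU e u} →₀ ℝ) :
    avgTv e ξ (avgTr he h μ) = lmul h.1 (avgTv e (((star h.1 : Alg M) : H →L[ℂ] H) ξ) μ) := by
  rw [← avgLmul_eq, avgTr, Finsupp.lmapDomain_apply, avgTv, Finsupp.linearCombination_mapDomain,
    avgTv, Finsupp.apply_linearCombination]
  congr 2
  funext g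
  simp only [Function.comp_apply, avgLmul_single, star_mul, Alg.mul_apply]

theorem avgTv_unit {e : Alg M} (he : IsStarProjection e) (ξ : H)
    (μ : {u : Alg M // IsCU e u} →₀ ℝ) (ζ : H) : e * avgTv e ξ μ ζ = avgTv e ξ μ ζ := by
  have : avgLmul e (avgTv e ξ μ) = avgTv e ξ μ := by
    rw [avgTv, Finsupp.apply_linearCombination]
    congr 2
    funext g
    simp only [Function.comp_apply, avgLmul_single, g.2.unit_mul he]
  exact DFunLike.congr_fun this ζ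

theorem avgEval_tv {e : Alg M} (φ : Alg M →L[ℂ] Alg M) (ξ : H)
    (μ : {u : Alg M // IsCU e u} →₀ ℝ) : avgEval φ (avgTv e ξ μ) =
      ((∑ g ∈ μ.support, (μ g : ℂ) • (φ g.1 * star g.1) : Alg M) : H →L[ℂ] H) ξ := by
  rw [avgTv, Finsupp.apply_linearCombination, Finsupp.linearCombination_apply, Finsupp.sum,
    AddSubmonoidClass.coe_finsetSum, sum_apply]
  refine Finset.sum_congr rfl fun g _ => ?_
  rw [Function.comp_apply, avgEval_single, ← Complex.coe_smul]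
  rfl

theorem avgEval_tv_tr {e : Alg M} (he : IsStarProjection e) (φ : Alg M →L[ℂ] Alg M)
    (y : {u : Alg M // IsCU e u}) (ξ : H) (μ : {u : Alg M // IsCU e u} →₀ ℝ) :
    avgEval φ (avgTv e ξ (avgTr he y μ)) =
      (((∑ g ∈ μ.support, (μ g : ℂ) • (φ (y.1 * g.1) * star g.1)) * star y.1 : Alg M) :
        H →L[ℂ] H) ξ := by
  rw [avgTr, Finsupp.lmapDomain_apply, avgTv, Finsupp.linearCombination_mapDomain,
    Finsupp.apply_linearCombination, Finsupp.linearCombination_apply, Finsupp.sum, Alg.mul_apply,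
    AddSubmonoidClass.coe_finsetSum, sum_apply]
  refine Finset.sum_congr rfl fun g _ => ?_
  rw [Function.comp_apply, Function.comp_apply, avgEval_single, ← Complex.coe_smul, star_mul]
  rfl

/-- Near minimisers.  Recipe: `b φ` from `exists_hb` for `φ ∈ S`; `U = {u // IsCU e u}`,
`W = U →₀ ℝ`, `𝓚` = probability vectors, `tv ξ : W →ₗ[ℝ] (H →₀ Alg M)`,
`single g r ↦ single (g⋆ ξ) (r • g)`, `B u μ μ' = ∑ φ ∈ S, ∑ ζ ∈ F, b φ (tv (u ζ) μ) (tv (u ζ) μ')`.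
`tv ξ (mapDomain (h * ·) μ) = lmul h (tv (h⋆ ξ) μ)`, so translates of near minimisers (`var_inf`)
are near minimisers.  `var_close` for the eight translates by `(b j)⋆` and `(b j)⋆ y`
(`J = Fin 4 × Bool`, `4 * 8² * η = θ²`): the difference of the two `j`-th translates at `u ζ` is
`lmul (b j)⋆ (tv (b j u ζ) (y μ) - tv (b j u ζ) μ)`, and `evalL φ` of the inner difference is
`c (b j u ζ)`. -/
theorem exists_near {e : Alg M} (he : IsStarProjection e) (F : Finset H)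
    (S : Finset (Alg M →L[ℂ] Alg M)) (hS : ∀ φ ∈ S, IsCB M φ) {θ : ℝ} (hθ : 0 < θ) :
    ∃ (κ : Type) (_ : Fintype κ) (g : κ → Alg M) (w : κ → ℝ), (∀ k, IsCU e (g k)) ∧
      (∀ k, 0 ≤ w k) ∧ ∑ k, w k = 1 ∧ ∀ φ ∈ S, ∀ y, IsCU e y → ∀ b : Fin 4 → Alg M,
        (∀ j, IsCU e (b j)) → ∃ u, IsCU e u ∧ ∀ j, ∀ ζ ∈ F,
          ‖((((∑ k, (w k : ℂ) • (φ (y * g k) * star (g k))) * star y -
            ∑ k, (w k : ℂ) • (φ (g k) * star (g k))) * b j * u : Alg M) : H →L[ℂ] H) ζ‖ ≤ θ := by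
  classical
  have hex : ∀ φ : Alg M →L[ℂ] Alg M, ∃ (K : ℝ) (b : LinearMap.BilinForm ℝ (H →₀ Alg M)), φ ∈ S →
      (∀ t t', b t t' = b t' t) ∧ (∀ t, ‖evalL φ t‖ ^ 2 ≤ b t t) ∧
      (∀ ζ g, ‖g‖ ≤ 1 → b (Finsupp.single ζ g) (Finsupp.single ζ g) ≤ K ^ 2 * ‖ζ‖ ^ 2) ∧
      ∀ h t, (∀ ζ, star h * h * t ζ = t ζ) → b (lmul h t) (lmul h t) = b t t := fun φ => by
    by_cases hφ : φ ∈ S
    · obtain ⟨K, hK⟩ := hS φ hφ
      obtain ⟨b, hb⟩ := exists_hb hK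
      exact ⟨K, b, fun _ => hb⟩
    · exact ⟨0, 0, fun h => absurd h hφ⟩
  choose K β hβ using hex
  have hpos0 : ∀ φ ∈ S, ∀ t, 0 ≤ β φ t t := fun φ hφ t => (sq_nonneg _).trans ((hβ φ hφ).2.1 t)
  have : Nonempty {u : Alg M // IsCU e u} := ⟨⟨e, IsCU.refl he⟩⟩
  obtain ⟨B, hB⟩ : ∃ B : {u : Alg M // IsCU e u} →
      LinearMap.BilinForm ℝ ({u : Alg M // IsCU e u} →₀ ℝ), ∀ u μ μ', B u μ μ' =
        ∑ φ ∈ S, ∑ ζ ∈ F, β φ (avgTv e ((u.1 : H →L[ℂ] H) ζ) μ) (avgTv e ((u.1 : H →L[ℂ] H) ζ) μ') :=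
    ⟨fun u => ∑ φ ∈ S, ∑ ζ ∈ F, (β φ).compl₁₂ (avgTv e ((u.1 : H →L[ℂ] H) ζ))
      (avgTv e ((u.1 : H →L[ℂ] H) ζ)), fun u μ μ' => by
        simp only [LinearMap.sum_apply, LinearMap.compl₁₂_apply]⟩
  have hsym : ∀ u μ μ', B u μ μ' = B u μ' μ := fun u μ μ' => by
    rw [hB, hB]
    exact Finset.sum_congr rfl fun φ hφ => Finset.sum_congr rfl fun ζ _ => (hβ φ hφ).1 _ _
  have hpos : ∀ u μ, 0 ≤ B u μ μ := fun u μ => by
    rw [hB]
    exact Finset.sum_nonneg fun φ hφ => Finset.sum_nonneg fun ζ _ => hpos0 φ hφ _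
  have htr : ∀ φ ∈ S, ∀ (h : {u : Alg M // IsCU e u}) (ξ : H) μ,
      β φ (avgTv e ξ (avgTr he h μ)) (avgTv e ξ (avgTr he h μ)) =
        β φ (avgTv e (((star h.1 : Alg M) : H →L[ℂ] H) ξ) μ)
          (avgTv e (((star h.1 : Alg M) : H →L[ℂ] H) ξ) μ) := fun φ hφ h ξ μ => by
    rw [avgTv_tr]
    exact (hβ φ hφ).2.2.2 _ _ fun ζ => by rw [h.2.1]; exact avgTv_unit he _ _ _
  let σ : ({u : Alg M // IsCU e u} →₀ ℝ) →ₗ[ℝ] ℝ := Finsupp.linearCombination ℝ fun _ => 1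
  have hσ : ∀ μ, σ μ = ∑ g ∈ μ.support, μ g := fun μ => by
    simp [σ, Finsupp.linearCombination_apply, Finsupp.sum]
  let 𝓚 : Set ({u : Alg M // IsCU e u} →₀ ℝ) := {μ | 0 ≤ μ ∧ σ μ = 1}
  have hconv : Convex ℝ 𝓚 := fun μ hμ μ' hμ' a b ha hb hab =>
    ⟨add_nonneg (smul_nonneg ha hμ.1) (smul_nonneg hb hμ'.1), by
      rw [map_add, map_smul, map_smul, hμ.2, hμ'.2, smul_eq_mul, smul_eq_mul, mul_one, mul_one, hab]⟩
  have hK : ∀ h, ∀ μ ∈ 𝓚, avgTr he h μ ∈ 𝓚 := fun h μ hμ =>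
    ⟨Finsupp.mapDomain_nonneg hμ.1, by
      rw [avgTr, Finsupp.lmapDomain_apply, Finsupp.linearCombination_mapDomain]
      exact hμ.2⟩
  obtain ⟨N₀, hN, hN'⟩ := var_inf B hpos (𝓚 := 𝓚)
    ⟨Finsupp.single ⟨e, IsCU.refl he⟩ 1, Finsupp.single_nonneg.2 zero_le_one, by simp [σ]⟩
    (fun μ hμ => ⟨∑ φ ∈ S, ∑ ζ ∈ F, K φ ^ 2 * ‖ζ‖ ^ 2, fun u => by
      rw [hB]
      refine Finset.sum_le_sum fun φ hφ => Finset.sum_le_sum fun ζ _ => ?_
      rw [avgTv, Finsupp.linearCombination_apply, Finsupp.sum]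
      refine AvgIII_convex_le _ (hβ φ hφ).1 (hpos0 φ hφ) _ _ _ hμ.1 ((hσ μ).symm.trans hμ.2)
        fun g => ((hβ φ hφ).2.2.1 _ _ (g.2.norm_le he)).trans ?_
      gcongr
      refine (Alg.norm_apply_le _ _).trans ((mul_le_of_le_one_left (norm_nonneg _)
        (g.2.star.norm_le he)).trans ((Alg.norm_apply_le _ _).trans ?_))
      exact mul_le_of_le_one_left (norm_nonneg _) (u.2.norm_le he)⟩)
  obtain ⟨μ, hμ, hmin⟩ := hN' (θ ^ 2 / 256) (by positivity)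
  have hmin' : ∀ h u, B u (avgTr he h μ) (avgTr he h μ) ≤ N₀ + θ ^ 2 / 256 := fun h u => by
    refine le_trans (le_of_eq ?_) (hmin ⟨star h.1 * u.1, h.2.star.mul he u.2⟩)
    rw [hB, hB]
    exact Finset.sum_congr rfl fun φ hφ => Finset.sum_congr rfl fun ζ _ => htr φ hφ h _ μ
  have hsum : ∀ {V : Type _} [AddCommMonoid V] (f : {u : Alg M // IsCU e u} → V),
      ∑ k, f (μ.support.equivFin.symm k).1 = ∑ g ∈ μ.support, f g := fun f => by
    rw [← Finset.sum_coe_sort μ.support f]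
    exact Equiv.sum_comp μ.support.equivFin.symm fun g => f g.1
  have hsum' : ∑ k, μ (μ.support.equivFin.symm k).1 = ∑ g ∈ μ.support, μ g := by
    rw [← Finset.sum_coe_sort μ.support μ]
    exact Equiv.sum_comp μ.support.equivFin.symm fun g => μ g.1
  refine ⟨Fin μ.support.card, inferInstance, fun k => (μ.support.equivFin.symm k).1.1,
    fun k => μ (μ.support.equivFin.symm k).1, fun k => (μ.support.equivFin.symm k).1.2,
    fun k => hμ.1 _, hsum'.trans ((hσ μ).symm.trans hμ.2), fun φ hφ y hy b hb => ?_⟩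
  obtain ⟨u, hu⟩ := var_close B hsym hpos hconv (by positivity : 0 < θ ^ 2 / 256) hN
    (J := Fin 4 × Bool)
    (fun j => avgTr he ⟨star (b j.1) * (if j.2 then y else e), (hb j.1).star.mul he (by
      split_ifs
      · exact hy
      · exact IsCU.refl he)⟩ μ) (fun j => hK _ _ hμ) (fun j u => hmin' _ u)
  refine ⟨u.1, u.2, fun j ζ hζ => ?_⟩
  have h1 := hu (j, true) (j, false)
  have e1 : ∀ y' : {u : Alg M // IsCU e u}, ∀ h, avgTr he ⟨star (b j) * y'.1, h⟩ μ =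
      avgTr he ⟨star (b j), (hb j).star⟩ (avgTr he y' μ) := fun y' h => by
    simp only [avgTr, Finsupp.lmapDomain_apply]
    rw [← Finsupp.mapDomain_comp]
    exact Finsupp.mapDomain_congr fun g _ => Subtype.ext (mul_assoc _ _ _)
  have e2 : avgTr he ⟨e, IsCU.refl he⟩ μ = μ := by
    simp only [avgTr, Finsupp.lmapDomain_apply]
    exact (Finsupp.mapDomain_congr fun g _ => Subtype.ext (g.2.unit_mul he)).trans
      Finsupp.mapDomain_id
  simp only [if_true, Bool.false_eq_true, if_false] at h1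
  rw [e1 ⟨y, hy⟩, e1 ⟨e, IsCU.refl he⟩, e2, ← map_sub, hB] at h1
  have h2 := (Finset.single_le_sum (fun ζ _ => hpos0 φ hφ _) hζ).trans
    ((Finset.single_le_sum (fun φ hφ => Finset.sum_nonneg fun ζ _ => hpos0 φ hφ _) hφ).trans h1)
  rw [htr φ hφ, star_star] at h2
  have h3 := ((hβ φ hφ).2.1 _).trans h2
  rw [← avgEval_eq, map_sub, map_sub, avgEval_tv_tr, avgEval_tv] at h3
  rw [hsum (fun g => (μ g : ℂ) • (φ (y * g.1) * star g.1)),
    hsum (fun g => (μ g : ℂ) • (φ g.1 * star g.1))]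
  refine (abs_le_of_sq_le_sq' (h3.trans (le_of_eq ?_)) hθ.le).2
  simp only [Fintype.card_prod, Fintype.card_fin, Fintype.card_bool]
  push_cast
  ring

theorem AvgIII_exists_dg {z e : Alg M} (hz : NoTr M z) (he : IsStarProjection e) (hez : e * z = e)
    {F : Finset H} (hF : Sep M e F) (S : Finset (Alg M →L[ℂ] Alg M)) (n : ℕ) :
    ∃ t : Dg (Alg M), ‖t‖ ≤ 1 ∧ Pt M t (ContinuousLinearMap.id ℂ _) = e ∧
      (∀ φ, Pt M t φ * e = Pt M t φ) ∧ ∀ φ ∈ S, IsCB M φ → ∀ y, IsCU e y → ∀ ζ ∈ F,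
        ‖((Pt M t (φ ∘L Lm y) * star y - Pt M t φ : Alg M) : H →L[ℂ] H) ζ‖ ≤
          (‖ζ‖ + 4 * ‖φ‖) * (1 / ((n : ℝ) + 1)) := by
  classical
  have hδ : (0 : ℝ) < 1 / ((n : ℝ) + 1) := by positivity
  generalize 1 / ((n : ℝ) + 1) = δ at hδ ⊢
  obtain ⟨κ, _, g, w, hg, hw, hw1, h⟩ := exists_near he F (S.filter (IsCB M))
    (fun φ hφ => (Finset.mem_filter.1 hφ).2) (pow_pos hδ 2)
  have hP : ∀ φ, Pt M (∑ k, (w k : ℂ) • Dg.elem (g k) (star (g k))) φ =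
      ∑ k, (w k : ℂ) • (φ (g k) * star (g k)) := fun φ => by
    simp only [Pt_sum, Pt_smul, Pt_elem]
  have hn : ‖∑ k, (w k : ℂ) • Dg.elem (g k) (star (g k))‖ ≤ 1 := by
    refine (norm_sum_le _ _).trans (le_trans (Finset.sum_le_sum fun k _ => ?_) hw1.le)
    rw [norm_smul, Complex.norm_real, Real.norm_eq_abs, abs_of_nonneg (hw k)]
    exact mul_le_of_le_one_right (hw k) ((Dg.norm_elem_le _ _).trans
      (mul_le_one₀ ((hg k).norm_le he) (norm_nonneg _) ((hg k).star.norm_le he)))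
  have hPe : ∀ φ, Pt M (∑ k, (w k : ℂ) • Dg.elem (g k) (star (g k))) φ * e =
      Pt M (∑ k, (w k : ℂ) • Dg.elem (g k) (star (g k))) φ := fun φ => by
    rw [hP, Finset.sum_mul]
    refine Finset.sum_congr rfl fun k _ => ?_
    rw [smul_mul_assoc, mul_assoc, (hg k).star.mul_unit he]
  refine ⟨_, hn, ?_, hPe, fun φ hφ hφ' y hy ζ hζ => ?_⟩
  · rw [hP]
    simp only [ContinuousLinearMap.id_apply, (hg _).2]
    rw [← Finset.sum_smul, ← Complex.ofReal_sum, hw1, Complex.ofReal_one, one_smul]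
  · have h1 := h φ (Finset.mem_filter.2 ⟨hφ, hφ'⟩) y hy
    have e1 := hP (φ ∘L Lm y)
    simp only [ContinuousLinearMap.comp_apply, ContinuousLinearMap.mul_apply'] at e1
    rw [← e1, ← hP] at h1
    generalize ∑ k, (w k : ℂ) • Dg.elem (g k) (star (g k)) = t at hn hPe h1 ⊢
    have h2 := norm_apply_le_of_translates hz he hez hF
      (by rw [sub_mul, mul_assoc, hy.star.mul_unit he, hPe]) hδ h1 ζ hζ
    have h3 : ‖Pt M t (φ ∘L Lm y) * star y - Pt M t φ‖ ≤ 2 * ‖φ‖ := by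
      have a1 : ∀ ψ, ‖Pt M t ψ‖ ≤ ‖ψ‖ := fun ψ =>
        (norm_Pt_apply_le t ψ).trans (mul_le_of_le_one_left (norm_nonneg _) hn)
      have a2 : ‖φ ∘L Lm y‖ ≤ ‖φ‖ := (ContinuousLinearMap.opNorm_comp_le _ _).trans
        (mul_le_of_le_one_right (norm_nonneg _) ((norm_Lm_le y).trans (hy.norm_le he)))
      have a3 : ‖Pt M t (φ ∘L Lm y) * star y‖ ≤ ‖φ‖ := (norm_mul_le _ _).trans
        ((mul_le_of_le_one_right (norm_nonneg _) (hy.star.norm_le he)).trans ((a1 _).trans a2))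
      linarith [norm_sub_le (Pt M t (φ ∘L Lm y) * star y) (Pt M t φ), a1 φ]
    refine h2.trans ?_
    have e2 : 2 * δ ^ 2 / δ = 2 * δ := by field_simp
    rw [e2]
    nlinarith

/-- Recipe: index set `Finset (Alg M →L[ℂ] Alg M) × ℕ`, `𝒰 = Ultrafilter.of atTop`,
`t α = ∑ w k • Dg.elem (g k) (star (g k))` from `exists_near` (CB members of `S`,
`θ = 1/(n+1)²`, `δ = 1/(n+1)`), `P = Pt M (ulimL 𝒰 t)` (`Pt_ulimL`, `Pt_left`).  For `IsCU e y`,
`c = P (φ ∘L Lm y) * y⋆ - P φ = wlim c_α` kills `F` (`norm_apply_le_of_translates`) and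
`c e = c`, so `c = 0`; general `y` by `exists_four_cu`. -/
theorem avgOn_III {z e : Alg M} (hz : NoTr M z) (he : IsStarProjection e) (hez : e * z = e)
    {F : Finset H} (hF : Sep M e F) : ∃ P, AvgOn M e (IsCB M) P := by
  classical
  choose t h1 h2 h3 h4 using fun α : Finset (Alg M →L[ℂ] Alg M) × ℕ =>
    AvgIII_exists_dg hz he hez hF α.1 α.2
  let 𝒰 : Ultrafilter (Finset (Alg M →L[ℂ] Alg M) × ℕ) := Ultrafilter.of atTop
  have h𝒰 : (𝒰 : Filter (Finset (Alg M →L[ℂ] Alg M) × ℕ)) ≤ atTop := Ultrafilter.of_le _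
  have hb : ∀ φ α, ‖Pt M (t α) φ‖ ≤ ‖φ‖ := fun φ α =>
    (norm_Pt_apply_le _ _).trans (mul_le_of_le_one_left (norm_nonneg _) (h1 α))
  have hP := Pt_ulimL 𝒰 h1
  have hPe : ∀ φ, Pt M (ulimL 𝒰 t) φ * e = Pt M (ulimL 𝒰 t) φ := fun φ => by
    rw [hP, ← wlim_mul_right 𝒰 (hb φ)]
    simp only [h3]
  have key : ∀ φ, IsCB M φ → ∀ y, IsCU e y →
      Pt M (ulimL 𝒰 t) (φ ∘L Lm y) = Pt M (ulimL 𝒰 t) φ * y := fun φ hφ y hy => by
    have hb' : ∀ α, ‖Pt M (t α) (φ ∘L Lm y) * star y‖ ≤ ‖φ ∘L Lm y‖ * ‖star y‖ := fun α =>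
      (norm_mul_le _ _).trans (mul_le_mul_of_nonneg_right (hb _ α) (norm_nonneg _))
    have e1 : Pt M (ulimL 𝒰 t) (φ ∘L Lm y) * star y - Pt M (ulimL 𝒰 t) φ =
        wlim 𝒰 fun α => Pt M (t α) (φ ∘L Lm y) * star y - Pt M (t α) φ := by
      rw [wlim_sub 𝒰 hb' (hb φ), wlim_mul_right 𝒰 (hb _), hP, hP]
    have e2 : Pt M (ulimL 𝒰 t) (φ ∘L Lm y) * star y - Pt M (ulimL 𝒰 t) φ = 0 := by
      refine hF _ (by rw [sub_mul, mul_assoc, hy.star.mul_unit he, hPe]) fun ζ hζ => ?_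
      refine ext_inner_left ℂ fun η => ?_
      rw [e1, inner_zero_right]
      refine tendsto_nhds_unique (tendsto_inner_wlim 𝒰
        (fun α => (norm_sub_le _ _).trans (add_le_add (hb' α) (hb φ α))) η ζ) ?_
      refine Tendsto.mono_left ?_ h𝒰
      have hn : Tendsto (fun α : Finset (Alg M →L[ℂ] Alg M) × ℕ =>
          ‖η‖ * ((‖ζ‖ + 4 * ‖φ‖) * (1 / ((α.2 : ℝ) + 1)))) atTop (𝓝 0) := by
        have h0 : Tendsto (fun α : Finset (Alg M →L[ℂ] Alg M) × ℕ => α.2) atTop atTop := by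
          rw [← prod_atTop_atTop_eq]; exact tendsto_snd
        have := ((tendsto_one_div_add_atTop_nhds_zero_nat (𝕜 := ℝ)).comp h0).const_mul
          (‖ζ‖ + 4 * ‖φ‖)
        simpa using this.const_mul ‖η‖
      refine squeeze_zero_norm' ?_ hn
      filter_upwards [eventually_ge_atTop (({φ} : Finset _), 0)] with α hα
      exact (norm_inner_le_norm _ _).trans (mul_le_mul_of_nonneg_left
        (h4 α φ (hα.1 (Finset.mem_singleton_self φ)) hφ y hy ζ hζ) (norm_nonneg _))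
    rw [← sub_eq_zero.1 e2, mul_assoc, hy.1, hPe]
  refine ⟨Pt M (ulimL 𝒰 t), (norm_Pt_le _).trans (norm_ulimL_le 𝒰 h1), Pt_left _, ?_,
    fun φ hφ y hy => ?_⟩
  · rw [hP]
    simp only [h2]
    exact wlim_const 𝒰 e
  · have hee := he.isIdempotentElem.eq
    obtain ⟨v, l, hv, hyv, -⟩ := exists_four_cu he (b := y)
      (by rw [← hy, ← mul_assoc, ← mul_assoc, hee]) (by rw [← hy, mul_assoc _ e e, hee])
    have e1 : φ ∘L Lm y = ∑ i, l i • (φ ∘L Lm (v i)) := by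
      ext1 x
      conv_lhs => rw [hyv]
      simp
    rw [e1, map_sum]
    conv_rhs => rw [hyv, Finset.mul_sum]
    refine Finset.sum_congr rfl fun i _ => ?_
    rw [map_smul, key φ hφ _ (hv i), mul_smul_comm]

theorem avgZ_III {z : Alg M} (hzc : IsCentralProj M z) (hz : NoTr M z) :
    ∃ P, AvgZ M z (IsCB M) P :=
  avg_glue hzc (exhaust_sep hzc) (fun _ h y => h.comp_Lm y)
    fun _ ⟨he, hez, _, hF⟩ => avgOn_III hz he hez hF

end

end Crest.Agent.R121
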