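import Crest.Agent.R121.VN
import Crest.Agent.R124.GT

/-!
# Row 121: spectral projections, spectral partitions, unitaries span a corner
-/

open scoped InnerProductSpace ComplexOrder Topology
open Filter

set_option linter.unusedSectionVars false

namespace Crest.Agent.R121

noncomputable section

theorem Spec_cu_of_sa {A : Type*} [CStarAlgebra A] {e h : A} (he : IsStarProjection e)
    (hh : IsSelfAdjoint h) (h₁ : e * h = h) (hn : ‖h‖ ≤ 1) :
    ∃ u, IsCU e u ∧ h = (2 : ℂ)⁻¹ • (u + star u) ∧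
      ∀ y, Commute y e → Commute y h → Commute y u ∧ Commute y (star u) := by
  have hes : star e = e := he.isSelfAdjoint.star_eq
  have hee : e * e = e := he.isIdempotentElem.eq
  have h₂ : h * e = h := by simpa [hes, hh.star_eq] using congrArg star h₁
  have hc : Commute h e := h₂.trans h₁.symm
  set k := cfc (fun t : ℝ => √(1 - t ^ 2)) h with hk
  have hks : star k = k := (cfc_predicate (R := ℝ) _ h : IsSelfAdjoint k).star_eq
  have hke : k * e = e * k := hc.cfc_real _
  have hkh : k * h = h * k := (Commute.refl h).cfc_real _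
  have hkk : k * k = 1 - h * h := by
    obtain (_ | _) := subsingleton_or_nontrivial A
    · exact Subsingleton.elim _ _
    rw [hk, ← cfc_mul ..]
    have e1 : cfc (fun t : ℝ => 1 - t * t) h = 1 - h * h := by
      rw [cfc_sub .., cfc_const_one ℝ h, cfc_mul .., cfc_id' ℝ h]
    rw [← e1]
    refine cfc_congr fun t ht => ?_
    have h1 : |t| ≤ 1 := (spectrum.norm_le_norm_of_mem ht).trans hn
    have h2 : 0 ≤ 1 - t ^ 2 := by
      have := abs_le.1 h1
      nlinarith [this.1, this.2]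
    show √(1 - t ^ 2) * √(1 - t ^ 2) = 1 - t * t
    rw [Real.mul_self_sqrt h2, sq]
  have hsu : star (h + Complex.I • (e * k)) = h - Complex.I • (e * k) := by
    rw [star_add, star_smul, star_mul, hks, hes, hh.star_eq, hke, sub_eq_add_neg, ← neg_smul]
    simp
  have e1 : h * (e * k) = h * k := by rw [← mul_assoc, h₂]
  have e2 : e * k * h = h * k := by rw [mul_assoc, hkh, ← mul_assoc, h₁]
  have e3 : e * k * (e * k) = e - h * h := by
    rw [mul_assoc, ← mul_assoc k, hke, mul_assoc, hkk, ← mul_assoc, hee, mul_sub, mul_one,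
      ← mul_assoc, h₁]
  refine ⟨h + Complex.I • (e * k), ⟨?_, ?_⟩, ?_, fun y hye hyh => ?_⟩
  · rw [hsu, sub_mul, mul_add, mul_add, mul_smul_comm, smul_mul_assoc, smul_mul_smul_comm,
      Complex.I_mul_I, e1, e2, e3]
    module
  · rw [hsu, add_mul, mul_sub, mul_sub, mul_smul_comm, smul_mul_assoc, smul_mul_smul_comm,
      Complex.I_mul_I, e1, e2, e3]
    module
  · rw [hsu]
    module
  · have hyk : Commute y (Complex.I • (e * k)) :=
      (hye.mul_right (hyh.symm.cfc_real _).symm).smul_right _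
    rw [hsu]
    exact ⟨hyh.add_right hyk, hyh.sub_right hyk⟩

/-- Every element of the corner `e A e` is a combination of four unitaries of the corner.
Recipe: for selfadjoint `h = e h e` with `‖h‖ ≤ 1` put `k = e * cfc (fun t => √(1 - t ^ 2)) h`,
`u = h + I • k`; `h = (u + star u) / 2`; apply to the real and imaginary parts of `b / ‖b‖`
(for `b = 0` take `u i = e`, `c i = 0`).  `Commute.cfc_real` gives the commutation. -/
theorem exists_four_cu {A : Type*} [CStarAlgebra A] {e b : A} (he : IsStarProjection e)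
    (h₁ : e * b = b) (h₂ : b * e = b) :
    ∃ (u : Fin 4 → A) (c : Fin 4 → ℂ), (∀ i, IsCU e (u i)) ∧ b = ∑ i, c i • u i ∧
      ∑ i, ‖c i‖ ≤ 2 * ‖b‖ ∧
      ∀ y, Commute y e → Commute y b → Commute y (star b) → ∀ i, Commute y (u i) := by
  by_cases hb : b = 0
  · exact ⟨fun _ => e, fun _ => 0, fun _ => IsCU.refl he, by simp [hb], by simp, fun y hy _ _ _ => hy⟩
  have hes : star e = e := he.isSelfAdjoint.star_eq
  have h₃ : e * star b = star b := by simpa [hes] using congrArg star h₂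
  have hpos : 0 < ‖b‖ := norm_pos_iff.2 hb
  have hne : (‖b‖ : ℂ) ≠ 0 := by exact_mod_cast hpos.ne'
  have hn : ∀ (z : ℂ) (w : A), ‖z‖ = 1 → ‖w‖ ≤ 2 * ‖b‖ → ‖(z * (2 * ‖b‖ : ℂ)⁻¹) • w‖ ≤ 1 := by
    intro z w hz hw
    rw [norm_smul, norm_mul, hz, one_mul, norm_inv, norm_mul, Complex.norm_real, norm_norm,
      Complex.norm_ofNat, inv_mul_le_iff₀ (by positivity), mul_one]
    exact hw
  obtain ⟨u, hu, hu', hu''⟩ := Spec_cu_of_sa (h := ((1 : ℂ) * (2 * ‖b‖ : ℂ)⁻¹) • (b + star b)) he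
    (by rw [IsSelfAdjoint, star_smul, star_add, star_star, add_comm]; simp)
    (by rw [mul_smul_comm, mul_add, h₁, h₃])
    (hn _ _ norm_one ((norm_add_le _ _).trans (by rw [norm_star]; linarith)))
  obtain ⟨v, hv, hv', hv''⟩ :=
    Spec_cu_of_sa (h := ((-Complex.I) * (2 * ‖b‖ : ℂ)⁻¹) • (b - star b)) he
    (by
      rw [IsSelfAdjoint, star_smul, star_sub, star_star, ← neg_sub b, smul_neg, ← neg_smul]
      simp)
    (by rw [mul_smul_comm, mul_sub, h₁, h₃])
    (hn _ _ (by simp) ((norm_sub_le _ _).trans (by rw [norm_star]; linarith)))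
  refine ⟨![u, star u, v, star v],
    ![‖b‖ / 2, ‖b‖ / 2, Complex.I * ‖b‖ / 2, Complex.I * ‖b‖ / 2], ?_, ?_, ?_, ?_⟩
  · intro i
    fin_cases i
    · exact hu
    · exact hu.star
    · exact hv
    · exact hv.star
  · have e1 : ∑ i, (![‖b‖ / 2, ‖b‖ / 2, Complex.I * ‖b‖ / 2, Complex.I * ‖b‖ / 2] : Fin 4 → ℂ) i •
        (![u, star u, v, star v] : Fin 4 → A) i =
        (‖b‖ : ℂ) • (2 : ℂ)⁻¹ • (u + star u) + (Complex.I * ‖b‖) • (2 : ℂ)⁻¹ • (v + star v) := by
      simp only [Fin.sum_univ_four, Matrix.cons_val_zero, Matrix.cons_val_one, Matrix.cons_val]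
      module
    rw [e1, ← hu', ← hv', smul_smul, smul_smul]
    have e2 : (‖b‖ : ℂ) * (1 * (2 * ‖b‖ : ℂ)⁻¹) = 2⁻¹ := by field_simp
    have e3 : Complex.I * ‖b‖ * (-Complex.I * (2 * ‖b‖ : ℂ)⁻¹) = 2⁻¹ := by
      field_simp
      simp
    rw [e2, e3]
    module
  · simp [Fin.sum_univ_four]
    linarith
  · intro y hye hyb hyb' i
    have c1 := hu'' y hye ((hyb.add_right hyb').smul_right _)
    have c2 := hv'' y hye ((hyb.sub_right hyb').smul_right _)
    fin_cases i
    · exact c1.1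
    · exact c1.2
    · exact c2.1
    · exact c2.2

theorem Spec_parts {A : Type*} [CStarAlgebra A] {y : A} (hy : IsSelfAdjoint y) :
    ∃ a b : A, IsSelfAdjoint a ∧ IsSelfAdjoint b ∧ y = a * a - b * b ∧ a * b = 0 ∧
      ∀ z, Commute y z → Commute a z := by
  refine ⟨cfc (fun t : ℝ => √t) y, cfc (fun t : ℝ => √(-t)) y, cfc_predicate (R := ℝ) _ y,
    cfc_predicate (R := ℝ) _ y, ?_, ?_, fun z hz => hz.cfc_real _⟩
  · rw [← cfc_mul .., ← cfc_mul .., ← cfc_sub ..]
    conv_lhs => rw [← cfc_id' ℝ y]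
    refine cfc_congr fun t _ => ?_
    rcases le_total t 0 with h | h
    · simp only [Real.sqrt_eq_zero'.2 h, Real.mul_self_sqrt (neg_nonneg.2 h)]
      ring
    · simp only [Real.sqrt_eq_zero'.2 (neg_nonpos.2 h), Real.mul_self_sqrt h]
      ring
  · rw [← cfc_mul .., ← cfc_zero ℝ y]
    refine cfc_congr fun t _ => ?_
    rcases le_total t 0 with h | h
    · simp [Real.sqrt_eq_zero'.2 h]
    · simp [Real.sqrt_eq_zero'.2 (neg_nonpos.2 h)]

variable {H : Type*} [NormedAddCommGroup H] [InnerProductSpace ℂ H] [CompleteSpace H]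
  {M : VonNeumannAlgebra H}

/-- The quadratic form of `x`. -/
def SpecQ (x : Alg M) (ζ : H) : ℝ := (⟪ζ, (x : H →L[ℂ] H) ζ⟫_ℂ).re

theorem SpecQ_sub (x y : Alg M) (ζ : H) : SpecQ (x - y) ζ = SpecQ x ζ - SpecQ y ζ := by
  simp [SpecQ, inner_sub_right]

theorem SpecQ_smul (t : ℝ) (x : Alg M) (ζ : H) : SpecQ ((t : ℂ) • x) ζ = t * SpecQ x ζ := by
  simp [SpecQ, inner_smul_right]

theorem SpecQ_star_mul (x : Alg M) (ζ : H) :
    SpecQ (star x * x) ζ = ‖(x : H →L[ℂ] H) ζ‖ ^ 2 := by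
  rw [SpecQ, Alg.mul_apply, Alg.inner_star_right, inner_self_eq_norm_sq_to_K]
  norm_cast

theorem SpecQ_sq {x : Alg M} (hx : IsSelfAdjoint x) (ζ : H) :
    SpecQ (x * x) ζ = ‖(x : H →L[ℂ] H) ζ‖ ^ 2 := by
  rw [← SpecQ_star_mul, hx.star_eq]

theorem SpecQ_proj {p : Alg M} (hp : IsStarProjection p) (ζ : H) :
    SpecQ p ζ = ‖(p : H →L[ℂ] H) ζ‖ ^ 2 := by
  rw [← SpecQ_sq hp.isSelfAdjoint, hp.isIdempotentElem.eq]

theorem SpecQ_apply {r : Alg M} (hr : IsSelfAdjoint r) (x : Alg M) (ζ : H) :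
    SpecQ x ((r : H →L[ℂ] H) ζ) = SpecQ (r * x * r) ζ := by
  rw [SpecQ, SpecQ, Alg.mul_apply, Alg.mul_apply, ← Alg.inner_star_left r, hr.star_eq]

theorem SpecQ_zero (ζ : H) : SpecQ (0 : Alg M) ζ = 0 := by simp [SpecQ]

theorem abs_SpecQ_le (x : Alg M) (ζ : H) : |SpecQ x ζ| ≤ ‖x‖ * ‖ζ‖ ^ 2 := by
  refine (Complex.abs_re_le_norm _).trans ((norm_inner_le_norm _ _).trans ?_)
  have := mul_le_mul_of_nonneg_left (Alg.norm_apply_le x ζ) (norm_nonneg ζ)
  nlinarith

theorem Spec_norm_proj_apply_le {p : Alg M} (hp : IsStarProjection p) (ζ : H) :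
    ‖(p : H →L[ℂ] H) ζ‖ ≤ ‖ζ‖ :=
  (Alg.norm_apply_le p ζ).trans (mul_le_of_le_one_left (norm_nonneg _) hp.norm_le)

theorem Spec_norm_le {x : Alg M} (hx : IsSelfAdjoint x) {ε : ℝ} (hε : 0 ≤ ε)
    (h : ∀ ζ, |SpecQ x ζ| ≤ ε * ‖ζ‖ ^ 2) : ‖x‖ ≤ ε := by
  have hx' : IsSelfAdjoint (x : H →L[ℂ] H) := congrArg Subtype.val hx.star_eq
  rw [← Alg.norm_coe, ContinuousLinearMap.norm_eq_iSup_rayleighQuotient _ hx'.isSymmetric]
  refine ciSup_le fun ζ => ?_
  have e : (x : H →L[ℂ] H).reApplyInnerSelf ζ = SpecQ x ζ := by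
    rw [ContinuousLinearMap.reApplyInnerSelf_apply, inner_re_symm]
    rfl
  rw [ContinuousLinearMap.rayleighQuotient, e, abs_div, abs_of_nonneg (sq_nonneg ‖ζ‖)]
  exact div_le_of_le_mul₀ (sq_nonneg _) hε (h ζ)

theorem Spec_sq_of_nonneg {y : Alg M} (hy : IsSelfAdjoint y) (h : ∀ ζ, 0 ≤ SpecQ y ζ) :
    ∃ a : Alg M, IsSelfAdjoint a ∧ y = a * a := by
  obtain ⟨a, b, ha, hb, hab, h0, -⟩ := Spec_parts hy
  have h0' : b * a = 0 := by simpa [ha.star_eq, hb.star_eq] using congrArg star h0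
  have e : b * y * b = 0 - b * b * (b * b) := by
    rw [hab, mul_sub, sub_mul, ← mul_assoc b a a, h0']
    simp only [zero_mul, mul_assoc]
  have hbb : IsSelfAdjoint (b * b) := by rw [IsSelfAdjoint, star_mul, hb.star_eq]
  have h1 : b * b = 0 := Subtype.ext (ContinuousLinearMap.ext fun ζ => by
    have := h ((b : H →L[ℂ] H) ζ)
    rw [SpecQ_apply hb, e, SpecQ_sub, SpecQ_zero, SpecQ_sq hbb] at this
    have h2 : ‖((b * b : Alg M) : H →L[ℂ] H) ζ‖ ^ 2 = 0 := le_antisymm (by linarith) (sq_nonneg _)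
    simpa using h2)
  exact ⟨a, ha, by rw [hab, h1, sub_zero]⟩

/-- One spectral cut.  Recipe: `y = p x p - t p`, `y₊ = cfc (max · 0) y`, `y₋ = cfc (max (-·) 0) y`,
`q = rp y₊`; `p y₊ = y₊` (as in `R124.SqZero_step`), `y₋ q = 0`, `q y₊ = y₊`, so
`q y q = y₊ ≥ 0` and `(p - q) y (p - q) = -(p - q) y₋ (p - q) ≤ 0`. -/
theorem exists_split {x p : Alg M} (hx : IsSelfAdjoint x) (hp : IsStarProjection p) (t : ℝ) :
    ∃ q : Alg M, IsStarProjection q ∧ q * p = q ∧
      (∀ y, Commute y p → Commute (star y) p → Commute y x → Commute (star y) x → Commute y q) ∧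
      (∀ ζ, t * ‖(q : H →L[ℂ] H) ζ‖ ^ 2 ≤
        (⟪(q : H →L[ℂ] H) ζ, (x : H →L[ℂ] H) ((q : H →L[ℂ] H) ζ)⟫_ℂ).re) ∧
      ∀ ζ, (⟪((p - q : Alg M) : H →L[ℂ] H) ζ,
        (x : H →L[ℂ] H) (((p - q : Alg M) : H →L[ℂ] H) ζ)⟫_ℂ).re ≤
          t * ‖((p - q : Alg M) : H →L[ℂ] H) ζ‖ ^ 2 := by
  have hps : star p = p := hp.isSelfAdjoint.star_eq
  have hpp : p * p = p := hp.isIdempotentElem.eq
  set y : Alg M := p * x * p - (t : ℂ) • p with hy
  have hys : IsSelfAdjoint y := by
    rw [IsSelfAdjoint, hy, star_sub, star_mul, star_mul, star_smul, hps, hx.star_eq, mul_assoc]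
    simp
  have hpy : p * y = y := by rw [hy, mul_sub, ← mul_assoc, ← mul_assoc, hpp, mul_smul_comm, hpp]
  have hyp : y * p = y := by simpa [hps, hys.star_eq] using congrArg star hpy
  obtain ⟨a, b, ha, hb, hab, h0, hcomm⟩ := Spec_parts hys
  have h0' : b * a = 0 := by simpa [ha.star_eq, hb.star_eq] using congrArg star h0
  have hap : a * p = p * a := hcomm p (hyp.trans hpy.symm)
  have haa : IsSelfAdjoint (a * a) := by rw [IsSelfAdjoint, star_mul, ha.star_eq]
  have haap : a * a * p = a * a := by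
    have e1 : a * a * (a * a) = a * a * y := by
      rw [hab, mul_sub, mul_assoc a a (b * b), ← mul_assoc a b b, h0]
      simp
    have e2 : star (a * a - a * a * p) * (a * a - a * a * p) = 0 := by
      have : star (a * a - a * a * p) * (a * a - a * a * p) =
          (1 - p) * (a * a * (a * a) * (1 - p)) := by
        rw [star_sub, star_mul (a * a) p, haa.star_eq, hps]
        noncomm_ring
      rw [this, e1, mul_assoc (a * a), mul_sub y, mul_one, hyp]
      simp
    exact (sub_eq_zero.1 ((CStarRing.star_mul_self_eq_zero_iff _).1 e2)).symm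
  have hpaa : p * (a * a) = a * a := by simpa [hps, ha.star_eq] using congrArg star haap
  set q := rp (a * a) with hq
  have hqp : IsStarProjection q := rp_proj _
  have hqs : star q = q := hqp.isSelfAdjoint.star_eq
  have hpq : p * q = q := mul_rp_eq hpaa
  have hqp' : q * p = q := by simpa [hps, hqs] using congrArg star hpq
  have hbq : b * q = 0 := mul_rp_eq_zero (by rw [← mul_assoc, h0', zero_mul])
  have haq : a * a * q = a * a := by
    have := congrArg star (rp_mul (a * a))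
    rwa [star_mul, haa.star_eq, ← hq, hqs] at this
  have key : ∀ r : Alg M, IsStarProjection r → p * r = r → ∀ ζ,
      SpecQ x ((r : H →L[ℂ] H) ζ) - t * ‖(r : H →L[ℂ] H) ζ‖ ^ 2 = SpecQ (r * y * r) ζ := by
    intro r hr hpr ζ
    have hrp : r * p = r := by simpa [hps, hr.isSelfAdjoint.star_eq] using congrArg star hpr
    have : r * y * r = r * x * r - (t : ℂ) • r := by
      rw [hy, mul_sub, sub_mul, ← mul_assoc, ← mul_assoc, hrp, mul_assoc (r * x), hpr,
        mul_smul_comm, smul_mul_assoc, hrp, hr.isIdempotentElem.eq]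
    rw [this, SpecQ_sub, SpecQ_smul, SpecQ_proj hr, SpecQ_apply hr.isSelfAdjoint]
  refine ⟨q, hqp, hqp', fun z h1 h2 h3 h4 => ?_, fun ζ => ?_, fun ζ => ?_⟩
  · have c : ∀ w : Alg M, Commute w p → Commute w x → Commute w (a * a) := fun w hw hw' => by
      have : Commute a w :=
        hcomm w (((hw.mul_right hw').mul_right hw).sub_right (hw.smul_right _)).symm
      exact this.symm.mul_right this.symm
    exact commute_rp (c z h1 h3) (c _ h2 h4)
  · have h1 := key q hqp hpq ζ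
    have e : q * y * q = star (a * q) * (a * q) := by
      rw [hab, star_mul, hqs, ha.star_eq, mul_sub, sub_mul, mul_assoc q (b * b), mul_assoc b, hbq]
      simp [mul_assoc]
    rw [e, SpecQ_star_mul] at h1
    have := sq_nonneg ‖((a * q : Alg M) : H →L[ℂ] H) ζ‖
    change _ ≤ SpecQ x _
    linarith
  · have hr : IsStarProjection (p - q) := hqp.sub_of_mul_eq_right hp hpq
    have h1 := key (p - q) hr (by rw [mul_sub, hpp, hpq]) ζ
    have e : (p - q) * y * (p - q) = 0 - star (b * (p - q)) * (b * (p - q)) := by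
      have : a * a * (p - q) = 0 := by rw [mul_sub, haap, haq, sub_self]
      rw [hab, star_mul, hr.isSelfAdjoint.star_eq, hb.star_eq, mul_sub (p - q) (a * a), sub_mul,
        mul_assoc (p - q) (a * a), this]
      simp [mul_assoc]
    rw [e, SpecQ_sub, SpecQ_zero, SpecQ_star_mul] at h1
    have := sq_nonneg ‖((b * (p - q) : Alg M) : H →L[ℂ] H) ζ‖
    change SpecQ x _ ≤ _
    linarith

/-- Spectral projection of `|c|` for `[δ, ∞)`.  Recipe: `exists_split` for `star c * c`, `δ²`. -/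
theorem exists_spec (c : Alg M) {e : Alg M} (he : IsStarProjection e) {δ : ℝ} (hδ : 0 ≤ δ) :
    ∃ p : Alg M, IsStarProjection p ∧ p * e = p ∧ ‖c * (e - p)‖ ≤ δ ∧
      ∀ ζ, δ * ‖(p : H →L[ℂ] H) ζ‖ ≤ ‖(c : H →L[ℂ] H) ((p : H →L[ℂ] H) ζ)‖ := by
  obtain ⟨p, hp, hpe, -, h1, h2⟩ := exists_split (IsSelfAdjoint.star_mul_self c) he (δ ^ 2)
  refine ⟨p, hp, hpe, ?_, fun ζ => ?_⟩
  · refine ContinuousLinearMap.opNorm_le_bound _ hδ fun ζ => ?_
    have h3 : SpecQ (star c * c) _ ≤ _ := h2 ζ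
    rw [SpecQ_star_mul, ← mul_pow] at h3
    refine (abs_le_of_sq_le_sq' h3 (by positivity)).2.trans ?_
    exact mul_le_mul_of_nonneg_left (Spec_norm_proj_apply_le (hp.sub_of_mul_eq_left he hpe) ζ) hδ
  · have h3 : _ ≤ SpecQ (star c * c) _ := h1 ζ
    rw [SpecQ_star_mul, ← mul_pow] at h3
    exact (abs_le_of_sq_le_sq' h3 (norm_nonneg _)).2

/-- If `c` is bounded below by `δ` on the range of `p` then `p c⋆ c p - δ² p` is a square. -/
theorem exists_sq_of_lower {c p : Alg M} (hp : IsStarProjection p) {δ : ℝ} (hδ : 0 ≤ δ)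
    (h : ∀ ζ, δ * ‖(p : H →L[ℂ] H) ζ‖ ≤ ‖(c : H →L[ℂ] H) ((p : H →L[ℂ] H) ζ)‖) :
    ∃ b : Alg M, b * p = b ∧ star (c * p) * (c * p) = ((δ ^ 2 : ℝ) : ℂ) • p + star b * b := by
  have hps : star p = p := hp.isSelfAdjoint.star_eq
  have hpp : p * p = p := hp.isIdempotentElem.eq
  obtain ⟨a, ha, hy⟩ := Spec_sq_of_nonneg (y := star (c * p) * (c * p) - ((δ ^ 2 : ℝ) : ℂ) • p)
    ((IsSelfAdjoint.star_mul_self _).sub (by rw [IsSelfAdjoint, star_smul, hps]; simp)) fun ζ => by
      rw [SpecQ_sub, SpecQ_smul, SpecQ_star_mul, SpecQ_proj hp, ← mul_pow, sub_nonneg]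
      exact pow_le_pow_left₀ (by positivity) (h ζ) 2
  refine ⟨a * p, by rw [mul_assoc, hpp], ?_⟩
  have e : star (a * p) * (a * p) = p * (a * a) * p := by
    rw [star_mul, hps, ha.star_eq]; simp only [mul_assoc]
  rw [e, ← hy, mul_sub, sub_mul, mul_smul_comm, smul_mul_assoc, hpp, hpp, star_mul, hps]
  have : p * (p * star c * (c * p)) * p = p * star c * (c * p) := by
    simp only [← mul_assoc, hpp]
    rw [mul_assoc _ p p, hpp]
  rw [this]
  abel

/-- A partition of `p` into projections with property `P`, commuting with the elements of `C` that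
commute with `p`. -/
def SpecPart (C : Alg M → Prop) (p : Alg M) (P : Alg M → Prop) : Prop :=
  ∃ (ι : Type) (_ : Fintype ι) (r : ι → Alg M), (∀ i, IsStarProjection (r i)) ∧
    (∀ i j, i ≠ j → r i * r j = 0) ∧ ∑ i, r i = p ∧
    (∀ y, Commute y p → Commute (star y) p → C y → ∀ i, Commute y (r i)) ∧ ∀ i, P (r i)

theorem Spec_sum_mul {ι : Type} [Fintype ι] {r : ι → Alg M} (hr : ∀ i, IsStarProjection (r i))
    (ho : ∀ i j, i ≠ j → r i * r j = 0) (i : ι) : (∑ j, r j) * r i = r i := by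
  rw [Finset.sum_mul, Finset.sum_eq_single i, (hr i).isIdempotentElem.eq]
  · exact fun j _ hj => ho j i hj
  · simp

theorem Spec_mul_sum {ι : Type} [Fintype ι] {r : ι → Alg M} (hr : ∀ i, IsStarProjection (r i))
    (ho : ∀ i j, i ≠ j → r i * r j = 0) (i : ι) : r i * ∑ j, r j = r i := by
  rw [Finset.mul_sum, Finset.sum_eq_single i, (hr i).isIdempotentElem.eq]
  · exact fun j _ hj => ho i j hj.symm
  · simp

theorem SpecPart.triv {C : Alg M → Prop} {p : Alg M} {P : Alg M → Prop} (hp : IsStarProjection p)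
    (h : P p) : SpecPart C p P :=
  ⟨Unit, inferInstance, fun _ => p, fun _ => hp, fun _ _ h => absurd rfl h, by simp,
    fun _ h _ _ _ => h, fun _ => h⟩

theorem SpecPart.mono {C : Alg M → Prop} {p : Alg M} {P Q : Alg M → Prop} (h : SpecPart C p P)
    (hPQ : ∀ r, p * r = r → P r → Q r) : SpecPart C p Q := by
  obtain ⟨ι, _, r, h1, h2, rfl, h4, h5⟩ := h
  exact ⟨ι, _, r, h1, h2, rfl, h4, fun i => hPQ _ (Spec_sum_mul h1 h2 i) (h5 i)⟩

theorem SpecPart.refine {C : Alg M → Prop} (hC : ∀ y, C y → C (star y)) {p : Alg M}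
    {P Q : Alg M → Prop} (h : SpecPart C p P)
    (hPQ : ∀ r, IsStarProjection r → p * r = r → P r → SpecPart C r Q) : SpecPart C p Q := by
  classical
  obtain ⟨ι, _, r, h1, h2, rfl, h4, h5⟩ := h
  choose κ inst r' g1 g2 g3 g4 g5 using fun i => hPQ (r i) (h1 i) (Spec_sum_mul h1 h2 i) (h5 i)
  refine ⟨Σ i, κ i, inferInstance, fun a => r' a.1 a.2, fun a => g1 _ _, ?_, ?_, ?_, fun a => g5 _ _⟩
  · rintro ⟨i, j⟩ ⟨i', j'⟩ hne
    by_cases hi : i = i'
    · subst hi
      exact g2 i j j' fun e => hne (by rw [e])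
    · have e1 := Spec_mul_sum (g1 i) (g2 i) j
      have e2 := Spec_sum_mul (g1 i') (g2 i') j'
      rw [g3] at e1 e2
      dsimp only
      rw [← e1, ← e2, mul_assoc, ← mul_assoc (r i), h2 i i' hi, zero_mul, mul_zero]
  · rw [Fintype.sum_sigma]
    exact Finset.sum_congr rfl fun i _ => g3 i
  · intro y hy hy' hCy a
    exact g4 a.1 y (h4 y hy hy' hCy a.1) (h4 _ hy' (by rwa [star_star]) (hC y hCy) a.1) hCy a.2

/-- Lower bound for the numerical range on the range of `r`. -/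
def SpecLo (x r : Alg M) (a : ℝ) : Prop :=
  ∀ ζ, a * ‖(r : H →L[ℂ] H) ζ‖ ^ 2 ≤ SpecQ x ((r : H →L[ℂ] H) ζ)

/-- Upper bound for the numerical range on the range of `r`. -/
def SpecHi (x r : Alg M) (a : ℝ) : Prop :=
  ∀ ζ, SpecQ x ((r : H →L[ℂ] H) ζ) ≤ a * ‖(r : H →L[ℂ] H) ζ‖ ^ 2

theorem SpecLo.sub {x r r' : Alg M} {a : ℝ} (h : SpecLo x r a) (e : r * r' = r') : SpecLo x r' a :=
  fun ζ => by
    have := h ((r' : H →L[ℂ] H) ζ)
    rwa [← Alg.mul_apply r r', e] at this

theorem SpecHi.sub {x r r' : Alg M} {a : ℝ} (h : SpecHi x r a) (e : r * r' = r') : SpecHi x r' a :=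
  fun ζ => by
    have := h ((r' : H →L[ℂ] H) ζ)
    rwa [← Alg.mul_apply r r', e] at this

theorem Spec_two {C : Alg M → Prop} {x p : Alg M} (hx : IsSelfAdjoint x)
    (hC : ∀ y, C y → Commute y x ∧ Commute (star y) x) (hp : IsStarProjection p) (t : ℝ) :
    SpecPart C p fun r => SpecLo x r t ∨ SpecHi x r t := by
  obtain ⟨q, hq, hqp, h1, h2, h3⟩ := exists_split hx hp t
  have hpq : p * q = q := by
    simpa [hp.isSelfAdjoint.star_eq, hq.isSelfAdjoint.star_eq] using congrArg star hqp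
  refine ⟨Bool, inferInstance, fun b => bif b then q else p - q, ?_, ?_, by simp, ?_, ?_⟩
  · rintro (_ | _)
    · exact hq.sub_of_mul_eq_left hp hqp
    · exact hq
  · rintro (_ | _) (_ | _) h
    · exact absurd rfl h
    · simp [sub_mul, hpq, hq.isIdempotentElem.eq]
    · simp [mul_sub, hqp, hq.isIdempotentElem.eq]
    · exact absurd rfl h
  · intro y hy hy' hCy
    have := h1 y hy hy' (hC y hCy).1 (hC y hCy).2
    rintro (_ | _)
    · exact hy.sub_right this
    · exact this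
  · rintro (_ | _)
    · exact Or.inr h3
    · exact Or.inl h2

theorem Spec_one {C : Alg M → Prop} (hC' : ∀ y, C y → C (star y)) {x : Alg M} (hx : IsSelfAdjoint x)
    (hC : ∀ y, C y → Commute y x ∧ Commute (star y) x) (ε a : ℝ) (n : ℕ) :
    ∀ p : Alg M, IsStarProjection p → SpecLo x p a → SpecHi x p (a + n * ε + ε) →
      SpecPart C p fun r => ∃ l, SpecLo x r l ∧ SpecHi x r (l + ε) := by
  induction n with
  | zero => exact fun p hp h1 h2 => SpecPart.triv hp ⟨a, h1, by simpa using h2⟩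
  | succ n ih =>
    intro p hp h1 h2
    refine (Spec_two hx hC hp (a + n * ε + ε)).refine hC' fun r hr hpr h => ?_
    rcases h with h | h
    · refine SpecPart.triv hr ⟨_, h, ?_⟩
      have := h2.sub hpr
      push_cast at this
      rwa [show a + (n + 1) * ε + ε = a + n * ε + ε + ε by ring] at this
    · exact ih r hr (h1.sub hpr) h

theorem Spec_one' {C : Alg M → Prop} (hC' : ∀ y, C y → C (star y)) {x : Alg M}
    (hx : IsSelfAdjoint x) (hC : ∀ y, C y → Commute y x ∧ Commute (star y) x) {ε : ℝ} (hε : 0 < ε)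
    {p : Alg M} (hp : IsStarProjection p) :
    SpecPart C p fun r => ∃ l, SpecLo x r l ∧ SpecHi x r (l + ε) := by
  obtain ⟨n, hn⟩ := exists_nat_ge (2 * ‖x‖ / ε)
  rw [div_le_iff₀ hε] at hn
  refine Spec_one hC' hx hC ε (-‖x‖) n p hp (fun ζ => ?_) fun ζ => ?_
  · have := (abs_le.1 (abs_SpecQ_le x ((p : H →L[ℂ] H) ζ))).1
    linarith
  · refine (abs_le.1 (abs_SpecQ_le x ((p : H →L[ℂ] H) ζ))).2.trans ?_
    exact mul_le_mul_of_nonneg_right (by linarith) (sq_nonneg _)

theorem Spec_norm_of_range {x r : Alg M} (hx : IsSelfAdjoint x) (hr : IsStarProjection r) {l ε : ℝ}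
    (hε : 0 ≤ ε) (h1 : SpecLo x r l) (h2 : SpecHi x r (l + ε)) : ‖r * x * r - (l : ℂ) • r‖ ≤ ε := by
  have hrs := hr.isSelfAdjoint.star_eq
  refine Spec_norm_le ?_ hε fun ζ => ?_
  · rw [IsSelfAdjoint, star_sub, star_mul, star_mul, star_smul, hrs, hx.star_eq, mul_assoc]
    simp
  · rw [SpecQ_sub, SpecQ_smul, SpecQ_proj hr, ← SpecQ_apply hr.isSelfAdjoint]
    have h3 := h1 ζ
    have h4 := h2 ζ
    have h5 : ε * ‖(r : H →L[ℂ] H) ζ‖ ^ 2 ≤ ε * ‖ζ‖ ^ 2 :=
      mul_le_mul_of_nonneg_left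
        (pow_le_pow_left₀ (norm_nonneg _) (Spec_norm_proj_apply_le hr ζ) 2) hε
    rw [abs_of_nonneg (by linarith)]
    linarith

/-- Spectral partitions for finitely many selfadjoint elements.  Recipe: for one `x` and a
projection `p` with numerical range of `p x p` in `[a, a + 2^k ε]`, induct on `k` cutting at the
midpoint with `exists_split` (index type `ι ⊕ ι'`); numerical range in `[a, a + ε]` gives
`‖r x r - a r‖ ≤ ε` (selfadjoint: `ContinuousLinearMap.norm_eq_iSup_rayleighQuotient` or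
positivity of `r x r - a r` and `(a + ε) r - r x r`).  Then induct on `S`, refining every piece
(index type a sigma type); the estimate passes to subprojections `r' = r' r`. -/
theorem exists_partition (S : Finset (Alg M)) (hS : ∀ x ∈ S, IsSelfAdjoint x) {p : Alg M}
    (hp : IsStarProjection p) {ε : ℝ} (hε : 0 < ε) :
    ∃ (ι : Type) (_ : Fintype ι) (r : ι → Alg M), (∀ i, IsStarProjection (r i)) ∧
      (∀ i j, i ≠ j → r i * r j = 0) ∧ ∑ i, r i = p ∧
      (∀ y, Commute y p → Commute (star y) p → (∀ x ∈ S, Commute y x ∧ Commute (star y) x) →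
        ∀ i, Commute y (r i)) ∧
      ∀ i, ∀ x ∈ S, ∃ l : ℝ, ‖r i * x * r i - (l : ℂ) • r i‖ ≤ ε := by
  classical
  have hC' : ∀ y : Alg M, (∀ x ∈ S, Commute y x ∧ Commute (star y) x) →
      ∀ x ∈ S, Commute (star y) x ∧ Commute (star (star y)) x := fun y hy x hx => by
    rw [star_star]; exact (hy x hx).symm
  have key : ∀ S' : Finset (Alg M), S' ⊆ S →
      SpecPart (fun y => ∀ x ∈ S, Commute y x ∧ Commute (star y) x) p
        fun r => ∀ x ∈ S', ∃ l, SpecLo x r l ∧ SpecHi x r (l + ε) := by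
    intro S'
    induction S' using Finset.induction_on with
    | empty => exact fun _ => SpecPart.triv hp (by simp)
    | insert x S' _ ih =>
      intro hsub
      have hx : x ∈ S := hsub (Finset.mem_insert_self _ _)
      refine (ih ((Finset.subset_insert _ _).trans hsub)).refine hC' fun r hr _ h => ?_
      refine (Spec_one' hC' (hS x hx) (fun y hy => hy x hx) hε hr).mono fun r' hr' h' z hz => ?_
      rcases Finset.mem_insert.1 hz with rfl | hz
      · exact h'
      · obtain ⟨l, h1, h2⟩ := h z hz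
        exact ⟨l, h1.sub hr', h2.sub hr'⟩
  obtain ⟨ι, inst, r, h1, h2, h3, h4, h5⟩ := key S subset_rfl
  refine ⟨ι, inst, r, h1, h2, h3, h4, fun i x hx => ?_⟩
  obtain ⟨l, h6, h7⟩ := h5 i x hx
  exact ⟨l, Spec_norm_of_range (hS x hx) (h1 i) hε.le h6 h7⟩

/-- Random signs: the pinching element has norm at most one.  Recipe:
`∑ i, β (r i) (r i)` is the average over signs of `β u u`, `u = ∑ ± r i`, `‖u‖ ≤ 1`
(`R124.GT.sum_bilin` in `R124/GT.lean`, or prove it directly). -/
theorem norm_sum_elem_le {A : Type*} [CStarAlgebra A] {ι : Type} [Fintype ι] (r : ι → A)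
    (hr : ∀ i, IsStarProjection (r i)) (ho : ∀ i j, i ≠ j → r i * r j = 0) :
    ‖∑ i, Dg.elem (r i) (r i)‖ ≤ 1 := by
  classical
  have hsq : ∀ (ε : ι → Bool) i, R124.GT.sg ε i * R124.GT.sg ε i = 1 := fun ε i => by
    unfold R124.GT.sg; split_ifs <;> simp
  have hP : IsStarProjection (∑ i, r i) := by
    constructor
    · rw [IsIdempotentElem, Finset.sum_mul_sum]
      refine Finset.sum_congr rfl fun i _ => ?_
      rw [Finset.sum_eq_single i, (hr i).isIdempotentElem.eq]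
      · exact fun j _ hj => ho i j hj.symm
      · simp
    · rw [IsSelfAdjoint, star_sum]
      exact Finset.sum_congr rfl fun i _ => (hr i).isSelfAdjoint.star_eq
  have hu : ∀ ε : ι → Bool, ‖∑ i, R124.GT.sg ε i • r i‖ ≤ 1 := by
    intro ε
    have e : star (∑ i, R124.GT.sg ε i • r i) * (∑ i, R124.GT.sg ε i • r i) = ∑ i, r i := by
      rw [star_sum, Finset.sum_mul_sum]
      refine Finset.sum_congr rfl fun i _ => ?_
      rw [Finset.sum_eq_single i]
      · rw [star_smul, (hr i).isSelfAdjoint.star_eq, star_trivial, smul_mul_smul_comm, hsq,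
          (hr i).isIdempotentElem.eq, one_smul]
      · intro j _ hj
        rw [star_smul, (hr i).isSelfAdjoint.star_eq, smul_mul_smul_comm, ho i j hj.symm, smul_zero]
      · simp
    have h1 := CStarRing.norm_star_mul_self (x := ∑ i, R124.GT.sg ε i • r i)
    rw [e] at h1
    have := hP.norm_le
    nlinarith [norm_nonneg (∑ i, R124.GT.sg ε i • r i)]
  refine ContinuousLinearMap.opNorm_le_bound _ zero_le_one fun β => ?_
  have h1 := R124.GT.sum_bilin (fun i j => β (r i) (r j))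
  have h2 : ∀ ε : ι → Bool, ∑ i, ∑ j, (R124.GT.sg ε i * R124.GT.sg ε j) • β (r i) (r j) =
      β (∑ i, R124.GT.sg ε i • r i) (∑ i, R124.GT.sg ε i • r i) := by
    intro ε
    simp only [map_sum, ContinuousLinearMap.map_smul_of_tower, ContinuousLinearMap.sum_apply,
      ContinuousLinearMap.smul_apply, Finset.smul_sum, smul_smul]
    rw [Finset.sum_comm]
  simp only [h2] at h1
  have hN : (0 : ℝ) < Fintype.card (ι → Bool) := by exact_mod_cast Fintype.card_pos
  have h3 : ‖∑ ε : ι → Bool, β (∑ i, R124.GT.sg ε i • r i) (∑ i, R124.GT.sg ε i • r i)‖ ≤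
      Fintype.card (ι → Bool) * ‖β‖ := by
    refine (norm_sum_le _ _).trans ?_
    rw [← nsmul_eq_mul, ← Finset.card_univ]
    refine Finset.sum_le_card_nsmul _ _ _ fun ε _ => (β.norm_apply_le _ _).trans ?_
    have := hu ε
    calc _ ≤ ‖β‖ * 1 * 1 := by gcongr
      _ = _ := by ring
  rw [h1, norm_smul, Real.norm_of_nonneg hN.le] at h3
  rw [one_mul, ContinuousLinearMap.sum_apply]
  exact le_of_mul_le_mul_left h3 hN

end

end Crest.Agent.R121
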