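import Crest.Agent.R121.Mat
import Crest.Agent.R121.Spec
import Crest.Agent.R124.StepAAux

/-!
# Row 121: every unitary becomes flat after a diagonal twist and a Fourier matrix
-/

open MeasureTheory
open scoped InnerProductSpace ComplexOrder Topology

set_option linter.unusedSectionVars false

namespace Crest.Agent.R121

open R124 (UG haar tau)

noncomputable section

variable {A : Type*} [CStarAlgebra A] {D : Type} [Fintype D] [DecidableEq D]
  (T : TrState A) (ρ : Matrix D D ℂ →⋆ₐ[ℂ] A)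

/-- the real inner product -/
def Twist_ip (x y : A) : ℝ := (T.τ (star x * y)).re

theorem Twist_ip_self (x : A) : Twist_ip T x x = T.n2 x ^ 2 := (T.n2_sq x).symm

theorem Twist_ip_le (x y : A) : Twist_ip T x y ≤ T.n2 x * T.n2 y :=
  (Complex.re_le_norm _).trans (T.norm_τ_star_mul_le x y)

theorem Twist_ip_sum {ι κ : Type*} [Fintype ι] [Fintype κ] (c : ι → ℝ) (x : ι → A) (d : κ → ℝ)
    (y : κ → A) : Twist_ip T (∑ p, (c p : ℂ) • x p) (∑ q, (d q : ℂ) • y q) =
      ∑ p, ∑ q, c p * d q * Twist_ip T (x p) (y q) := by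
  unfold Twist_ip
  rw [star_sum, Finset.sum_mul, map_sum, Complex.re_sum]
  refine Finset.sum_congr rfl fun p _ => ?_
  rw [Finset.mul_sum, map_sum, Complex.re_sum]
  refine Finset.sum_congr rfl fun q _ => ?_
  rw [star_smul, smul_mul_assoc, mul_smul_comm, smul_smul, map_smul, RCLike.star_def,
    Complex.conj_ofReal, ← Complex.ofReal_mul, smul_eq_mul, Complex.re_ofReal_mul]

theorem Twist_ip_sum' {ι κ : Type*} [Fintype ι] [Fintype κ] (x : ι → A) (y : κ → A) :
    Twist_ip T (∑ p, x p) (∑ q, y q) = ∑ p, ∑ q, Twist_ip T (x p) (y q) := by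
  simpa using Twist_ip_sum T (fun _ => 1) x (fun _ => 1) y

theorem Twist_chaos {I : Type} [Fintype I] [DecidableEq I] (v : I → I → A) :
    ∑ ε : I → Bool, T.n2 (∑ i, ∑ j, ((R124.sg (ε i) * R124.sg (ε j) : ℝ) : ℂ) • v i j) ^ 2 ≤
      2 ^ Fintype.card I * (T.n2 (∑ i, v i i) ^ 2 + 2 * ∑ i, ∑ j, T.n2 (v i j) ^ 2) := by
  have h1 : ∀ ε : I → Bool,
      T.n2 (∑ i, ∑ j, ((R124.sg (ε i) * R124.sg (ε j) : ℝ) : ℂ) • v i j) ^ 2 =
      ∑ i, ∑ j, ∑ k, ∑ l, R124.sg (ε i) * R124.sg (ε j) * (R124.sg (ε k) * R124.sg (ε l)) *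
        Twist_ip T (v i j) (v k l) := by
    intro ε
    have := Twist_ip_sum T (fun p : I × I => R124.sg (ε p.1) * R124.sg (ε p.2))
      (fun p => v p.1 p.2) (fun p : I × I => R124.sg (ε p.1) * R124.sg (ε p.2)) (fun p => v p.1 p.2)
    rw [Twist_ip_self] at this
    simpa only [Fintype.sum_prod_type] using this
  have h2 : ∑ ε : I → Bool,
      T.n2 (∑ i, ∑ j, ((R124.sg (ε i) * R124.sg (ε j) : ℝ) : ℂ) • v i j) ^ 2 =
      ∑ i, ∑ j, ∑ k, ∑ l, (∑ ε : I → Bool,
        R124.sg (ε i) * R124.sg (ε j) * (R124.sg (ε k) * R124.sg (ε l))) *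
          Twist_ip T (v i j) (v k l) := by
    simp only [h1, Finset.sum_mul]
    rw [Finset.sum_comm]
    refine Finset.sum_congr rfl fun i _ => ?_
    rw [Finset.sum_comm]
    refine Finset.sum_congr rfl fun j _ => ?_
    rw [Finset.sum_comm]
    refine Finset.sum_congr rfl fun k _ => ?_
    rw [Finset.sum_comm]
  have hA : ∑ i, ∑ j, ∑ k, ∑ l, (if j = i ∧ l = k then (1 : ℝ) else 0) *
      Twist_ip T (v i j) (v k l) = T.n2 (∑ i, v i i) ^ 2 := by
    rw [← Twist_ip_self, Twist_ip_sum']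
    simp [ite_and]
  have hB : ∑ i, ∑ j, ∑ k, ∑ l, (if k = i ∧ l = j then (1 : ℝ) else 0) *
      Twist_ip T (v i j) (v k l) = ∑ i, ∑ j, T.n2 (v i j) ^ 2 := by
    simp only [ite_and, ite_mul, one_mul, zero_mul, Finset.sum_ite_irrel, Finset.sum_ite_eq',
      Finset.mem_univ, if_true, Finset.sum_const_zero, Twist_ip_self]
  have hC : ∑ i, ∑ j, ∑ k, ∑ l, (if k = j ∧ l = i then (1 : ℝ) else 0) *
      Twist_ip T (v i j) (v k l) ≤ ∑ i, ∑ j, T.n2 (v i j) ^ 2 := by
    simp only [ite_and, ite_mul, one_mul, zero_mul, Finset.sum_ite_irrel, Finset.sum_ite_eq',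
      Finset.mem_univ, if_true, Finset.sum_const_zero]
    have h3 : ∀ i j, Twist_ip T (v i j) (v j i) ≤ (T.n2 (v i j) ^ 2 + T.n2 (v j i) ^ 2) / 2 := by
      intro i j
      have h4 := Twist_ip_le T (v i j) (v j i)
      nlinarith [sq_nonneg (T.n2 (v i j) - T.n2 (v j i))]
    have h5 : ∑ i, ∑ j, T.n2 (v j i) ^ 2 = ∑ i, ∑ j, T.n2 (v i j) ^ 2 := Finset.sum_comm
    calc _ ≤ ∑ i, ∑ j, (T.n2 (v i j) ^ 2 + T.n2 (v j i) ^ 2) / 2 :=
          Finset.sum_le_sum fun i _ => Finset.sum_le_sum fun j _ => h3 i j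
      _ = _ := by
        simp only [← Finset.sum_div, Finset.sum_add_distrib, h5]; ring
  have hD : 0 ≤ ∑ i, ∑ j, ∑ k, ∑ l,
      (if j = i ∧ k = i ∧ l = i then (1 : ℝ) else 0) * Twist_ip T (v i j) (v k l) := by
    refine Finset.sum_nonneg fun i _ => Finset.sum_nonneg fun j _ => Finset.sum_nonneg fun k _ =>
      Finset.sum_nonneg fun l _ => ?_
    split_ifs with h
    · obtain ⟨rfl, rfl, rfl⟩ := h
      rw [one_mul, Twist_ip_self]
      exact sq_nonneg _
    · simp
  rw [h2]
  simp only [R124.sum_sg_four]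
  simp only [mul_assoc, ← Finset.mul_sum, add_mul, sub_mul, Finset.sum_add_distrib,
    Finset.sum_sub_distrib]
  refine mul_le_mul_of_nonneg_left ?_ (by positivity)
  rw [hA, hB]
  linarith

theorem Twist_norm_le_one {ι : Type*} [Fintype ι] {a : ι → A} (h1 : ∑ k, a k * star (a k) = 1)
    (k : ι) : ‖a k‖ ≤ 1 := by
  let _ := CStarAlgebra.spectralOrder A
  have _ := CStarAlgebra.spectralOrderedRing A
  have h2 : a k * star (a k) ≤ 1 := by
    rw [← h1]
    exact Finset.single_le_sum (f := fun k => a k * star (a k))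
      (fun k _ => mul_star_self_nonneg _) (Finset.mem_univ k)
  have h3 : ‖a k * star (a k)‖ ≤ 1 :=
    (CStarAlgebra.norm_le_one_iff_of_nonneg _ (mul_star_self_nonneg _)).2 h2
  rw [CStarRing.norm_self_mul_star] at h3
  nlinarith [norm_nonneg (a k)]

theorem Twist_n2_conj {g : A} (hg : g ∈ unitary A) (x : A) : T.n2 (g * x * star g) = T.n2 x := by
  rw [T.n2_mul_unitary _ (Unitary.star_mem hg), T.n2_unitary_mul hg]

theorem Twist_n2_star_mul_self_le {a : A} (ha : ‖a‖ ≤ 1) : T.n2 (star a * a) ≤ T.n2 a :=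
  (T.n2_mul_le_left _ _).trans (mul_le_of_le_one_left (T.n2_nonneg _) (by rwa [norm_star]))

/-- two distinct coordinates are independent under a product weight -/
theorem Twist_indep {κ : Type} [Fintype κ] {w : κ → ℝ} (hw : ∑ x, w x = 1) {k l : D} (hkl : k ≠ l)
    (f : κ → κ → ℝ) :
    ∑ s : D → κ, (∏ j, w (s j)) * f (s k) (s l) = ∑ x, ∑ y, w x * w y * f x y := by
  classical
  have key : ∀ x y, ∑ s : D → κ, (∏ j, w (s j)) *
      ((if s k = x then 1 else 0) * (if s l = y then 1 else 0)) = w x * w y := fun x y => by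
    have h1 := Finset.prod_univ_sum (fun _ : D => (Finset.univ : Finset κ))
      fun j z => w z * ((if j = k then (if z = x then 1 else 0) else 1) *
        (if j = l then (if z = y then 1 else 0) else 1))
    rw [Fintype.piFinset_univ] at h1
    simp only [Finset.prod_mul_distrib, Finset.prod_ite_eq', Finset.mem_univ, if_true] at h1
    rw [← h1]
    have h2 : ∀ j, ∑ z, w z * ((if j = k then (if z = x then 1 else 0) else 1) *
        (if j = l then (if z = y then 1 else 0) else 1)) =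
        (if j = k then w x else 1) * (if j = l then w y else 1) := fun j => by
      by_cases hk : j = k
      · have hl : j ≠ l := hk ▸ hkl
        simp [hk, hkl]
      · by_cases hl : j = l
        · simp [hl, hkl.symm]
        · simp [hk, hl, hw]
    simp only [h2, Finset.prod_mul_distrib, Finset.prod_ite_eq', Finset.mem_univ, if_true]
  simp only [← key, Finset.sum_mul]
  rw [Finset.sum_comm]
  conv_rhs => enter [2, y]; rw [Finset.sum_comm]
  rw [Finset.sum_comm (s := Finset.univ) (t := (Finset.univ : Finset (D → κ)))]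
  refine Finset.sum_congr rfl fun s _ => ?_
  simp

/-- product of two diagonal elements -/
theorem Twist_diag_mul (s t : D → ℂ) (u v : D → A) (hu : ∀ k i j, Commute (eA ρ i j) (u k)) :
    (∑ k, s k • (eA ρ k k * u k)) * ∑ k, t k • (eA ρ k k * v k) =
      ∑ k, (s k * t k) • (eA ρ k k * (u k * v k)) := by
  rw [Finset.sum_mul]
  refine Finset.sum_congr rfl fun k _ => ?_
  have h : ∀ l, eA ρ k k * u k * (eA ρ l l * v l) = eA ρ k k * eA ρ l l * (u k * v l) := fun l => by
    rw [mul_assoc, ← mul_assoc (u k), ← (hu k l l).eq]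
    simp only [mul_assoc]
  rw [Finset.mul_sum, Finset.sum_eq_single k]
  · rw [smul_mul_assoc, mul_smul_comm, smul_smul, h, eA_mul_eA_same]
  · intro l _ hl
    rw [smul_mul_assoc, mul_smul_comm, h, eA_mul_eA, if_neg (Ne.symm hl), zero_mul, smul_zero,
      smul_zero]
  · simp

theorem Twist_entry_diag (s : D → ℂ) (u : D → A) (hu : ∀ k i j, Commute (eA ρ i j) (u k))
    (k l : D) : entry ρ (∑ j, s j • (eA ρ j j * u j)) k l = if k = l then s k • u k else 0 := by
  have h1 : ∀ m, eA ρ m k * (∑ j, s j • (eA ρ j j * u j)) * eA ρ l m =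
      s k • u k * (eA ρ m k * eA ρ l m) := fun m => by
    rw [Finset.mul_sum, Finset.sum_eq_single k]
    · rw [mul_smul_comm, ← mul_assoc, eA_mul_eA_same, (hu k m k).eq, smul_mul_assoc,
        smul_mul_assoc, mul_assoc]
    · intro j _ hj
      rw [mul_smul_comm, ← mul_assoc, eA_mul_eA, if_neg (Ne.symm hj), zero_mul, smul_zero]
    · simp
  simp only [entry, h1, eA_mul_eA]
  split_ifs
  · rw [← Finset.mul_sum, sum_eA_diag, mul_one]
  · simp

theorem Twist_commute_star {x : A} (h : ∀ i j, Commute (eA ρ i j) x) (i j : D) :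
    Commute (eA ρ i j) (star x) := by
  have := (h j i).star_star
  rwa [star_eA] at this

/-- Fourth moment over random signs.  Recipe: expand
`n2 (x⋆ x)² = re τ (x⋆ x x⋆ x)`; `∑ ε, ε_i ε_j ε_k ε_l` vanishes unless the indices are paired, so
the average is `P₁ + P₂ + P₃ - 2 P₀` with `P₁ = τ ((∑ y⋆ y)²)`, `P₂ = τ ((∑ y y⋆)²)`,
`P₃ = ∑ k l, τ (y_k⋆ y_l y_k⋆ y_l)`, `|P₃| ≤ ∑ k l, n2 (y_k⋆ y_l)² = P₂`,
`P₀ = ∑ k, τ ((y_k⋆ y_k)²) ≥ 0`.  (Alternatively: induction on the index set with one sign at a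
time; `R124/StepAAux.lean` has sign moments.) -/
theorem twist_signs {ι : Type} [Fintype ι] [DecidableEq ι] (y : ι → A) :
    ∑ ε : ι → Bool, T.n2 (star (∑ k, (R124.GT.sg ε k : ℂ) • y k) *
        ∑ k, (R124.GT.sg ε k : ℂ) • y k) ^ 2 ≤
      Fintype.card (ι → Bool) * (T.n2 (∑ k, star (y k) * y k) ^ 2 +
        2 * T.n2 (∑ k, y k * star (y k)) ^ 2) := by
  have h1 : ∀ ε : ι → Bool, star (∑ k, (R124.GT.sg ε k : ℂ) • y k) *
      ∑ k, (R124.GT.sg ε k : ℂ) • y k =
      ∑ i, ∑ j, ((R124.sg (ε i) * R124.sg (ε j) : ℝ) : ℂ) • (star (y i) * y j) := fun ε => by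
    rw [star_sum, Finset.sum_mul]
    refine Finset.sum_congr rfl fun i _ => ?_
    rw [Finset.mul_sum]
    refine Finset.sum_congr rfl fun j _ => ?_
    rw [star_smul, smul_mul_assoc, mul_smul_comm, smul_smul, RCLike.star_def,
      Complex.conj_ofReal, ← Complex.ofReal_mul]
    rfl
  have h2 : ∑ i, ∑ j, T.n2 (star (y i) * y j) ^ 2 = T.n2 (∑ k, y k * star (y k)) ^ 2 := by
    rw [← Twist_ip_self, Twist_ip_sum']
    refine Finset.sum_congr rfl fun i _ => Finset.sum_congr rfl fun j _ => ?_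
    rw [T.n2_sq, Twist_ip, star_mul, star_star, star_mul, star_star, mul_assoc, T.tr]
    simp only [mul_assoc]
  simp only [h1]
  have h3 := Twist_chaos T fun i j => star (y i) * y j
  rw [h2] at h3
  simpa using h3

/-- Rows become columns after averaging.  Recipe: `TrState.exists_avg` for `G` = unitaries
commuting with all `eA ρ k l` and `y b = H b = ∑ k, star (a b k) * a b k`, with a tiny `ε`.
`X = ∑ w g H g⋆` almost commutes (in `n2`) with `G`, hence with each `a b k`
(`exists_four_cu` with `e = 1`; its last clause keeps us in `G`).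
`τ (X X) = ∑ w τ (g⋆ X g H) ≈ τ (X H) = ∑ k, τ (a X a⋆) ≈ τ (X ∑ a a⋆) = τ X = τ H = 1`. -/
theorem twist_avg (a : D → D → A) (hc : ∀ b k i j, Commute (eA ρ i j) (a b k))
    (h1 : ∀ b, ∑ k, a b k * star (a b k) = 1) :
    ∃ (κ : Type) (_ : Fintype κ) (g : κ → A) (w : κ → ℝ), (∀ s, g s ∈ unitary A) ∧
      (∀ s i j, Commute (eA ρ i j) (g s)) ∧ (∀ s, 0 ≤ w s) ∧ ∑ s, w s = 1 ∧
      ∀ b, T.n2 (∑ s, (w s : ℂ) • (g s * (∑ k, star (a b k) * a b k) * star (g s))) ^ 2 ≤ 2 := by
  set ε : ℝ := (3 * Fintype.card D + 1 : ℝ)⁻¹ with hεdef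
  have hε : 0 < ε := by positivity
  have hε1 : ε * (3 * Fintype.card D + 1) = 1 := inv_mul_cancel₀ (by positivity)
  obtain ⟨κ, _, g, w, hg, hw0, hw1, hav⟩ := T.exists_avg
    {g | g ∈ unitary A ∧ ∀ i j, Commute (eA ρ i j) g}
    ⟨one_mem _, fun _ _ => Commute.one_right _⟩ (fun g hg => hg.1)
    (fun g hg h hh => ⟨mul_mem hg.1 hh.1, fun i j => (hg.2 i j).mul_right (hh.2 i j)⟩)
    (fun b => ∑ k, star (a b k) * a b k) hε
  refine ⟨κ, inferInstance, g, w, fun s => (hg s).1, fun s => (hg s).2, hw0, hw1, fun b => ?_⟩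
  have hn := Twist_norm_le_one (h1 b)
  have hav' := fun u hu => hav u hu b
  set H := ∑ k, star (a b k) * a b k with hH
  set X := ∑ s, (w s : ℂ) • (g s * H * star (g s)) with hX
  have hHs : star H = H := by simp only [hH, star_sum, star_mul, star_star]
  have hXs : star X = X := by
    simp only [hX, star_sum, star_smul, star_mul, star_star, hHs, RCLike.star_def,
      Complex.conj_ofReal, mul_assoc]
  have hH2 : T.n2 H ≤ Fintype.card D := by
    refine (T.n2_sum_le _ _).trans ?_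
    rw [← Finset.card_univ, ← nsmul_one, ← Finset.sum_const]
    exact Finset.sum_le_sum fun k _ =>
      (Twist_n2_star_mul_self_le T (hn k)).trans ((T.n2_le_norm _).trans (hn k))
  have hτH : T.τ H = 1 := by
    rw [hH, map_sum, ← T.one, ← h1 b, map_sum]
    exact Finset.sum_congr rfl fun k _ => T.tr _ _
  have hτX : T.τ X = 1 := by
    have h2 : ∀ s, T.τ ((w s : ℂ) • (g s * H * star (g s))) = w s := fun s => by
      rw [map_smul, T.tr, ← mul_assoc, (hg s).1.1, one_mul, hτH, smul_eq_mul, mul_one]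
    rw [hX, map_sum]
    simp only [h2]
    rw [← Complex.ofReal_sum, hw1, Complex.ofReal_one]
  have hcomm : ∀ k, T.n2 (a b k * X - X * a b k) ≤ 2 * ε := fun k => by
    obtain ⟨u, c, hu, hac, hc2, hcu⟩ := exists_four_cu (IsStarProjection.one A) (one_mul (a b k))
      (mul_one _)
    have hu' : ∀ i, u i ∈ unitary A := fun i => isCU_one_iff.1 (hu i)
    have h2 : ∀ i, T.n2 (u i * X - X * u i) ≤ ε := fun i => by
      have h3 := hav' (u i) ⟨hu' i, fun p q => hcu _ (Commute.one_right _) (hc b k p q)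
        (Twist_commute_star ρ (hc b k) p q) i⟩
      rwa [← T.n2_mul_unitary _ (hu' i), sub_mul, mul_assoc _ (star (u i)), (hu' i).1,
        mul_one] at h3
    have h3 : a b k * X - X * a b k = ∑ i, c i • (u i * X - X * u i) := by
      rw [hac]
      simp only [Finset.sum_mul, Finset.mul_sum, smul_sub, smul_mul_assoc, mul_smul_comm,
        Finset.sum_sub_distrib]
    rw [h3]
    refine (T.n2_sum_le _ _).trans ?_
    calc ∑ i, T.n2 (c i • (u i * X - X * u i)) ≤ ∑ i, ‖c i‖ * ε :=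
          Finset.sum_le_sum fun i _ => by
            rw [T.n2_smul]; exact mul_le_mul_of_nonneg_left (h2 i) (norm_nonneg _)
      _ ≤ 2 * ε := by
          rw [← Finset.sum_mul]
          exact mul_le_mul_of_nonneg_right (by linarith [hn k]) hε.le
  have hXH : (T.τ (X * H)).re ≤ 1 + Fintype.card D * (2 * ε) := by
    have h2 : T.τ (X * H) = T.τ X + ∑ k, T.τ ((a b k * X - X * a b k) * star (a b k)) := by
      have h3 : T.τ X = ∑ k, T.τ (X * (a b k * star (a b k))) := by
        rw [← map_sum, ← Finset.mul_sum, h1 b, mul_one]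
      rw [h3, hH, Finset.mul_sum, map_sum, ← Finset.sum_add_distrib]
      refine Finset.sum_congr rfl fun k _ => ?_
      rw [← mul_assoc, T.tr, sub_mul, map_sub]
      simp only [mul_assoc]
      ring
    rw [h2, hτX, Complex.add_re, Complex.one_re, Complex.re_sum, ← Finset.card_univ,
      ← nsmul_eq_mul, ← Finset.sum_const]
    refine add_le_add_right (Finset.sum_le_sum fun k _ => ?_) _
    refine (Complex.re_le_norm _).trans ((T.norm_τ_mul_le _ _).trans ?_)
    rw [T.n2_star]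
    exact (mul_le_of_le_one_right (T.n2_nonneg _) ((T.n2_le_norm _).trans (hn k))).trans (hcomm k)
  have hs : ∀ s, (T.τ (X * (g s * H * star (g s)))).re ≤ 2 := fun s => by
    have h2 := hav' (star (g s)) ⟨Unitary.star_mem (hg s).1, Twist_commute_star ρ (hg s).2⟩
    rw [star_star] at h2
    have h3 : T.τ (X * (g s * H * star (g s))) =
        T.τ ((star (g s) * X * g s - X) * H) + T.τ (X * H) := by
      rw [← mul_assoc, T.tr, sub_mul, map_sub, sub_add_cancel]
      simp only [mul_assoc]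
    have h4 := (Complex.re_le_norm _).trans (T.norm_τ_mul_le (star (g s) * X * g s - X) H)
    have h5 := mul_le_mul h2 hH2 (T.n2_nonneg _) hε.le
    rw [h3, Complex.add_re]
    nlinarith
  rw [T.n2_sq, hXs]
  conv_lhs => enter [1, 2, 2]; rw [hX]
  rw [Finset.mul_sum, map_sum, Complex.re_sum]
  calc _ ≤ ∑ s, w s * 2 := Finset.sum_le_sum fun s _ => by
        rw [mul_smul_comm, map_smul, smul_eq_mul, Complex.re_ofReal_mul]
        exact mul_le_mul_of_nonneg_left (hs s) (hw0 s)
    _ = 2 := by rw [← Finset.sum_mul, hw1, one_mul]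

/-- Independent choices.  Recipe: average over `s : D → κ` with weights `∏ k, w (s k)`; the
diagonal terms give `∑ k, τ (h_k²) ≤ ∑ k, τ h_k = 1` (`h_k = a_k⋆ a_k`, `‖a_k‖ ≤ 1`), the terms
`k ≠ l` give `τ (X_k X_l)` with `X_k = ∑ w g h_k g⋆`, and
`∑_{k ≠ l} τ (X_k X_l) ≤ τ ((∑ X_k)²) ≤ 2`; some `s` is at most the average. -/
theorem twist_choice (a : D → D → A) (hc : ∀ b k i j, Commute (eA ρ i j) (a b k))
    (h1 : ∀ b, ∑ k, a b k * star (a b k) = 1) :
    ∃ g : D → A, (∀ k, g k ∈ unitary A) ∧ (∀ k i j, Commute (eA ρ i j) (g k)) ∧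
      ∑ b, T.n2 (∑ k, g k * (star (a b k) * a b k) * star (g k)) ^ 2 ≤ 3 * Fintype.card D := by
  obtain ⟨κ, _, g, w, hg, hgc, hw0, hw1, hX⟩ := twist_avg T ρ a hc h1
  set W : (D → κ) → ℝ := fun s => ∏ j, w (s j) with hW
  have hW0 : ∀ s, 0 ≤ W s := fun s => Finset.prod_nonneg fun j _ => hw0 _
  have hW1 : ∑ s, W s = 1 := by
    have h2 := Finset.prod_univ_sum (fun _ : D => (Finset.univ : Finset κ)) fun _ z => w z
    rw [Fintype.piFinset_univ] at h2
    rw [← h2]
    simp [hw1]
  set Z : D → D → κ → A := fun b k x => g x * (star (a b k) * a b k) * star (g x) with hZ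
  have hb : ∀ b, ∑ s, W s * T.n2 (∑ k, Z b k (s k)) ^ 2 ≤ 3 := fun b => by
    have hn := Twist_norm_le_one (h1 b)
    have h2 : ∑ k, T.n2 (star (a b k) * a b k) ^ 2 ≤ 1 := by
      calc _ ≤ ∑ k, T.n2 (a b k) ^ 2 := Finset.sum_le_sum fun k _ =>
            pow_le_pow_left₀ (T.n2_nonneg _) (Twist_n2_star_mul_self_le T (hn k)) 2
        _ = 1 := by
            simp only [T.n2_sq]
            rw [← Complex.re_sum, ← Complex.one_re, ← T.one, ← h1 b, map_sum]
            exact congrArg _ (Finset.sum_congr rfl fun k _ => T.tr _ _)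
    have h3 : T.n2 (∑ k, ∑ x, (w x : ℂ) • Z b k x) ^ 2 ≤ 2 := by
      refine le_trans (le_of_eq ?_) (hX b)
      rw [Finset.sum_comm]
      simp only [hZ, Finset.mul_sum, Finset.sum_mul, Finset.smul_sum]
    have h4 : ∀ k l, ∑ s, W s * Twist_ip T (Z b k (s k)) (Z b l (s l)) ≤
        Twist_ip T (∑ x, (w x : ℂ) • Z b k x) (∑ x, (w x : ℂ) • Z b l x) +
          if k = l then T.n2 (star (a b k) * a b k) ^ 2 else 0 := fun k l => by
      split_ifs with hkl
      · subst hkl
        simp only [Twist_ip_self, hZ, Twist_n2_conj T (hg _)]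
        rw [← Finset.sum_mul, hW1, one_mul]
        exact le_add_of_nonneg_left (sq_nonneg _)
      · rw [add_zero, Twist_ip_sum]
        exact (Twist_indep hw1 hkl fun x y => Twist_ip T (Z b k x) (Z b l y)).le
    rw [← Twist_ip_self, Twist_ip_sum'] at h3
    simp only [← Twist_ip_self T (∑ _, _), Twist_ip_sum', Finset.mul_sum]
    rw [Finset.sum_comm]
    calc _ ≤ ∑ k, ∑ l, (Twist_ip T (∑ x, (w x : ℂ) • Z b k x) (∑ x, (w x : ℂ) • Z b l x) +
          if k = l then T.n2 (star (a b k) * a b k) ^ 2 else 0) :=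
          Finset.sum_le_sum fun k _ => by
            rw [Finset.sum_comm]
            exact Finset.sum_le_sum fun l _ => h4 k l
      _ ≤ 3 := by
          simp only [Finset.sum_add_distrib, Finset.sum_ite_eq, Finset.mem_univ, if_true]
          linarith
  obtain ⟨s₀, -, hs₀⟩ := Finset.exists_min_image Finset.univ
    (fun s : D → κ => ∑ b, T.n2 (∑ k, Z b k (s k)) ^ 2)
    (Finset.nonempty_of_sum_ne_zero (hW1.trans_ne one_ne_zero))
  refine ⟨fun k => g (s₀ k), fun k => hg _, fun k => hgc _, ?_⟩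
  calc ∑ b, T.n2 (∑ k, Z b k (s₀ k)) ^ 2 = ∑ s, W s * ∑ b, T.n2 (∑ k, Z b k (s₀ k)) ^ 2 := by
        rw [← Finset.sum_mul, hW1, one_mul]
    _ ≤ ∑ s, W s * ∑ b, T.n2 (∑ k, Z b k (s k)) ^ 2 := Finset.sum_le_sum fun s _ =>
        mul_le_mul_of_nonneg_left (hs₀ s (Finset.mem_univ s)) (hW0 s)
    _ = ∑ b, ∑ s, W s * T.n2 (∑ k, Z b k (s k)) ^ 2 := by
        simp only [Finset.mul_sum]
        exact Finset.sum_comm
    _ ≤ ∑ _b : D, (3 : ℝ) := Finset.sum_le_sum fun b _ => hb b
    _ = _ := by rw [Finset.sum_const, Finset.card_univ, nsmul_eq_mul, mul_comm]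

/-- **Twist lemma.**  Recipe: `a b k = entry ρ C b k` (`entry_mul`, `star_entry`, `entry_one`
give `∑ k, a a⋆ = 1`); `g` from `twist_choice`; `d = ∑ k, sg ε k • (e k k * star (g k))`;
`entry (C * d * ρ U) b c = ∑ k, sg ε k • (U k c • (a b k * star (g k)))`; sum `twist_signs` over
`b c` (the average of `kappa` is at most `5 / card D`) and pick a good `ε`. -/
theorem exists_twist [Nonempty D] (U : UG D)
    (hU : ∀ a b, ‖(U : Matrix D D ℂ) a b‖ ^ 2 = (Fintype.card D : ℝ)⁻¹) {C : A}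
    (hC : C ∈ unitary A) :
    ∃ d ∈ unitary A, (∀ k, Commute d (eA ρ k k)) ∧
      kappa T ρ (C * d * ρ (U : Matrix D D ℂ)) ≤ 9 / Fintype.card D := by
  have h1 : ∀ b, ∑ k, entry ρ C b k * star (entry ρ C b k) = 1 := fun b => by
    simp only [star_entry]
    rw [← entry_mul, hC.2, entry_one, if_pos rfl]
  obtain ⟨g, hg, hgc, hsum⟩ := twist_choice T ρ (entry ρ C)
    (fun b k i j => commute_eA_entry ρ C i j b k) h1
  have hgc' : ∀ k i j, Commute (eA ρ i j) (star (g k)) := fun k => Twist_commute_star ρ (hgc k)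
  set d : (D → Bool) → A := fun ε => ∑ k, (R124.GT.sg ε k : ℂ) • (eA ρ k k * star (g k)) with hd
  have hsg : ∀ (ε : D → Bool) k, (R124.GT.sg ε k : ℂ) * (R124.GT.sg ε k : ℂ) = 1 := fun ε k => by
    rw [← Complex.ofReal_mul]
    exact_mod_cast R124.sg_mul_self (ε k)
  have hdu : ∀ ε, d ε ∈ unitary A := fun ε => by
    have h2 : star (d ε) = ∑ k, (R124.GT.sg ε k : ℂ) • (eA ρ k k * g k) := by
      simp only [hd, star_sum, star_smul, star_mul, star_star, star_eA, RCLike.star_def,
        Complex.conj_ofReal]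
      exact Finset.sum_congr rfl fun k _ => by rw [(hgc k k k).eq]
    constructor
    · rw [h2, hd, Twist_diag_mul ρ _ _ _ _ hgc]
      simp only [hsg, (hg _).2, one_smul, mul_one, sum_eA_diag]
    · rw [h2, hd, Twist_diag_mul ρ _ _ _ _ hgc']
      simp only [hsg, (hg _).1, one_smul, mul_one, sum_eA_diag]
  have hdc : ∀ ε k, Commute (d ε) (eA ρ k k) := fun ε k =>
    Commute.sum_left _ _ _ fun j _ => Commute.smul_left (Commute.mul_left (by
      rw [Commute, SemiconjBy, eA_mul_eA, eA_mul_eA]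
      by_cases h : j = k
      · rw [h]
      · rw [if_neg h, if_neg (Ne.symm h)]) (hgc' j k k).symm) _
  have hent : ∀ ε b c, entry ρ (C * d ε * ρ (U : Matrix D D ℂ)) b c =
      ∑ k, (R124.GT.sg ε k : ℂ) • ((U : Matrix D D ℂ) k c • (entry ρ C b k * star (g k))) :=
    fun ε b c => by
      rw [entry_mul]
      refine Finset.sum_congr rfl fun l _ => ?_
      rw [entry_mul, entry_rho]
      simp only [hd, Twist_entry_diag ρ _ _ hgc', mul_ite, mul_zero, Finset.sum_ite_eq',
        Finset.mem_univ, if_true, mul_smul_comm, mul_one]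
      exact smul_comm _ _ _
  have hD : (0 : ℝ) < Fintype.card D := Nat.cast_pos.2 Fintype.card_pos
  have hUU : ∀ k c, star ((U : Matrix D D ℂ) k c) * (U : Matrix D D ℂ) k c =
      (((Fintype.card D : ℝ)⁻¹ : ℝ) : ℂ) := fun k c => by
    rw [RCLike.star_def, Complex.conj_mul', ← hU k c, Complex.ofReal_pow]
  have hnorm : ‖(((Fintype.card D : ℝ)⁻¹ : ℝ) : ℂ)‖ = (Fintype.card D : ℝ)⁻¹ := by
    rw [Complex.norm_real, Real.norm_of_nonneg (by positivity)]
  have hbc : ∀ b c, ∑ ε : D → Bool, T.n2 (star (entry ρ (C * d ε * ρ (U : Matrix D D ℂ)) b c) *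
      entry ρ (C * d ε * ρ (U : Matrix D D ℂ)) b c) ^ 2 ≤ Fintype.card (D → Bool) *
      ((Fintype.card D : ℝ)⁻¹ ^ 2 *
        (T.n2 (∑ k, g k * (star (entry ρ C b k) * entry ρ C b k) * star (g k)) ^ 2 + 2)) :=
    fun b c => by
      simp only [hent]
      refine (twist_signs T _).trans (le_of_eq ?_)
      have e1 : ∑ k, star ((U : Matrix D D ℂ) k c • (entry ρ C b k * star (g k))) *
          (U : Matrix D D ℂ) k c • (entry ρ C b k * star (g k)) =
          (((Fintype.card D : ℝ)⁻¹ : ℝ) : ℂ) •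
            ∑ k, g k * (star (entry ρ C b k) * entry ρ C b k) * star (g k) := by
        rw [Finset.smul_sum]
        refine Finset.sum_congr rfl fun k _ => ?_
        rw [star_smul, smul_mul_assoc, mul_smul_comm, smul_smul, hUU, star_mul, star_star]
        simp only [mul_assoc]
      have e2 : ∑ k, (U : Matrix D D ℂ) k c • (entry ρ C b k * star (g k)) *
          star ((U : Matrix D D ℂ) k c • (entry ρ C b k * star (g k))) =
          (((Fintype.card D : ℝ)⁻¹ : ℝ) : ℂ) • (1 : A) := by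
        rw [← h1 b, Finset.smul_sum]
        refine Finset.sum_congr rfl fun k _ => ?_
        rw [star_smul, smul_mul_assoc, mul_smul_comm, smul_smul, mul_comm _ (star _), hUU,
          star_mul, star_star, mul_assoc, ← mul_assoc (star (g k)), (hg k).1, one_mul]
      rw [e1, e2, T.n2_smul, T.n2_smul, hnorm, T.n2_one]
      ring
  have htot : ∑ ε : D → Bool, kappa T ρ (C * d ε * ρ (U : Matrix D D ℂ)) ≤
      ∑ _ε : D → Bool, (9 / Fintype.card D : ℝ) := by
    unfold kappa
    rw [← Finset.mul_sum, Finset.sum_comm, Finset.sum_const, Finset.card_univ, nsmul_eq_mul]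
    calc _ ≤ (Fintype.card D : ℝ)⁻¹ * ∑ b, ∑ _c : D, (Fintype.card (D → Bool) : ℝ) *
          ((Fintype.card D : ℝ)⁻¹ ^ 2 *
          (T.n2 (∑ k, g k * (star (entry ρ C b k) * entry ρ C b k) * star (g k)) ^ 2 + 2)) := by
          refine mul_le_mul_of_nonneg_left (Finset.sum_le_sum fun b _ => ?_) (by positivity)
          rw [Finset.sum_comm]
          exact Finset.sum_le_sum fun c _ => hbc b c
      _ = (Fintype.card (D → Bool) : ℝ) * ((Fintype.card D : ℝ)⁻¹ ^ 2 *
          (∑ b, T.n2 (∑ k, g k * (star (entry ρ C b k) * entry ρ C b k) * star (g k)) ^ 2 +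
            2 * Fintype.card D)) := by
          simp only [Finset.sum_const, Finset.card_univ, nsmul_eq_mul, ← Finset.mul_sum,
            Finset.sum_add_distrib]
          field_simp
      _ ≤ (Fintype.card (D → Bool) : ℝ) * ((Fintype.card D : ℝ)⁻¹ ^ 2 * (9 * Fintype.card D)) := by
          gcongr
          linarith
      _ = _ := by field_simp
  obtain ⟨ε, -, hε⟩ := Finset.exists_le_of_sum_le Finset.univ_nonempty htot
  exact ⟨d ε, hdu ε, hdc ε, hε⟩

end

end Crest.Agent.R121
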