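import Crest.Agent.R121.Cyc
import Crest.Agent.R121.Twist

/-!
# Row 121: almost invariant averaging elements
-/

open MeasureTheory
open scoped InnerProductSpace ComplexOrder Topology

set_option linter.unusedSectionVars false

namespace Crest.Agent.R121

open R124 (UG haar tau)

noncomputable section

variable {A : Type*} [CStarAlgebra A] {D : Type} [Fintype D] [DecidableEq D]
  (T : TrState A) (ρ : Matrix D D ℂ →⋆ₐ[ℂ] A)

/-- Iterating `Hf_step` (induction on `P`, generalising `P₀` and `Φ`). -/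
theorem Hf_chain [Nonempty D] {n : ℕ} {w : ℕ → ℝ} {ε : ℝ} (h : IsHankel n w ε)
    {P₀ P Q : List A} (hu : ∀ b ∈ P₀ ++ (P ++ Q), b ∈ unitary A) {κ₀ : ℝ}
    (hκ : ∀ b ∈ P₀ ++ (P ++ Q), kappa T ρ b ≤ κ₀) {q : ℕ} (hq : (P₀ ++ (P ++ Q)).length ≤ q)
    {η : ℝ} (hη : 0 < η) {Φ : A →L[ℂ] A} (hΦ : InL T Φ) (U : UG D) :
    ‖Hf T ρ n w P₀ (P ++ Q) Φ - Hf T ρ n w (P₀ ++ P) Q
      (shiftL Φ (P.map fun a => a * ρ (U : Matrix D D ℂ)).prod)‖ ≤
      P.length * (2 * ε + 3 * d1err D ((n + 1) * q) η κ₀) := by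
  induction P generalizing P₀ Φ with
  | nil => simp [shiftL_one]
  | cons a P ih =>
    have happ : (P₀ ++ [a]) ++ (P ++ Q) = P₀ ++ (a :: P ++ Q) := by simp
    have ha : a ∈ unitary A := hu a (by simp)
    have h1 := Hf_step T ρ h (P := P₀) (Q := P ++ Q) (a := a) hu hκ hq hη hΦ U
    have h2 := ih (P₀ := P₀ ++ [a]) (happ ▸ hu) (happ ▸ hκ) (happ ▸ hq)
      (hΦ.shiftL (R124.norm_le_one_of_mem_unitary (mul_mem ha (R124.rho_mem_unitary ρ U))))
    rw [shiftL_shiftL, List.append_assoc, List.singleton_append] at h2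
    rw [List.map_cons, List.prod_cons, List.length_cons]
    refine (norm_sub_le_norm_sub_add_norm_sub _ _ _).trans ((add_le_add h1 h2).trans (le_of_eq ?_))
    push_cast
    ring

/-- The letters.  Recipe: induction on `B` generalising `G`; for `b :: B` take `d` from
`exists_twist` for `C = star G * b`, the letter `a = C * d * ρ U`, and continue with
`G' = b * d = G * (a * ρ U⁻¹)`. -/
theorem exists_letters [Nonempty D] (U : UG D)
    (hU : ∀ a b, ‖(U : Matrix D D ℂ) a b‖ ^ 2 = (Fintype.card D : ℝ)⁻¹) (B : List A)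
    (hB : ∀ b ∈ B, b ∈ unitary A) {G : A} (hG : G ∈ unitary A) :
    ∃ L : List A, L.length = B.length ∧ (∀ a ∈ L, a ∈ unitary A) ∧
      (∀ a ∈ L, kappa T ρ a ≤ 9 / Fintype.card D) ∧
      ∀ b ∈ B, ∃ P Q : List A, L = P ++ Q ∧ P ≠ [] ∧ ∃ d ∈ unitary A,
        (∀ k, Commute d (eA ρ k k)) ∧
        G * (P.map fun a => a * ρ ((U⁻¹ : UG D) : Matrix D D ℂ)).prod = b * d := by
  induction B generalizing G with
  | nil => exact ⟨[], rfl, by simp, by simp, by simp⟩
  | cons b B ih =>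
    have hb : b ∈ unitary A := hB b (by simp)
    have hC : star G * b ∈ unitary A := mul_mem (Unitary.star_mem hG) hb
    obtain ⟨d, hd, hdc, hκ⟩ := exists_twist T ρ U hU hC
    obtain ⟨L, hL1, hL2, hL3, hL4⟩ := ih (fun c hc => hB c (by simp [hc])) (mul_mem hb hd)
    have key : G * (star G * b * d * ρ (U : Matrix D D ℂ) * ρ ((U⁻¹ : UG D) : Matrix D D ℂ)) =
        b * d := by
      rw [mul_assoc _ (ρ _), ← map_mul, ← Submonoid.coe_mul, mul_inv_cancel, OneMemClass.coe_one,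
        map_one, mul_one, ← mul_assoc, ← mul_assoc, hG.2, one_mul]
    refine ⟨(star G * b * d * ρ (U : Matrix D D ℂ)) :: L, by simp [hL1], ?_, ?_, ?_⟩
    · intro a ha
      rcases List.mem_cons.1 ha with rfl | ha
      · exact mul_mem (mul_mem hC hd) (R124.rho_mem_unitary ρ U)
      · exact hL2 a ha
    · intro a ha
      rcases List.mem_cons.1 ha with rfl | ha
      · exact hκ
      · exact hL3 a ha
    · intro c hc
      rcases List.mem_cons.1 hc with rfl | hc
      · refine ⟨[_], L, rfl, by simp, d, hd, hdc, ?_⟩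
        rw [List.map_singleton, List.prod_singleton, key]
      · obtain ⟨P, Q, rfl, -, d', hd', hdc', h⟩ := hL4 c hc
        refine ⟨_ :: P, Q, rfl, by simp, d', hd', hdc', ?_⟩
        rw [List.map_cons, List.prod_cons, ← mul_assoc, key, h]

/-- The averaging element of `Hf`: `t β = ∑ k, w k * ∫ V, β (g k V) (star (g k V))`. -/
theorem exists_dg_Hf {n : ℕ} {w : ℕ → ℝ} {ε : ℝ} (h : IsHankel n w ε) {L : List A}
    (hu : ∀ a ∈ L, a ∈ unitary A) :
    ∃ t : Dg A, ‖t‖ ≤ 1 ∧ (∀ ω, t (bilOf ω (ContinuousLinearMap.id ℂ A)) = ω 1) ∧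
      ∀ Φ, t (bilOf T.τ Φ) = Hf T ρ n w [] L Φ := by
  let g : ℕ → UG D → A := fun k V => wordA ρ L V * wordA ρ ([] ++ L) V ^ k
  have hgc : ∀ k, Continuous (g k) := fun k =>
    (continuous_wordA ρ L).mul ((continuous_wordA ρ ([] ++ L)).pow k)
  have hgu : ∀ k V, g k V ∈ unitary A := fun k V =>
    mul_mem (wordA_mem_unitary ρ hu V) (pow_mem (wordA_mem_unitary ρ hu V) k)
  have hint : ∀ (β : Bil A) k, Integrable (fun V => β (g k V) (star (g k V))) (haar D) :=
    fun β k => R124.integrable_haar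
      ((β.toL.continuous.comp (hgc k)).clm_apply (hgc k).star)
  let t₀ : Bil A →ₗ[ℂ] ℂ :=
    { toFun := fun β => ∑ k ∈ Finset.range n, (w k : ℂ) * ∫ V, β (g k V) (star (g k V)) ∂haar D
      map_add' := fun β β' => by
        rw [← Finset.sum_add_distrib]
        refine Finset.sum_congr rfl fun k _ => ?_
        simp only [Bil.add_apply]
        rw [integral_add (hint β k) (hint β' k), mul_add]
      map_smul' := fun z β => by
        rw [RingHom.id_apply, smul_eq_mul, Finset.mul_sum]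
        refine Finset.sum_congr rfl fun k _ => ?_
        simp only [Bil.smul_apply]
        rw [integral_const_mul]
        ring }
  have hb : ∀ β, ‖t₀ β‖ ≤ 1 * ‖β‖ := by
    intro β
    rw [one_mul]
    refine h.cyc_norm_sum_le fun k _ => ?_
    refine (norm_integral_le_of_norm_le_const (C := ‖β‖)
      (Filter.Eventually.of_forall fun V => ?_)).trans (by simp)
    have h1 := R124.norm_le_one_of_mem_unitary (hgu k V)
    refine (β.norm_apply_le _ _).trans ?_
    rw [norm_star, mul_assoc]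
    exact mul_le_of_le_one_right (norm_nonneg _) (mul_le_one₀ h1 (norm_nonneg _) h1)
  refine ⟨t₀.mkContinuous 1 hb, LinearMap.mkContinuous_norm_le _ zero_le_one _, fun ω => ?_,
    fun Φ => rfl⟩
  change ∑ k ∈ Finset.range n, (w k : ℂ) * ∫ V, ω (g k V * star (g k V)) ∂haar D = _
  have e : ∀ k V, g k V * star (g k V) = 1 := fun k V => (hgu k V).2
  simp only [e, integral_const, probReal_univ, one_smul]
  rw [← Finset.sum_mul, ← Complex.ofReal_sum, h.sum, Complex.ofReal_one, one_mul]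

/-- The error tends to zero. -/
theorem exists_d1err_le (p : ℕ) {ε : ℝ} (hε : 0 < ε) :
    ∃ η > 0, ∃ m₀ : ℕ, ∀ (D : Type) [Fintype D], m₀ ≤ Fintype.card D →
      d1err D p η (9 / Fintype.card D) ≤ ε := by
  set η := ε / (3 * ((p : ℝ) + 1) ^ 2) with hη
  have hη0 : 0 < η := by positivity
  obtain ⟨m₀, hm₀⟩ := exists_nat_gt
    (max (4 ^ (p + 1) * (3 * ((p + 1 : ℕ) : ℝ)) / η ^ 2) (9 / (η ^ 2) ^ 2))
  refine ⟨η, hη0, m₀, fun D _ hD => ?_⟩
  have hD' : (m₀ : ℝ) ≤ Fintype.card D := by exact_mod_cast hD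
  have h1 := ((le_max_left _ _).trans_lt hm₀).trans_le hD'
  have h2 := ((le_max_right _ _).trans_lt hm₀).trans_le hD'
  have hpos : (0 : ℝ) < Fintype.card D := lt_trans (by positivity) h2
  have h3 : tau D (p + 1) ≤ η := by
    unfold tau
    rw [Real.sqrt_le_left hη0.le, div_le_iff₀ hpos]
    rw [div_lt_iff₀ (by positivity)] at h1
    linarith
  have h4 : √(9 / Fintype.card D) / η ≤ η := by
    rw [div_le_iff₀ hη0, ← sq, Real.sqrt_le_left (by positivity), div_le_iff₀ hpos]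
    rw [div_lt_iff₀ (by positivity)] at h2
    linarith
  calc d1err D p η (9 / Fintype.card D) ≤ ((p : ℝ) + 1) ^ 2 * (η + η + η) := by
        unfold d1err
        gcongr
    _ = ε := by
        rw [hη]
        field_simp
        ring

omit [Fintype D] [DecidableEq D] in
/-- **Core lemma.**  Recipe: `ε₁ = ε / (10 * q + 4)`, `exists_isHankel`, `exists_d1err_le`
(make `m₀ ≥ 1`), `exists_flat`, `exists_letters` with `G = 1`, `exists_dg_Hf`.  For `b ∈ B` with
`G_P = b * d`: `Hf [] L Ψ ≈ Hf P Q (shiftL Ψ G_P)` (`Hf_chain` with `U⁻¹`) for `Ψ = Φ` and for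
`Ψ = shiftL Φ (b * ρ S * star b)`; `b * ρ S * star b * G_P = G_P * ρ S` because `d` commutes with
`ρ S` (`rho_eq_sum`); conclude with `shiftL_shiftL` and `Hf_inv`. -/
theorem core {ε : ℝ} (hε : 0 < ε) (q : ℕ) :
    ∃ m₀ : ℕ, ∀ (D : Type) [Fintype D] [DecidableEq D], m₀ ≤ Fintype.card D →
      ∀ (ρ : Matrix D D ℂ →⋆ₐ[ℂ] A) (B : List A), B.length ≤ q → (∀ b ∈ B, b ∈ unitary A) →
      ∃ t : Dg A, ‖t‖ ≤ 1 ∧ (∀ ω, t (bilOf ω (ContinuousLinearMap.id ℂ A)) = ω 1) ∧
        ∀ Φ, InL T Φ → ∀ b ∈ B, ∀ S : UG D, (S : Matrix D D ℂ).IsDiag →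
          ‖t (bilOf T.τ (shiftL Φ (b * ρ (S : Matrix D D ℂ) * star b))) - t (bilOf T.τ Φ)‖ ≤ ε := by
  set ε₁ := ε / (10 * q + 4) with hε₁
  have hε₁0 : 0 < ε₁ := by positivity
  obtain ⟨n, w, h⟩ := exists_isHankel hε₁0
  obtain ⟨η, hη, m₀, hm₀⟩ := exists_d1err_le ((n + 1) * q) hε₁0
  refine ⟨m₀ + 1, fun D _ _ hD ρ B hBq hB => ?_⟩
  have : Nonempty D := Fintype.card_pos_iff.1 (by omega)
  have herr := hm₀ D (by omega)
  obtain ⟨U, hU⟩ := exists_flat (D := D)
  obtain ⟨L, hL1, hL2, hL3, hL4⟩ := exists_letters T ρ U hU B hB (one_mem _)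
  obtain ⟨t, ht1, ht2, ht3⟩ := exists_dg_Hf T ρ h hL2
  refine ⟨t, ht1, ht2, fun Φ hΦ b hb S hS => ?_⟩
  obtain ⟨P, Q, rfl, hP, d, hd, hdc, hG⟩ := hL4 b hb
  rw [one_mul] at hG
  have hbu := hB b hb
  have hq : (P ++ Q).length ≤ q := hL1 ▸ hBq
  have hSd : Commute d (ρ (S : Matrix D D ℂ)) := by
    rw [rho_eq_sum]
    refine Commute.sum_right _ _ _ fun k _ => Commute.sum_right _ _ _ fun l _ => ?_
    by_cases hkl : k = l
    · subst hkl; exact (hdc k).smul_right _
    · rw [hS hkl, zero_smul]; exact Commute.zero_right _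
  have hu' : b * ρ (S : Matrix D D ℂ) * star b ∈ unitary A :=
    mul_mem (mul_mem hbu (R124.rho_mem_unitary ρ S)) (Unitary.star_mem hbu)
  have h1 := Hf_chain T ρ h (P₀ := []) (P := P) (Q := Q) hL2 hL3 hq hη
    (hΦ.shiftL (R124.norm_le_one_of_mem_unitary hu')) U⁻¹
  have h2 := Hf_chain T ρ h (P₀ := []) (P := P) (Q := Q) hL2 hL3 hq hη hΦ U⁻¹
  have h3 := Hf_inv T ρ h (P := P) (Q := Q) (by simp [hP]) hL2 hL3 hq hη
    (hΦ.shiftL (R124.norm_le_one_of_mem_unitary (mul_mem hbu hd))) S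
  have e : b * ρ (S : Matrix D D ℂ) * star b * (b * d) = b * d * ρ (S : Matrix D D ℂ) := by
    rw [mul_assoc _ (star b), ← mul_assoc (star b), hbu.1, one_mul, mul_assoc, mul_assoc, hSd.eq]
  rw [hG, List.nil_append] at h1 h2
  rw [shiftL_shiftL, e] at h1
  rw [shiftL_shiftL] at h3
  rw [norm_sub_rev] at h2
  rw [ht3, ht3]
  refine (norm_sub_le_norm_sub_add_norm_sub _ _ _).trans ((add_le_add h1
    ((norm_sub_le_norm_sub_add_norm_sub _ _ _).trans (add_le_add h3 h2))).trans ?_)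
  have hPq : (P.length : ℝ) ≤ q := by
    rw [List.length_append] at hq
    exact_mod_cast (by omega : P.length ≤ q)
  have h4 : P.length * (2 * ε₁ + 3 * d1err D ((n + 1) * q) η (9 / Fintype.card D)) ≤
      q * (5 * ε₁) := by
    calc _ ≤ P.length * (5 * ε₁) := by
          refine mul_le_mul_of_nonneg_left ?_ (Nat.cast_nonneg _)
          linarith
      _ ≤ _ := by gcongr
  have h5 : ε = (10 * q + 4) * ε₁ := by
    rw [hε₁]; field_simp
  rw [h5]
  linarith

end

end Crest.Agent.R121
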