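import Crest.Agent.R121.Smooth
import Crest.Agent.R121.Core

/-!
# Row 121: good averaging elements, type II₁ case
-/

open scoped InnerProductSpace ComplexOrder Topology
open Filter

set_option linter.unusedSectionVars false

namespace Crest.Agent.R121

noncomputable section

variable {H : Type*} [NormedAddCommGroup H] [InnerProductSpace ℂ H] [CompleteSpace H]
  {M : VonNeumannAlgebra H}

/-- Large matrix algebras having `v⋆ v - v v⋆` on the diagonal.  Recipe:
`R124.hasUnits_of_no_abelian` for `q = v⋆ v` (use `isAbel_iff`) gives units `f i j`, `i j : Fin n`,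
`n ≥ max m₀ 1`; `D = Fin n ⊕ Fin n`, `U (inl i) = f i 0`, `U (inr i) = v * f i 0`,
`R124.Halving_units`, `R124.homOfUnits`, `StarAlgHom.codRestrict`;
`S = diagonal (Sum.elim 1 (-1))`. -/
theorem exists_rho (hna : ∀ r, IsAbel M r → r = 0) {v : Alg M} (h₀ : v * v = 0)
    (hv : v * star v * v = v) (h₁ : star v * v + v * star v = 1) (m₀ : ℕ) :
    ∃ (D : Type) (_ : Fintype D) (_ : DecidableEq D), m₀ ≤ Fintype.card D ∧
      ∃ (ρ : Matrix D D ℂ →⋆ₐ[ℂ] Alg M) (S : R124.UG D), (S : Matrix D D ℂ).IsDiag ∧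
        ρ (S : Matrix D D ℂ) = star v * v - v * star v := by
  set V : H →L[ℂ] H := (v : H →L[ℂ] H) with hV
  have k₀ : V * V = 0 := congrArg Subtype.val h₀
  have kv : V * star V * V = V := congrArg Subtype.val hv
  have k₁ : star V * V + V * star V = 1 := congrArg Subtype.val h₁
  have hVM : V ∈ M := v.2
  have k₀' : star V * star V = 0 := by rw [← star_mul, k₀, star_zero]
  have hq : IsStarProjection (star V * V) :=
    ⟨by rw [IsIdempotentElem, mul_assoc, ← mul_assoc V, kv], IsSelfAdjoint.star_mul_self V⟩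
  obtain ⟨n, hn, f, hf⟩ := R124.hasUnits_of_no_abelian M (mul_mem (star_mem hVM) hVM) hq
    (fun e he _ => congrArg Subtype.val (hna ⟨e, he.mem⟩ (isAbel_iff.2 he))) (max m₀ 1)
  let i₀ : Fin n := ⟨0, lt_of_lt_of_le one_pos ((le_max_right _ _).trans hn)⟩
  have fq : ∀ i j, f i j * (star V * V) = f i j := fun i j => by
    rw [← hf.sum, Finset.mul_sum]
    simp [hf.mul]
  have qf : ∀ i j, star V * V * f i j = f i j := fun i j => by
    rw [← hf.sum, Finset.sum_mul]
    simp [hf.mul]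
  have fV : ∀ i j, f i j * V = 0 := fun i j => by
    rw [← fq, mul_assoc, mul_assoc, k₀, mul_zero, mul_zero]
  have Vf : ∀ i j, star V * f i j = 0 := fun i j => by
    rw [← qf, ← mul_assoc, ← mul_assoc, k₀', zero_mul, zero_mul]
  let U : Fin n ⊕ Fin n → H →L[ℂ] H := Sum.elim (fun i => f i i₀) fun i => V * f i i₀
  have s1 : ∑ i, f i i₀ * star (f i i₀) = star V * V := by
    rw [← hf.sum]
    exact Finset.sum_congr rfl fun i _ => by rw [hf.star, hf.mul, if_pos rfl]
  have s2 : ∑ i, V * f i i₀ * star (V * f i i₀) = V * star V := by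
    have : ∀ i, V * f i i₀ * star (V * f i i₀) = V * (f i i₀ * star (f i i₀)) * star V := fun i => by
      rw [star_mul]; simp only [mul_assoc]
    simp only [this]
    rw [← Finset.sum_mul, ← Finset.mul_sum, s1, ← mul_assoc, kv]
  have hU := R124.Halving_units M (q := 1) (p := f i₀ i₀) U
    (by
      rintro (i | i)
      · exact hf.mem _ _
      · exact mul_mem hVM (hf.mem _ _))
    (by
      rintro (i | i)
      · simp [U, hf.mul]
      · simp [U, mul_assoc, hf.mul])
    (by
      rintro (j | j) (k | k)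
      · simp [U, hf.star, hf.mul]
      · simp [U, hf.star, ← mul_assoc, fV]
      · simp [U, hf.star, mul_assoc, Vf]
      · simp only [U, Sum.elim_inr, star_mul, hf.star, Sum.inr.injEq]
        rw [mul_assoc, ← mul_assoc (star V), qf, hf.mul])
    (by
      rw [Fintype.sum_sum_type]
      simp only [U, Sum.elim_inl, Sum.elim_inr]
      rw [s1, s2, k₁])
  have hσ : ∀ A, R124.homOfUnits hU A ∈ M.toStarSubalgebra := fun A => by
    rw [R124.homOfUnits_apply]
    exact sum_mem fun i _ => sum_mem fun j _ => SMulMemClass.smul_mem _ (hU.mem i j)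
  let d : Fin n ⊕ Fin n → ℂ := Sum.elim (fun _ => 1) fun _ => -1
  have hd : Matrix.diagonal d ∈ Matrix.unitaryGroup (Fin n ⊕ Fin n) ℂ := by
    rw [Matrix.mem_unitaryGroup_iff, Matrix.star_eq_conjTranspose, Matrix.diagonal_conjTranspose,
      Matrix.diagonal_mul_diagonal, ← Matrix.diagonal_one]
    congr 1
    funext i
    rcases i with i | i <;> simp [d]
  refine ⟨Fin n ⊕ Fin n, inferInstance, inferInstance, ?_,
    (R124.homOfUnits hU).codRestrict M.toStarSubalgebra hσ, ⟨_, hd⟩, Matrix.isDiag_diagonal d, ?_⟩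
  · have := (le_max_left _ _).trans hn
    simp only [Fintype.card_sum, Fintype.card_fin]
    omega
  · apply Subtype.ext
    change R124.homOfUnits hU (Matrix.diagonal d) = star V * V - V * star V
    rw [R124.homOfUnits_apply]
    simp only [Matrix.diagonal_apply, ite_smul, zero_smul, Finset.sum_ite_eq, Finset.mem_univ,
      if_true]
    rw [Fintype.sum_sum_type]
    simp only [U, d, Sum.elim_inl, Sum.elim_inr, one_smul, neg_smul, Finset.sum_neg_distrib]
    rw [s1, s2, sub_eq_add_neg]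

/-- The conjugates of the symmetry generate the algebra.  Recipe: `e = v⋆ v ∈ 𝒜` (`b = 1`);
for `IsCU e u`, `w = u * star v`, `b = (1 + w - w⋆)/√2` is unitary and `b s b⋆ = -(w + w⋆)`, so
`w = e (w + w⋆)`, `w⋆ ∈ 𝒜`; by `exists_four_cu`, `x * star v, v * x ∈ 𝒜` for `x = e x e`; finally
`1 = v⋆ v + v v⋆` on both sides of `a`, with `v = v e`, `v⋆ = e v⋆`. -/
theorem subalgebra_eq_top {A : Type*} [CStarAlgebra A] {v : A} (h₀ : v * v = 0)
    (hv : v * star v * v = v) (h₁ : star v * v + v * star v = 1) (𝒜 : Subalgebra ℂ A)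
    (h : ∀ b ∈ unitary A, b * (star v * v - v * star v) * star b ∈ 𝒜) : 𝒜 = ⊤ := by
  have h₀' : star v * star v = 0 := by rw [← star_mul, h₀, star_zero]
  have hv' : star v * v * star v = star v := by
    have := congrArg star hv
    rwa [star_mul, star_mul, star_star, ← mul_assoc] at this
  set e := star v * v with he
  have hep : IsStarProjection e :=
    ⟨by rw [IsIdempotentElem, he, mul_assoc, ← mul_assoc v, hv], IsSelfAdjoint.star_mul_self v⟩
  have hee : e * e = e := hep.isIdempotentElem.eq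
  have hve : v * e = v := by rw [he, ← mul_assoc, hv]
  have hev : e * v = 0 := by rw [he, mul_assoc, h₀, mul_zero]
  have hve' : star v * e = 0 := by rw [he, ← mul_assoc, h₀', zero_mul]
  have he' : v * star v = 1 - e := by rw [← h₁]; abel
  have heA : e ∈ 𝒜 := by
    have h1 := h 1 (one_mem _)
    rw [star_one, one_mul, mul_one, he'] at h1
    have h2 : e = (1 / 2 : ℂ) • (e - (1 - e) + 1) := by
      rw [show e - (1 - e) + 1 = (2 : ℂ) • e by rw [two_smul]; abel, smul_smul]
      norm_num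
    rw [h2]
    exact 𝒜.smul_mem (𝒜.add_mem h1 𝒜.one_mem) _
  have key : ∀ u, IsCU e u → u * star v ∈ 𝒜 ∧ v * star u ∈ 𝒜 := by
    intro u hu
    have hue := hu.mul_unit hep
    have heu := hu.unit_mul hep
    set w := u * star v with hw
    have hws : star w = v * star u := by rw [hw, star_mul, star_star]
    have w1 : e * w = w := by rw [hw, ← mul_assoc, heu]
    have w2 : w * e = 0 := by rw [hw, mul_assoc, hve', mul_zero]
    have w3 : e * star w = 0 := by rw [hws, ← mul_assoc, hev, zero_mul]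
    have w4 : star w * e = star w := by
      have := congrArg star w1
      rwa [star_mul, hep.isSelfAdjoint.star_eq] at this
    have w5 : w * w = 0 := by rw [← w1, mul_assoc, ← mul_assoc w, w2, zero_mul, mul_zero]
    have w6 : star w * star w = 0 := by rw [← star_mul, w5, star_zero]
    have w7 : w * star w = e := by
      rw [hws, hw, mul_assoc, ← mul_assoc (star v), ← he, ← mul_assoc, hue, hu.2]
    have w8 : star w * w = 1 - e := by
      rw [hws, hw, mul_assoc, ← mul_assoc (star u), hu.1, ← mul_assoc, hve, he']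
    let c : ℂ := ((√2 : ℝ) : ℂ)⁻¹
    have hc : star c = c := by simp [c]
    have hcc : c * c = 1 / 2 := by
      simp only [c]
      rw [← mul_inv, ← Complex.ofReal_mul, Real.mul_self_sqrt (by norm_num)]
      norm_num
    have hb : star (c • (1 + w - star w)) = c • (1 + star w - w) := by
      rw [star_smul, hc, star_sub, star_add, star_one, star_star]
    have hu' : c • (1 + w - star w) ∈ unitary A := by
      constructor
      · rw [hb, smul_mul_smul_comm, hcc]
        have : (1 + star w - w) * (1 + w - star w) = (2 : ℂ) • (1 : A) := by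
          simp only [mul_add, add_mul, mul_sub, sub_mul, one_mul, mul_one, w5, w6, w7, w8, two_smul]
          abel
        rw [this, smul_smul]
        norm_num
      · rw [hb, smul_mul_smul_comm, hcc]
        have : (1 + w - star w) * (1 + star w - w) = (2 : ℂ) • (1 : A) := by
          simp only [mul_add, add_mul, mul_sub, sub_mul, one_mul, mul_one, w5, w6, w7, w8, two_smul]
          abel
        rw [this, smul_smul]
        norm_num
    have h1 := h _ hu'
    have h2 : c • (1 + w - star w) * (e - v * star v) * star (c • (1 + w - star w))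
        = -(w + star w) := by
      rw [hb, he', smul_mul_assoc, smul_mul_smul_comm, hcc]
      have : (1 + w - star w) * (e - (1 - e)) * (1 + star w - w) = (2 : ℂ) • -(w + star w) := by
        simp only [mul_add, add_mul, mul_sub, sub_mul, one_mul, mul_one, w1, w2, w3, w4, w5, w6, w7,
          w8, two_smul, zero_mul]
        abel
      rw [this, smul_smul]
      norm_num
    rw [h2] at h1
    have h3 : w + star w ∈ 𝒜 := by simpa using 𝒜.neg_mem h1
    have h4 : w ∈ 𝒜 := by
      have := 𝒜.mul_mem heA h3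
      rwa [mul_add, w1, w3, add_zero] at this
    refine ⟨h4, ?_⟩
    rw [← hws]
    simpa using 𝒜.sub_mem h3 h4
  have hvA : v ∈ 𝒜 := by
    have := (key e (IsCU.refl hep)).2
    rwa [hep.isSelfAdjoint.star_eq, hve] at this
  have hvA' : star v ∈ 𝒜 := by
    have := (key e (IsCU.refl hep)).1
    rwa [hv'] at this
  have corner : ∀ y, e * y * e ∈ 𝒜 := by
    intro y
    obtain ⟨u, c, hu, hy, -⟩ := exists_four_cu (b := e * y * e) hep
      (by rw [← mul_assoc e (e * y) e, ← mul_assoc e e y, hee]) (by rw [mul_assoc, hee])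
    have h1 : e * y * e * star v ∈ 𝒜 := by
      rw [hy, Finset.sum_mul]
      exact 𝒜.sum_mem fun i _ => by
        rw [smul_mul_assoc]
        exact 𝒜.smul_mem (key _ (hu i)).1 _
    have := 𝒜.mul_mem h1 hvA
    rwa [mul_assoc (e * y * e), ← he, mul_assoc (e * y), hee] at this
  refine eq_top_iff.2 fun a _ => ?_
  have ha : a = e * a * e + e * (a * v) * e * star v + v * (e * (star v * a) * e)
      + v * (e * (star v * a * v) * e) * star v := by
    have r1 : e * (a * v) * e * star v = e * a * (1 - e) := by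
      rw [← he']; simp only [mul_assoc]; rw [hv']
    have r2 : v * (e * (star v * a) * e) = (1 - e) * a * e := by
      rw [← he']; simp only [← mul_assoc]; rw [hve]
    have r3 : v * (e * (star v * a * v) * e) * star v = (1 - e) * a * (1 - e) := by
      rw [← he']; simp only [← mul_assoc]; rw [hve, mul_assoc _ e, hv']
    rw [r1, r2, r3]
    noncomm_ring
  rw [ha]
  exact 𝒜.add_mem (𝒜.add_mem (𝒜.add_mem (corner _) (𝒜.mul_mem (corner _) hvA'))
    (𝒜.mul_mem hvA (corner _))) (𝒜.mul_mem (𝒜.mul_mem hvA (corner _)) hvA')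

/-- Recipe: `v` from `R124.exists_halving` (`q = 1`).  Index set `Finset (Alg M) × ℕ`,
`𝒰 = Ultrafilter.of atTop`; for `(F, n)` take `t (F, n)` from `core` (`ε = 1/(n+1)`, `B` = the
list of unitary members of `F`, `ρ` from `exists_rho`); `t₂ = ulimL 𝒰 t` satisfies
`t₂ (bilOf τ (shiftL Φ S)) = t₂ (bilOf τ Φ)` for `InL T Φ` and `S = b s b⋆`.  With
`Φ = Lm (S * c) ∘L Ψ`, `‖c‖ ≤ 1`, `normal_Pt`, `Pt_left`, `T.tr` and `eq_zero_of_forall` give
`Pt t₂ (Ψ ∘L Lm S) = Pt t₂ Ψ * S` for `InL T Ψ`.  The set of `y` with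
`Pt t₂ (Ψ ∘L Lm y) = Pt t₂ Ψ * y` for all `Ψ` such that `∃ C, ∀ a, n2 (Ψ a) ≤ C * n2 a` is a
subalgebra (scale `Ψ` into `InL`), so everything by `subalgebra_eq_top`.  Put `t = t₂.mul t₁`
with `t₁` from `exists_smooth` (`Pt_mul`, `rho_id`, `rho_comp_Lm`). -/
theorem exists_good_II (T : TrState (Alg M)) (hT : IsNormal M T.τ) (hF : T.Faithful)
    (hna : ∀ r, IsAbel M r → r = 0) : ∃ t, DgGood M t := by
  classical
  obtain ⟨V, hVM, k₀, kv, k₁⟩ := R124.exists_halving M (q := 1) (one_mem _) (IsStarProjection.one _)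
    (fun e he _ => congrArg Subtype.val (hna ⟨e, he.mem⟩ (isAbel_iff.2 he)))
  let v : Alg M := ⟨V, hVM⟩
  have h₀ : v * v = 0 := Subtype.ext k₀
  have hv : v * star v * v = v := Subtype.ext kv
  have h₁ : star v * v + v * star v = 1 := Subtype.ext k₁
  set s : Alg M := star v * v - v * star v with hs
  have ex : ∀ p : Finset (Alg M) × ℕ, ∃ t : Dg (Alg M), ‖t‖ ≤ 1 ∧
      (∀ ω, t (bilOf ω (ContinuousLinearMap.id ℂ _)) = ω 1) ∧
      ∀ Φ, InL T Φ → ∀ b ∈ p.1, b ∈ unitary (Alg M) →
        ‖t (bilOf T.τ (shiftL Φ (b * s * star b))) - t (bilOf T.τ Φ)‖ ≤ 1 / ((p.2 : ℝ) + 1) := by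
    rintro ⟨F, n⟩
    obtain ⟨m₀, hm⟩ := core T (ε := 1 / ((n : ℝ) + 1)) (by positivity)
      (F.filter (· ∈ unitary (Alg M))).toList.length
    obtain ⟨D, _, _, hD, ρ, S, hS, hρ⟩ := exists_rho hna h₀ hv h₁ m₀
    obtain ⟨t, t1, t2, t3⟩ := hm D hD ρ _ le_rfl fun b hb =>
      (Finset.mem_filter.1 (Finset.mem_toList.1 hb)).2
    refine ⟨t, t1, t2, fun Φ hΦ b hb hb' => ?_⟩
    have := t3 Φ hΦ b (Finset.mem_toList.2 (Finset.mem_filter.2 ⟨hb, hb'⟩)) S hS
    rwa [hρ] at this
  choose t t1 t2 t3 using ex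
  let 𝒰 : Ultrafilter (Finset (Alg M) × ℕ) := Ultrafilter.of atTop
  have h𝒰 : (𝒰 : Filter (Finset (Alg M) × ℕ)) ≤ atTop := Ultrafilter.of_le _
  set t₂ : Dg (Alg M) := ulimL 𝒰 t with ht₂
  have lim : ∀ β, Tendsto (fun p => t p β) 𝒰 (𝓝 (t₂ β)) := tendsto_ulimL 𝒰 t1
  have n₂ : ‖t₂‖ ≤ 1 := norm_ulimL_le 𝒰 t1
  have u₂ : Pt M t₂ (ContinuousLinearMap.id ℂ _) = 1 := Alg.ext_vec fun η ξ => by
    rw [inner_Pt]
    refine tendsto_nhds_unique (lim _) ?_
    simp only [t2]
    exact tendsto_const_nhds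
  have inv₁ : ∀ Φ, InL T Φ → ∀ b ∈ unitary (Alg M),
      t₂ (bilOf T.τ (shiftL Φ (b * s * star b))) = t₂ (bilOf T.τ Φ) := by
    intro Φ hΦ b hb
    rw [← sub_eq_zero, ← norm_le_zero_iff]
    have l1 := ((lim (bilOf T.τ (shiftL Φ (b * s * star b)))).sub (lim (bilOf T.τ Φ))).norm
    have l2 : Tendsto (fun p : Finset (Alg M) × ℕ => 1 / ((p.2 : ℝ) + 1)) 𝒰 (𝓝 0) := by
      refine Tendsto.mono_left ?_ h𝒰
      refine (tendsto_one_div_add_atTop_nhds_zero_nat (𝕜 := ℝ)).comp ?_
      rw [← prod_atTop_atTop_eq]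
      exact tendsto_snd
    refine le_of_tendsto_of_tendsto l1 l2 ?_
    filter_upwards [h𝒰 (eventually_ge_atTop (({b} : Finset (Alg M)), 0))] with p hp
    exact t3 p Φ hΦ b (hp.1 (Finset.mem_singleton_self b)) hb
  let L : (Alg M →L[ℂ] Alg M) → Prop := fun Ψ => ∃ C, 0 ≤ C ∧ ∀ a, T.n2 (Ψ a) ≤ C * T.n2 a
  have inv₂ : ∀ Φ, L Φ → ∀ b ∈ unitary (Alg M),
      t₂ (bilOf T.τ (shiftL Φ (b * s * star b))) = t₂ (bilOf T.τ Φ) := by
    rintro Φ ⟨C, hC, hΦ⟩ b hb
    set K : ℝ := ‖Φ‖ + C + 1 with hK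
    have hKp : 0 < K := by positivity
    have hn : ‖((K⁻¹ : ℝ) : ℂ)‖ = K⁻¹ := by
      rw [Complex.norm_real, Real.norm_eq_abs, abs_of_pos (inv_pos.2 hKp)]
    have hin : InL T (((K⁻¹ : ℝ) : ℂ) • Φ) := by
      constructor
      · rw [norm_smul, hn, inv_mul_le_iff₀ hKp]
        linarith
      · intro a
        rw [_root_.smul_apply, T.n2_smul, hn, inv_mul_le_iff₀ hKp]
        refine (hΦ a).trans (mul_le_mul_of_nonneg_right ?_ (T.n2_nonneg a))
        linarith [norm_nonneg Φ]
    have h1 := inv₁ _ hin b hb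
    have h2 : shiftL (((K⁻¹ : ℝ) : ℂ) • Φ) (b * s * star b)
        = ((K⁻¹ : ℝ) : ℂ) • shiftL Φ (b * s * star b) := by
      ext1 x
      simp only [shiftL_apply, _root_.smul_apply, mul_smul_comm]
    rw [h2, bilOf_smul_right, bilOf_smul_right, map_smul, map_smul, smul_eq_mul, smul_eq_mul] at h1
    exact mul_left_cancel₀ (by exact_mod_cast (inv_pos.2 hKp).ne') h1
  have Ll : ∀ Ψ, L Ψ → ∀ c, L (Lm c ∘L Ψ) := by
    rintro Ψ ⟨C, hC, hΨ⟩ c
    refine ⟨‖c‖ * C, by positivity, fun a => ?_⟩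
    refine (T.n2_mul_le_left c (Ψ a)).trans ?_
    rw [mul_assoc]
    exact mul_le_mul_of_nonneg_left (hΨ a) (norm_nonneg c)
  have Lr : ∀ Ψ, L Ψ → ∀ c, L (Ψ ∘L Lm c) := by
    rintro Ψ ⟨C, hC, hΨ⟩ c
    refine ⟨C * ‖c‖, by positivity, fun a => ?_⟩
    refine (hΨ (c * a)).trans ?_
    rw [mul_assoc]
    exact mul_le_mul_of_nonneg_left (T.n2_mul_le_left c a) hC
  have hss : star s * s = 1 := by
    have h₀' : star v * star v = 0 := by rw [← star_mul, h₀, star_zero]
    have a1 : star v * v * (star v * v) = star v * v := by rw [mul_assoc, ← mul_assoc v, hv]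
    have a2 : v * star v * (v * star v) = v * star v := by rw [← mul_assoc, hv]
    have a3 : star v * v * (v * star v) = 0 := by
      rw [mul_assoc, ← mul_assoc v, h₀, zero_mul, mul_zero]
    have a4 : v * star v * (star v * v) = 0 := by
      rw [mul_assoc, ← mul_assoc (star v), h₀', zero_mul, mul_zero]
    rw [hs, star_sub, star_mul, star_mul, star_star, sub_mul, mul_sub, mul_sub, a1, a2, a3, a4, ← h₁]
    abel
  have mod₁ : ∀ b ∈ unitary (Alg M), ∀ Ψ, L Ψ →
      Pt M t₂ (Ψ ∘L Lm (b * s * star b)) = Pt M t₂ Ψ * (b * s * star b) := by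
    intro b hb Ψ hΨ
    set S := b * s * star b with hS
    have hSS : star S * S = 1 := by
      rw [hS, star_mul, star_mul, star_star]
      calc b * (star s * star b) * (b * s * star b)
          = b * (star s * (star b * b) * s) * star b := by simp only [mul_assoc]
        _ = 1 := by rw [hb.1, mul_one, hss, mul_one, hb.2]
    rw [← sub_eq_zero]
    refine T.eq_zero_of_forall hF fun c => ?_
    have h1 := inv₂ _ (Ll Ψ hΨ (S * c)) b hb
    have h2 : shiftL (Lm (S * c) ∘L Ψ) S = Lm c ∘L (Ψ ∘L Lm S) := by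
      ext1 x
      change star S * (S * c * Ψ (S * x)) = c * Ψ (S * x)
      rw [← mul_assoc, ← mul_assoc, hSS, one_mul]
    rw [← hS, h2, ← normal_Pt _ _ hT, ← normal_Pt _ _ hT, Pt_left, Pt_left, mul_assoc,
      T.tr S, mul_assoc] at h1
    rw [mul_sub, map_sub, h1, sub_self]
  let 𝒜 : Subalgebra ℂ (Alg M) :=
    { carrier := {y | ∀ Ψ, L Ψ → Pt M t₂ (Ψ ∘L Lm y) = Pt M t₂ Ψ * y}
      mul_mem' := fun {x y} hx hy Ψ hΨ => by
        have : Ψ ∘L Lm (x * y) = (Ψ ∘L Lm x) ∘L Lm y := by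
          ext1 a
          change Ψ (x * y * a) = Ψ (x * (y * a))
          rw [mul_assoc]
        rw [this, hy _ (Lr Ψ hΨ x), hx Ψ hΨ, mul_assoc]
      add_mem' := fun {x y} hx hy Ψ hΨ => by
        have : Ψ ∘L Lm (x + y) = Ψ ∘L Lm x + Ψ ∘L Lm y := by
          ext1 a
          change Ψ ((x + y) * a) = Ψ (x * a) + Ψ (y * a)
          rw [add_mul, map_add]
        rw [this, map_add, hx Ψ hΨ, hy Ψ hΨ, mul_add]
      algebraMap_mem' := fun z Ψ _ => by
        have : Ψ ∘L Lm (algebraMap ℂ (Alg M) z) = z • Ψ := by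
          ext1 a
          change Ψ (algebraMap ℂ (Alg M) z * a) = z • Ψ a
          rw [← Algebra.smul_def, map_smul]
        rw [this, map_smul, ← Algebra.commutes, ← Algebra.smul_def] }
  have h𝒜 : 𝒜 = ⊤ := subalgebra_eq_top h₀ hv h₁ 𝒜 fun b hb => mod₁ b hb
  obtain ⟨t₁, n₁, u₁, l₁⟩ := exists_smooth T hT
  refine ⟨t₂.mul t₁, (Dg.norm_mul_le _ _).trans (mul_le_one₀ n₂ (norm_nonneg _) n₁), ?_,
    fun φ y => ?_⟩
  · rw [Pt_mul, rho_id u₁, u₂]
  · rw [Pt_mul, Pt_mul, rho_comp_Lm]
    have hy : y ∈ 𝒜 := h𝒜 ▸ Algebra.mem_top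
    exact hy _ ⟨‖φ‖, norm_nonneg _, l₁ φ⟩

end

end Crest.Agent.R121
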