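import Crest.Agent.R121.FinI
import Crest.Agent.R121.FinII
import Crest.Agent.R124.Corner

/-!
# Row 121: corners as von Neumann algebras; averaging operators for finite corners
-/

open scoped InnerProductSpace ComplexOrder Topology
open Filter

set_option linter.unusedSectionVars false

namespace Crest.Agent.R121

noncomputable section

variable {H : Type*} [NormedAddCommGroup H] [InnerProductSpace ℂ H] [CompleteSpace H]
  {M : VonNeumannAlgebra H}

/-- `N` is the corner `e M e` acting on the range of `e`. -/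
structure Corner (M : VonNeumannAlgebra H) (e : Alg M) {K : Type*} [NormedAddCommGroup K]
    [InnerProductSpace ℂ K] [CompleteSpace K] (N : VonNeumannAlgebra K) where
  /-- inclusion -/
  ι : Alg N →L[ℂ] Alg M
  /-- compression -/
  π : Alg M →L[ℂ] Alg N
  /-- the isometry onto the range of `e` -/
  s : K →L[ℂ] H
  /-- its adjoint -/
  t : H →L[ℂ] K
  ι_mul : ∀ a b, ι (a * b) = ι a * ι b
  ι_star : ∀ a, ι (star a) = star (ι a)
  ι_one : ι 1 = e
  norm_ι : ∀ a, ‖ι a‖ ≤ ‖a‖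
  π_ι : ∀ a, π (ι a) = a
  ι_π : ∀ x, ι (π x) = e * x * e
  inner_ι : ∀ a η ξ, ⟪η, (ι a : H →L[ℂ] H) ξ⟫_ℂ = ⟪t η, (a : K →L[ℂ] K) (t ξ)⟫_ℂ
  inner_π : ∀ x η ξ, ⟪η, (π x : K →L[ℂ] K) ξ⟫_ℂ = ⟪s η, (x : H →L[ℂ] H) (s ξ)⟫_ℂ

theorem Corner_of_data {K : Type*} [NormedAddCommGroup K] [InnerProductSpace ℂ K]
    [CompleteSpace K] {e : Alg M} {s : K →L[ℂ] H} {t : H →L[ℂ] K}
    (C : R124.CornerData (e : H →L[ℂ] H) s t) :
    ∃ N : VonNeumannAlgebra K, Nonempty (Corner M e N) := by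
  let N : VonNeumannAlgebra K :=
    { toStarSubalgebra := R124.cornerAlg M e.2 C
      centralizer_centralizer' := by
        refine Set.Subset.antisymm (fun T hT => ?_) Set.subset_centralizer_centralizer
        refine R124.mem_vN_of_commute M fun y hy => ?_
        have hye : ∀ x, (e : H →L[ℂ] H) (y x) = y ((e : H →L[ℂ] H) x) := fun x =>
          congrArg (fun T : H →L[ℂ] H => T x) (R124.commute_of_mem_commutant hy e.2).eq.symm
        have h1 := hT (R124.cmp s t y) fun S hS => by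
          ext1 x
          have h2 := congrArg (fun T : H →L[ℂ] H => t (T (s x)))
            (R124.commute_of_mem_commutant hy hS).eq
          simpa only [mul_apply_eq_comp, R124.cmp_apply, R124.xpd_apply, C.ts] using h2.symm
        ext1 x
        have h2 := congrArg (fun T : K →L[ℂ] K => s (T (t x))) h1
        change s (t (y (s (T (t x))))) = s (T (t (y (s (t x))))) at h2
        rw [C.st, hye, C.qs, C.st, ← hye, C.tq] at h2
        exact h2 }
  let ι : Alg N →L[ℂ] Alg M := LinearMap.mkContinuous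
    { toFun := fun a => ⟨R124.xpd s t a, a.2⟩
      map_add' := fun a b => Subtype.ext (by ext1 x; simp [R124.xpd_apply])
      map_smul' := fun c a => Subtype.ext (by ext1 x; simp [R124.xpd_apply]) } 1
    fun a => by rw [one_mul]; exact C.norm_xpd a
  let π : Alg M →L[ℂ] Alg N := LinearMap.mkContinuous
    { toFun := fun a => ⟨R124.cmp s t a, R124.cmp_mem_cornerAlg e.2 C a.2⟩
      map_add' := fun a b => Subtype.ext (map_add (R124.cmp s t) _ _)
      map_smul' := fun c a => Subtype.ext (map_smul (R124.cmp s t) _ _) } 1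
    fun a => by rw [one_mul]; exact C.norm_cmp a
  have hι : ∀ a, (ι a : H →L[ℂ] H) = R124.xpd s t a := fun _ => rfl
  have hπ : ∀ a, (π a : K →L[ℂ] K) = R124.cmp s t a := fun _ => rfl
  refine ⟨N, ⟨⟨ι, π, s, t, fun a b => Subtype.ext ?_, fun a => Subtype.ext (C.xpd_star a),
    Subtype.ext ?_, fun a => C.norm_xpd a, fun a => Subtype.ext ?_,
    fun x => Subtype.ext (C.xpd_cmp x), fun a η ξ => ?_, fun x η ξ => ?_⟩⟩⟩
  · ext1 x
    rw [Alg.mul_apply, hι, hι, hι, R124.xpd_apply, R124.xpd_apply, R124.xpd_apply, C.ts]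
    rfl
  · ext1 x
    exact C.st x
  · ext1 x
    rw [hπ, hι, R124.cmp_apply, R124.xpd_apply, C.ts, C.ts]
  · rw [hι, R124.xpd_apply, C.adj']
  · rw [hπ, R124.cmp_apply, C.adj]

universe u in
/-- Recipe: `R124.CornerData`, `R124.cornerAlg`, `R124.cmp`, `R124.xpd` (see the proof of
`R124.unitary_bound_corner` for `K = ker (1 - e)`).  The corner algebra is its own bicommutant:
for `y ∈ M.commutant`, `cmp s t y` commutes with the corner algebra, so an element `T` of the
bicommutant commutes with `cmp s t y`, hence `xpd s t T` commutes with `y`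
(`R124.mem_vN_of_commute`). -/
theorem exists_corner {H : Type u} [NormedAddCommGroup H] [InnerProductSpace ℂ H]
    [CompleteSpace H] {M : VonNeumannAlgebra H} {e : Alg M} (he : IsStarProjection e) :
    ∃ (K : Type u) (_ : NormedAddCommGroup K) (_ : InnerProductSpace ℂ K) (_ : CompleteSpace K)
      (N : VonNeumannAlgebra K), Nonempty (Corner M e N) := by
  have hqp := Alg.isStarProjection_iff.1 he
  let V : Submodule ℂ H := LinearMap.ker ((1 - (e : H →L[ℂ] H) : H →L[ℂ] H) : H →ₗ[ℂ] H)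
  have hV : ∀ x, x ∈ V ↔ (e : H →L[ℂ] H) x = x := by
    intro x
    simp only [V, LinearMap.mem_ker, ContinuousLinearMap.coe_coe, sub_apply, one_apply_eq_self,
      sub_eq_zero]
    exact eq_comm
  have hVc : IsClosed (V : Set H) := ContinuousLinearMap.isClosed_ker (1 - (e : H →L[ℂ] H))
  have : CompleteSpace V := hVc.completeSpace_coe
  have hqq : ∀ x, (e : H →L[ℂ] H) ((e : H →L[ℂ] H) x) = (e : H →L[ℂ] H) x := fun x =>
    congrArg (fun T : H →L[ℂ] H => T x) hqp.isIdempotentElem.eq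
  have C : R124.CornerData (e : H →L[ℂ] H) V.subtypeL
      ((e : H →L[ℂ] H).codRestrict V fun x => (hV _).2 (hqq x)) := by
    refine ⟨fun x => Subtype.ext ((hV _).1 x.2), fun x => rfl, fun x y => ?_⟩
    change ⟪(x : H), y⟫_ℂ = ⟪(x : H), (e : H →L[ℂ] H) y⟫_ℂ
    have h1 : ContinuousLinearMap.adjoint (e : H →L[ℂ] H) = e := hqp.isSelfAdjoint
    conv_rhs => rw [← h1]
    rw [ContinuousLinearMap.adjoint_inner_right, (hV _).1 x.2]
  exact ⟨V, inferInstance, inferInstance, this, Corner_of_data C⟩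

section

variable {K : Type*} [NormedAddCommGroup K] [InnerProductSpace ℂ K] [CompleteSpace K]
  {N : VonNeumannAlgebra K} {e : Alg M}

theorem Corner.ι_inj (C : Corner M e N) {a b : Alg N} (h : C.ι a = C.ι b) : a = b := by
  rw [← C.π_ι a, h, C.π_ι]

theorem Corner.ι_mul_e (C : Corner M e N) (a : Alg N) : C.ι a * e = C.ι a :=
  (congrArg (C.ι a * ·) C.ι_one.symm).trans (by rw [← C.ι_mul, mul_one])

theorem Corner.e_mul_ι (C : Corner M e N) (a : Alg N) : e * C.ι a = C.ι a :=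
  (congrArg (· * C.ι a) C.ι_one.symm).trans (by rw [← C.ι_mul, one_mul])

theorem Corner.e_ι_e (C : Corner M e N) (a : Alg N) : e * C.ι a * e = C.ι a := by
  rw [C.e_mul_ι, C.ι_mul_e]

theorem Corner.π_mul_ι (C : Corner M e N) (x : Alg M) (c : Alg N) :
    C.π (x * C.ι c) = C.π x * c := C.ι_inj (by
  rw [C.ι_mul, C.ι_π, C.ι_π, mul_assoc, mul_assoc, C.ι_mul_e, mul_assoc, C.e_mul_ι, mul_assoc])

theorem Corner.ι_π_of (C : Corner M e N) {y : Alg M} (hy : e * y * e = y) : C.ι (C.π y) = y := by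
  rw [C.ι_π, hy]

/-- pull-back of a form -/
def Corner.pull (C : Corner M e N) (β : Bil (Alg M)) : Bil (Alg N) :=
  Bil.ofL (β.toL.bilinearComp C.ι C.ι)

theorem Corner.pull_apply (C : Corner M e N) (β : Bil (Alg M)) (a c : Alg N) :
    C.pull β a c = β (C.ι a) (C.ι c) := rfl

theorem Corner.norm_pull (C : Corner M e N) (β : Bil (Alg M)) : ‖C.pull β‖ ≤ ‖β‖ :=
  Bil.norm_le _ (norm_nonneg _) fun a c => by
    rw [C.pull_apply]
    refine (β.norm_apply_le _ _).trans ?_
    gcongr <;> exact C.norm_ι _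

/-- push-forward of an averaging element -/
def Corner.push (C : Corner M e N) (t : Dg (Alg N)) : Dg (Alg M) :=
  LinearMap.mkContinuous
    { toFun := fun β => t (C.pull β)
      map_add' := fun β β' => by rw [← map_add]; rfl
      map_smul' := fun z β => by rw [RingHom.id_apply, ← map_smul]; rfl } ‖t‖ fun β =>
    (t.le_opNorm _).trans (mul_le_mul_of_nonneg_left (C.norm_pull β) (norm_nonneg _))

theorem Corner.push_apply (C : Corner M e N) (t : Dg (Alg N)) (β : Bil (Alg M)) :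
    C.push t β = t (C.pull β) := rfl

theorem Corner.π_Pt (C : Corner M e N) (t : Dg (Alg N)) (b : Alg M) (ψ : Alg M →L[ℂ] Alg M) :
    C.π (b * Pt M (C.push t) ψ) = Pt N t (C.π ∘L Lm b ∘L ψ ∘L C.ι) := Alg.ext_vec fun η ξ => by
  rw [C.inner_π, ← Pt_left, inner_Pt, inner_Pt, C.push_apply]
  congr 1
  ext a c
  rw [C.pull_apply, bilOf_apply, bilOf_apply, vecF_apply, vecF_apply, ← C.inner_π, C.π_mul_ι]
  rfl

theorem Corner.Pt_mul_e (C : Corner M e N) (t : Dg (Alg N)) (ψ : Alg M →L[ℂ] Alg M) :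
    Pt M (C.push t) ψ * e = Pt M (C.push t) ψ := Alg.ext_vec fun η ξ => by
  rw [Alg.mul_apply, inner_Pt, inner_Pt, C.push_apply, C.push_apply]
  congr 1
  ext a c
  rw [C.pull_apply, C.pull_apply, bilOf_apply, bilOf_apply, vecF_apply, vecF_apply,
    ← Alg.mul_apply, mul_assoc, C.ι_mul_e]

/-- Recipe: `t' β = t (β ∘ (ι × ι))`, `P = Pt M t'`.  `left` is `Pt_left`; `unit` from `inner_Pt`,
`inner_ι`.  For `modular` with `y = ι y₀`: `X = P (φ ∘L Lm y) - P φ * y` satisfies `X * e = X`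
(`ι c * e = ι c`), and for every `b`, `π (b * P ψ) = Pt N t (π ∘L Lm b ∘L ψ ∘L ι)` (`inner_π`,
`π (x * ι c) = π x * c` by injectivity of `ι`), so `π (b * X) = 0`; take `b = star X`. -/
theorem Corner.avgOn (he : IsStarProjection e) (C : Corner M e N) {t : Dg (Alg N)}
    (ht : DgGood N t) : ∃ P, AvgOn M e (fun _ => True) P := by
  refine ⟨Pt M (C.push t), (norm_Pt_le _).trans
    ((LinearMap.mkContinuous_norm_le _ (norm_nonneg _) _).trans ht.norm_le), Pt_left _,
    Alg.ext_vec fun η ξ => ?_, fun φ _ y hy => ?_⟩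
  · have h1 := C.inner_ι 1 η ξ
    rw [C.ι_one] at h1
    rw [h1, ← ht.unit, inner_Pt, inner_Pt, C.push_apply]
    congr 1
    ext a c
    rw [C.pull_apply, bilOf_apply, bilOf_apply, vecF_apply, vecF_apply, ← C.inner_ι, C.ι_mul]
    rfl
  · obtain ⟨y₀, rfl⟩ : ∃ y₀, y = C.ι y₀ := ⟨_, (C.ι_π_of hy).symm⟩
    obtain ⟨X, hX⟩ : ∃ X, X = Pt M (C.push t) (φ ∘L Lm (C.ι y₀)) - Pt M (C.push t) φ * C.ι y₀ :=
      ⟨_, rfl⟩
    have h1 : X * e = X := by rw [hX, sub_mul, C.Pt_mul_e, mul_assoc, C.ι_mul_e]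
    have h2 : ∀ b, C.π (b * X) = 0 := fun b => by
      rw [hX, mul_sub, map_sub, ← mul_assoc, C.π_mul_ι, C.π_Pt, C.π_Pt, ← ht.modular, sub_eq_zero]
      congr 1
      ext1 a
      exact congrArg (fun z => C.π (b * φ z)) (C.ι_mul y₀ a).symm
    have h3 := C.ι_π (star X * X)
    have h4 : e * star X = star X := by
      rw [← he.isSelfAdjoint.star_eq, ← star_mul, h1]
    rw [h2, map_zero, ← mul_assoc, h4, mul_assoc, h1] at h3
    rw [← sub_eq_zero, ← hX]
    exact (CStarRing.star_mul_self_eq_zero_iff _).1 h3.symm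

/-- Recipe: `T.τ = (τ e)⁻¹ • τ ∘ ι` (`τ e > 0` by faithfulness), `IsNormal.comp`. -/
theorem Corner.trState (C : Corner M e N) (he : HasTr M e) :
    ∃ T : TrState (Alg N), IsNormal N T.τ ∧ T.Faithful := by
  obtain ⟨hp, h0, τ, hn, hpos, hf, htr⟩ := he
  have hee : star e * e = e := by rw [hp.isSelfAdjoint.star_eq, hp.isIdempotentElem.eq]
  have h1 : 0 ≤ τ e := hee ▸ hpos e hp.isIdempotentElem.eq
  have h2 : τ e ≠ 0 := fun h => h0 (hf e hp.isIdempotentElem.eq (by rw [hee, h]))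
  have h3 : ∀ x, ((τ e)⁻¹ • τ.comp C.ι) x = (τ e)⁻¹ * τ (C.ι x) := fun _ => rfl
  refine ⟨⟨(τ e)⁻¹ • τ.comp C.ι, ?_, fun x => ?_, fun x y => ?_⟩, ?_, fun x hx => ?_⟩
  · rw [h3, C.ι_one, inv_mul_cancel₀ h2]
  · rw [h3, C.ι_mul, C.ι_star]
    exact mul_nonneg (inv_nonneg_of_nonneg h1) (hpos _ (C.ι_mul_e x))
  · rw [h3, h3, C.ι_mul, C.ι_mul, htr _ _ (C.e_ι_e x) (C.e_ι_e y)]
  · refine Submodule.smul_mem _ _ (IsNormal.comp C.ι (fun η ξ => ?_) hn)
    have : (vecF M η ξ).comp C.ι = vecF N (C.t η) (C.t ξ) := by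
      ext a; exact C.inner_ι a η ξ
    rw [this]
    exact isNormal_vecF _ _
  · change ((τ e)⁻¹ • τ.comp C.ι) _ = 0 at hx
    rw [h3, C.ι_mul, C.ι_star, mul_eq_zero, inv_eq_zero, or_iff_right h2] at hx
    exact C.ι_inj (by rw [hf _ (C.ι_mul_e x) hx, map_zero])

end

/-- Recipe: `exists_corner`, `Corner.trState`, `exists_good_II` (if `r` is abelian in `N` then
`ι r` is abelian in `M`: `ι r * a * ι r = ι (r * π a * r)`), `Corner.avgOn`. -/
theorem avgOn_II {e : Alg M} (he : HasTr M e) (hna : ∀ r, IsAbel M r → r * e = r → r = 0) :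
    ∃ P, AvgOn M e (fun _ => True) P := by
  obtain ⟨K, _, _, _, N, ⟨C⟩⟩ := exists_corner he.1
  obtain ⟨T, h1, h2⟩ := C.trState he
  obtain ⟨t, ht⟩ := exists_good_II T h1 h2 fun r hr => by
    have h3 : ∀ a, C.ι r * a * C.ι r = C.ι (r * C.π a * r) := fun a => by
      rw [C.ι_mul, C.ι_mul, C.ι_π, ← mul_assoc, ← mul_assoc, C.ι_mul_e, mul_assoc _ e, C.e_mul_ι]
    refine C.ι_inj ((hna _ ⟨⟨?_, ?_⟩, fun a b => ?_⟩ (C.ι_mul_e r)).trans (map_zero _).symm)
    · rw [IsIdempotentElem, ← C.ι_mul, hr.1.isIdempotentElem.eq]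
    · rw [IsSelfAdjoint, ← C.ι_star, hr.1.isSelfAdjoint.star_eq]
    · rw [h3, h3, Commute, SemiconjBy, ← C.ι_mul, ← C.ι_mul, (hr.2 _ _).eq]
  exact C.avgOn he.1 ht

/-- Recipe: as `avgOn_II` with `exists_good_I` for `π (E i j)`. -/
theorem avgOn_I {e : Alg M} (he : HasTr M e) {J : Type} [Fintype J] (E : J → J → Alg M)
    (hE : ∀ i j, e * E i j * e = E i j)
    (hc : ∀ a b i j, e * a * e = a → e * b * e = b → Commute b (∑ k, E k i * a * E j k))
    (hr : ∀ a, e * a * e = a → a = ∑ i, ∑ j, E i j * ∑ k, E k i * a * E j k) :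
    ∃ P, AvgOn M e (fun _ => True) P := by
  obtain ⟨K, _, _, _, N, ⟨C⟩⟩ := exists_corner he.1
  obtain ⟨T, h1, h2⟩ := C.trState he
  obtain ⟨t, ht⟩ := exists_good_I T h1 h2 (fun i j => C.π (E i j))
    (fun a b i j => C.ι_inj (by
      simp only [C.ι_mul, map_sum, C.ι_π_of (hE _ _)]
      exact (hc _ _ i j (C.e_ι_e a) (C.e_ι_e b)).eq))
    fun a => C.ι_inj (by
      simp only [C.ι_mul, map_sum, C.ι_π_of (hE _ _)]
      exact hr _ (C.e_ι_e a))
  exact C.avgOn he.1 ht

end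

end Crest.Agent.R121
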