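import Crest.Agent.R121.Mat

/-!
# Row 121: positive and negative powers of a unitary cannot be told apart by a bounded map
-/

open MeasureTheory
open scoped InnerProductSpace ComplexOrder Topology

set_option linter.unusedSectionVars false

namespace Crest.Agent.R121

open R124 (UG haar tau)

noncomputable section

variable {A : Type*} [CStarAlgebra A] {D : Type} [Fintype D] [DecidableEq D]
  (T : TrState A) (ρ : Matrix D D ℂ →⋆ₐ[ℂ] A)

/-- Weights whose sine series is uniformly small. -/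
structure IsHankel (n : ℕ) (w : ℕ → ℝ) (ε : ℝ) : Prop where
  nonneg : ∀ k, 0 ≤ w k
  sum : ∑ k ∈ Finset.range n, w k = 1
  small : ∀ z : ℂ, ‖z‖ = 1 →
    ‖∑ k ∈ Finset.range n, (w k : ℂ) * (z ^ (k + 1) - starRingEnd ℂ z ^ (k + 1))‖ ≤ ε

/-- Recipe: `w k = r ^ (k+1) / (k+1) / S` with `S = ∑ k < n, r ^ (k+1) / (k+1)`.
`Complex.hasSum_taylorSeries_neg_log` gives `∑' k, (r z) ^ k / k = -log (1 - r z)`, whose
imaginary part is at most `π` (`Complex.abs_arg_le_pi`, `Complex.log_im`); the sum in `small` is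
`2 I` times the imaginary part of a partial sum.  Choose `r < 1` with `-log (1 - r)` large,
then `n` with tail `∑_{k ≥ n} r ^ (k+1) / (k+1) ≤ 1`. -/
theorem exists_isHankel {ε : ℝ} (hε : 0 < ε) : ∃ n w, IsHankel n w ε := by
  set M : ℝ := 2 * (Real.pi + 1) / ε with hM
  have hM0 : 0 < M := by have := Real.pi_pos; positivity
  set r : ℝ := 1 - Real.exp (-(M + 1)) with hr
  have hr0 : 0 < r := sub_pos.2 (Real.exp_lt_one_iff.2 (by linarith))
  have hr1 : r < 1 := sub_lt_self _ (Real.exp_pos _)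
  have hsum : HasSum (fun k : ℕ => r ^ (k + 1) / (k + 1)) (M + 1) := by
    have := Real.hasSum_pow_div_log_of_abs_lt_one (x := r) (by rw [abs_of_pos hr0]; exact hr1)
    rwa [hr, sub_sub_cancel, Real.log_exp, neg_neg, ← hr] at this
  obtain ⟨n, hn⟩ := (hsum.tendsto_sum_nat.eventually (lt_mem_nhds (show M < M + 1 by linarith))).exists
  set S : ℝ := ∑ k ∈ Finset.range n, r ^ (k + 1) / (k + 1) with hS
  have hS0 : 0 < S := hM0.trans hn
  refine ⟨n, fun k => r ^ (k + 1) / (k + 1) / S, fun k => by positivity, ?_, fun z hz => ?_⟩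
  · rw [← Finset.sum_div, div_self hS0.ne']
  · have hrz : ‖(r : ℂ) * z‖ = r := by rw [norm_mul, hz, mul_one, Complex.norm_real, Real.norm_of_nonneg hr0.le]
    have h1 := Complex.hasSum_taylorSeries_neg_log' (z := r * z) (by rw [hrz]; exact hr1)
    set P : ℂ := ∑ k ∈ Finset.range n, ((r : ℂ) * z) ^ (k + 1) / (k + 1) with hP
    have h2 := (hasSum_nat_add_iff' n).2 h1
    have h3 := (hasSum_nat_add_iff' n).2 hsum
    have h4 : ‖-Complex.log (1 - r * z) - P‖ ≤ M + 1 - S := by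
      refine h2.norm_le_of_bounded h3 fun k => le_of_eq ?_
      rw [norm_div, norm_pow, hrz]
      congr 1
      exact_mod_cast Complex.norm_natCast (k + n + 1)
    have h5 : |P.im| ≤ Real.pi + 1 := by
      have e : P.im = -(Complex.log (1 - r * z)).im - (-Complex.log (1 - r * z) - P).im := by
        simp
      have a1 := Complex.abs_im_le_norm (-Complex.log (1 - r * z) - P)
      have a2 : |(Complex.log (1 - r * z)).im| ≤ Real.pi := by
        rw [Complex.log_im]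
        exact Complex.abs_arg_le_pi _
      rw [e]
      refine (abs_sub _ _).trans ?_
      rw [abs_neg]
      linarith
    have e : ∑ k ∈ Finset.range n, ((r ^ (k + 1) / (k + 1) / S : ℝ) : ℂ) *
        (z ^ (k + 1) - starRingEnd ℂ z ^ (k + 1)) = (S : ℂ)⁻¹ * (P - starRingEnd ℂ P) := by
      rw [hP, map_sum, ← Finset.sum_sub_distrib, Finset.mul_sum]
      refine Finset.sum_congr rfl fun k _ => ?_
      simp only [map_div₀, map_pow, map_mul, Complex.conj_ofReal, map_add, map_natCast, map_one,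
        mul_pow]
      push_cast
      ring
    rw [e, Complex.sub_conj, norm_mul, norm_mul, norm_inv, Complex.norm_real, Complex.norm_real,
      Complex.norm_I, mul_one, Real.norm_of_nonneg hS0.le, Real.norm_eq_abs, abs_mul, abs_two,
      inv_mul_le_iff₀ hS0]
    have : 2 * (Real.pi + 1) = M * ε := by rw [hM]; field_simp
    nlinarith

theorem Hankel_root_sum {ω : ℂ} {Q : ℕ} (hω : IsPrimitiveRoot ω Q) {m : ℤ} (hm : |m| < Q) :
    ∑ q ∈ Finset.range Q, (ω ^ q) ^ m = if m = 0 then (Q : ℂ) else 0 := by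
  split_ifs with h0
  · simp [h0]
  · have e : ∀ q : ℕ, (ω ^ q) ^ m = (ω ^ m) ^ q := fun q => by
      rw [← zpow_natCast, ← zpow_natCast, ← zpow_mul, ← zpow_mul, mul_comm]
    have h1 : ω ^ m ≠ 1 := fun h => h0 (Int.eq_zero_of_abs_lt_dvd
      ((hω.zpow_eq_one_iff_dvd m).1 h) hm)
    simp only [e]
    rw [geom_sum_eq h1, ← e, hω.pow_eq_one, one_zpow, sub_self, zero_div]

theorem Hankel_count {N m : ℕ} (hm : m ≤ N) :
    ∑ j ∈ Finset.range N, ∑ j' ∈ Finset.range N, (if j' = j + m then (1 : ℂ) else 0) =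
      (N : ℂ) - m := by
  simp only [Finset.sum_ite_eq', Finset.mem_range]
  rw [← Finset.sum_filter]
  have : (Finset.range N).filter (fun j => j + m < N) = Finset.range (N - m) := by
    ext j
    simp only [Finset.mem_filter, Finset.mem_range]
    omega
  rw [this, Finset.sum_const, Finset.card_range, nsmul_eq_mul, mul_one, Nat.cast_sub hm]

theorem Hankel_avg {ω : ℂ} {Q : ℕ} (hω : IsPrimitiveRoot ω Q) (f : ℤ → ℂ) {a : ℤ} {m N : ℕ}
    (ha : a = m ∨ a = -m) (hm : m ≤ N) (hQ : m + N < Q) :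
    ∑ q ∈ Finset.range Q, ∑ j ∈ Finset.range N, ∑ j' ∈ Finset.range N,
      (ω ^ q) ^ (a + ((j' : ℤ) - j)) * f ((j' : ℤ) - j) = Q * ((N : ℂ) - m) * f (-a) := by
  have e : ∀ j ∈ Finset.range N, ∀ j' ∈ Finset.range N,
      ∑ q ∈ Finset.range Q, (ω ^ q) ^ (a + ((j' : ℤ) - j)) * f ((j' : ℤ) - j) =
        Q * (if a + ((j' : ℤ) - j) = 0 then (1 : ℂ) else 0) * f (-a) := by
    intro j hj j' hj'
    have h1 := Finset.mem_range.1 hj
    have h2 := Finset.mem_range.1 hj'
    rw [← Finset.sum_mul, Hankel_root_sum hω (by rw [abs_lt]; omega)]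
    split_ifs with h0
    · rw [mul_one, show (j' : ℤ) - j = -a by omega]
    · simp
  rw [Finset.sum_comm, Finset.sum_congr rfl fun j hj => Finset.sum_comm.trans
    (Finset.sum_congr rfl (e j hj))]
  simp only [← Finset.sum_mul, ← Finset.mul_sum]
  congr 2
  rw [← Hankel_count hm]
  rcases ha with rfl | rfl
  · rw [Finset.sum_comm]
    refine Finset.sum_congr rfl fun j _ => Finset.sum_congr rfl fun j' _ => ?_
    exact if_congr (by omega) rfl rfl
  · refine Finset.sum_congr rfl fun j _ => Finset.sum_congr rfl fun j' _ => ?_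
    exact if_congr (by omega) rfl rfl

theorem Hankel_smul_mem {W : A} (hW : W ∈ unitary A) {ζ : ℂ} (hζ : ‖ζ‖ = 1) :
    ζ • W ∈ unitary A := by
  have h1 : star ζ * ζ = 1 := by
    rw [RCLike.star_def, Complex.conj_mul', hζ]
    simp
  constructor
  · rw [star_smul, smul_mul_smul_comm, hW.1, h1, one_smul]
  · rw [star_smul, smul_mul_smul_comm, hW.2, mul_comm, h1, one_smul]

theorem Hankel_norm_le {n : ℕ} {w : ℕ → ℝ} {ε : ℝ} (h : IsHankel n w ε) {W : A}
    (hW : W ∈ unitary A) :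
    ‖∑ k ∈ Finset.range n, (w k : ℂ) • (W ^ (k + 1) - star W ^ (k + 1))‖ ≤ ε := by
  have hε : 0 ≤ ε := (norm_nonneg _).trans (h.small 1 norm_one)
  have hn : IsStarNormal W := ⟨hW.1.trans hW.2.symm⟩
  have e : ∑ k ∈ Finset.range n, (w k : ℂ) • (W ^ (k + 1) - star W ^ (k + 1)) =
      cfc (∑ k ∈ Finset.range n, fun z : ℂ => (w k : ℂ) * (z ^ (k + 1) - star z ^ (k + 1))) W := by
    rw [cfc_sum _ W _ fun k _ => by fun_prop]
    refine Finset.sum_congr rfl fun k _ => ?_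
    rw [cfc_const_mul _ _ W, cfc_sub _ _ W, cfc_pow_id W, cfc_pow (fun z : ℂ => star z) _ W,
      cfc_star_id W]
  rw [e]
  refine norm_cfc_le hε fun z hz => ?_
  rw [Finset.sum_apply]
  exact h.small z (by simpa using spectrum.subset_circle_of_unitary hW hz)

/-- **Hankel lemma.**  Recipe: for unimodular `ζ` put `W' = ζ • W`,
`p ζ = ∑ w k (W' ^ (k+1) - star W' ^ (k+1))`, of norm `≤ ε` (`cfc`, `norm_cfc_le`,
`spectrum.subset_circle_of_unitary`), `s ζ = ∑ j < N, W' ^ j`.  By `norm_τ_mul_pos_le`,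
`‖τ (Φ (p ζ) * (star (s ζ) * s ζ))‖ ≤ ε * n2 (s ζ)²`.  Average over the `Q`-th roots of unity
`ζ` with `Q > n + N` (`IsPrimitiveRoot.geom_sum_eq_zero`, `Complex.isPrimitiveRoot_exp`; or
integrate over the circle): the average of `n2 (s ζ)²` is `N`, the average of the left side is
`∑ k, w k * (N - (k+1)) * (Fv (W ^ (k+1)) - Fv (star W ^ (k+1)))` for `N ≥ n` (only the terms
`W ^ a`, `star W ^ j * W ^ j'` with `a + j' - j = 0` survive).  Divide by `N`, use `‖Fv g‖ ≤ 1` for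
unitary `g` and let `N → ∞`.  It helps to write `W ^ a`, `a : ℤ`, in the group `unitary A`. -/
theorem IsHankel.op {n : ℕ} {w : ℕ → ℝ} {ε : ℝ} (h : IsHankel n w ε) {Φ : A →L[ℂ] A}
    (hΦ : ‖Φ‖ ≤ 1) {W : A} (hW : W ∈ unitary A) :
    ‖∑ k ∈ Finset.range n, (w k : ℂ) * (Fv T Φ (W ^ (k + 1)) - Fv T Φ (star W ^ (k + 1)))‖ ≤ ε := by
  set U : unitary A := ⟨W, hW⟩ with hU
  set u : ℤ → A := fun a => ((U ^ a : unitary A) : A) with hu
  have u_add : ∀ a b, u (a + b) = u a * u b := fun a b => by simp [hu, zpow_add]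
  have u_star : ∀ a, star (u a) = u (-a) := fun a => by
    simp only [hu, zpow_neg, ← Unitary.star_eq_inv]
    rfl
  have u_nat : ∀ k : ℕ, u k = W ^ k := fun k => by simp [hu, hU]
  have u_neg : ∀ k : ℕ, u (-k) = star W ^ k := fun k => by rw [← u_star, u_nat, star_pow]
  have hε : 0 ≤ ε := (norm_nonneg _).trans (h.small 1 norm_one)
  set Dk : ℕ → ℂ := fun k => Fv T Φ (W ^ (k + 1)) - Fv T Φ (star W ^ (k + 1)) with hDk
  have main : ∀ N : ℕ, n ≤ N →
      ‖∑ k ∈ Finset.range n, (w k : ℂ) * (((N : ℂ) - (k + 1 : ℕ)) * Dk k)‖ ≤ ε * N := by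
    intro N hN
    set Q : ℕ := n + N + 1 with hQ
    have hQ0 : Q ≠ 0 := by omega
    set ω : ℂ := Complex.exp (2 * Real.pi * Complex.I / Q) with hω
    have hωp : IsPrimitiveRoot ω Q := Complex.isPrimitiveRoot_exp Q hQ0
    have hζ : ∀ q : ℕ, ‖ω ^ q‖ = 1 := fun q => by rw [norm_pow, hωp.norm'_eq_one hQ0, one_pow]
    set p : ℂ → A := fun ζ => ∑ k ∈ Finset.range n, (w k : ℂ) •
      (ζ ^ ((k + 1 : ℕ) : ℤ) • u (k + 1 : ℕ) - ζ ^ (-((k + 1 : ℕ) : ℤ)) • u (-(k + 1 : ℕ))) with hp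
    set s : ℂ → A := fun ζ => ∑ j ∈ Finset.range N, ζ ^ (j : ℤ) • u j with hs
    have hss : ∀ ζ : ℂ, ‖ζ‖ = 1 → star (s ζ) * s ζ = ∑ j ∈ Finset.range N, ∑ j' ∈ Finset.range N,
        ζ ^ ((j' : ℤ) - j) • u ((j' : ℤ) - j) := by
      intro ζ hζ
      have hζ0 : ζ ≠ 0 := norm_ne_zero_iff.1 (by rw [hζ]; exact one_ne_zero)
      simp only [hs, star_sum, Finset.sum_mul, Finset.mul_sum]
      rw [Finset.sum_comm]
      refine Finset.sum_congr rfl fun j _ => Finset.sum_congr rfl fun j' _ => ?_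
      rw [star_smul, u_star, smul_mul_smul_comm, ← u_add, star_zpow₀, RCLike.star_def,
        ← Complex.inv_eq_conj hζ, inv_zpow', ← zpow_add₀ hζ0, neg_add_eq_sub]
    have hpn : ∀ ζ : ℂ, ‖ζ‖ = 1 → ‖p ζ‖ ≤ ε := by
      intro ζ hζ
      have := Hankel_norm_le h (Hankel_smul_mem hW hζ)
      refine le_of_eq_of_le ?_ this
      congr 1
      refine Finset.sum_congr rfl fun k _ => ?_
      rw [u_neg, u_nat, star_smul, smul_pow, smul_pow, RCLike.star_def, ← Complex.inv_eq_conj hζ,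
        zpow_neg, zpow_natCast, inv_pow]
    have hexp : ∀ ζ : ℂ, ‖ζ‖ = 1 → T.τ (Φ (p ζ) * (star (s ζ) * s ζ)) =
        ∑ k ∈ Finset.range n, (w k : ℂ) *
          ((∑ j ∈ Finset.range N, ∑ j' ∈ Finset.range N,
            ζ ^ (((k + 1 : ℕ) : ℤ) + ((j' : ℤ) - j)) * T.τ (Φ (u (k + 1 : ℕ)) * u ((j' : ℤ) - j))) -
          ∑ j ∈ Finset.range N, ∑ j' ∈ Finset.range N,
            ζ ^ (-((k + 1 : ℕ) : ℤ) + ((j' : ℤ) - j)) *
              T.τ (Φ (u (-(k + 1 : ℕ))) * u ((j' : ℤ) - j))) := by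
      intro ζ hζ
      have hζ0 : ζ ≠ 0 := norm_ne_zero_iff.1 (by rw [hζ]; exact one_ne_zero)
      rw [hss ζ hζ, hp]
      simp only [map_sum Φ, Finset.sum_mul, map_sum T.τ]
      refine Finset.sum_congr rfl fun k _ => ?_
      simp only [map_sum, map_smul, smul_mul_assoc, map_sub, sub_mul, smul_eq_mul,
        Finset.mul_sum, mul_smul_comm, zpow_add₀ hζ0, mul_sub, ← Finset.sum_sub_distrib]
      refine Finset.sum_congr rfl fun j _ => Finset.sum_congr rfl fun j' _ => ?_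
      ring
    have havg : ∑ q ∈ Finset.range Q, T.τ (Φ (p (ω ^ q)) * (star (s (ω ^ q)) * s (ω ^ q))) =
        Q * ∑ k ∈ Finset.range n, (w k : ℂ) * (((N : ℂ) - (k + 1 : ℕ)) * Dk k) := by
      rw [Finset.sum_congr rfl fun q _ => hexp _ (hζ q), Finset.sum_comm, Finset.mul_sum]
      refine Finset.sum_congr rfl fun k hk => ?_
      have hk' := Finset.mem_range.1 hk
      rw [← Finset.mul_sum, Finset.sum_sub_distrib,
        Hankel_avg hωp (fun b => T.τ (Φ (u (k + 1 : ℕ)) * u b)) (m := k + 1) (Or.inl rfl)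
          (by omega) (by omega),
        Hankel_avg hωp (fun b => T.τ (Φ (u (-(k + 1 : ℕ))) * u b)) (m := k + 1) (Or.inr rfl)
          (by omega) (by omega), neg_neg]
      simp only [hDk, Fv, u_neg, u_nat, star_pow, star_star]
      ring
    have hn2 : ∑ q ∈ Finset.range Q, T.n2 (s (ω ^ q)) ^ 2 = Q * N := by
      have e1 : ∀ q : ℕ, T.τ (star (s (ω ^ q)) * s (ω ^ q)) =
          ∑ j ∈ Finset.range N, ∑ j' ∈ Finset.range N,
            (ω ^ q) ^ (((0 : ℕ) : ℤ) + ((j' : ℤ) - j)) * T.τ (u ((j' : ℤ) - j)) := fun q => by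
        rw [hss _ (hζ q)]
        simp only [map_sum, map_smul, smul_eq_mul, Nat.cast_zero, zero_add]
      have e2 := Hankel_avg hωp (fun b => T.τ (u b)) (m := 0) (N := N) (Or.inl rfl)
        (by omega) (by omega)
      rw [← Finset.sum_congr rfl fun q _ => e1 q, u_neg, pow_zero, T.one] at e2
      simp only [← T.coe_n2_sq] at e2
      have e3 : ((∑ q ∈ Finset.range Q, T.n2 (s (ω ^ q)) ^ 2 : ℝ) : ℂ) = ((Q * N : ℝ) : ℂ) := by
        rw [Complex.ofReal_sum, e2]
        push_cast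
        ring
      exact_mod_cast e3
    have hle : ‖∑ q ∈ Finset.range Q, T.τ (Φ (p (ω ^ q)) * (star (s (ω ^ q)) * s (ω ^ q)))‖ ≤
        ε * (Q * N) := by
      rw [← hn2, Finset.mul_sum]
      refine norm_sum_le_of_le _ fun q _ => (T.norm_τ_mul_pos_le _ _).trans ?_
      refine mul_le_mul_of_nonneg_right ?_ (sq_nonneg _)
      exact (Φ.le_of_opNorm_le hΦ _).trans (by rw [one_mul]; exact hpn _ (hζ q))
    rw [havg, norm_mul, Complex.norm_natCast] at hle
    have hQp : (0 : ℝ) < Q := Nat.cast_pos.2 (Nat.pos_of_ne_zero hQ0)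
    refine le_of_mul_le_mul_left (hle.trans_eq ?_) hQp
    ring
  set X : ℂ := ∑ k ∈ Finset.range n, (w k : ℂ) * Dk k with hX
  set C : ℝ := ‖∑ k ∈ Finset.range n, (w k : ℂ) * (((k + 1 : ℕ) : ℂ) * Dk k)‖ with hC
  have key : ∀ N : ℕ, n ≤ N → N * ‖X‖ ≤ ε * N + C := by
    intro N hN
    have e : (N : ℂ) * X = ∑ k ∈ Finset.range n, (w k : ℂ) * (((N : ℂ) - (k + 1 : ℕ)) * Dk k) +
        ∑ k ∈ Finset.range n, (w k : ℂ) * (((k + 1 : ℕ) : ℂ) * Dk k) := by
      rw [hX, Finset.mul_sum, ← Finset.sum_add_distrib]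
      refine Finset.sum_congr rfl fun k _ => ?_
      ring
    have := congrArg norm e
    rw [norm_mul, Complex.norm_natCast] at this
    rw [this]
    exact (norm_add_le _ _).trans (add_le_add (main N hN) le_rfl)
  by_contra hlt
  push Not at hlt
  obtain ⟨N, hN⟩ := exists_nat_gt (C / (‖X‖ - ε))
  have h1 := key (N + n) (by omega)
  rw [div_lt_iff₀ (by linarith)] at hN
  have h2 : (0 : ℝ) ≤ n * (‖X‖ - ε) := mul_nonneg (Nat.cast_nonneg n) (by linarith)
  push_cast at h1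
  nlinarith

end

end Crest.Agent.R121
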