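import Crest.Agent.R121.D1
import Crest.Agent.R121.Hankel

/-!
# Row 121: the averages over powers of a random word are almost invariant
-/

open MeasureTheory
open scoped InnerProductSpace ComplexOrder Topology

set_option linter.unusedSectionVars false

namespace Crest.Agent.R121

open R124 (UG haar tau)

noncomputable section

variable {A : Type*} [CStarAlgebra A] {D : Type} [Fintype D] [DecidableEq D]
  (T : TrState A) (ρ : Matrix D D ℂ →⋆ₐ[ℂ] A)

/-- The average of `Fv Φ` over `word Q * word (P ++ Q) ^ k`. -/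
def Hf (n : ℕ) (w : ℕ → ℝ) (P Q : List A) (Φ : A →L[ℂ] A) : ℂ :=
  ∑ k ∈ Finset.range n, (w k : ℂ) *
    ∫ V, Fv T Φ (wordA ρ Q V * wordA ρ (P ++ Q) V ^ k) ∂haar D

theorem wordA_flatten_replicate (L : List A) (k : ℕ) (V : UG D) :
    wordA ρ (List.replicate k L).flatten V = wordA ρ L V ^ k := by
  induction k with
  | zero => simp
  | succ k ih => rw [List.replicate_succ, List.flatten_cons, wordA_append, ih, pow_succ']

theorem Hf_smul_sum (n : ℕ) (w : ℕ → ℝ) (P Q : List A) {ι : Type*} (s : Finset ι) (c : ℂ)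
    (Φ : ι → A →L[ℂ] A) :
    Hf T ρ n w P Q (c • ∑ i ∈ s, Φ i) = c * ∑ i ∈ s, Hf T ρ n w P Q (Φ i) := by
  have h1 : ∀ g : A, Fv T (c • ∑ i ∈ s, Φ i) g = c * ∑ i ∈ s, Fv T (Φ i) g := by
    intro g
    simp only [Fv, smul_apply, sum_apply, smul_mul_assoc,
      Finset.sum_mul, map_smul, map_sum, smul_eq_mul]
  unfold Hf
  simp only [h1]
  rw [Finset.sum_comm, Finset.mul_sum]
  refine Finset.sum_congr rfl fun k _ => ?_
  rw [integral_const_mul, integral_finsetSum, ← Finset.mul_sum]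
  · ring
  · intro i _
    exact R124.integrable_haar ((continuous_Fv T (Φ i)).comp
      ((continuous_wordA ρ Q).mul ((continuous_wordA ρ (P ++ Q)).pow k)))

omit T ρ in
theorem IsHankel.cyc_norm_sum_le {n : ℕ} {w : ℕ → ℝ} {ε : ℝ} (h : IsHankel n w ε) {x : ℕ → ℂ}
    {δ : ℝ} (hx : ∀ k < n, ‖x k‖ ≤ δ) : ‖∑ k ∈ Finset.range n, (w k : ℂ) * x k‖ ≤ δ := by
  refine (norm_sum_le _ _).trans ?_
  calc ∑ k ∈ Finset.range n, ‖(w k : ℂ) * x k‖ ≤ ∑ k ∈ Finset.range n, w k * δ := by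
        refine Finset.sum_le_sum fun k hk => ?_
        rw [norm_mul, Complex.norm_real, Real.norm_of_nonneg (h.nonneg k)]
        exact mul_le_mul_of_nonneg_left (hx k (Finset.mem_range.1 hk)) (h.nonneg k)
    _ = δ := by rw [← Finset.sum_mul, h.sum, one_mul]

omit T ρ in
theorem cyc_mul_pow (b c : A) (k : ℕ) : c * (b * c) ^ k * b = (c * b) ^ (k + 1) := by
  induction k with
  | zero => simp
  | succ k ih => rw [pow_succ (c * b), ← ih, pow_succ]; simp only [mul_assoc]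

omit T ρ in
theorem cyc_mem_flatten {L : List A} {k : ℕ} {a : A} (ha : a ∈ (List.replicate k L).flatten) :
    a ∈ L := by
  obtain ⟨l, hl, ha⟩ := List.mem_flatten.1 ha
  rwa [List.eq_of_mem_replicate hl] at ha

omit T ρ in
theorem cyc_length_flatten (L : List A) (k : ℕ) :
    (List.replicate k L).flatten.length = k * L.length := by
  simp

/-- `Hf` is close to an average over adjoints of words. -/
theorem cyc_hankel {n : ℕ} {w : ℕ → ℝ} {ε : ℝ} (h : IsHankel n w ε) {P Q : List A}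
    (hu : ∀ a ∈ P ++ Q, a ∈ unitary A) {Φ : A →L[ℂ] A} (hΦ : InL T Φ) :
    ‖Hf T ρ n w P Q Φ - ∑ k ∈ Finset.range n, (w k : ℂ) * ∫ V, Fv T Φ
      (star (wordA ρ (P ++ (List.replicate (k + 1) (Q ++ P)).flatten) V)) ∂haar D‖ ≤ ε := by
  have hc1 : ∀ k, Continuous fun V => Fv T Φ (wordA ρ Q V * wordA ρ (P ++ Q) V ^ k) := fun k =>
    (continuous_Fv T Φ).comp ((continuous_wordA ρ Q).mul ((continuous_wordA ρ (P ++ Q)).pow k))
  have hc2 : ∀ k, Continuous fun V => Fv T Φ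
      (star (wordA ρ (P ++ (List.replicate (k + 1) (Q ++ P)).flatten) V)) := fun k =>
    (continuous_Fv T Φ).comp (continuous_wordA ρ _).star
  have e : Hf T ρ n w P Q Φ - ∑ k ∈ Finset.range n, (w k : ℂ) * ∫ V, Fv T Φ
      (star (wordA ρ (P ++ (List.replicate (k + 1) (Q ++ P)).flatten) V)) ∂haar D =
      ∫ V, ∑ k ∈ Finset.range n, (w k : ℂ) * (Fv T Φ (wordA ρ Q V * wordA ρ (P ++ Q) V ^ k) -
        Fv T Φ (star (wordA ρ (P ++ (List.replicate (k + 1) (Q ++ P)).flatten) V))) ∂haar D := by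
    rw [Hf, ← Finset.sum_sub_distrib, integral_finsetSum]
    swap
    · exact fun k _ => R124.integrable_haar (continuous_const.mul ((hc1 k).sub (hc2 k)))
    refine Finset.sum_congr rfl fun k _ => ?_
    rw [integral_const_mul, integral_sub (R124.integrable_haar (hc1 k))
      (R124.integrable_haar (hc2 k)), mul_sub]
  rw [e]
  refine (norm_integral_le_of_norm_le_const (C := ε) (Filter.Eventually.of_forall fun V => ?_)).trans
    (by simp)
  have hb : wordA ρ P V ∈ unitary A := wordA_mem_unitary ρ (fun a ha => hu a (by simp [ha])) V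
  have hW : wordA ρ (Q ++ P) V ∈ unitary A :=
    wordA_mem_unitary ρ (fun a ha => hu a (by simpa [or_comm] using ha)) V
  have hb1 := R124.norm_le_one_of_mem_unitary hb
  have h1 : ‖(1 : A)‖ ≤ 1 := (IsStarProjection.one A).norm_le
  have hΨ := hΦ.sandwich (a := 1) (b := 1) (c := star (wordA ρ P V)) (d := wordA ρ P V) h1 h1
    (by rwa [norm_star]) hb1
  have hF : ∀ g, Fv T (Lm (1 : A) ∘L Rm (wordA ρ P V) ∘L Φ ∘L Lm 1 ∘L Rm (star (wordA ρ P V))) g =
      Fv T Φ (g * star (wordA ρ P V)) := by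
    intro g
    simp [Fv, mul_assoc]
  have := h.op T hΨ.norm_le hW
  simp only [hF] at this
  have e1 : ∀ k, wordA ρ (Q ++ P) V ^ (k + 1) * star (wordA ρ P V) =
      wordA ρ Q V * wordA ρ (P ++ Q) V ^ k := fun k => by
    rw [wordA_append, wordA_append, ← cyc_mul_pow, mul_assoc _ (wordA ρ P V), hb.2, mul_one]
  have e2 : ∀ k, star (wordA ρ (Q ++ P) V) ^ (k + 1) * star (wordA ρ P V) =
      star (wordA ρ (P ++ (List.replicate (k + 1) (Q ++ P)).flatten) V) := fun k => by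
    rw [wordA_append ρ P, wordA_flatten_replicate, star_mul, star_pow]
  simp only [e1, e2] at this
  exact this

/-- Invariance of the averages over adjoints of words. -/
theorem cyc_star [Nonempty D] {N : List A} (hne : N ≠ []) (hu : ∀ a ∈ N, a ∈ unitary A) {κ₀ : ℝ}
    (hκ : ∀ a ∈ N, kappa T ρ a ≤ κ₀) {p : ℕ} (hp : N.length ≤ p) {η : ℝ}
    (hη : 0 < η) {Φ : A →L[ℂ] A} (hΦ : InL T Φ) (U : UG D) :
    ‖(∫ V, Fv T (shiftL Φ (ρ (U : Matrix D D ℂ))) (star (wordA ρ N V)) ∂haar D) -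
      ∫ V, Fv T Φ (star (wordA ρ N V)) ∂haar D‖ ≤ 2 * d1err D p η κ₀ := by
  obtain ⟨a, N', rfl⟩ := List.exists_cons_of_ne_nil hne
  have key : ∀ Ψ : A →L[ℂ] A, InL T Ψ →
      ‖(∫ V, Fv T Ψ (star (wordA ρ (a :: N') V)) ∂haar D) -
        ∫ V, Fv T (avgG ρ Ψ) (wordA ρ (N'.map star).reverse V * star a) ∂haar D‖ ≤
        d1err D p η κ₀ := by
    intro Ψ hΨ
    rw [← R124.integral_haar_inv fun V => Fv T Ψ (star (wordA ρ (a :: N') V))]
    simp only [star_wordA_inv]
    refine d1 T ρ hΨ (fun b hb => ?_) (fun b hb => ?_) ?_ ?_ hη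
    · obtain ⟨c, hc, rfl⟩ := List.mem_map.1 (List.mem_reverse.1 hb)
      rw [norm_star]
      exact R124.norm_le_one_of_mem_unitary (hu c (by simp [hc]))
    · obtain ⟨c, hc, rfl⟩ := List.mem_map.1 (List.mem_reverse.1 hb)
      rw [kappa_star]
      exact hκ c (by simp [hc])
    · rw [norm_star]
      exact R124.norm_le_one_of_mem_unitary (hu a (by simp))
    · simp only [List.length_reverse, List.length_map, List.length_cons] at hp ⊢
      omega
  have h1 := key _ (hΦ.shiftL (norm_rho_unitary_le ρ U))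
  have h2 := key _ hΦ
  rw [avgG_shiftL] at h1
  rw [norm_sub_rev] at h2
  exact (norm_sub_le_norm_sub_add_norm_sub _ _ _).trans ((add_le_add h1 h2).trans (le_of_eq (by ring)))

/-- Invariance under `ρ (U(D))`.  Recipe: put `b = word P`, `W = word (Q ++ P)`; then
`word Q * word (P ++ Q) ^ k = W ^ (k+1) * star b`.  Pointwise in `V`, `IsHankel.op` for
`x ↦ Φ (x * star b) * b` shows that `Hf Φ` is `ε`-close to
`∑ w k ∫ Fv Φ (star (b * W ^ (k+1)))`, and `b * W ^ (k+1) = word N` with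
`N = P ++ (replicate (k+1) (Q ++ P)).flatten = a :: N'`.  By `R124.integral_haar_inv` and
`star_wordA_inv` the integral is `∫ Fv Φ (ρ V * word (N'.map star).reverse * star a)`, which by
`d1` (and `kappa_star`) is `d1err`-close to an expression in `avgG ρ Φ`.  The same holds for
`shiftL Φ (ρ U)` and `avgG_shiftL` concludes. -/
theorem Hf_inv [Nonempty D] {n : ℕ} {w : ℕ → ℝ} {ε : ℝ} (h : IsHankel n w ε) {P Q : List A}
    (hne : P ++ Q ≠ []) (hu : ∀ a ∈ P ++ Q, a ∈ unitary A) {κ₀ : ℝ}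
    (hκ : ∀ a ∈ P ++ Q, kappa T ρ a ≤ κ₀) {q : ℕ} (hq : (P ++ Q).length ≤ q) {η : ℝ}
    (hη : 0 < η) {Φ : A →L[ℂ] A} (hΦ : InL T Φ) (U : UG D) :
    ‖Hf T ρ n w P Q (shiftL Φ (ρ (U : Matrix D D ℂ))) - Hf T ρ n w P Q Φ‖ ≤
      2 * ε + 2 * d1err D ((n + 1) * q) η κ₀ := by
  have h1 := cyc_hankel T ρ h hu (hΦ.shiftL (norm_rho_unitary_le ρ U))
  have h2 := cyc_hankel T ρ h hu hΦ
  have hmem : ∀ k, ∀ a ∈ P ++ (List.replicate (k + 1) (Q ++ P)).flatten, a ∈ P ++ Q := by
    intro k a ha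
    rcases List.mem_append.1 ha with ha | ha
    · simp [ha]
    · simpa [or_comm] using cyc_mem_flatten ha
  have h3 := h.cyc_norm_sum_le (δ := 2 * d1err D ((n + 1) * q) η κ₀) (x := fun k =>
    (∫ V, Fv T (shiftL Φ (ρ (U : Matrix D D ℂ)))
      (star (wordA ρ (P ++ (List.replicate (k + 1) (Q ++ P)).flatten) V)) ∂haar D) -
      ∫ V, Fv T Φ (star (wordA ρ (P ++ (List.replicate (k + 1) (Q ++ P)).flatten) V)) ∂haar D)
    (fun k hk => by
      refine cyc_star T ρ ?_ (fun a ha => hu a (hmem k a ha)) (fun a ha => hκ a (hmem k a ha)) ?_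
        hη hΦ U
      · intro h0
        apply hne
        rw [List.replicate_succ, List.flatten_cons] at h0
        simp only [List.append_eq_nil_iff] at h0 ⊢
        exact ⟨h0.1, h0.2.1.1⟩
      · rw [List.length_append, cyc_length_flatten]
        simp only [List.length_append] at hq ⊢
        have : (k + 1) * (Q.length + P.length) ≤ n * q := Nat.mul_le_mul hk (by omega)
        nlinarith)
  simp only [mul_sub, Finset.sum_sub_distrib] at h3
  rw [norm_sub_rev] at h2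
  refine (norm_sub_le_norm_sub_add_norm_sub _ _ _).trans ((add_le_add h1
    ((norm_sub_le_norm_sub_add_norm_sub _ _ _).trans (add_le_add h3 h2))).trans (le_of_eq ?_))
  ring

/-- Moving the first letter into the map.  Recipe: `Fv_shiftL`, `d1_one` for `shiftL Φ a` and the
list `Q ++ (replicate k (P ++ a :: Q)).flatten` show that the left term is `d1err`-close to
`Hf (P ++ [a]) Q (avgG ρ (shiftL Φ a))`; `avgG ρ (shiftL Φ a) = avgG ρ Ψ` for
`Ψ = shiftL Φ (a * ρ U)` (`shiftL_shiftL`, `avgG_shiftL`), which is an average of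
`shiftL Ψ (ρ (U' i))` (`IsDesign.avgG`, `Hf_smul_sum`); use `Hf_inv`. -/
theorem Hf_step [Nonempty D] {n : ℕ} {w : ℕ → ℝ} {ε : ℝ} (h : IsHankel n w ε) {P Q : List A}
    {a : A} (hu : ∀ b ∈ P ++ a :: Q, b ∈ unitary A) {κ₀ : ℝ}
    (hκ : ∀ b ∈ P ++ a :: Q, kappa T ρ b ≤ κ₀) {q : ℕ} (hq : (P ++ a :: Q).length ≤ q) {η : ℝ}
    (hη : 0 < η) {Φ : A →L[ℂ] A} (hΦ : InL T Φ) (U : UG D) :
    ‖Hf T ρ n w P (a :: Q) Φ -
      Hf T ρ n w (P ++ [a]) Q (shiftL Φ (a * ρ (U : Matrix D D ℂ)))‖ ≤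
      2 * ε + 3 * d1err D ((n + 1) * q) η κ₀ := by
  have happ : (P ++ [a]) ++ Q = P ++ a :: Q := by simp
  have ha : a ∈ unitary A := hu a (by simp)
  have ha1 := R124.norm_le_one_of_mem_unitary ha
  have hmem : ∀ k, ∀ b ∈ Q ++ (List.replicate k (P ++ a :: Q)).flatten, b ∈ P ++ a :: Q := by
    intro k b hb
    rcases List.mem_append.1 hb with hb | hb
    · simp [hb]
    · exact cyc_mem_flatten hb
  have h1 : ‖Hf T ρ n w P (a :: Q) Φ - Hf T ρ n w (P ++ [a]) Q (avgG ρ (shiftL Φ a))‖ ≤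
      d1err D ((n + 1) * q) η κ₀ := by
    rw [Hf, Hf, ← Finset.sum_sub_distrib, happ]
    simp only [← mul_sub]
    refine h.cyc_norm_sum_le fun k hk => ?_
    have := d1_one T ρ (hΦ.shiftL ha1) (L := Q ++ (List.replicate k (P ++ a :: Q)).flatten)
      (fun b hb => R124.norm_le_one_of_mem_unitary (hu b (hmem k b hb)))
      (fun b hb => hκ b (hmem k b hb)) (p := (n + 1) * q) (by
        rw [List.length_append, cyc_length_flatten]
        have h5 : k * (P ++ a :: Q).length ≤ n * q := Nat.mul_le_mul hk.le hq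
        simp only [List.length_append, List.length_cons] at hq h5 ⊢
        nlinarith) hη
    simp only [Fv_shiftL, wordA_append ρ Q, wordA_flatten_replicate] at this
    simpa only [wordA_cons, mul_assoc] using this
  obtain ⟨ι, _, _, U', hU'⟩ := exists_design (D := D)
  have hΨ : InL T (shiftL Φ (a * ρ (U : Matrix D D ℂ))) :=
    hΦ.shiftL (R124.norm_le_one_of_mem_unitary (mul_mem ha (R124.rho_mem_unitary ρ U)))
  have h2 : avgG ρ (shiftL Φ a) = avgG ρ (shiftL Φ (a * ρ (U : Matrix D D ℂ))) := by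
    rw [← shiftL_shiftL, avgG_shiftL]
  set Ψ := shiftL Φ (a * ρ (U : Matrix D D ℂ)) with hΨdef
  have h3 : ‖Hf T ρ n w (P ++ [a]) Q (avgG ρ Ψ) - Hf T ρ n w (P ++ [a]) Q Ψ‖ ≤
      2 * ε + 2 * d1err D ((n + 1) * q) η κ₀ := by
    have hc : (Fintype.card ι : ℂ) ≠ 0 := by exact_mod_cast Fintype.card_ne_zero
    have hc' : (Fintype.card ι : ℝ) ≠ 0 := by exact_mod_cast Fintype.card_ne_zero
    have e : Hf T ρ n w (P ++ [a]) Q (avgG ρ Ψ) - Hf T ρ n w (P ++ [a]) Q Ψ =
        (Fintype.card ι : ℂ)⁻¹ * ∑ i, (Hf T ρ n w (P ++ [a]) Q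
          (shiftL Ψ (ρ (U' i : Matrix D D ℂ))) - Hf T ρ n w (P ++ [a]) Q Ψ) := by
      rw [hU'.avgG ρ Ψ, Hf_smul_sum, Finset.sum_sub_distrib, mul_sub, Finset.sum_const,
        Finset.card_univ, nsmul_eq_mul, inv_mul_cancel_left₀ hc]
    rw [e, norm_mul, norm_inv, Complex.norm_natCast]
    have h4 : ‖∑ i, (Hf T ρ n w (P ++ [a]) Q
          (shiftL Ψ (ρ (U' i : Matrix D D ℂ))) - Hf T ρ n w (P ++ [a]) Q Ψ)‖ ≤
        Fintype.card ι * (2 * ε + 2 * d1err D ((n + 1) * q) η κ₀) := by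
      refine (norm_sum_le _ _).trans ((Finset.sum_le_sum fun i _ =>
        Hf_inv T ρ h (by simp) (happ ▸ hu) (happ ▸ hκ) (happ ▸ hq) hη hΨ (U' i)).trans
        (le_of_eq ?_))
      rw [Finset.sum_const, Finset.card_univ, nsmul_eq_mul]
    refine (mul_le_mul_of_nonneg_left h4 (by positivity)).trans (le_of_eq ?_)
    rw [inv_mul_cancel_left₀ hc']
  rw [h2] at h1
  refine (norm_sub_le_norm_sub_add_norm_sub _ _ _).trans ((add_le_add h1 h3).trans (le_of_eq ?_))
  ring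

end

end Crest.Agent.R121
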