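import Crest.Agent.R121.Mat

/-!
# Row 121: crossing contractions are small for flat letters
-/

open MeasureTheory
open scoped InnerProductSpace ComplexOrder Topology

set_option linter.unusedSectionVars false

namespace Crest.Agent.R121

open R124 (UG haar tau)

noncomputable section

variable {A : Type*} [CStarAlgebra A] {D : Type} [Fintype D] [DecidableEq D]
  (T : TrState A) (ρ : Matrix D D ℂ →⋆ₐ[ℂ] A)

theorem swap_cs (f g : D → D → ℝ) :
    ∑ a, ∑ d, f a d * g a d ≤ √(∑ a, ∑ d, f a d ^ 2) * √(∑ a, ∑ d, g a d ^ 2) := by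
  simpa only [Fintype.sum_prod_type] using Real.sum_mul_le_sqrt_mul_sqrt Finset.univ
    (fun p : D × D => f p.1 p.2) (fun p : D × D => g p.1 p.2)

theorem swap_norm_sum_le (f : D → D → ℂ) (g : D → D → ℝ) (h : ∀ a d, ‖f a d‖ ≤ g a d) :
    ‖∑ a, ∑ d, f a d‖ ≤ ∑ a, ∑ d, g a d :=
  (norm_sum_le _ _).trans (Finset.sum_le_sum fun a _ =>
    (norm_sum_le _ _).trans (Finset.sum_le_sum fun d _ => h a d))

theorem swap_sum_n2_eA_mul (z : A) :
    ∑ a, ∑ d, T.n2 (eA ρ a d * z) ^ 2 = Fintype.card D * T.n2 z ^ 2 := by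
  have h1 : ∀ a, ∑ d, T.n2 (eA ρ a d * z) ^ 2 = T.n2 z ^ 2 := fun a => by
    simp only [T.n2_sq, star_mul, star_eA, mul_assoc, ← mul_assoc (eA ρ _ a), eA_mul_eA_same]
    rw [← Complex.re_sum, ← map_sum, ← Finset.mul_sum, ← Finset.sum_mul, sum_eA_diag, one_mul]
  simp [h1]

theorem swap_n2_mul_eA [Nonempty D] {n : A} (hn : ∀ k l, Commute (eA ρ k l) n) (b c : D) :
    T.n2 (n * eA ρ b c) ^ 2 = (Fintype.card D : ℝ)⁻¹ * T.n2 n ^ 2 := by
  have h1 : ∀ k l, Commute (eA ρ k l) (star n * n) := fun k l =>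
    Commute.mul_right (by simpa using (hn l k).star_star) (hn k l)
  have h2 := τ_eA_mul T ρ h1 b
  apply Complex.ofReal_injective
  rw [Complex.ofReal_mul, T.coe_n2_sq, T.coe_n2_sq, Complex.ofReal_inv, Complex.ofReal_natCast, ← h2,
    star_mul, star_eA, ← mul_assoc, T.tr, ← mul_assoc, ← mul_assoc, eA_mul_eA_same, mul_assoc]

theorem swap_norm_inv :
    ‖((Fintype.card D : ℂ) ^ 2)⁻¹‖ = ((Fintype.card D : ℝ) ^ 2)⁻¹ := by simp

theorem swap_design {ι : Type} [Fintype ι] {U : ι → UG D} (hU : IsDesign U)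
    (f : D → D → D → D → ℂ) :
    ∑ i, ∑ a, ∑ d, ∑ a', ∑ d', (U i : Matrix D D ℂ) a d *
      starRingEnd ℂ ((U i : Matrix D D ℂ) a' d') * f a d a' d' =
      (Fintype.card ι : ℂ) / Fintype.card D * ∑ a, ∑ d, f a d a d := by
  rw [Finset.sum_comm, Finset.mul_sum]
  refine Finset.sum_congr rfl fun a _ => ?_
  rw [Finset.sum_comm, Finset.mul_sum]
  refine Finset.sum_congr rfl fun d _ => ?_
  rw [Finset.sum_comm]
  simp only [Finset.sum_comm (s := (Finset.univ : Finset ι)), ← Finset.sum_mul, hU a d, ite_and,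
    ite_mul, zero_mul]
  simp

/-- The `L²` part.  Recipe: for fixed `b c`,
`‖τ (Φ (e a d * z) * (entry α a d * e b c))‖ ≤ n2 (e a d * z) * n2 (entry α a d * e b c)`
(`InL.norm_τ_le`), Cauchy–Schwarz over `(a, d)`, `∑ a d, n2 (e a d * z)² = card D * n2 z²`,
`n2 (n * e b c)² = n2 n² / card D` for `n` commuting with the units (`τ_eA_mul`),
`sum_n2_entry_sq`.  So the `(b, c)` term is at most `√(card D) * n2 (z b c)`; Cauchy–Schwarz
over `(b, c)`. -/
theorem swap_l2 [Nonempty D] {Φ : A →L[ℂ] A} (hΦ : InL T Φ) {α : A} (hα : ‖α‖ ≤ 1)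
    (z : D → D → A) :
    ‖((Fintype.card D : ℂ) ^ 2)⁻¹ * ∑ b, ∑ c, ∑ a, ∑ d,
      T.τ (Φ (eA ρ a d * z b c) * (entry ρ α a d * eA ρ b c))‖ ≤
      √((Fintype.card D : ℝ)⁻¹ * ∑ b, ∑ c, T.n2 (z b c) ^ 2) := by
  have hN : (0 : ℝ) < Fintype.card D := by exact_mod_cast Fintype.card_pos
  have hα2 : T.n2 α ≤ 1 := (T.n2_le_norm α).trans hα
  have h1 : ∀ b c, ‖∑ a, ∑ d, T.τ (Φ (eA ρ a d * z b c) * (entry ρ α a d * eA ρ b c))‖ ≤
      √(Fintype.card D) * T.n2 (z b c) := by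
    intro b c
    refine (swap_norm_sum_le _ _ fun a d => hΦ.norm_τ_le _ _).trans ((swap_cs _ _).trans ?_)
    simp only [swap_n2_mul_eA T ρ (fun k l => commute_eA_entry ρ α k l _ _), ← Finset.mul_sum]
    rw [swap_sum_n2_eA_mul, sum_n2_entry_sq, inv_mul_cancel_left₀ hN.ne', Real.sqrt_mul hN.le,
      Real.sqrt_sq (T.n2_nonneg _), Real.sqrt_sq (T.n2_nonneg _)]
    exact mul_le_of_le_one_right (mul_nonneg (Real.sqrt_nonneg _) (T.n2_nonneg _)) hα2
  rw [norm_mul, swap_norm_inv]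
  refine (mul_le_mul_of_nonneg_left ((swap_norm_sum_le _ _ h1).trans (swap_cs _ _))
    (by positivity)).trans_eq ?_
  simp only [Real.sq_sqrt hN.le, Finset.sum_const, Finset.card_univ, nsmul_eq_mul]
  rw [Real.sqrt_mul (inv_nonneg.2 hN.le), ← mul_assoc, ← mul_assoc, Real.sqrt_mul (by positivity),
    Real.sqrt_mul_self hN.le, Real.sqrt_inv]
  congr 1
  have h2 := Real.sqrt_pos.2 hN
  have h3 := Real.sq_sqrt hN.le
  field_simp
  exact h3

/-- The `L^∞` part.  Recipe: take a design `U i` (`exists_design`), put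
`w i = ∑ a d, conj (U i a d) • entry α a d`.  By `IsDesign`,
`∑ a d, B (e a d) (entry α a d) = (card D / card ι) ∑ i, B (ρ (U i)) (w i)` for bilinear `B`, and
`∑ i, n2 (w i)² = (card ι / card D) ∑ a d, n2 (entry α a d)² ≤ card ι`.  As `w i` commutes with
the units, `w * e b c = e b b * (w * e b c)` and
`‖τ (Φ (u z) * (e b b * (w * e b c)))‖ ≤ n2 (Φ (u z) * e b b) * n2 (w * e b c)
  ≤ η * (card D)^(-1/2) * (card D)^(-1/2) * n2 w` (`n2_mul_le_left`, `τ_eA_mul`).  So every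
`(b, c)` term is at most `η`. -/
theorem swap_linf [Nonempty D] {Φ : A →L[ℂ] A} (hΦ : InL T Φ) {α : A} (hα : ‖α‖ ≤ 1)
    (z : D → D → A) {η : ℝ} (hz : ∀ b c, ‖z b c‖ ≤ η) :
    ‖((Fintype.card D : ℂ) ^ 2)⁻¹ * ∑ b, ∑ c, ∑ a, ∑ d,
      T.τ (Φ (eA ρ a d * z b c) * (entry ρ α a d * eA ρ b c))‖ ≤ η := by
  have hN : (0 : ℝ) < Fintype.card D := by exact_mod_cast Fintype.card_pos
  have hα2 : T.n2 α ≤ 1 := (T.n2_le_norm α).trans hα
  have hη : 0 ≤ η := (norm_nonneg _).trans (hz (Classical.arbitrary D) (Classical.arbitrary D))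
  obtain ⟨ι, _, _, U, hU⟩ := exists_design (D := D)
  have hI : (0 : ℝ) < Fintype.card ι := by exact_mod_cast Fintype.card_pos
  let w : ι → A := fun i => ∑ a, ∑ d, starRingEnd ℂ ((U i : Matrix D D ℂ) a d) • entry ρ α a d
  have hw : ∀ i k l, Commute (eA ρ k l) (w i) := fun i k l =>
    Commute.sum_right _ _ _ fun a _ => Commute.sum_right _ _ _ fun d _ =>
      (commute_eA_entry ρ α k l a d).smul_right _
  have h1 : ∑ i, T.n2 (w i) ^ 2 ≤ Fintype.card ι := by
    have e1 : ((∑ i, T.n2 (w i) ^ 2 : ℝ) : ℂ) = ((Fintype.card ι / Fintype.card D *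
        ∑ a, ∑ d, T.n2 (entry ρ α a d) ^ 2 : ℝ) : ℂ) := by
      simp only [Complex.ofReal_sum, Complex.ofReal_mul, Complex.ofReal_div, Complex.ofReal_natCast,
        T.coe_n2_sq]
      rw [← swap_design hU fun a d a' d' => T.τ (star (entry ρ α a d) * entry ρ α a' d')]
      refine Finset.sum_congr rfl fun i _ => ?_
      simp only [w, star_sum, star_smul, RCLike.star_def, Complex.conj_conj, Finset.sum_mul,
        map_sum, smul_mul_assoc, map_smul, smul_eq_mul]
      simp only [Finset.mul_sum, map_sum, mul_smul_comm, map_smul, smul_eq_mul, mul_assoc]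
    rw [Complex.ofReal_injective e1, sum_n2_entry_sq, ← mul_assoc, div_mul_cancel₀ _ hN.ne']
    exact mul_le_of_le_one_right hI.le (pow_le_one₀ (T.n2_nonneg _) hα2)
  have h2 : ∑ i, T.n2 (w i) ≤ Fintype.card ι := by
    have := Real.sum_mul_le_sqrt_mul_sqrt Finset.univ (fun _ : ι => (1 : ℝ)) fun i => T.n2 (w i)
    simp only [one_mul, one_pow, Finset.sum_const, Finset.card_univ, nsmul_eq_mul, mul_one] at this
    exact this.trans ((mul_le_mul_of_nonneg_left (Real.sqrt_le_sqrt h1)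
      (Real.sqrt_nonneg _)).trans_eq (Real.mul_self_sqrt hI.le))
  have h3 : ∀ b c i, ‖T.τ (Φ (ρ (U i : Matrix D D ℂ) * z b c) * (w i * eA ρ b c))‖ ≤
      η / Fintype.card D * T.n2 (w i) := by
    intro b c i
    have e1 : w i * eA ρ b c = eA ρ b b * (w i * eA ρ b c) := by
      rw [← mul_assoc, (hw i b b).eq, mul_assoc, eA_mul_eA_same]
    have e2 : ‖Φ (ρ (U i : Matrix D D ℂ) * z b c)‖ ≤ η :=
      (Φ.le_of_opNorm_le hΦ.norm_le _).trans (by
        rw [one_mul]
        exact (norm_mul_le _ _).trans ((mul_le_of_le_one_left (norm_nonneg _)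
          (norm_rho_unitary_le ρ _)).trans (hz b c)))
    have e3 := swap_n2_mul_eA T ρ (n := 1) (fun k l => Commute.one_right _) b b
    rw [one_mul, T.n2_one, one_pow, mul_one] at e3
    have e4 : T.n2 (eA ρ b b) * T.n2 (w i * eA ρ b c) = (Fintype.card D : ℝ)⁻¹ * T.n2 (w i) := by
      rw [← pow_left_inj₀ (mul_nonneg (T.n2_nonneg _) (T.n2_nonneg _))
        (mul_nonneg (inv_nonneg.2 hN.le) (T.n2_nonneg _)) two_ne_zero, mul_pow, mul_pow, e3,
        swap_n2_mul_eA T ρ (hw i)]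
      ring
    rw [e1, ← mul_assoc]
    refine (T.norm_τ_mul_le _ _).trans ((mul_le_mul_of_nonneg_right ((T.n2_mul_le_left _ _).trans
      (mul_le_mul_of_nonneg_right e2 (T.n2_nonneg _))) (T.n2_nonneg _)).trans_eq ?_)
    rw [mul_assoc, e4, div_eq_mul_inv, mul_assoc]
  have h4 : ∀ b c, ‖∑ a, ∑ d, T.τ (Φ (eA ρ a d * z b c) * (entry ρ α a d * eA ρ b c))‖ ≤ η := by
    intro b c
    have e1 : ∑ i, T.τ (Φ (ρ (U i : Matrix D D ℂ) * z b c) * (w i * eA ρ b c)) =
        (Fintype.card ι : ℂ) / Fintype.card D *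
          ∑ a, ∑ d, T.τ (Φ (eA ρ a d * z b c) * (entry ρ α a d * eA ρ b c)) := by
      rw [← swap_design hU fun a d a' d' =>
        T.τ (Φ (eA ρ a d * z b c) * (entry ρ α a' d' * eA ρ b c))]
      refine Finset.sum_congr rfl fun i _ => ?_
      rw [rho_eq_sum]
      simp only [w, Finset.sum_mul, map_sum, smul_mul_assoc, map_smul, smul_eq_mul]
      simp only [Finset.mul_sum, map_sum, mul_smul_comm, map_smul, smul_eq_mul, mul_assoc]
    have e2 := (norm_sum_le _ _).trans (Finset.sum_le_sum (s := Finset.univ) fun i _ => h3 b c i)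
    rw [e1, norm_mul, norm_div, Complex.norm_natCast, Complex.norm_natCast, ← Finset.mul_sum] at e2
    have e3 := e2.trans (mul_le_mul_of_nonneg_left h2 (div_nonneg hη hN.le))
    rw [show η / Fintype.card D * Fintype.card ι = Fintype.card ι / Fintype.card D * η by ring] at e3
    exact le_of_mul_le_mul_left e3 (div_pos hI hN)
  rw [norm_mul, swap_norm_inv]
  refine (mul_le_mul_of_nonneg_left (swap_norm_sum_le _ _ h4) (by positivity)).trans_eq ?_
  simp only [Finset.sum_const, Finset.card_univ, nsmul_eq_mul]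
  field_simp

/-- **Swap lemma.**  Recipe: `e a b * x * e c d = e a d * entry x b c` (`eA_mul_entry`),
`e b a * α * e d c = entry α a d * e b c` (`entry_mul_eA`); split
`entry x b c = x' + (entry x b c - x')` by `TrState.exists_trunc`. -/
theorem swap [Nonempty D] {Φ : A →L[ℂ] A} (hΦ : InL T Φ) {α : A} (hα : ‖α‖ ≤ 1) (x : A)
    {η : ℝ} (hη : 0 < η) :
    ‖((Fintype.card D : ℂ) ^ 2)⁻¹ * ∑ a, ∑ b, ∑ c, ∑ d,
      T.τ (Φ (eA ρ a b * x * eA ρ c d) * (eA ρ b a * α * eA ρ d c))‖ ≤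
      η + √(kappa T ρ x) / η := by
  choose y hy hy' using fun b c => T.exists_trunc (entry ρ x b c) hη
  have h1 := swap_linf T ρ hΦ hα y hy
  have h2 := swap_l2 T ρ hΦ hα fun b c => entry ρ x b c - y b c
  have h3 : √((Fintype.card D : ℝ)⁻¹ * ∑ b, ∑ c, T.n2 (entry ρ x b c - y b c) ^ 2) ≤
      √(kappa T ρ x) / η := by
    rw [← Real.sqrt_sq hη.le, ← Real.sqrt_div (kappa_nonneg T ρ x), kappa, mul_div_assoc]
    refine Real.sqrt_le_sqrt (mul_le_mul_of_nonneg_left ?_ (by positivity))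
    simp only [Finset.sum_div, ← div_pow]
    exact Finset.sum_le_sum fun b _ => Finset.sum_le_sum fun c _ =>
      pow_le_pow_left₀ (T.n2_nonneg _) (hy' b c) 2
  refine le_trans (le_of_eq ?_) ((norm_add_le _ _).trans (add_le_add h1 (h2.trans h3)))
  congr 1
  rw [← mul_add, Finset.sum_comm, ← Finset.sum_add_distrib]
  congr 1
  refine Finset.sum_congr rfl fun b _ => ?_
  rw [Finset.sum_comm, ← Finset.sum_add_distrib]
  refine Finset.sum_congr rfl fun c _ => ?_
  rw [← Finset.sum_add_distrib]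
  refine Finset.sum_congr rfl fun a _ => ?_
  rw [← Finset.sum_add_distrib]
  refine Finset.sum_congr rfl fun d _ => ?_
  rw [← map_add, ← add_mul, ← map_add, ← mul_add, add_sub_cancel, eA_mul_entry, entry_mul_eA]

end

end Crest.Agent.R121
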