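import Crest.Agent.R121.Piv
import Crest.Agent.R121.Swap

/-!
# Row 121: decoupling the first Haar unitary of a word
-/

open MeasureTheory
open scoped InnerProductSpace ComplexOrder Topology

set_option linter.unusedSectionVars false

namespace Crest.Agent.R121

open R124 (UG haar tau)

noncomputable section

variable {A : Type*} [CStarAlgebra A] {D : Type} [Fintype D] [DecidableEq D]
  (T : TrState A) (ρ : Matrix D D ℂ →⋆ₐ[ℂ] A)

/-- The error term of the decoupling lemma. -/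
def d1err (D : Type) [Fintype D] (p : ℕ) (η κ₀ : ℝ) : ℝ :=
  ((p : ℝ) + 1) ^ 2 * (tau D (p + 1) + η + √κ₀ / η)

theorem d1_lin₁ (Φ : A →L[ℂ] A) (p q y : A) :
    IsLinearMap ℂ fun x => T.τ (Φ (p * x * q) * y) :=
  ⟨fun x x' => by simp [mul_add, add_mul], fun c x => by simp⟩

theorem d1_lin₂ (x r s : A) : IsLinearMap ℂ fun y => T.τ (x * (r * y * s)) :=
  ⟨fun x x' => by simp [mul_add, add_mul], fun c x => by simp⟩

theorem d1_design [Nonempty D] {ι : Type} [Fintype ι] [Nonempty ι] {U : ι → UG D}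
    (hU : IsDesign U) (Φ : A →L[ℂ] A) (p q r s : A) :
    (Fintype.card D : ℂ)⁻¹ * ∑ c, ∑ d, T.τ (Φ (p * eA ρ c d * q) * (r * eA ρ d c * s)) =
      (Fintype.card ι : ℂ)⁻¹ * ∑ i, T.τ (Φ (p * ρ (U i : Matrix D D ℂ) * q) *
        (r * star (ρ (U i : Matrix D D ℂ)) * s)) :=
  hU.sum_bilin ρ (fun x y => T.τ (Φ (p * x * q) * (r * y * s))) (fun _ => d1_lin₁ T Φ p q _)
    fun _ => d1_lin₂ T _ r s

theorem d1_inv (Φ : A →L[ℂ] A) (p q r s : A) (V : UG D) :
    ∑ c, ∑ d, T.τ (Φ (p * (ρ (V : Matrix D D ℂ) * eA ρ c d) * q) *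
      (r * (eA ρ d c * star (ρ (V : Matrix D D ℂ))) * s)) =
      ∑ c, ∑ d, T.τ (Φ (p * eA ρ c d * q) * (r * eA ρ d c * s)) :=
  sum_bilin_inv ρ (fun x y => T.τ (Φ (p * x * q) * (r * y * s))) (fun _ => d1_lin₁ T Φ p q _)
    (fun _ => d1_lin₂ T _ r s) V

theorem d1_avg_le {ι : Type} [Fintype ι] [Nonempty ι] (f : ι → ℂ) {C : ℝ} (h : ∀ i, ‖f i‖ ≤ C) :
    ‖(Fintype.card ι : ℂ)⁻¹ * ∑ i, f i‖ ≤ C := by
  have h0 : (0 : ℝ) < Fintype.card ι := by exact_mod_cast Fintype.card_pos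
  rw [norm_mul, norm_inv, Complex.norm_natCast, inv_mul_le_iff₀ h0]
  refine (norm_sum_le _ _).trans ((Finset.sum_le_sum fun i _ => h i).trans (le_of_eq ?_))
  simp

/-- One crossing term.  Write `v = ρ V`, `L = P ++ a :: Q`, `β = bilOf T.τ Φ`.  Recipe:
1. `word (P ++ [a]) = word P * a * v`; pointwise in `V`, `sum_bilin_inv` removes the `v` before
   `e c d` in both arguments: the integrand is
   `(card D)⁻¹ ∑ c d, β (word (1 :: P) * (a * e c d) * word Q) (star (e c d * word L))`.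
2. `IsDesign.sum_bilin` turns it into the average over `u = ρ (U i)` of
   `β (word (1 :: P) * (a * u) * word Q) (star (u * word L))`.
3. `pivot` with `L₁ = 1 :: P`, `y₀ = a * u`, `L₂ = Q`, `y₁ = u`, `R = L` (error
   `L.length * tau D m`).
4. For each `j`, exchange the average over `i` with the integral and undo the design: the
   integrand is `(card D)⁻² ∑ c' d' c d, τ (Φ (γ * (e c' d' * a * e c d) * δ) * star δ'
   * (e d' c' * star α * e d c))` with `γ = word (1 :: P)`, `δ = word Q`,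
   `α = word (L.take (j+1))`, `δ' = word (L.drop (j+1))`; apply `swap` to
   `InL.sandwich` pointwise in `V`, `norm_integral_le_of_norm_le_const`. -/
theorem d1_term [Nonempty D] {Φ : A →L[ℂ] A} (hΦ : InL T Φ) {P Q : List A} {a : A}
    (hL : ∀ b ∈ P ++ a :: Q, ‖b‖ ≤ 1) {m : ℕ} (hm : (P ++ a :: Q).length ≤ m) {η : ℝ}
    (hη : 0 < η) :
    ‖∫ V, (Fintype.card D : ℂ)⁻¹ * ∑ c, ∑ d,
      T.τ (Φ (ρ (V : Matrix D D ℂ) * wordA ρ (P ++ [a]) V * eA ρ c d * wordA ρ Q V) *
        star (ρ (V : Matrix D D ℂ) * eA ρ c d * wordA ρ (P ++ a :: Q) V)) ∂haar D‖ ≤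
      (P ++ a :: Q).length * (tau D m + η + √(kappa T ρ a) / η) := by
  obtain ⟨ι, _, _, U, hU⟩ := exists_design (D := D)
  set L := P ++ a :: Q with hLdef
  have hw := fun L => continuous_wordA ρ L
  have hP : ∀ b ∈ (1 : A) :: P, ‖b‖ ≤ 1 := by
    intro b hb
    rcases List.mem_cons.1 hb with rfl | hb
    · exact (IsStarProjection.one A).norm_le
    · exact hL b (List.mem_append_left _ hb)
  have hQ : ∀ b ∈ Q, ‖b‖ ≤ 1 := fun b hb =>
    hL b (List.mem_append_right _ (List.mem_cons_of_mem _ hb))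
  have ha : ‖a‖ ≤ 1 := hL a (List.mem_append_right _ List.mem_cons_self)
  have hlen : L.length = ((1 : A) :: P).length + Q.length := by
    simp [hLdef]; omega
  let J : ι → ℂ := fun i => ∫ V, bilOf T.τ Φ
    (wordA ρ (1 :: P) V * (a * ρ (U i : Matrix D D ℂ)) * wordA ρ Q V)
    (star (ρ (U i : Matrix D D ℂ) * wordA ρ L V)) ∂haar D
  let k : ι → ℕ → UG D → ℂ := fun i j V => (Fintype.card D : ℂ)⁻¹ * ∑ c, ∑ d, bilOf T.τ Φ
    (wordA ρ (1 :: P) V * eA ρ c d * (a * ρ (U i : Matrix D D ℂ)) * wordA ρ Q V)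
    (star (ρ (U i : Matrix D D ℂ) * wordA ρ (L.take (j + 1)) V * eA ρ c d *
      wordA ρ (L.drop (j + 1)) V))
  have h1 : ∫ V, (Fintype.card D : ℂ)⁻¹ * ∑ c, ∑ d,
      T.τ (Φ (ρ (V : Matrix D D ℂ) * wordA ρ (P ++ [a]) V * eA ρ c d * wordA ρ Q V) *
        star (ρ (V : Matrix D D ℂ) * eA ρ c d * wordA ρ L V)) ∂haar D =
      (Fintype.card ι : ℂ)⁻¹ * ∑ i, J i := by
    rw [← integral_finsetSum _ fun i _ => R124.integrable_haar (by
      simp only [bilOf_apply]; fun_prop), ← integral_const_mul]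
    refine integral_congr_ae (Filter.Eventually.of_forall fun V => ?_)
    have e1 := d1_inv T ρ Φ (wordA ρ (1 :: P) V * a) (wordA ρ Q V) (star (wordA ρ L V)) 1 V
    have e2 := d1_design T ρ hU Φ (wordA ρ (1 :: P) V * a) (wordA ρ Q V) (star (wordA ρ L V)) 1
    rw [← e1] at e2
    simp only [wordA_append, wordA_cons, wordA_nil, star_mul, star_eA, bilOf_apply, mul_one,
      one_mul, mul_assoc] at e2 ⊢
    exact e2
  have h2 : ∀ i, ‖J i - ∑ j ∈ Finset.range L.length, ∫ V, k i j V ∂haar D‖ ≤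
      L.length * tau D m := by
    intro i
    have := pivot T ρ (bilOf T.τ Φ) (fun x y => hΦ.norm_τ_le x y) (L₁ := 1 :: P) (L₂ := Q)
      (R := L) (y₀ := a * ρ (U i : Matrix D D ℂ)) (y₁ := ρ (U i : Matrix D D ℂ))
      (List.cons_ne_nil _ _) hP hQ hL
      ((norm_mul_le _ _).trans (mul_le_one₀ ha (norm_nonneg _) (norm_rho_unitary_le ρ _)))
      (norm_rho_unitary_le ρ _) (m := m) (by omega) (by omega)
    rwa [← hlen] at this
  have h3 : ∀ j, ‖(Fintype.card ι : ℂ)⁻¹ * ∑ i, ∫ V, k i j V ∂haar D‖ ≤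
      η + √(kappa T ρ a) / η := by
    intro j
    rw [← integral_finsetSum _ fun i _ => R124.integrable_haar (by
      simp only [k, bilOf_apply]; fun_prop), ← integral_const_mul]
    refine (norm_integral_le_of_norm_le_const (C := η + √(kappa T ρ a) / η)
      (Filter.Eventually.of_forall fun V => ?_)).trans (by simp)
    have hs := swap T ρ (hΦ.sandwich (a := 1) (b := wordA ρ (1 :: P) V) (c := wordA ρ Q V)
      (d := star (wordA ρ (L.drop (j + 1)) V)) (IsStarProjection.one A).norm_le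
      (norm_wordA_le ρ hP V) (norm_wordA_le ρ hQ V) (by
        rw [norm_star]
        exact norm_wordA_le ρ (fun b hb => hL b (List.mem_of_mem_drop hb)) V))
      (α := star (wordA ρ (L.take (j + 1)) V)) (by
        rw [norm_star]
        exact norm_wordA_le ρ (fun b hb => hL b (List.mem_of_mem_take hb)) V) a hη
    refine le_of_eq_of_le (congrArg norm ?_) hs
    have e := fun c d => d1_design T ρ hU Φ (wordA ρ (1 :: P) V * eA ρ c d * a) (wordA ρ Q V)
      (star (wordA ρ (L.drop (j + 1)) V) * eA ρ d c * star (wordA ρ (L.take (j + 1)) V)) 1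
    simp only [k, bilOf_apply, ContinuousLinearMap.comp_apply, ContinuousLinearMap.mul_apply',
      ContinuousLinearMap.flip_apply, star_mul, star_eA, mul_one, one_mul, mul_assoc] at e ⊢
    rw [← Finset.mul_sum, mul_left_comm, Finset.sum_comm, sq, mul_inv, mul_assoc]
    congr 1
    rw [Finset.mul_sum, Finset.mul_sum]
    refine Finset.sum_congr rfl fun c _ => ?_
    rw [Finset.sum_comm, Finset.mul_sum, Finset.mul_sum]
    exact Finset.sum_congr rfl fun d _ => (e c d).symm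
  have h4 : (Fintype.card ι : ℂ)⁻¹ * ∑ i, J i =
      (Fintype.card ι : ℂ)⁻¹ * ∑ i, (J i - ∑ j ∈ Finset.range L.length, ∫ V, k i j V ∂haar D) +
        ∑ j ∈ Finset.range L.length, (Fintype.card ι : ℂ)⁻¹ * ∑ i, ∫ V, k i j V ∂haar D := by
    rw [← Finset.mul_sum, Finset.sum_comm, Finset.sum_sub_distrib]
    ring
  rw [h1, h4]
  refine (norm_add_le _ _).trans ((add_le_add (d1_avg_le _ h2)
    ((norm_sum_le _ _).trans (Finset.sum_le_sum fun j _ => h3 j))).trans (le_of_eq ?_))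
  simp only [Finset.sum_const, Finset.card_range, nsmul_eq_mul]
  ring

/-- Recipe: `pivot_right` for `β = bilOf T.τ Φ` with `L₁ = [1]`, `y₀ = y₁ = 1`, `L₂ = L`,
`R = 1 :: L`, `m = p + 1`.  The term `j = 0` is the second integral (`sum_bilin_inv`, `T.tr`,
`avgG_apply`), the terms `j + 1` are `d1_term` with `P = L.take j`, `a = L[j]`,
`Q = L.drop (j + 1)`. -/
theorem d1_one [Nonempty D] {Φ : A →L[ℂ] A} (hΦ : InL T Φ) {L : List A}
    (hL : ∀ a ∈ L, ‖a‖ ≤ 1) {κ₀ : ℝ} (hκ : ∀ a ∈ L, kappa T ρ a ≤ κ₀) {p : ℕ}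
    (hp : L.length ≤ p) {η : ℝ} (hη : 0 < η) :
    ‖(∫ V, Fv T Φ (ρ (V : Matrix D D ℂ) * wordA ρ L V) ∂haar D) -
      ∫ V, Fv T (avgG ρ Φ) (wordA ρ L V) ∂haar D‖ ≤ d1err D p η κ₀ := by
  have h1 : ‖(1 : A)‖ ≤ 1 := (IsStarProjection.one A).norm_le
  have hpiv := pivot_right T ρ (bilOf T.τ Φ) (fun x y => hΦ.norm_τ_le x y) (L₁ := [1]) (L₂ := L)
    (R := 1 :: L) (y₀ := 1) (y₁ := 1) (List.cons_ne_nil _ _) (by simpa using h1) hL
    (fun b hb => by
      rcases List.mem_cons.1 hb with rfl | hb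
      · exact h1
      · exact hL b hb) h1 h1 (m := p + 1) (by simp) (by omega)
  rw [List.length_cons (a := (1 : A)) (as := L), Finset.sum_range_succ'] at hpiv
  have e0 : ∀ V : UG D, (Fintype.card D : ℂ)⁻¹ * ∑ c, ∑ d, bilOf T.τ Φ
      (1 * wordA ρ ((1 :: L).take (0 + 1)) V * eA ρ c d * wordA ρ ((1 :: L).drop (0 + 1)) V)
      (star (wordA ρ [1] V * eA ρ c d * 1 * wordA ρ L V)) =
      Fv T (avgG ρ Φ) (wordA ρ L V) := by
    intro V
    have e1 := d1_inv T ρ Φ 1 (wordA ρ L V) (star (wordA ρ L V)) 1 V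
    simp only [zero_add, List.take_succ_cons, List.take_zero, List.drop_succ_cons, List.drop_zero,
      wordA_cons, wordA_nil, star_mul, star_eA, bilOf_apply, mul_one, one_mul, mul_assoc] at e1 ⊢
    rw [e1, Fv, avgG_apply, smul_mul_assoc, map_smul, smul_eq_mul, Finset.sum_mul, map_sum]
    congr 1
    refine Finset.sum_congr rfl fun c _ => ?_
    rw [Finset.sum_mul, map_sum]
    refine Finset.sum_congr rfl fun d _ => ?_
    rw [← mul_assoc, T.tr, mul_assoc]
  have e1 : ∀ V : UG D, bilOf T.τ Φ (1 * wordA ρ (1 :: L) V)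
      (star (wordA ρ [1] V * 1 * wordA ρ L V)) = Fv T Φ (ρ (V : Matrix D D ℂ) * wordA ρ L V) := by
    intro V
    simp only [Fv, wordA_cons, wordA_nil, bilOf_apply, mul_one, one_mul]
  simp only [e0, e1] at hpiv
  have hj : ∀ j ∈ Finset.range L.length, ‖∫ V, (Fintype.card D : ℂ)⁻¹ * ∑ c, ∑ d, bilOf T.τ Φ
      (1 * wordA ρ ((1 :: L).take (j + 1 + 1)) V * eA ρ c d *
        wordA ρ ((1 :: L).drop (j + 1 + 1)) V)
      (star (wordA ρ [1] V * eA ρ c d * 1 * wordA ρ L V)) ∂haar D‖ ≤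
      L.length * (tau D (p + 1) + η + √κ₀ / η) := by
    intro j hj
    rw [Finset.mem_range] at hj
    have hL' : L.take j ++ L[j] :: L.drop (j + 1) = L := by
      rw [← List.drop_eq_getElem_cons hj, List.take_append_drop]
    have := d1_term T ρ hΦ (P := L.take j) (a := L[j]) (Q := L.drop (j + 1)) (by rwa [hL'])
      (m := p + 1) (by rw [hL']; omega) hη
    rw [hL', ← List.take_succ_eq_append_getElem hj] at this
    simp only [List.take_succ_cons, List.drop_succ_cons, wordA_cons, wordA_nil, bilOf_apply,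
      mul_one, one_mul]
    refine this.trans ?_
    gcongr
    exact hκ _ (List.getElem_mem hj)
  have hsum := (norm_sum_le _ _).trans (Finset.sum_le_sum hj)
  rw [Finset.sum_const, Finset.card_range, nsmul_eq_mul] at hsum
  rw [← sub_sub, sub_right_comm] at hpiv
  refine (norm_le_norm_sub_add _ _).trans ((add_le_add hpiv hsum).trans ?_)
  have ht := R124.tau_nonneg (D := D) (p + 1)
  have hr : 0 ≤ η + √κ₀ / η := by positivity
  have hp' : (L.length : ℝ) ≤ p := by exact_mod_cast hp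
  have hl0 : (0 : ℝ) ≤ L.length := Nat.cast_nonneg _
  have hsq : (L.length : ℝ) * L.length ≤ (p : ℝ) * p := mul_le_mul hp' hp' hl0 (hl0.trans hp')
  rw [d1err, add_assoc (tau D (p + 1))]
  simp only [List.length_cons, List.length_nil]
  push_cast
  nlinarith [mul_le_mul_of_nonneg_right hsq ht, mul_le_mul_of_nonneg_right hsq hr,
    mul_le_mul_of_nonneg_right hp' ht, mul_nonneg (hl0.trans hp') ht,
    mul_nonneg (hl0.trans hp') hr]

/-- **Decoupling lemma.**  Recipe: `d1_one` for `x ↦ Φ (x * y) * star y` (`InL.sandwich`). -/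
theorem d1 [Nonempty D] {Φ : A →L[ℂ] A} (hΦ : InL T Φ) {L : List A}
    (hL : ∀ a ∈ L, ‖a‖ ≤ 1) {κ₀ : ℝ} (hκ : ∀ a ∈ L, kappa T ρ a ≤ κ₀) {y : A} (hy : ‖y‖ ≤ 1)
    {p : ℕ} (hp : L.length ≤ p) {η : ℝ} (hη : 0 < η) :
    ‖(∫ V, Fv T Φ (ρ (V : Matrix D D ℂ) * wordA ρ L V * y) ∂haar D) -
      ∫ V, Fv T (avgG ρ Φ) (wordA ρ L V * y) ∂haar D‖ ≤ d1err D p η κ₀ := by
  have h1 : ‖(1 : A)‖ ≤ 1 := (IsStarProjection.one A).norm_le
  have := d1_one T ρ (hΦ.sandwich (a := 1) (b := 1) (c := y) (d := star y) h1 h1 hy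
    (by rwa [norm_star])) hL hκ hp hη
  convert this using 4 with V V
  · simp [Fv, mul_assoc]
  · simp [Fv, avgG_apply, mul_assoc, Finset.sum_mul]

end

end Crest.Agent.R121
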