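import Crest.Agent.R121.Smooth

/-!
# Row 121: good averaging elements, finite type I case
-/

open scoped InnerProductSpace ComplexOrder Topology
open Filter

set_option linter.unusedSectionVars false

namespace Crest.Agent.R121

noncomputable section

variable {H : Type*} [NormedAddCommGroup H] [InnerProductSpace ℂ H] [CompleteSpace H]
  {M : VonNeumannAlgebra H}

/-- From unitaries to all elements (`exists_four_cu` with `e = 1`, linearity in `y`). -/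
theorem DgGood.of_unitary {t : Dg (Alg M)} (h₁ : ‖t‖ ≤ 1)
    (h₂ : Pt M t (ContinuousLinearMap.id ℂ _) = 1)
    (h₃ : ∀ φ, ∀ u ∈ unitary (Alg M), Pt M t (φ ∘L Lm u) = Pt M t φ * u) : DgGood M t := by
  refine ⟨h₁, h₂, fun φ y => ?_⟩
  obtain ⟨u, c, hu, hy, -⟩ := exists_four_cu (IsStarProjection.one (Alg M)) (one_mul y) (mul_one y)
  rw [← rho_apply, hy, map_sum, Finset.mul_sum]
  refine Finset.sum_congr rfl fun i _ => ?_
  rw [map_smul, rho_apply, h₃ φ _ (isCU_one_iff.1 (hu i)), mul_smul_comm]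

theorem FinI_Pt_avg {κ : Type} [Fintype κ] (g : κ → Alg M) (w : κ → ℝ)
    (φ : Alg M →L[ℂ] Alg M) :
    Pt M (∑ s, (w s : ℂ) • Dg.elem (g s) (star (g s))) φ = ∑ s, (w s : ℂ) • (φ (g s) * star (g s)) := by
  rw [Pt_sum]
  simp only [Pt_smul, Pt_elem]

theorem FinI_norm_avg {κ : Type} [Fintype κ] {g : κ → Alg M} {w : κ → ℝ}
    (hg : ∀ s, g s ∈ unitary (Alg M)) (h0 : ∀ s, 0 ≤ w s) (h1 : ∑ s, w s = 1) :
    ‖∑ s, (w s : ℂ) • Dg.elem (g s) (star (g s))‖ ≤ 1 := by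
  refine (norm_sum_le _ _).trans (le_trans (Finset.sum_le_sum fun s _ => ?_) h1.le)
  have h2 : ‖g s‖ ≤ 1 := IsCU.norm_le (IsStarProjection.one _) (isCU_one_iff.2 (hg s))
  rw [norm_smul, Complex.norm_real, Real.norm_of_nonneg (h0 s)]
  refine mul_le_of_le_one_right (h0 s) ((Dg.norm_elem_le _ _).trans ?_)
  rw [norm_star]
  exact mul_le_one₀ h2 (norm_nonneg _) h2

theorem FinI_expand {A : Type*} [CStarAlgebra A] {J : Type} [Fintype J] (E : J → J → A)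
    (hc : ∀ a b i j, Commute b (∑ k, E k i * a * E j k))
    (hr : ∀ a, a = ∑ i, ∑ j, E i j * ∑ k, E k i * a * E j k) (Φ : A →L[ℂ] A)
    (hΦ : ∀ x z, (∀ a, Commute a z) → Φ (x * z) = Φ x * z) {κ : Type} [Fintype κ] (g : κ → A)
    (w : κ → ℝ) (v : A) :
    ∑ s, (w s : ℂ) • (Φ (v * g s) * star (g s)) = ∑ i, ∑ j, ∑ k, Φ (E i j) * E k i *
      (v * ∑ s, (w s : ℂ) • (g s * E j k * star (g s))) := by
  have e1 : ∀ x, Φ x = ∑ i, ∑ j, ∑ k, Φ (E i j) * E k i * (x * E j k) := fun x => by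
    have e2 : Φ x = ∑ i, ∑ j, Φ (E i j * ∑ k, E k i * x * E j k) := by
      conv_lhs => rw [hr x]
      simp only [map_sum]
    rw [e2]
    refine Finset.sum_congr rfl fun i _ => Finset.sum_congr rfl fun j _ => ?_
    rw [hΦ (E i j) _ fun b => hc x b i j, Finset.mul_sum]
    simp only [mul_assoc]
  have e3 : ∀ s, (w s : ℂ) • (Φ (v * g s) * star (g s)) = ∑ i, ∑ j, ∑ k, Φ (E i j) * E k i *
      (v * (w s : ℂ) • (g s * E j k * star (g s))) := fun s => by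
    rw [e1 (v * g s)]
    simp only [Finset.sum_mul, Finset.smul_sum, mul_smul_comm, mul_assoc]
  simp only [e3, Finset.mul_sum]
  rw [Finset.sum_comm]
  refine Finset.sum_congr rfl fun i _ => ?_
  rw [Finset.sum_comm]
  refine Finset.sum_congr rfl fun j _ => ?_
  rw [Finset.sum_comm]

theorem FinI_step (T : TrState (Alg M)) {J : Type} [Fintype J] (E : J → J → Alg M)
    (hc : ∀ a b i j, Commute b (∑ k, E k i * a * E j k))
    (hr : ∀ a, a = ∑ i, ∑ j, E i j * ∑ k, E k i * a * E j k) {ε : ℝ} (hε : 0 < ε) :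
    ∃ t : Dg (Alg M), ‖t‖ ≤ 1 ∧ Pt M t (ContinuousLinearMap.id ℂ _) = 1 ∧
      ∀ Φ : Alg M →L[ℂ] Alg M, (∀ x z, (∀ a, Commute a z) → Φ (x * z) = Φ x * z) →
        ∀ u ∈ unitary (Alg M), T.n2 (Pt M t (Φ ∘L Lm u) - Pt M t Φ * u) ≤
          (∑ i, ∑ j, ∑ k, ‖Φ (E i j) * E k i‖) * ε := by
  obtain ⟨κ, _, g, w, hg, h0, hw, ha⟩ := T.exists_avg (unitary (Alg M)) (one_mem _)
    (fun _ h => h) (fun _ h _ h' => mul_mem h h') (fun p : J × J => E p.1 p.2) hε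
  refine ⟨_, FinI_norm_avg hg h0 hw, ?_, fun Φ hΦ u hu => ?_⟩
  · rw [FinI_Pt_avg]
    have e : ∀ s, ContinuousLinearMap.id ℂ (Alg M) (g s) * star (g s) = 1 := fun s => (hg s).2
    simp only [e]
    rw [← Finset.sum_smul, ← Complex.ofReal_sum, hw, Complex.ofReal_one, one_smul]
  have e1 := FinI_expand E hc hr Φ hΦ g w u
  have e2 := FinI_expand E hc hr Φ hΦ g w 1
  simp only [one_mul] at e2
  have e3 : ∀ s, (Φ ∘L Lm u) (g s) = Φ (u * g s) := fun _ => rfl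
  rw [FinI_Pt_avg, FinI_Pt_avg]
  simp only [e3]
  rw [e1, e2]
  simp only [Finset.sum_mul, ← Finset.sum_sub_distrib]
  refine (T.n2_sum_le _ _).trans (Finset.sum_le_sum fun i _ => (T.n2_sum_le _ _).trans
    (Finset.sum_le_sum fun j _ => (T.n2_sum_le _ _).trans (Finset.sum_le_sum fun k _ => ?_)))
  have h4 := ha u hu (j, k)
  rw [← T.n2_mul_unitary _ hu, sub_mul, mul_assoc _ (star u), hu.1, mul_one] at h4
  rw [mul_assoc _ _ u, ← mul_sub]
  exact (T.n2_mul_le_left _ _).trans (mul_le_mul_of_nonneg_left h4 (norm_nonneg _))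

/-- Recipe: `t₁` from `exists_central`; `Φ = rho t₁ φ` satisfies `Φ (x z) = Φ x * z` for central
`z`, hence `Φ x = ∑ i j k, Φ (E i j) * E k i * x * E j k`.  For `n : ℕ` take `TrState.exists_avg`
(`G` = all unitaries, `y (j, k) = E j k`, `ε = 1/(n+1)`), `t₂ n = ∑ w s • Dg.elem (g s) (star (g s))`,
`t₂ = ulimL (hyperfilter ℕ) _`, `t = t₂.mul t₁` (`Pt_mul`, `rho_id`, `rho_comp_Lm`).  With
`Y j k = ∑ w g E j k g⋆`: `Pt (t₂ n) (Φ ∘ Lm u) - Pt (t₂ n) Φ * u = ∑ Φ (E i j) E k i (u Y - Y u)`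
has small 2-norm; `n2_wlim_le` and faithfulness give equality in the limit. -/
theorem exists_good_I (T : TrState (Alg M)) (hT : IsNormal M T.τ) (hF : T.Faithful)
    {J : Type} [Fintype J] (E : J → J → Alg M)
    (hc : ∀ a b i j, Commute b (∑ k, E k i * a * E j k))
    (hr : ∀ a, a = ∑ i, ∑ j, E i j * ∑ k, E k i * a * E j k) : ∃ t, DgGood M t := by
  obtain ⟨t₁, n1, u1, c1⟩ := exists_central (M := M)
  obtain ⟨𝒰, t, h1, h2, h3⟩ := Smooth_lim (M := M)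
    (fun (_ : Unit) ε t => ∀ Φ : Alg M →L[ℂ] Alg M,
      (∀ x z, (∀ a, Commute a z) → Φ (x * z) = Φ x * z) → ∀ u ∈ unitary (Alg M),
        T.n2 (Pt M t (Φ ∘L Lm u) - Pt M t Φ * u) ≤ (∑ i, ∑ j, ∑ k, ‖Φ (E i j) * E k i‖) * ε)
    (fun _ δ ε t h h' Φ hΦ u hu => (h' Φ hΦ u hu).trans
      (mul_le_mul_of_nonneg_left h (by positivity))) fun _ ε hε => by
      obtain ⟨t, h1, h2, h3⟩ := FinI_step T E hc hr hε
      exact ⟨t, h1, h2, fun _ _ => h3⟩
  refine ⟨Dg.mul (ulimL 𝒰 t) t₁, DgGood.of_unitary ((Dg.norm_mul_le _ _).trans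
    (mul_le_one₀ (norm_ulimL_le 𝒰 h1) (norm_nonneg _) n1)) (by rw [Pt_mul, rho_id u1, h2])
    fun φ u hu => ?_⟩
  have hΦ : ∀ x z, (∀ a, Commute a z) → rho t₁ φ (x * z) = rho t₁ φ x * z := fun x z hz => by
    rw [rho_apply, rho_apply, ← c1 _ z hz]
    congr 1
  rw [Pt_mul, Pt_mul, rho_comp_Lm, ← sub_eq_zero, Smooth_defect 𝒰 h1]
  have h4 := n2_wlim_le T hT 𝒰 (c := 0) (fun i => Smooth_defect_le (h1 i) (rho t₁ φ) u)
    fun ε hε => by
      have h0 : 0 ≤ ∑ i, ∑ j, ∑ k, ‖rho t₁ φ (E i j) * E k i‖ := by positivity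
      filter_upwards [h3 () (ε / (∑ i, ∑ j, ∑ k, ‖rho t₁ φ (E i j) * E k i‖ + 1)) (by positivity)]
        with i hi
      refine (hi _ hΦ u hu).trans ?_
      rw [zero_add, ← mul_div_assoc, div_le_iff₀ (by positivity)]
      linarith
  refine hF _ ?_
  rw [← T.coe_n2_sq, le_antisymm h4 (T.n2_nonneg _)]
  simp

end

end Crest.Agent.R121
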