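import Crest.Agent.R121.Isom
import Crest.Agent.R124.GT

/-!
# Row 121: on a properly infinite summand bounded maps can be made completely bounded
-/

open scoped InnerProductSpace ComplexOrder Topology
open Filter

set_option linter.unusedSectionVars false

namespace Crest.Agent.R121

noncomputable section

variable {H : Type*} [NormedAddCommGroup H] [InnerProductSpace ℂ H] [CompleteSpace H]
  {M : VonNeumannAlgebra H}

variable {z : Alg M} {s : ℕ → Alg M}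

/-- contractions with orthogonal ranges -/
def GammaOrth {ι : Type} (t : ι → Alg M) : Prop :=
  (∀ i j, i ≠ j → star (t i) * t j = 0) ∧ ∀ i, ‖t i‖ ≤ 1

theorem Gamma_coe_sum {ι : Type} (S : Finset ι) (t : ι → Alg M) (ξ : H) :
    ((∑ i ∈ S, t i : Alg M) : H →L[ℂ] H) ξ = ∑ i ∈ S, (t i : H →L[ℂ] H) ξ := by
  classical
  induction S using Finset.induction_on with
  | empty => simp
  | insert a S ha ih =>
    rw [Finset.sum_insert ha, Finset.sum_insert ha, ← ih]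
    rfl

theorem GammaOrth.sum_le {ι : Type} {t : ι → Alg M} (ht : GammaOrth t) (S : Finset ι)
    (η : ι → H) : ‖∑ i ∈ S, (t i : H →L[ℂ] H) (η i)‖ ^ 2 ≤ ∑ i ∈ S, ‖η i‖ ^ 2 := by
  classical
  induction S using Finset.induction_on with
  | empty => simp
  | insert a S ha ih =>
    rw [Finset.sum_insert ha, Finset.sum_insert ha]
    have h0 : ⟪(t a : H →L[ℂ] H) (η a), ∑ i ∈ S, (t i : H →L[ℂ] H) (η i)⟫_ℂ = 0 := by
      rw [inner_sum]
      refine Finset.sum_eq_zero fun i hi => ?_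
      rw [← Alg.inner_star_right, ← Alg.mul_apply, ht.1 a i (fun e => ha (e ▸ hi))]
      simp
    have h1 := norm_add_sq_eq_norm_sq_add_norm_sq_of_inner_eq_zero _ _ h0
    have h2 : ‖(t a : H →L[ℂ] H) (η a)‖ ≤ ‖η a‖ :=
      (Alg.norm_apply_le _ _).trans (mul_le_of_le_one_left (norm_nonneg _) (ht.2 a))
    have h3 : ‖(t a : H →L[ℂ] H) (η a)‖ ^ 2 ≤ ‖η a‖ ^ 2 := by gcongr
    nlinarith

theorem Gamma_le_of_le_sqrt {S C : ℝ} (hS : 0 ≤ S) (h : S ≤ C * √S) : S ≤ C ^ 2 := by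
  have h1 := Real.sq_sqrt hS
  have h2 := Real.sqrt_nonneg S
  nlinarith [sq_nonneg (√S - C)]

theorem GammaOrth.bessel {ι : Type} {t : ι → Alg M} (ht : GammaOrth t) (S : Finset ι) (ξ : H) :
    ∑ i ∈ S, ‖((star (t i) : Alg M) : H →L[ℂ] H) ξ‖ ^ 2 ≤ ‖ξ‖ ^ 2 := by
  set η : ι → H := fun i => ((star (t i) : Alg M) : H →L[ℂ] H) ξ with hη
  have hS : 0 ≤ ∑ i ∈ S, ‖η i‖ ^ 2 := Finset.sum_nonneg fun i _ => by positivity
  refine Gamma_le_of_le_sqrt hS ?_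
  have h1 : ((∑ i ∈ S, ‖η i‖ ^ 2 : ℝ) : ℂ) = ⟪∑ i ∈ S, (t i : H →L[ℂ] H) (η i), ξ⟫_ℂ := by
    rw [sum_inner]
    push_cast
    refine Finset.sum_congr rfl fun i _ => ?_
    rw [← Alg.inner_star_right, inner_self_eq_norm_sq_to_K]
    rfl
  have h2 : ‖∑ i ∈ S, (t i : H →L[ℂ] H) (η i)‖ ≤ √(∑ i ∈ S, ‖η i‖ ^ 2) :=
    Real.le_sqrt_of_sq_le (ht.sum_le S η)
  calc ∑ i ∈ S, ‖η i‖ ^ 2 = ‖((∑ i ∈ S, ‖η i‖ ^ 2 : ℝ) : ℂ)‖ := by
        rw [Complex.norm_real, Real.norm_of_nonneg hS]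
    _ ≤ ‖∑ i ∈ S, (t i : H →L[ℂ] H) (η i)‖ * ‖ξ‖ := by
        rw [h1]; exact norm_inner_le_norm _ _
    _ ≤ ‖ξ‖ * √(∑ i ∈ S, ‖η i‖ ^ 2) := by rw [mul_comm]; gcongr

theorem GammaOrth.norm_diag_le {ι : Type} {t : ι → Alg M} (ht : GammaOrth t) (S : Finset ι)
    (y : ι → Alg M) {C : ℝ} (hC : 0 ≤ C) (hy : ∀ i, ‖y i‖ ≤ C) :
    ‖∑ i ∈ S, t i * y i * star (t i)‖ ≤ C := by
  rw [← Alg.norm_coe]
  refine ContinuousLinearMap.opNorm_le_bound _ hC fun ξ => ?_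
  refine le_of_sq_le_sq ?_ (by positivity)
  rw [Gamma_coe_sum]
  simp only [Alg.mul_apply]
  refine (ht.sum_le S _).trans ?_
  calc ∑ i ∈ S, ‖(y i : H →L[ℂ] H) (((star (t i) : Alg M) : H →L[ℂ] H) ξ)‖ ^ 2
      ≤ ∑ i ∈ S, C ^ 2 * ‖((star (t i) : Alg M) : H →L[ℂ] H) ξ‖ ^ 2 := by
        refine Finset.sum_le_sum fun i _ => ?_
        rw [← mul_pow]
        gcongr
        exact (Alg.norm_apply_le _ _).trans (by gcongr; exact hy i)
    _ ≤ C ^ 2 * ‖ξ‖ ^ 2 := by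
        rw [← Finset.mul_sum]
        gcongr
        exact ht.bessel S ξ
    _ = (C * ‖ξ‖) ^ 2 := by ring

theorem Gamma_mul_z (hz : IsStarProjection z) (hs : Isoms z s) (i : ℕ) : s i * z = s i :=
  mul_eq_self_of_star_mul_self hz (by rw [hs.orth, if_pos rfl])

theorem Gamma_norm_s (hz : IsStarProjection z) (hs : Isoms z s) (i : ℕ) : ‖s i‖ ≤ 1 := by
  have h1 := CStarRing.norm_star_mul_self (x := s i)
  rw [hs.orth, if_pos rfl] at h1
  have := hz.norm_le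
  nlinarith [norm_nonneg (s i)]

theorem Gamma_orth (hz : IsStarProjection z) (hs : Isoms z s) {ι : Type} {e : ι → ℕ}
    (he : Function.Injective e) : GammaOrth fun i => s (e i) :=
  ⟨fun i j hij => by rw [hs.orth, if_neg (fun h => hij (he h))], fun i => Gamma_norm_s hz hs _⟩

theorem Gamma_eventually (j : ℕ) : ∀ᶠ N in (hyperfilter ℕ : Filter ℕ), j ≤ N :=
  Nat.hyperfilter_le_atTop (eventually_ge_atTop j)

/-- The endomorphism `x ↦ x (1 - z) + ∑ i, s i * x * (s i)⋆`.  Recipe: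
`α₀ = wlimL (hyperfilter ℕ) (fun N => ∑ i < N, Lm (s i) ∘L Rm (s i)⋆) 1 _`
(`‖∑ i < N, s i x (s i)⋆‖ ≤ ‖x‖`), `α x = x (1 - z) + α₀ x`; `α₀ x * s j = s j * x` by
`wlim_mul_right`, `wlim_congr`; `α₀ x * α₀ y = wlim ∑ α₀ x * s i * y * (s i)⋆`;
`z * α₀ x = α₀ x = α₀ x * z`; the norm bound from `‖a (1 - z) + b z‖ ≤ max ‖a‖ ‖b‖`. -/
theorem exists_alpha (hz : IsCentralProj M z) (hs : Isoms z s) :
    ∃ α : Alg M →L[ℂ] Alg M, ‖α‖ ≤ 1 ∧ (∀ x y, α (x * y) = α x * α y) ∧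
      (∀ x i, α x * s i = s i * x) ∧ (∀ x i, star (s i) * α x = x * star (s i)) ∧
      ∀ x, α x * (1 - z) = x * (1 - z) := by
  have hp := hz.1
  have hzs : star z = z := hp.isSelfAdjoint.star_eq
  have hzz : z * z = z := hp.isIdempotentElem.eq
  have hsz : ∀ i, s i * z = s i := Gamma_mul_z hp hs
  have hzs' : ∀ i, z * star (s i) = star (s i) := fun i => by
    have := congrArg star (hsz i)
    rwa [star_mul, hzs] at this
  have hsz' : ∀ i, star (s i) * z = star (s i) := fun i => by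
    have := congrArg star (hs.left i)
    rwa [star_mul, hzs] at this
  have ho : GammaOrth s := Gamma_orth hp hs Function.injective_id
  let F : ℕ → Alg M →L[ℂ] Alg M := fun N => ∑ i ∈ Finset.range N, Rm (star (s i)) ∘L Lm (s i)
  have hF : ∀ N x, F N x = ∑ i ∈ Finset.range N, s i * x * star (s i) := fun N x => by
    simp [F]
  have hFx : ∀ x N, ‖F N x‖ ≤ ‖x‖ := fun x N => by
    rw [hF]
    exact ho.norm_diag_le _ (fun _ => x) (norm_nonneg _) fun _ => le_rfl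
  have hFn : ∀ N, ‖F N‖ ≤ 1 := fun N =>
    ContinuousLinearMap.opNorm_le_bound _ zero_le_one fun x => by rw [one_mul]; exact hFx x N
  let α₀ : Alg M →L[ℂ] Alg M := wlimL (hyperfilter ℕ) F 1 hFn
  have hα₀ : ∀ x, α₀ x = wlim (hyperfilter ℕ) fun N => F N x := fun x => rfl
  have a1 : ∀ x j, α₀ x * s j = s j * x := by
    intro x j
    rw [hα₀, ← wlim_mul_right _ (hFx x),
      wlim_congr (T' := fun _ => s j * x) _ (C := ‖x‖ * ‖s j‖)
        (fun N => (norm_mul_le _ _).trans (by gcongr; exact hFx x N)) (fun _ => le_rfl),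
      wlim_const]
    filter_upwards [Gamma_eventually (j + 1)] with N hN
    rw [hF, Finset.sum_mul, Finset.sum_eq_single j]
    · rw [mul_assoc, hs.orth, if_pos rfl, mul_assoc, (hz.2 x).eq, ← mul_assoc, hsz]
    · intro i _ hij
      rw [mul_assoc, hs.orth, if_neg hij, mul_zero]
    · intro h
      exact absurd (Finset.mem_range.2 hN) h
  have a2 : ∀ x j, star (s j) * α₀ x = x * star (s j) := by
    intro x j
    rw [hα₀, ← wlim_mul_left _ (hFx x),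
      wlim_congr (T' := fun _ => x * star (s j)) _ (C := ‖star (s j)‖ * ‖x‖)
        (fun N => (norm_mul_le _ _).trans (by gcongr; exact hFx x N)) (fun _ => le_rfl),
      wlim_const]
    filter_upwards [Gamma_eventually (j + 1)] with N hN
    rw [hF, Finset.mul_sum, Finset.sum_eq_single j]
    · rw [← mul_assoc, ← mul_assoc, hs.orth, if_pos rfl, ← (hz.2 x).eq, mul_assoc, hzs']
    · intro i _ hij
      rw [← mul_assoc, ← mul_assoc, hs.orth, if_neg (Ne.symm hij), zero_mul, zero_mul]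
    · intro h
      exact absurd (Finset.mem_range.2 hN) h
  have a3 : ∀ x y, α₀ (x * y) = α₀ x * α₀ y := by
    intro x y
    rw [hα₀ y, ← wlim_mul_left _ (hFx y), hα₀ (x * y)]
    congr 1
    funext N
    rw [hF, hF, Finset.mul_sum]
    refine Finset.sum_congr rfl fun i _ => ?_
    rw [← mul_assoc, ← mul_assoc, ← mul_assoc, a1]
  have a4 : ∀ x, z * α₀ x = α₀ x := by
    intro x
    rw [hα₀, ← wlim_mul_left _ (hFx x)]
    congr 1
    funext N
    rw [hF, Finset.mul_sum]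
    refine Finset.sum_congr rfl fun i _ => ?_
    rw [← mul_assoc, ← mul_assoc, hs.left]
  have a5 : ∀ x, α₀ x * (1 - z) = 0 := fun x => by
    rw [mul_sub, mul_one, (hz.2 _).eq, a4, sub_self]
  have a6 : ∀ x, (1 - z) * α₀ x = 0 := fun x => by
    rw [sub_mul, one_mul, a4, sub_self]
  have c1 : ∀ x, x * (1 - z) = (1 - z) * x := fun x => by
    rw [mul_sub, sub_mul, mul_one, one_mul, (hz.2 x).eq]
  have c2 : (1 - z) * (1 - z) = 1 - z := hp.one_sub.isIdempotentElem.eq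
  have hα : ∀ x, (Rm (1 - z) + α₀) x = x * (1 - z) + α₀ x := fun x => rfl
  refine ⟨Rm (1 - z) + α₀, ?_, fun x y => ?_, fun x i => ?_, fun x i => ?_, fun x => ?_⟩
  · refine ContinuousLinearMap.opNorm_le_bound _ zero_le_one fun x => ?_
    have ht : GammaOrth (fun b : Bool => if b then z else 1 - z) := by
      refine ⟨fun i j hij => ?_, fun i => ?_⟩
      · cases i <;> cases j
        · exact absurd rfl hij
        · simp [hzs, sub_mul, hzz]
        · simp [hzs, mul_sub, hzz]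
        · exact absurd rfl hij
      · cases i
        · exact hp.one_sub.norm_le
        · exact hp.norm_le
    have := ht.norm_diag_le Finset.univ (fun b => if b then α₀ x else x) (norm_nonneg x)
      (fun b => by
        cases b
        · exact le_rfl
        · exact norm_wlim_le _ (hFx x))
    rw [Fintype.sum_bool] at this
    simp only [if_true, Bool.false_eq_true, if_false, star_sub, star_one, hzs] at this
    rw [a4, (hz.2 _).eq, a4, ← c1, mul_assoc, c2, add_comm] at this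
    rw [hα, one_mul]
    exact this
  · rw [hα, hα, hα, a3, add_mul, mul_add, mul_add, mul_assoc x (1 - z) (α₀ y), a6, mul_zero,
      add_zero, c1 y, ← mul_assoc (α₀ x), a5, zero_mul, zero_add, mul_assoc x (1 - z),
      ← mul_assoc (1 - z), c2, ← c1, mul_assoc]
  · rw [hα, add_mul, a1, mul_assoc, sub_mul, one_mul, hs.left, sub_self, mul_zero, zero_add]
  · rw [hα, mul_add, a2, c1, ← mul_assoc, mul_sub, mul_one, hsz', sub_self, zero_mul, zero_add]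
  · rw [hα, add_mul, a5, add_zero, mul_assoc, c2]

/-- `x ↦ h⁻² ∑ i j < h, (s i)⋆ φ (s i x (s j)⋆) s j` (with `h = N + 1`). -/
def gammaN (s : ℕ → Alg M) (N : ℕ) (φ : Alg M →L[ℂ] Alg M) : Alg M →L[ℂ] Alg M :=
  (((N + 1 : ℕ) : ℂ) ^ 2)⁻¹ • ∑ i ∈ Finset.range (N + 1), ∑ j ∈ Finset.range (N + 1),
    Lm (star (s i)) ∘L Rm (s j) ∘L φ ∘L Lm (s i) ∘L Rm (star (s j))

theorem gammaN_apply (s : ℕ → Alg M) (N : ℕ) (φ : Alg M →L[ℂ] Alg M) (x : Alg M) :
    gammaN s N φ x = (((N + 1 : ℕ) : ℂ) ^ 2)⁻¹ • ∑ i ∈ Finset.range (N + 1),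
      ∑ j ∈ Finset.range (N + 1), star (s i) * (φ (s i * (x * star (s j))) * s j) := by
  simp [gammaN]

theorem Gamma_avg {κ : Type} [Fintype κ] (G : κ → κ → ℂ) {C : ℝ}
    (h : ∀ ε : κ → Bool,
      ‖∑ k, ∑ k', ((R124.GT.sg ε k * R124.GT.sg ε k' : ℝ) : ℂ) * G k k'‖ ≤ C) :
    ‖∑ k, G k k‖ ≤ C := by
  classical
  have hc : (0 : ℝ) < Fintype.card (κ → Bool) := by exact_mod_cast Fintype.card_pos
  have e : ∑ ε : κ → Bool, ∑ k, ∑ k', ((R124.GT.sg ε k * R124.GT.sg ε k' : ℝ) : ℂ) * G k k' =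
      ((Fintype.card (κ → Bool) : ℝ) : ℂ) * ∑ k, G k k := by
    rw [Finset.sum_comm, Finset.mul_sum]
    refine Finset.sum_congr rfl fun k _ => ?_
    rw [Finset.sum_comm]
    simp_rw [← Finset.sum_mul, ← Complex.ofReal_sum, R124.GT.sum_sg_mul]
    rw [Finset.sum_eq_single k]
    · simp
    · intro j _ hj
      simp [Ne.symm hj]
    · simp
  have h1 := norm_sum_le_of_le Finset.univ (fun ε _ => h ε)
  rw [e, norm_mul, Complex.norm_real, Real.norm_of_nonneg hc.le, Finset.sum_const,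
    Finset.card_univ, nsmul_eq_mul] at h1
  exact le_of_mul_le_mul_left h1 hc

theorem GammaOrth.sign {ι : Type} {t : ι → Alg M} (ht : GammaOrth t) (ε : ι → Bool) :
    GammaOrth fun i => ((R124.GT.sg ε i : ℝ) : ℂ) • t i := by
  refine ⟨fun i j hij => ?_, fun i => ?_⟩
  · simp only [star_smul, smul_mul_assoc, mul_smul_comm, ht.1 i j hij, smul_zero]
  · simp only [norm_smul, Complex.norm_real, Real.norm_eq_abs, R124.GT.abs_sg, one_mul]
    exact ht.2 i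

theorem Gamma_full (φ : Alg M →L[ℂ] Alg M) {κ σ : Type} [Fintype κ] [Fintype σ]
    {t : κ → Alg M} {u : σ → Alg M} (ht : GammaOrth t) (hu : GammaOrth u) (X : κ → σ → Alg M)
    (hX : ∀ η : σ → H, ∑ k, ‖∑ l, (X k l : H →L[ℂ] H) (η l)‖ ^ 2 ≤ ∑ l, ‖η l‖ ^ 2)
    (η : κ → H) (ζ : σ → H) :
    ‖∑ k, ∑ k', ∑ l, ∑ l', ⟪η k, ((star (t k) * (φ (t k' * (X k' l' * star (u l'))) * u l) :
      Alg M) : H →L[ℂ] H) (ζ l)⟫_ℂ‖ ≤ ‖φ‖ * √(∑ k, ‖η k‖ ^ 2) * √(∑ l, ‖ζ l‖ ^ 2) := by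
  set Y : Alg M := ∑ k, ∑ l, t k * (X k l * star (u l)) with hY
  have hYn : ‖Y‖ ≤ 1 := by
    rw [← Alg.norm_coe]
    refine ContinuousLinearMap.opNorm_le_bound _ zero_le_one fun ξ => ?_
    rw [one_mul]
    refine le_of_sq_le_sq ?_ (by positivity)
    have e : (Y : H →L[ℂ] H) ξ = ∑ k, (t k : H →L[ℂ] H) (∑ l, (X k l : H →L[ℂ] H)
        (((star (u l) : Alg M) : H →L[ℂ] H) ξ)) := by
      rw [hY, Gamma_coe_sum]
      refine Finset.sum_congr rfl fun k _ => ?_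
      rw [Gamma_coe_sum, map_sum]
      rfl
    rw [e]
    exact (ht.sum_le _ _).trans ((hX _).trans (hu.bessel _ ξ))
  have e : ∑ k, ∑ k', ∑ l, ∑ l', ⟪η k, ((star (t k) * (φ (t k' * (X k' l' * star (u l'))) * u l) :
      Alg M) : H →L[ℂ] H) (ζ l)⟫_ℂ =
      ⟪∑ k, (t k : H →L[ℂ] H) (η k), (φ Y : H →L[ℂ] H) (∑ l, (u l : H →L[ℂ] H) (ζ l))⟫_ℂ := by
    rw [sum_inner]
    refine Finset.sum_congr rfl fun k _ => ?_
    rw [hY, map_sum φ, Gamma_coe_sum, inner_sum]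
    refine Finset.sum_congr rfl fun k' _ => ?_
    rw [map_sum φ, Gamma_coe_sum, inner_sum, Finset.sum_comm]
    refine Finset.sum_congr rfl fun l' _ => ?_
    rw [map_sum, inner_sum]
    refine Finset.sum_congr rfl fun l _ => ?_
    rw [Alg.mul_apply, Alg.inner_star_right, Alg.mul_apply]
  rw [e]
  have h1 : ‖∑ k, (t k : H →L[ℂ] H) (η k)‖ ≤ √(∑ k, ‖η k‖ ^ 2) :=
    Real.le_sqrt_of_sq_le (ht.sum_le _ η)
  have h2 : ‖∑ l, (u l : H →L[ℂ] H) (ζ l)‖ ≤ √(∑ l, ‖ζ l‖ ^ 2) :=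
    Real.le_sqrt_of_sq_le (hu.sum_le _ ζ)
  have h3 : ‖φ Y‖ ≤ ‖φ‖ := (φ.le_opNorm Y).trans (mul_le_of_le_one_right (norm_nonneg _) hYn)
  calc _ ≤ ‖∑ k, (t k : H →L[ℂ] H) (η k)‖ * (‖φ Y‖ * ‖∑ l, (u l : H →L[ℂ] H) (ζ l)‖) :=
        (norm_inner_le_norm _ _).trans (by gcongr; exact Alg.norm_apply_le _ _)
    _ ≤ √(∑ k, ‖η k‖ ^ 2) * (‖φ‖ * √(∑ l, ‖ζ l‖ ^ 2)) := by gcongr
    _ = _ := by ring

theorem Gamma_diag (φ : Alg M →L[ℂ] Alg M) {κ σ : Type} [Fintype κ] [Fintype σ]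
    {t : κ → Alg M} {u : σ → Alg M} (ht : GammaOrth t) (hu : GammaOrth u) (X : κ → σ → Alg M)
    (hX : ∀ η : σ → H, ∑ k, ‖∑ l, (X k l : H →L[ℂ] H) (η l)‖ ^ 2 ≤ ∑ l, ‖η l‖ ^ 2)
    (η : κ → H) (ζ : σ → H) :
    ‖∑ k, ∑ l, ⟪η k, ((star (t k) * (φ (t k * (X k l * star (u l))) * u l) :
      Alg M) : H →L[ℂ] H) (ζ l)⟫_ℂ‖ ≤ ‖φ‖ * √(∑ k, ‖η k‖ ^ 2) * √(∑ l, ‖ζ l‖ ^ 2) := by
  set G : κ → κ → σ → σ → ℂ := fun k k' l l' =>
    vecF M (η k) (ζ l) (star (t k) * (φ (t k' * (X k' l' * star (u l'))) * u l)) with hG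
  refine Gamma_avg (fun k k' => ∑ l, G k k' l l) fun ε => ?_
  have e1 : ∑ k, ∑ k', ((R124.GT.sg ε k * R124.GT.sg ε k' : ℝ) : ℂ) * ∑ l, G k k' l l =
      ∑ l, ∑ k, ∑ k', ((R124.GT.sg ε k * R124.GT.sg ε k' : ℝ) : ℂ) * G k k' l l := by
    simp only [Finset.mul_sum]
    rw [Finset.sum_comm (s := (Finset.univ : Finset σ))]
    refine Finset.sum_congr rfl fun k _ => ?_
    rw [Finset.sum_comm]
  rw [e1]
  refine Gamma_avg (fun l l' => ∑ k, ∑ k',
    ((R124.GT.sg ε k * R124.GT.sg ε k' : ℝ) : ℂ) * G k k' l l') fun ε' => ?_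
  refine le_of_eq_of_le ?_ (Gamma_full φ (ht.sign ε) (hu.sign ε') X hX η ζ)
  congr 1
  simp only [Finset.mul_sum]
  rw [Finset.sum_comm' (s := (Finset.univ : Finset κ)) (t := fun _ => (Finset.univ : Finset κ))
    (t' := Finset.univ) (s' := fun _ => Finset.univ) (by simp)]
  symm
  have e2 : ∀ k k' l l', ⟪η k, ((star (((R124.GT.sg ε k : ℝ) : ℂ) • t k) *
      (φ ((((R124.GT.sg ε k' : ℝ) : ℂ) • t k') * (X k' l' *
        star (((R124.GT.sg ε' l' : ℝ) : ℂ) • u l'))) * (((R124.GT.sg ε' l : ℝ) : ℂ) • u l)) :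
      Alg M) : H →L[ℂ] H) (ζ l)⟫_ℂ =
      ((R124.GT.sg ε' l * R124.GT.sg ε' l' : ℝ) : ℂ) *
        (((R124.GT.sg ε k * R124.GT.sg ε k' : ℝ) : ℂ) * G k k' l l') := by
    intro k k' l l'
    rw [← vecF_apply]
    simp only [star_smul, smul_mul_assoc, mul_smul_comm, map_smul, smul_eq_mul, hG,
      Complex.star_def, Complex.conj_ofReal]
    push_cast
    ring
  simp only [e2]
  calc ∑ k', ∑ k, ∑ l, ∑ l', ((R124.GT.sg ε' l * R124.GT.sg ε' l' : ℝ) : ℂ) *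
        (((R124.GT.sg ε k * R124.GT.sg ε k' : ℝ) : ℂ) * G k k' l l')
      = ∑ k, ∑ k', ∑ l, ∑ l', ((R124.GT.sg ε' l * R124.GT.sg ε' l' : ℝ) : ℂ) *
        (((R124.GT.sg ε k * R124.GT.sg ε k' : ℝ) : ℂ) * G k k' l l') := Finset.sum_comm
    _ = ∑ p : κ × κ, ∑ q : σ × σ, ((R124.GT.sg ε' q.1 * R124.GT.sg ε' q.2 : ℝ) : ℂ) *
        (((R124.GT.sg ε p.1 * R124.GT.sg ε p.2 : ℝ) : ℂ) * G p.1 p.2 q.1 q.2) := by
        simp only [Fintype.sum_prod_type]
    _ = ∑ q : σ × σ, ∑ p : κ × κ, ((R124.GT.sg ε' q.1 * R124.GT.sg ε' q.2 : ℝ) : ℂ) *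
        (((R124.GT.sg ε p.1 * R124.GT.sg ε p.2 : ℝ) : ℂ) * G p.1 p.2 q.1 q.2) := Finset.sum_comm
    _ = _ := by simp only [Fintype.sum_prod_type]

theorem Gamma_shift {V : Type*} [AddCommMonoid V] {N : ℕ} (c : Fin (N + 1)) (F : ℕ → V) :
    ∑ i ∈ Finset.range (N + 1), F i = ∑ a : Fin (N + 1), F ((a + c : Fin (N + 1)) : ℕ) := by
  rw [Finset.sum_range]
  exact (Equiv.sum_comp (Equiv.addRight c) (fun a : Fin (N + 1) => F a)).symm

/-- Matrix bound for `gammaN`.  Recipe: embed `κ` and `σ` in `ZMod (N+1)` (or `Fin (N+1)`) by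
injections `k ↦ k'`, `l ↦ l'`.  For shifts `a b` and signs `ε, ε'` put
`Y = ∑ k l, ε k ε' l • s (a + k') * X k l * (s (b + l'))⋆`, `‖Y‖ ≤ 1`.  Then
`‖∑ k l, ⟪s (a + k') (ε k • η k), φ Y (s (b + l') (ε' l • ζ l))⟫‖ ≤ ‖φ‖ √(∑ ‖η‖²) √(∑ ‖ζ‖²)`
(orthogonal ranges).  Averaging over the signs (`R124.GT.sum_sg_mul`) keeps the terms
`⟪η k, (s (a+k'))⋆ φ (s (a+k') X k l (s (b+l'))⋆) s (b+l') ζ l⟫`, averaging over `a b` gives
`gammaN`. -/
theorem norm_inner_gammaN_le (hz : IsStarProjection z) (hs : Isoms z s)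
    (φ : Alg M →L[ℂ] Alg M) {κ σ : Type} [Fintype κ] [Fintype σ] {N : ℕ}
    (hκ : Fintype.card κ ≤ N + 1) (hσ : Fintype.card σ ≤ N + 1) (X : κ → σ → Alg M)
    (hX : ∀ η : σ → H, ∑ k, ‖∑ l, (X k l : H →L[ℂ] H) (η l)‖ ^ 2 ≤ ∑ l, ‖η l‖ ^ 2)
    (η : κ → H) (ζ : σ → H) :
    ‖∑ k, ∑ l, ⟪η k, (gammaN s N φ (X k l) : H →L[ℂ] H) (ζ l)⟫_ℂ‖ ≤
      ‖φ‖ * √(∑ k, ‖η k‖ ^ 2) * √(∑ l, ‖ζ l‖ ^ 2) := by
  obtain ⟨e₁⟩ : Nonempty (κ ↪ Fin (N + 1)) :=
    Function.Embedding.nonempty_of_card_le (by simpa using hκ)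
  obtain ⟨e₂⟩ : Nonempty (σ ↪ Fin (N + 1)) :=
    Function.Embedding.nonempty_of_card_le (by simpa using hσ)
  set C := ‖φ‖ * √(∑ k, ‖η k‖ ^ 2) * √(∑ l, ‖ζ l‖ ^ 2) with hC
  set G : Fin (N + 1) → Fin (N + 1) → κ → σ → ℂ := fun a b k l =>
    vecF M (η k) (ζ l) (star (s ((a + e₁ k : Fin (N + 1)) : ℕ)) *
      (φ (s ((a + e₁ k : Fin (N + 1)) : ℕ) * (X k l * star (s ((b + e₂ l : Fin (N + 1)) : ℕ)))) *
        s ((b + e₂ l : Fin (N + 1)) : ℕ))) with hG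
  have hb : ∀ a b, ‖∑ k, ∑ l, G a b k l‖ ≤ C := fun a b =>
    Gamma_diag φ
      (Gamma_orth hz hs (e := fun k => ((a + e₁ k : Fin (N + 1)) : ℕ))
        (fun k k' h => e₁.injective (add_left_cancel (Fin.ext h))))
      (Gamma_orth hz hs (e := fun l => ((b + e₂ l : Fin (N + 1)) : ℕ))
        (fun k k' h => e₂.injective (add_left_cancel (Fin.ext h)))) X hX η ζ
  have e : ∑ k, ∑ l, ⟪η k, (gammaN s N φ (X k l) : H →L[ℂ] H) (ζ l)⟫_ℂ =
      (((N + 1 : ℕ) : ℂ) ^ 2)⁻¹ * ∑ a, ∑ b, ∑ k, ∑ l, G a b k l := by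
    have e1 : ∀ k l, ⟪η k, (gammaN s N φ (X k l) : H →L[ℂ] H) (ζ l)⟫_ℂ =
        (((N + 1 : ℕ) : ℂ) ^ 2)⁻¹ * ∑ a, ∑ b, G a b k l := by
      intro k l
      rw [← vecF_apply, gammaN_apply, map_smul, smul_eq_mul, Gamma_shift (e₁ k), map_sum]
      congr 1
      refine Finset.sum_congr rfl fun a _ => ?_
      rw [Gamma_shift (e₂ l), map_sum]
    simp only [e1, ← Finset.mul_sum]
    congr 1
    calc ∑ k, ∑ l, ∑ a, ∑ b, G a b k l
        = ∑ p : κ × σ, ∑ q : Fin (N + 1) × Fin (N + 1), G q.1 q.2 p.1 p.2 := by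
          simp only [Fintype.sum_prod_type]
      _ = ∑ q : Fin (N + 1) × Fin (N + 1), ∑ p : κ × σ, G q.1 q.2 p.1 p.2 := Finset.sum_comm
      _ = _ := by simp only [Fintype.sum_prod_type]
  have h1 : ‖∑ a, ∑ b, ∑ k, ∑ l, G a b k l‖ ≤ ((N + 1 : ℕ) : ℝ) ^ 2 * C := by
    refine (norm_sum_le_of_le Finset.univ (fun a _ =>
      norm_sum_le_of_le Finset.univ (fun b _ => hb a b))).trans (le_of_eq ?_)
    simp only [Finset.sum_const, Finset.card_univ, Fintype.card_fin, nsmul_eq_mul]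
    ring
  rw [e, norm_mul, norm_inv, norm_pow, Complex.norm_natCast, inv_mul_le_iff₀ (by positivity)]
  exact h1

theorem Gamma_norm_gammaN (hz : IsStarProjection z) (hs : Isoms z s) (N : ℕ)
    (φ : Alg M →L[ℂ] Alg M) : ‖gammaN s N φ‖ ≤ ‖φ‖ := by
  refine ContinuousLinearMap.opNorm_le_bound _ (norm_nonneg _) fun x => ?_
  have h1 : ∀ i j, ‖star (s i) * (φ (s i * (x * star (s j))) * s j)‖ ≤ ‖φ‖ * ‖x‖ := by
    intro i j
    have a := Gamma_norm_s hz hs i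
    have b := Gamma_norm_s hz hs j
    have a' : ‖star (s i)‖ ≤ 1 := by rwa [norm_star]
    have b' : ‖star (s j)‖ ≤ 1 := by rwa [norm_star]
    have c : ‖s i * (x * star (s j))‖ ≤ ‖x‖ :=
      (norm_mul_le _ _).trans ((mul_le_of_le_one_left (norm_nonneg _) a).trans
        ((norm_mul_le _ _).trans (mul_le_of_le_one_right (norm_nonneg _) b')))
    exact (norm_mul_le _ _).trans ((mul_le_of_le_one_left (norm_nonneg _) a').trans
      ((norm_mul_le _ _).trans ((mul_le_of_le_one_right (norm_nonneg _) b).trans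
        ((φ.le_opNorm _).trans (by gcongr)))))
  rw [gammaN_apply, norm_smul, norm_inv, norm_pow, Complex.norm_natCast,
    inv_mul_le_iff₀ (by positivity)]
  refine (norm_sum_le_of_le _ (fun a _ => norm_sum_le_of_le _ (fun b _ => h1 a b))).trans
    (le_of_eq ?_)
  simp only [Finset.sum_const, Finset.card_range, nsmul_eq_mul]
  ring

/-- Recipe: `γ φ = wlimL (hyperfilter ℕ) (fun N => gammaN s N φ) ‖φ‖ _`, bundled with
`LinearMap.mkContinuous`; complete boundedness from `norm_inner_gammaN_le` (take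
`η k = ∑ l, γ φ (X k l) ζ l`); `gammaN s N (Lm c) x = (h⁻¹ ∑ (s i)⋆ c s i) * x`. -/
theorem exists_gamma (hz : IsCentralProj M z) (hs : Isoms z s) {α : Alg M →L[ℂ] Alg M}
    (h₁ : ∀ x i, α x * s i = s i * x) (h₂ : ∀ x i, star (s i) * α x = x * star (s i)) :
    ∃ γ : (Alg M →L[ℂ] Alg M) →L[ℂ] (Alg M →L[ℂ] Alg M), (∀ φ, IsCB M (γ φ)) ∧
      (∀ a φ, γ (Lm (α a) ∘L φ) = Lm a ∘L γ φ) ∧ (∀ a φ, γ (φ ∘L Lm (α a)) = γ φ ∘L Lm a) ∧
      ∀ c, γ (Lm c) = Lm (wlim (hyperfilter ℕ) fun N =>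
        ((N + 1 : ℕ) : ℂ)⁻¹ • ∑ i ∈ Finset.range (N + 1), star (s i) * c * s i) := by
  have hp := hz.1
  have hn := Gamma_norm_gammaN hp hs
  have hnx : ∀ φ x N, ‖gammaN s N φ x‖ ≤ ‖φ‖ * ‖x‖ := fun φ x N =>
    ((gammaN s N φ).le_opNorm x).trans (by gcongr; exact hn N φ)
  let γ : (Alg M →L[ℂ] Alg M) →L[ℂ] (Alg M →L[ℂ] Alg M) := LinearMap.mkContinuous
    { toFun := fun φ => wlimL (hyperfilter ℕ) (fun N => gammaN s N φ) ‖φ‖ (fun N => hn N φ)
      map_add' := fun φ φ' => by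
        ext1 x
        rw [add_apply, wlimL_apply, wlimL_apply, wlimL_apply,
          ← wlim_add _ (hnx φ x) (hnx φ' x)]
        congr 1
        funext N
        simp only [gammaN_apply, add_apply, add_mul, mul_add,
          Finset.sum_add_distrib, smul_add]
      map_smul' := fun c φ => by
        ext1 x
        rw [RingHom.id_apply, smul_apply, wlimL_apply, wlimL_apply,
          ← wlim_smul _ (hnx φ x)]
        congr 1
        funext N
        simp only [gammaN_apply, smul_apply, smul_mul_assoc, mul_smul_comm,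
          ← Finset.smul_sum]
        rw [smul_comm] } 1
    (fun φ => by rw [one_mul]; exact norm_wlimL_le _ _ _ (fun N => hn N φ))
  have hγ : ∀ φ x, γ φ x = wlim (hyperfilter ℕ) fun N => gammaN s N φ x := fun φ x => rfl
  refine ⟨γ, fun φ => ⟨‖φ‖, fun κ σ _ _ X hX ζ => ?_⟩, fun a φ => ?_, fun a φ => ?_, fun c => ?_⟩
  · set η : κ → H := fun k => ∑ l, (γ φ (X k l) : H →L[ℂ] H) (ζ l) with hη
    have hS : 0 ≤ ∑ k, ‖η k‖ ^ 2 := Finset.sum_nonneg fun i _ => by positivity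
    have hZ : 0 ≤ ∑ l, ‖ζ l‖ ^ 2 := Finset.sum_nonneg fun i _ => by positivity
    have ht : Tendsto (fun N => ∑ k, ∑ l, ⟪η k, (gammaN s N φ (X k l) : H →L[ℂ] H) (ζ l)⟫_ℂ)
        (hyperfilter ℕ) (𝓝 (∑ k, ∑ l, ⟪η k, (γ φ (X k l) : H →L[ℂ] H) (ζ l)⟫_ℂ)) :=
      tendsto_finsetSum _ fun k _ => tendsto_finsetSum _ fun l _ =>
        tendsto_inner_wlim _ (hnx φ (X k l)) _ _
    have h1 : ‖∑ k, ∑ l, ⟪η k, (γ φ (X k l) : H →L[ℂ] H) (ζ l)⟫_ℂ‖ ≤
        ‖φ‖ * √(∑ k, ‖η k‖ ^ 2) * √(∑ l, ‖ζ l‖ ^ 2) := by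
      refine le_of_tendsto ht.norm ?_
      filter_upwards [Gamma_eventually (Fintype.card κ), Gamma_eventually (Fintype.card σ)]
        with N a b
      exact norm_inner_gammaN_le hp hs φ (by omega) (by omega) X hX η ζ
    have h2 : ∑ k, ∑ l, ⟪η k, (γ φ (X k l) : H →L[ℂ] H) (ζ l)⟫_ℂ =
        ((∑ k, ‖η k‖ ^ 2 : ℝ) : ℂ) := by
      push_cast
      refine Finset.sum_congr rfl fun k _ => ?_
      rw [← inner_sum, inner_self_eq_norm_sq_to_K]
      rfl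
    rw [h2, Complex.norm_real, Real.norm_of_nonneg hS, mul_right_comm] at h1
    have h3 := Gamma_le_of_le_sqrt hS h1
    rwa [mul_pow, Real.sq_sqrt hZ] at h3
  · ext1 x
    rw [ContinuousLinearMap.comp_apply, hγ, hγ, ContinuousLinearMap.mul_apply',
      ← wlim_mul_left _ (hnx φ x)]
    congr 1
    funext N
    simp only [gammaN_apply, ContinuousLinearMap.comp_apply, ContinuousLinearMap.mul_apply',
      mul_smul_comm, Finset.mul_sum]
    congr 1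
    refine Finset.sum_congr rfl fun i _ => Finset.sum_congr rfl fun j _ => ?_
    rw [mul_assoc, ← mul_assoc, h₂, mul_assoc]
  · ext1 x
    rw [ContinuousLinearMap.comp_apply, hγ, hγ]
    congr 1
    funext N
    simp only [gammaN_apply, ContinuousLinearMap.comp_apply, ContinuousLinearMap.mul_apply']
    congr 1
    refine Finset.sum_congr rfl fun i _ => Finset.sum_congr rfl fun j _ => ?_
    rw [← mul_assoc (α a), h₁, mul_assoc, mul_assoc]
  · ext1 x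
    have hb : ∀ N : ℕ, ‖((N + 1 : ℕ) : ℂ)⁻¹ • ∑ i ∈ Finset.range (N + 1), star (s i) * c * s i‖ ≤
        ‖c‖ := by
      intro N
      have h1 : ∀ i, ‖star (s i) * c * s i‖ ≤ ‖c‖ := fun i => by
        have a := Gamma_norm_s hp hs i
        have a' : ‖star (s i)‖ ≤ 1 := by rwa [norm_star]
        exact (norm_mul_le _ _).trans ((mul_le_of_le_one_right (norm_nonneg _) a).trans
          ((norm_mul_le _ _).trans (mul_le_of_le_one_left (norm_nonneg _) a')))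
      rw [norm_smul, norm_inv, Complex.norm_natCast, inv_mul_le_iff₀ (by positivity)]
      refine (norm_sum_le_of_le _ (fun a _ => h1 a)).trans (le_of_eq ?_)
      simp only [Finset.sum_const, Finset.card_range, nsmul_eq_mul]
    rw [hγ, ContinuousLinearMap.mul_apply', ← wlim_mul_right _ hb]
    congr 1
    funext N
    have e : ∀ i j, star (s i) * (c * (s i * (x * star (s j))) * s j) =
        star (s i) * c * s i * x := by
      intro i j
      simp only [mul_assoc]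
      rw [hs.orth, if_pos rfl, (hz.2 x).eq, ← mul_assoc (s i), Gamma_mul_z hp hs]
    have hN : ((N + 1 : ℕ) : ℂ) ≠ 0 := by exact_mod_cast Nat.succ_ne_zero N
    simp only [gammaN_apply, ContinuousLinearMap.mul_apply', e, Finset.sum_const,
      Finset.card_range, smul_mul_assoc, Finset.sum_mul]
    rw [← Finset.smul_sum, ← Nat.cast_smul_eq_nsmul ℂ, smul_smul]
    congr 1
    field_simp

end

end Crest.Agent.R121
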