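import Crest.Agent.R121.Corner
import Crest.Agent.R121.QC

/-!
# Row 121: the semifinite part
-/

open scoped InnerProductSpace ComplexOrder Topology
open Filter

set_option linter.unusedSectionVars false

namespace Crest.Agent.R121

noncomputable section

variable {H : Type*} [NormedAddCommGroup H] [InnerProductSpace ℂ H] [CompleteSpace H]
  {M : VonNeumannAlgebra H}

variable (M) in
/-- A family of centrally orthogonal projections with traces. -/
structure Base (𝓕 : Set (Alg M)) : Prop where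
  tr : ∀ f ∈ 𝓕, HasTr M f
  orth : ∀ f ∈ 𝓕, ∀ f' ∈ 𝓕, f ≠ f' → ∀ a, f * a * f' = 0

variable (M) in
/-- Finite orthogonal sums of projections equivalent to subprojections of members of `𝓕`. -/
def GoodF (𝓕 : Set (Alg M)) (e : Alg M) : Prop :=
  ∃ (J : Type) (_ : Fintype J) (v f : J → Alg M), (∀ k, f k ∈ 𝓕) ∧ (∀ k, v k * f k = v k) ∧
    (∀ k, v k * star (v k) * v k = v k) ∧ (∀ k l, k ≠ l → star (v k) * v l = 0) ∧
    ∑ k, v k * star (v k) = e

variable {𝓕 : Set (Alg M)} {e : Alg M}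

theorem Good_star_isom {v : Alg M} (hv : v * star v * v = v) :
    star v * v * star v = star v := by
  simpa [mul_assoc] using congrArg star hv

theorem Good_swap {p q : Alg M} (hp : IsStarProjection p) (h : q * p = q) : p * star q = star q := by
  have := congrArg star h
  rwa [star_mul, hp.isSelfAdjoint.star_eq] at this

theorem Good_star_mul {J : Type} [Fintype J] {v : J → Alg M}
    (h₃ : ∀ k, v k * star (v k) * v k = v k) (h₄ : ∀ k l, k ≠ l → star (v k) * v l = 0)
    (h₅ : ∑ k, v k * star (v k) = e) (k : J) : star (v k) * e = star (v k) := by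
  rw [← h₅, Finset.mul_sum, Finset.sum_eq_single k
    (fun l _ hl => by rw [← mul_assoc, h₄ k l hl.symm, zero_mul])
    (fun hk => absurd (Finset.mem_univ k) hk), ← mul_assoc, Good_star_isom (h₃ k)]

theorem Good_mul {J : Type} [Fintype J] {v : J → Alg M}
    (h₃ : ∀ k, v k * star (v k) * v k = v k) (h₄ : ∀ k l, k ≠ l → star (v k) * v l = 0)
    (h₅ : ∑ k, v k * star (v k) = e) (k : J) : e * v k = v k := by
  rw [← h₅, Finset.sum_mul, Finset.sum_eq_single k
    (fun l _ hl => by rw [mul_assoc, h₄ l k hl, mul_zero])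
    (fun hk => absurd (Finset.mem_univ k) hk), h₃ k]

theorem GoodF.proj (h : GoodF M 𝓕 e) : IsStarProjection e := by
  obtain ⟨J, _, v, f, -, -, h₃, h₄, h₅⟩ := h
  constructor
  · change e * e = e
    conv_lhs => rw [← h₅, Finset.sum_mul, h₅]
    rw [Finset.sum_congr rfl fun k _ => by rw [mul_assoc, Good_star_mul h₃ h₄ h₅ k], h₅]
  · change star e = e
    rw [← h₅, star_sum]
    simp only [star_mul, star_star]

/-- Recipe: `x = (1 - e) * (a * f)`, `w` from `exists_polar x`; `w * f = w` (`mul_rp_eq` for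
`star x`), `e * w = 0`; add `w` to the family (index type `Option J`). -/
theorem GoodF.add_one (h : GoodF M 𝓕 e) {f : Alg M} (hf : f ∈ 𝓕) (hfp : IsStarProjection f)
    (a : Alg M) : ∃ e', GoodF M 𝓕 e' ∧ e' * e = e ∧ e' * (a * f) = a * f := by
  have he := h.proj
  obtain ⟨J, _, v, g, h₁, h₂, h₃, h₄, h₅⟩ := h
  set x := (1 - e) * (a * f) with hx
  obtain ⟨w, hw1, hw2⟩ := exists_polar x
  have hw3 : w * rp (star x) = w := mul_eq_self_of_star_mul_self (rp_proj _) hw1
  have hw4 : w * star w * w = w := by rw [mul_assoc, hw1, hw3]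
  have hxf : x * f = x := by rw [hx, mul_assoc, mul_assoc, hfp.isIdempotentElem.eq]
  have hwf : w * f = w := by
    have k1 := congrArg star (mul_rp_eq (Good_swap hfp hxf))
    rw [star_mul, (rp_proj _).isSelfAdjoint.star_eq, hfp.isSelfAdjoint.star_eq] at k1
    rw [← hw3, mul_assoc, k1]
  have hex : e * rp x = 0 := mul_rp_eq_zero (by
    rw [hx, ← mul_assoc, mul_sub, mul_one, he.isIdempotentElem.eq, sub_self, zero_mul])
  have hxe : rp x * e = 0 := by
    have k1 := congrArg star hex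
    rwa [star_mul, (rp_proj _).isSelfAdjoint.star_eq, he.isSelfAdjoint.star_eq, star_zero] at k1
  have hew : e * w = 0 := by rw [← hw4, hw2, ← mul_assoc, hex, zero_mul]
  have hvw : ∀ k, star (v k) * w = 0 := fun k => by
    rw [← Good_star_mul h₃ h₄ h₅ k, mul_assoc, hew, mul_zero]
  refine ⟨rp x + e, ⟨Option J, inferInstance, fun o => o.elim w v, fun o => o.elim f g,
    ?_, ?_, ?_, ?_, ?_⟩, ?_, ?_⟩
  · rintro (_ | k)
    exacts [hf, h₁ k]
  · rintro (_ | k)
    exacts [hwf, h₂ k]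
  · rintro (_ | k)
    exacts [hw4, h₃ k]
  · rintro (_ | k) (_ | l) hkl
    · exact absurd rfl hkl
    · simpa using congrArg star (hvw l)
    · exact hvw k
    · exact h₄ k l fun h' => hkl (congrArg some h')
  · rw [Fintype.sum_option, ← hw2, ← h₅]
    rfl
  · rw [add_mul, hxe, zero_add, he.isIdempotentElem.eq]
  · have k1 : a * f = x + e * (a * f) := by rw [hx, sub_mul, one_mul, sub_add_cancel]
    rw [add_mul]
    conv_lhs => rw [k1, mul_add, rp_mul, ← mul_assoc (rp x), hxe, zero_mul, add_zero, ← k1]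
    exact k1.symm

theorem GoodF.add_fin (hp : ∀ f ∈ 𝓕, IsStarProjection f) (h : GoodF M 𝓕 e) {J : Type}
    (a f : J → Alg M) (hf : ∀ k, f k ∈ 𝓕) (s : Finset J) :
    ∃ e', GoodF M 𝓕 e' ∧ e' * e = e ∧ ∀ k ∈ s, e' * (a k * f k) = a k * f k := by
  classical
  induction s using Finset.induction_on with
  | empty => exact ⟨e, h, h.proj.isIdempotentElem.eq, by simp⟩
  | insert k s _ ih =>
    obtain ⟨e', h1, h2, h3⟩ := ih
    obtain ⟨e'', k1, k2, k3⟩ := h1.add_one (hf k) (hp _ (hf k)) (a k)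
    refine ⟨e'', k1, by rw [← h2, ← mul_assoc, k2], fun l hl => ?_⟩
    rcases Finset.mem_insert.1 hl with rfl | hl
    · exact k3
    · rw [← h3 l hl, ← mul_assoc, k2]

theorem Good_zero : GoodF M 𝓕 0 :=
  ⟨Empty, inferInstance, Empty.elim, Empty.elim, fun k => k.elim, fun k => k.elim,
    fun k => k.elim, fun k => k.elim, by simp⟩

/-- Recipe: `le` from `cen_mul`; `directed` and `dense` (`cen_dense`, start from the empty sum
`0`) by iterating `GoodF.add_one`; `conj` with `u * v k`. -/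
theorem exhaust_goodF (h : ∀ f ∈ 𝓕, IsStarProjection f) :
    Exhaust (cen M 𝓕) {e | GoodF M 𝓕 e} := by
  refine ⟨fun e he => GoodF.proj he, ?_, ?_, ?_, ?_⟩
  · rintro e ⟨J, _, v, f, h₁, h₂, -, -, h₅⟩
    rw [((cen_central 𝓕).2 e).eq, ← h₅, Finset.mul_sum]
    refine Finset.sum_congr rfl fun k _ => ?_
    have := cen_mul (h₁ k) (v k)
    rw [h₂ k] at this
    rw [← mul_assoc, this]
  · rintro e he e' ⟨J, _, v, f, h₁, h₂, -, -, h₅⟩
    obtain ⟨e'', k1, k2, k3⟩ := GoodF.add_fin h he v f h₁ Finset.univ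
    refine ⟨e'', k1, k2, ?_⟩
    rw [← h₅, Finset.mul_sum]
    refine Finset.sum_congr rfl fun k hk => ?_
    have := k3 k hk
    rw [h₂ k] at this
    rw [← mul_assoc, this]
  · rintro e ⟨J, _, v, f, h₁, h₂, h₃, h₄, h₅⟩ u hu
    have hu1 : ∀ y, star u * (u * y) = y := fun y => by rw [← mul_assoc, hu.1, one_mul]
    refine ⟨J, inferInstance, fun k => u * v k, f, h₁, fun k => by rw [mul_assoc, h₂ k],
      fun k => ?_, fun k l hkl => ?_, ?_⟩
    · rw [star_mul, mul_assoc, mul_assoc, mul_assoc, hu1, ← mul_assoc (v k), h₃ k]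
    · rw [star_mul, mul_assoc, hu1, h₄ k l hkl]
    · rw [← h₅, Finset.mul_sum, Finset.sum_mul]
      exact Finset.sum_congr rfl fun k _ => by simp only [star_mul, mul_assoc]
  · intro ζ hζ ε hε
    obtain ⟨n, a, f, κ, hf, hd⟩ := cen_dense hζ (half_pos hε)
    obtain ⟨e, k1, -, k3⟩ := GoodF.add_fin h Good_zero a f hf Finset.univ
    refine ⟨e, k1, ?_⟩
    set η := ∑ i, ((a i * f i : Alg M) : H →L[ℂ] H) (κ i) with hη
    have h1 : (e : H →L[ℂ] H) η = η := by
      rw [hη, map_sum]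
      exact Finset.sum_congr rfl fun i hi => by rw [← Alg.mul_apply, k3 i hi]
    have h2 : (e : H →L[ℂ] H) ζ - ζ = (e : H →L[ℂ] H) (ζ - η) - (ζ - η) := by
      rw [map_sub, h1]; abel
    have h3 : ‖(e : H →L[ℂ] H) (ζ - η)‖ ≤ ‖ζ - η‖ :=
      (Alg.norm_apply_le e _).trans (mul_le_of_le_one_left (norm_nonneg _) k1.proj.norm_le)
    rw [h2]
    exact (norm_sub_le _ _).trans (by linarith)

/-- matrix entries lie in the corners -/
theorem Good_corner {v w f g : Alg M} (hf : IsStarProjection f) (hv : v * f = v) (hw : w * g = w)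
    (a : Alg M) : f * (star v * a * w) * g = star v * a * w := by
  rw [← mul_assoc, ← mul_assoc, Good_swap hf hv, mul_assoc, hw]

/-- Recipe: choose one trace `τ f` for every `f ∈ 𝓕` and put
`Tr x = ∑ k, τ (f k) (star (v k) * x * v k)` (`IsNormal.mul`).  For the trace property insert
`e = ∑ l, v l * star (v l)`; the term `(k, l)` vanishes if `f k ≠ f l`. -/
theorem GoodF.hasTr (hB : Base M 𝓕) (h : GoodF M 𝓕 e) (he : e ≠ 0) : HasTr M e := by
  have hp := h.proj
  obtain ⟨J, _, v, f, h₁, h₂, h₃, h₄, h₅⟩ := h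
  have hch : ∀ g : Alg M, ∃ τ : Alg M →L[ℂ] ℂ, g ∈ 𝓕 → IsNormal M τ ∧
      (∀ y, y * g = y → 0 ≤ τ (star y * y)) ∧ (∀ y, y * g = y → τ (star y * y) = 0 → y = 0) ∧
      ∀ a b, g * a * g = a → g * b * g = b → τ (a * b) = τ (b * a) := by
    intro g
    by_cases hg : g ∈ 𝓕
    · obtain ⟨τ, hτ⟩ := (hB.tr g hg).2.2
      exact ⟨τ, fun _ => hτ⟩
    · exact ⟨0, fun h' => absurd h' hg⟩
  choose τ hτ using hch
  have hfp : ∀ k, IsStarProjection (f k) := fun k => (hB.tr _ (h₁ k)).1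
  have happ : ∀ x, (∑ k, (τ (f k)).comp ((Lm (star (v k))).comp (Rm (v k)))) x =
      ∑ k, τ (f k) (star (v k) * x * v k) := fun x => by
    rw [sum_apply]
    exact Finset.sum_congr rfl fun k _ => by rw [mul_assoc]; rfl
  have hsq : ∀ y k, star (v k) * (star y * y) * v k = star (y * v k) * (y * v k) := fun y k => by
    simp only [star_mul, mul_assoc]
  have hyv : ∀ y k, y * v k * f k = y * v k := fun y k => by rw [mul_assoc, h₂ k]
  have hpos : ∀ y k, 0 ≤ τ (f k) (star (v k) * (star y * y) * v k) := fun y k => by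
    rw [hsq]; exact (hτ _ (h₁ k)).2.1 _ (hyv y k)
  refine ⟨hp, he, ∑ k, (τ (f k)).comp ((Lm (star (v k))).comp (Rm (v k))),
    Submodule.sum_mem _ fun k _ => (hτ _ (h₁ k)).1.mul _ _, fun y _ => ?_, fun y hy h0 => ?_,
    fun a b ha hb => ?_⟩
  · rw [happ]
    exact Finset.sum_nonneg fun k _ => hpos y k
  · rw [happ, Finset.sum_eq_zero_iff_of_nonneg fun k _ => hpos y k] at h0
    rw [← hy, ← h₅, Finset.mul_sum]
    refine Finset.sum_eq_zero fun k hk => ?_
    have := h0 k hk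
    rw [hsq] at this
    rw [← mul_assoc, (hτ _ (h₁ k)).2.2.1 _ (hyv y k) this, zero_mul]
  · have hexp : ∀ a b : Alg M, e * a * e = a → ∑ k, τ (f k) (star (v k) * (a * b) * v k) =
        ∑ k, ∑ l, τ (f k) (star (v k) * a * v l * (star (v l) * b * v k)) := by
      intro a b ha
      refine Finset.sum_congr rfl fun k _ => ?_
      have hae : a * e = a := by rw [← ha, mul_assoc, hp.isIdempotentElem.eq]
      rw [← map_sum]
      congr 1
      conv_lhs => rw [← hae, ← h₅]
      simp only [Finset.mul_sum, Finset.sum_mul, mul_assoc]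
    rw [happ, happ, hexp a b ha, hexp b a hb, Finset.sum_comm]
    refine Finset.sum_congr rfl fun l _ => Finset.sum_congr rfl fun k _ => ?_
    have c1 := Good_corner (hfp k) (h₂ k) (h₂ l) a
    have c2 := Good_corner (hfp l) (h₂ l) (h₂ k) b
    by_cases hkl : f k = f l
    · rw [hkl] at c1 c2 ⊢
      exact (hτ _ (h₁ l)).2.2.2 _ _ c1 c2
    · rw [hB.orth _ (h₁ k) _ (h₁ l) hkl] at c1
      rw [← c1, zero_mul, mul_zero, map_zero, map_zero]

theorem Good_abel_of_isom {r w : Alg M} (hr : IsAbel M r) (hw : w * star w * w = w)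
    (hrw : r * w = w) : IsAbel M (star w * w) := by
  refine ⟨proj_star_mul hw, fun a b => ?_⟩
  have h1 : star w * r = star w := by
    have := congrArg star hrw
    rwa [star_mul, hr.1.isSelfAdjoint.star_eq] at this
  have h2 : ∀ y, star w * (w * (star w * y)) = star w * y := fun y => by
    rw [← mul_assoc, ← mul_assoc, Good_star_isom hw]
  have h3 : ∀ c, r * (w * c * star w) * r = w * c * star w := fun c => by
    rw [← mul_assoc, ← mul_assoc, hrw, mul_assoc, h1]
  have h4 : ∀ c d, star w * w * c * (star w * w) * (star w * w * d * (star w * w)) =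
      star w * (w * c * star w * (w * d * star w)) * w := fun c d => by
    simp only [mul_assoc, h2]
  have h5 := (hr.2 (w * a * star w) (w * b * star w)).eq
  rw [h3, h3] at h5
  change _ = _
  rw [h4, h4, h5]

/-- Recipe: if `r ≠ 0` then `r * v k ≠ 0` for some `k`; `exists_partial_isometry` gives
`w ≠ 0` with `r * w = w = w * f k`, and `star w * w` is abelian. -/
theorem GoodF.no_abel (hB : Base M 𝓕) (hna : ∀ f ∈ 𝓕, ∀ r, IsAbel M r → r * f = r → r = 0)
    (h : GoodF M 𝓕 e) (r : Alg M) (hr : IsAbel M r) (hre : r * e = r) : r = 0 := by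
  obtain ⟨J, _, v, f, h₁, h₂, -, -, h₅⟩ := h
  rw [← hre, ← h₅, Finset.mul_sum]
  refine Finset.sum_eq_zero fun k _ => ?_
  have : r * v k = 0 := by
    by_contra h0
    obtain ⟨w, w0, w1, w2, w3⟩ := exists_partial_isometry (p := r) (hB.tr _ (h₁ k)).1 h0
      (by rw [← mul_assoc, hr.1.isIdempotentElem.eq]) (by rw [mul_assoc, h₂ k])
    have := hna _ (h₁ k) _ (Good_abel_of_isom hr w1 w2) (by rw [mul_assoc, w3])
    exact w0 (by rw [← w1, mul_assoc, this, mul_zero])
  rw [← mul_assoc, this, zero_mul]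

theorem Good_commute (hB : Base M 𝓕) (hab : ∀ f ∈ 𝓕, IsAbel M f) {f₁ f₂ f₃ f₄ c d : Alg M}
    (h₁ : f₁ ∈ 𝓕) (h₂ : f₂ ∈ 𝓕) (h₃ : f₃ ∈ 𝓕) (h₄ : f₄ ∈ 𝓕) (hc : f₁ * c * f₂ = c)
    (hd : f₃ * d * f₄ = d) : d * c = c * d := by
  by_cases h12 : f₁ = f₂
  · by_cases h34 : f₃ = f₄
    · subst h12 h34
      by_cases h13 : f₁ = f₃
      · subst h13
        have := ((hab _ h₁).2 d c).eq
        rwa [hc, hd] at this
      · have k1 := hB.orth _ h₁ _ h₃ h13 1
        have k2 := hB.orth _ h₃ _ h₁ (Ne.symm h13) 1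
        rw [mul_one] at k1 k2
        have e1 : f₃ * d * f₃ * (f₁ * c * f₁) = f₃ * d * (f₃ * f₁) * c * f₁ := by
          simp only [mul_assoc]
        have e2 : f₁ * c * f₁ * (f₃ * d * f₃) = f₁ * c * (f₁ * f₃) * d * f₃ := by
          simp only [mul_assoc]
        rw [hc, hd] at e1 e2
        rw [e1, e2, k1, k2]
        simp
    · rw [← hd, hB.orth _ h₃ _ h₄ h34, zero_mul, mul_zero]
  · rw [← hc, hB.orth _ h₁ _ h₂ h12, zero_mul, mul_zero]

/-- Recipe: `E i j = v i * star (v j)`, so `∑ k, E k i * a * E j k = ∑ k, v k * c * star (v k)` with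
`c = star (v i) * a * v j ∈ f i M f j`.  Key fact: for all `k l b`, with
`d = star (v l) * b * v k ∈ f l M f k`, one has `v l * d * c * star (v k) = v l * c * d * star (v k)`
(if `f l = f k = f i = f j` use commutativity of `f M f`; otherwise both sides vanish by
`Base.orth`).  Insert `e = ∑ l, v l * star (v l)` on the left of `b * ζ` and on the right of
`ζ * b`.  For the last claim `star (v j) * v j` commutes with `c` and `c * star (v j) * v j = c`. -/
theorem GoodF.units (hB : Base M 𝓕) (hab : ∀ f ∈ 𝓕, IsAbel M f) (h : GoodF M 𝓕 e) :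
    ∃ (J : Type) (_ : Fintype J) (E : J → J → Alg M), (∀ i j, e * E i j * e = E i j) ∧
      (∀ a b i j, e * a * e = a → e * b * e = b → Commute b (∑ k, E k i * a * E j k)) ∧
      ∀ a, e * a * e = a → a = ∑ i, ∑ j, E i j * ∑ k, E k i * a * E j k := by
  have hp := h.proj
  obtain ⟨J, _, v, f, h₁, h₂, h₃, h₄, h₅⟩ := h
  have hfp : ∀ k, IsStarProjection (f k) := fun k => (hB.tr _ (h₁ k)).1
  have key : ∀ a b i j l k, star (v l) * b * v k * (star (v i) * a * v j) =
      star (v i) * a * v j * (star (v l) * b * v k) := fun a b i j l k =>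
    Good_commute hB hab (h₁ i) (h₁ j) (h₁ l) (h₁ k) (Good_corner (hfp i) (h₂ i) (h₂ j) a)
      (Good_corner (hfp l) (h₂ l) (h₂ k) b)
  refine ⟨J, inferInstance, fun i j => v i * star (v j), fun i j => ?_, fun a b i j _ hb => ?_,
    fun a ha => ?_⟩
  · rw [← mul_assoc, Good_mul h₃ h₄ h₅, mul_assoc, Good_star_mul h₃ h₄ h₅]
  · have hbe : b * e = b := by rw [← hb, mul_assoc, hp.isIdempotentElem.eq]
    have heb : e * b = b := by rw [← hb, ← mul_assoc, ← mul_assoc, hp.isIdempotentElem.eq]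
    calc b * ∑ k, v k * star (v i) * a * (v j * star (v k))
        = ∑ l, ∑ k, v l * (star (v l) * b * v k * (star (v i) * a * v j)) * star (v k) := by
          conv_lhs => rw [← heb, ← h₅]
          simp only [Finset.mul_sum, Finset.sum_mul, mul_assoc]
          exact Finset.sum_comm
      _ = ∑ l, ∑ k, v l * (star (v i) * a * v j * (star (v l) * b * v k)) * star (v k) := by
          simp only [key]
      _ = (∑ k, v k * star (v i) * a * (v j * star (v k))) * b := by
          conv_rhs => rw [← hbe, ← h₅]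
          simp only [Finset.mul_sum, Finset.sum_mul, mul_assoc]
          exact Finset.sum_comm
  · have h1 : ∀ i j, v i * star (v j) * ∑ k, v k * star (v i) * a * (v j * star (v k)) =
        v i * star (v i) * a * (v j * star (v j)) := by
      intro i j
      rw [Finset.mul_sum, Finset.sum_eq_single j (fun k _ hk => ?_)
        (fun hk => absurd (Finset.mem_univ j) hk)]
      · calc _ = v i * (star (v j) * 1 * v j * (star (v i) * a * v j)) * star (v j) := by
              simp only [mul_assoc, one_mul]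
          _ = v i * star (v i) * a * (v j * (star (v j) * v j * star (v j))) := by
              rw [key]; simp only [mul_assoc, one_mul]
          _ = _ := by rw [Good_star_isom (h₃ j)]
      · calc _ = v i * (star (v j) * v k) * (star (v i) * a * (v j * star (v k))) := by
              simp only [mul_assoc]
          _ = 0 := by rw [h₄ j k hk.symm, mul_zero, zero_mul]
    simp only [h1, ← Finset.mul_sum, ← Finset.sum_mul, h₅, ha]

theorem avgOn_zero (𝓒 : (Alg M →L[ℂ] Alg M) → Prop) : AvgOn M 0 𝓒 0 where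
  norm_le := ContinuousLinearMap.opNorm_le_bound _ zero_le_one fun φ => by simp
  left a φ := by simp
  unit := by simp
  modular φ _ y _ := by simp

theorem avgZ_I (hB : Base M 𝓕) (hab : ∀ f ∈ 𝓕, IsAbel M f) :
    ∃ P, AvgZ M (cen M 𝓕) (fun _ => True) P := by
  refine avg_glue (cen_central 𝓕) (exhaust_goodF fun f hf => (hB.tr f hf).1)
    (fun _ _ _ => trivial) fun e he => ?_
  by_cases h0 : e = 0
  · exact ⟨0, h0 ▸ avgOn_zero _⟩
  obtain ⟨J, _, E, h₁, h₂, h₃⟩ := GoodF.units hB hab he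
  exact avgOn_I (GoodF.hasTr hB he h0) E h₁ h₂ h₃

theorem avgZ_II (hB : Base M 𝓕) (hna : ∀ f ∈ 𝓕, ∀ r, IsAbel M r → r * f = r → r = 0) :
    ∃ P, AvgZ M (cen M 𝓕) (fun _ => True) P := by
  refine avg_glue (cen_central 𝓕) (exhaust_goodF fun f hf => (hB.tr f hf).1)
    (fun _ _ _ => trivial) fun e he => ?_
  by_cases h0 : e = 0
  · exact ⟨0, h0 ▸ avgOn_zero _⟩
  exact avgOn_II (GoodF.hasTr hB he h0) (GoodF.no_abel hB hna he)

theorem HasTr.mono {f g : Alg M} (hf : HasTr M f) (hg : IsStarProjection g) (h0 : g ≠ 0)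
    (hgf : g * f = g) : HasTr M g := by
  obtain ⟨hfp, -, τ, h1, h2, h3, h4⟩ := hf
  have hfg : f * g = g := by
    have := Good_swap hfp hgf
    rwa [hg.isSelfAdjoint.star_eq] at this
  have k1 : ∀ y, y * g = y → y * f = y := fun y hy => by rw [← hy, mul_assoc, hgf]
  have k2 : ∀ a, g * a * g = a → f * a * f = a := fun a ha => by
    rw [← ha, ← mul_assoc, ← mul_assoc, hfg, mul_assoc, hgf]
  exact ⟨hg, h0, τ, h1, fun y hy => h2 y (k1 y hy), fun y hy => h3 y (k1 y hy),
    fun a b ha hb => h4 a b (k2 a ha) (k2 b hb)⟩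

/-- **Type decomposition.**  Recipe: Zorn (`zorn_subset`) on the sets `𝓕` with `Base M 𝓕` all of
whose members are abelian or have no nonzero abelian subprojection; `𝓕₁` = the abelian members,
`𝓕₂` = the others.  `mul_cen_eq_zero` twice gives the orthogonality.  If `f ≤ 1 - cen₁ - cen₂`
has a trace then `f` or a nonzero abelian subprojection (`HasTr.mono`) can be added to `𝓕`
(`cen_mul`). -/
theorem exists_decomp : ∃ 𝓕₁ 𝓕₂ : Set (Alg M), Base M 𝓕₁ ∧ Base M 𝓕₂ ∧
    (∀ f ∈ 𝓕₁, IsAbel M f) ∧ (∀ f ∈ 𝓕₂, ∀ r, IsAbel M r → r * f = r → r = 0) ∧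
    cen M 𝓕₁ * cen M 𝓕₂ = 0 ∧ NoTr M (1 - cen M 𝓕₁ - cen M 𝓕₂) := by
  obtain ⟨m, hm⟩ := zorn_subset {𝓕 : Set (Alg M) | Base M 𝓕 ∧
      ∀ f ∈ 𝓕, IsAbel M f ∨ ∀ r, IsAbel M r → r * f = r → r = 0} (by
    intro c hc hch
    refine ⟨⋃₀ c, ⟨⟨?_, ?_⟩, ?_⟩, fun s hs => Set.subset_sUnion_of_mem hs⟩
    · rintro f ⟨s, hs, hf⟩
      exact (hc hs).1.tr f hf
    · rintro f ⟨s, hs, hf⟩ f' ⟨s', hs', hf'⟩
      rcases hch.total hs hs' with h | h
      · exact (hc hs').1.orth f (h hf) f' hf'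
      · exact (hc hs).1.orth f hf f' (h hf')
    · rintro f ⟨s, hs, hf⟩
      exact (hc hs).2 f hf)
  obtain ⟨hB, hm2⟩ := hm.1
  have hsub : ∀ 𝓖 ⊆ m, Base M 𝓖 := fun 𝓖 h =>
    ⟨fun f hf => hB.tr f (h hf), fun f hf f' hf' => hB.orth f (h hf) f' (h hf')⟩
  set 𝓕₁ := {f ∈ m | IsAbel M f} with h𝓕₁
  set 𝓕₂ := {f ∈ m | ¬IsAbel M f} with h𝓕₂
  have h12 : cen M 𝓕₁ * cen M 𝓕₂ = 0 := by
    refine mul_cen_eq_zero fun a f hf => ?_
    rw [mul_assoc, ← ((cen_central 𝓕₁).2 _).eq]
    refine mul_cen_eq_zero fun a' f' hf' => ?_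
    rw [mul_assoc a, mul_assoc a, hB.orth f hf.1 f' hf'.1 (fun h => hf.2 (h ▸ hf'.2)), mul_zero]
  have h21 : cen M 𝓕₂ * cen M 𝓕₁ = 0 := by rw [((cen_central 𝓕₁).2 _).eq, h12]
  refine ⟨𝓕₁, 𝓕₂, hsub _ (Set.sep_subset _ _), hsub _ (Set.sep_subset _ _), fun f hf => hf.2,
    fun f hf => (hm2 f hf.1).resolve_left hf.2, h12, fun f hf hft => ?_⟩
  obtain ⟨g, hgt, hgf, hg⟩ : ∃ g, HasTr M g ∧ g * f = g ∧
      (IsAbel M g ∨ ∀ r, IsAbel M r → r * g = r → r = 0) := by
    by_cases h : ∀ r, IsAbel M r → r * f = r → r = 0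
    · exact ⟨f, hft, hft.1.isIdempotentElem.eq, Or.inr h⟩
    · push Not at h
      obtain ⟨r, h1, h2, h3⟩ := h
      exact ⟨r, hft.mono h1.1 h3 h2, h2, Or.inl h1⟩
  have hgz : g * (1 - cen M 𝓕₁ - cen M 𝓕₂) = g := by rw [← hgf, mul_assoc, hf]
  have hg1 : g * cen M 𝓕₁ = 0 := by
    rw [← hgz, mul_assoc, sub_mul, sub_mul, one_mul, (cen_central 𝓕₁).1.isIdempotentElem.eq, h21]
    simp
  have hg2 : g * cen M 𝓕₂ = 0 := by
    rw [← hgz, mul_assoc, sub_mul, sub_mul, one_mul, (cen_central 𝓕₂).1.isIdempotentElem.eq, h12]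
    simp
  have ho : ∀ f' ∈ m, ∀ a, g * a * f' = 0 := by
    intro f' hf' a
    by_cases h : IsAbel M f'
    · rw [mul_assoc, ← cen_mul (𝓕 := 𝓕₁) ⟨hf', h⟩ a, ← mul_assoc, hg1, zero_mul]
    · rw [mul_assoc, ← cen_mul (𝓕 := 𝓕₂) ⟨hf', h⟩ a, ← mul_assoc, hg2, zero_mul]
  have ho' : ∀ f' ∈ m, ∀ a, f' * a * g = 0 := by
    intro f' hf' a
    have := congrArg star (ho f' hf' (star a))
    rwa [star_mul, star_mul, star_star, hgt.1.isSelfAdjoint.star_eq,
      (hB.tr f' hf').1.isSelfAdjoint.star_eq, star_zero, ← mul_assoc] at this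
  have hgm : g ∈ m := by
    refine hm.2 (y := insert g m) ⟨⟨?_, ?_⟩, ?_⟩ (Set.subset_insert g m) (Set.mem_insert g m)
    · rintro f' (rfl | hf')
      exacts [hgt, hB.tr f' hf']
    · rintro f' (rfl | hf') f'' (rfl | hf'') hne
      exacts [absurd rfl hne, ho f'' hf'', ho' f' hf', hB.orth f' hf' f'' hf'' hne]
    · rintro f' (rfl | hf')
      exacts [hg, hm2 f' hf']
  have := ho g hgm 1
  rw [mul_one, hgt.1.isIdempotentElem.eq] at this
  exact hgt.2.1 this

end

end Crest.Agent.R121
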