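import Crest.Agent.R121.Basic

/-!
# Row 121: one half of the Wittstock–Paulsen factorisation of a completely bounded map
-/

open scoped InnerProductSpace ComplexOrder Topology
open Filter

set_option linter.unusedSectionVars false

namespace Crest.Agent.R121

noncomputable section

/-- Abstract Hahn–Banach statement for a cone of (vector, cost) pairs. -/
theorem HB_abstract {E : Type*} [AddCommGroup E] [Module ℝ E] (S : E → ℝ → Prop)
    (h0 : S 0 0) (hadd : ∀ x r y s, S x r → S y s → S (x + y) (r + s))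
    (hsmul : ∀ (a : ℝ) x r, 0 ≤ a → S x r → S (a • x) (a * r))
    (hpos : ∀ r, S 0 r → 0 ≤ r) (hneg : ∀ x r, S x r → ∃ s, S (-x) s) :
    ∃ Λ : E →ₗ[ℝ] ℝ, ∀ x r, S x r → Λ x ≤ r := by
  let E₀ : Submodule ℝ E :=
    { carrier := {x | ∃ r, S x r}
      zero_mem' := ⟨0, h0⟩
      add_mem' := fun ⟨r, hr⟩ ⟨s, hs⟩ => ⟨_, hadd _ _ _ _ hr hs⟩
      smul_mem' := fun a x ⟨r, hr⟩ => by
        rcases le_total 0 a with ha | ha
        · exact ⟨_, hsmul a x r ha hr⟩
        · obtain ⟨s, hs⟩ := hneg x r hr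
          have := hsmul (-a) _ s (neg_nonneg.2 ha) hs
          rw [neg_smul_neg] at this
          exact ⟨_, this⟩ }
  let s : PointedCone ℝ (E₀ × ℝ) :=
    { carrier := {p | S p.1 p.2}
      zero_mem' := h0
      add_mem' := fun hx hy => hadd _ _ _ _ hx hy
      smul_mem' := fun ⟨a, ha⟩ p hp => hsmul a _ _ ha hp }
  let f : (E₀ × ℝ) →ₗ.[ℝ] ℝ := (LinearMap.snd ℝ E₀ ℝ).toPMap (LinearMap.ker (LinearMap.fst ℝ E₀ ℝ))
  obtain ⟨g, hg, hg'⟩ := riesz_extension s f (by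
      rintro ⟨⟨x, r⟩, hx⟩ hs
      have hx' : x = 0 := hx
      subst hx'
      exact hpos r hs) (by
      rintro ⟨⟨x, r, hr⟩, r'⟩
      refine ⟨⟨(0, r - r'), rfl⟩, ?_⟩
      change S (0 + x) (r - r' + r')
      rwa [zero_add, sub_add_cancel])
  obtain ⟨Λ, hΛ⟩ := LinearMap.exists_extend (-g.comp (LinearMap.inl ℝ E₀ ℝ))
  refine ⟨Λ, fun x r h => ?_⟩
  have h1 : Λ x = -g (⟨x, r, h⟩, 0) := LinearMap.congr_fun hΛ ⟨x, r, h⟩
  have h2 : g (0, r) = r := hg ⟨(0, r), rfl⟩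
  have h3 : 0 ≤ g (⟨x, r, h⟩, r) := hg' _ h
  have h4 : g (⟨x, r, h⟩, r) = g (⟨x, r, h⟩, 0) + g (0, r) := by
    rw [← map_add]; simp
  linarith

theorem HB_defect {A : Type*} [CStarAlgebra A] (a : A) {c : ℝ} (hc : ‖a‖ ^ 2 ≤ c) :
    ∃ b : A, star a * a = c • (1 : A) - star b * b := by
  let := CStarAlgebra.spectralOrder A
  have := CStarAlgebra.spectralOrderedRing A
  have h1 : star a * a ≤ algebraMap ℝ A (‖a‖ ^ 2) := CStarAlgebra.star_mul_le_algebraMap_norm_sq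
  have h2 : algebraMap ℝ A (‖a‖ ^ 2) ≤ algebraMap ℝ A c := by
    rw [← sub_nonneg, ← map_sub, Algebra.algebraMap_eq_smul_one]
    exact smul_nonneg (sub_nonneg.2 hc) zero_le_one
  have h3 : 0 ≤ algebraMap ℝ A c - star a * a := sub_nonneg.2 (h1.trans h2)
  obtain ⟨b, hb⟩ := CStarAlgebra.nonneg_iff_eq_star_mul_self.1 h3
  exact ⟨b, by rw [← hb, Algebra.algebraMap_eq_smul_one, sub_sub_cancel]⟩

variable {H : Type*} [NormedAddCommGroup H] [InnerProductSpace ℂ H] [CompleteSpace H]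
  {M : VonNeumannAlgebra H}

/-- `t ↦ ∑ φ (t ζ) ζ`. -/
def evalL (φ : Alg M →L[ℂ] Alg M) (t : H →₀ Alg M) : H :=
  t.sum fun ζ g => (φ g : H →L[ℂ] H) ζ

/-- Left multiplication. -/
def lmul (h : Alg M) (t : H →₀ Alg M) : H →₀ Alg M := t.mapRange (fun g => h * g) (mul_zero h)

theorem HB_evalL_eq (φ : Alg M →L[ℂ] Alg M) (t : H →₀ Alg M) {s : Finset H} (hs : t.support ⊆ s) :
    evalL φ t = ∑ ζ ∈ s, (φ (t ζ) : H →L[ℂ] H) ζ :=
  Finsupp.sum_of_support_subset t hs _ fun _ _ => by simp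

theorem HB_evalL_smul (φ : Alg M →L[ℂ] Alg M) (a : ℝ) (t : H →₀ Alg M) :
    evalL φ (a • t) = a • evalL φ t := by
  rw [HB_evalL_eq φ (a • t) Finsupp.support_smul, HB_evalL_eq φ t subset_rfl, Finset.smul_sum]
  refine Finset.sum_congr rfl fun ζ _ => ?_
  rw [Finsupp.smul_apply, φ.map_smul_of_tower]
  rfl

/-- The Gram form. -/
def HBG : (H →₀ Alg M) →ₗ[ℝ] (H →₀ Alg M) →ₗ[ℝ] (H → H → Alg M) :=
  LinearMap.mk₂ ℝ (fun t t' ζ ζ' => star (t ζ) * t' ζ')
    (fun t s t' => by funext ζ ζ'; simp [add_mul])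
    (fun a t t' => by funext ζ ζ'; simp)
    (fun t s t' => by funext ζ ζ'; simp [mul_add])
    (fun a t t' => by funext ζ ζ'; simp)

theorem HBG_apply (t t' : H →₀ Alg M) (ζ ζ' : H) : HBG t t' ζ ζ' = star (t ζ) * t' ζ' := rfl

open Classical in
variable (M) in
/-- Diagonal elements. -/
def HBU : (H →₀ ℝ) →ₗ[ℝ] (H → H → Alg M) where
  toFun c ζ ζ' := if ζ = ζ' then c ζ • (1 : Alg M) else 0
  map_add' c c' := by
    funext ζ ζ'
    by_cases h : ζ = ζ' <;> simp [h, add_smul]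
  map_smul' a c := by
    funext ζ ζ'
    by_cases h : ζ = ζ' <;> simp [h, mul_smul]

open Classical in
theorem HBU_apply (c : H →₀ ℝ) (ζ ζ' : H) :
    HBU M c ζ ζ' = if ζ = ζ' then c ζ • (1 : Alg M) else 0 := rfl

/-- Cost of the diagonal elements. -/
def HBN : (H →₀ ℝ) →ₗ[ℝ] ℝ := Finsupp.linearCombination ℝ fun ζ : H => ‖ζ‖ ^ 2

/-- `x` has a representation of cost at most `r`. -/
def HBRep (φ : Alg M →L[ℂ] Alg M) (K : ℝ) (x : H → H → Alg M) (r : ℝ) : Prop :=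
  ∃ (c : H →₀ ℝ) (κ : Type) (_ : Fintype κ) (t : κ → H →₀ Alg M), (∀ ζ, 0 ≤ c ζ) ∧
    x = HBU M c - ∑ k, HBG (t k) (t k) ∧ K ^ 2 * HBN c - ∑ k, ‖evalL φ (t k)‖ ^ 2 ≤ r

variable {φ : Alg M →L[ℂ] Alg M} {K : ℝ}

theorem HBRep.zero : HBRep φ K 0 0 :=
  ⟨0, Empty, inferInstance, fun k => k.elim, fun _ => le_rfl, by simp, by simp⟩

theorem HBRep.add {x y : H → H → Alg M} {r s : ℝ} (hx : HBRep φ K x r) (hy : HBRep φ K y s) :
    HBRep φ K (x + y) (r + s) := by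
  obtain ⟨c, κ, _, t, hc, rfl, hr⟩ := hx
  obtain ⟨c', κ', _, t', hc', rfl, hs⟩ := hy
  refine ⟨c + c', κ ⊕ κ', inferInstance, Sum.elim t t', fun ζ => add_nonneg (hc ζ) (hc' ζ), ?_, ?_⟩
  · simp only [Fintype.sum_sum_type, Sum.elim_inl, Sum.elim_inr, map_add]
    abel
  · simp only [Fintype.sum_sum_type, Sum.elim_inl, Sum.elim_inr, map_add]
    linarith

theorem HBRep.smul {x : H → H → Alg M} {r a : ℝ} (ha : 0 ≤ a) (hx : HBRep φ K x r) :
    HBRep φ K (a • x) (a * r) := by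
  obtain ⟨c, κ, _, t, hc, rfl, hr⟩ := hx
  refine ⟨a • c, κ, inferInstance, fun k => √a • t k, fun ζ => mul_nonneg ha (hc ζ), ?_, ?_⟩
  · simp only [map_smul, LinearMap.smul_apply, smul_smul, Real.mul_self_sqrt ha, smul_sub,
      Finset.smul_sum]
  · have e (k : κ) : ‖evalL φ (√a • t k)‖ ^ 2 = a * ‖evalL φ (t k)‖ ^ 2 := by
      rw [HB_evalL_smul, norm_smul, mul_pow, Real.norm_eq_abs, sq_abs, Real.sq_sqrt ha]
    simp only [e, map_smul, smul_eq_mul, ← Finset.mul_sum]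
    nlinarith [mul_le_mul_of_nonneg_left hr ha]

theorem HBRep.neg_G (t : H →₀ Alg M) : HBRep φ K (-HBG t t) (-‖evalL φ t‖ ^ 2) :=
  ⟨0, Unit, inferInstance, fun _ => t, fun _ => le_rfl, by simp, by simp⟩

theorem HBRep.single (ζ : H) (g : Alg M) {c : ℝ} (hc : ‖g‖ ^ 2 ≤ c) :
    HBRep φ K (HBG (Finsupp.single ζ g) (Finsupp.single ζ g)) (K ^ 2 * (c * ‖ζ‖ ^ 2)) := by
  classical
  obtain ⟨b, hb⟩ := HB_defect g hc
  refine ⟨Finsupp.single ζ c, Unit, inferInstance, fun _ => Finsupp.single ζ b, fun ζ' => ?_, ?_, ?_⟩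
  · rw [Finsupp.single_apply]
    split_ifs
    · exact (sq_nonneg _).trans hc
    · exact le_rfl
  · funext η η'
    simp only [Finset.univ_unique, Finset.sum_singleton, Pi.sub_apply, HBG_apply, HBU_apply,
      Finsupp.single_apply]
    by_cases h1 : ζ = η
    · by_cases h2 : ζ = η'
      · subst h1 h2
        simpa using hb
      · subst h1
        simp [h2]
    · simp [h1]
  · simp [HBN]

theorem HBRep.G (t : H →₀ Alg M) : ∃ r, HBRep φ K (HBG t t) r := by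
  induction t using Finsupp.induction_linear with
  | zero => exact ⟨0, by simpa using HBRep.zero⟩
  | single ζ g => exact ⟨_, HBRep.single ζ g le_rfl⟩
  | add s t hs ht =>
    obtain ⟨r, hr⟩ := hs
    obtain ⟨r', hr'⟩ := ht
    have := ((hr.add hr').smul (a := 2) (by norm_num)).add (HBRep.neg_G (s - t))
    refine ⟨_, by
      convert this using 1
      simp only [map_add, map_sub, LinearMap.add_apply, LinearMap.sub_apply, two_smul]
      abel⟩

theorem HBRep.neg_U (c : H →₀ ℝ) (hc : ∀ ζ, 0 ≤ c ζ) : ∃ r, HBRep φ K (-HBU M c) r := by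
  classical
  have h1 (ζ : H) : HBU M (Finsupp.single ζ 1) =
      HBG (Finsupp.single ζ (1 : Alg M)) (Finsupp.single ζ 1) := by
    funext η η'
    simp only [HBG_apply, HBU_apply, Finsupp.single_apply]
    by_cases h1 : ζ = η
    · by_cases h2 : ζ = η'
      · subst h1 h2
        simp
      · subst h1
        simp [h2]
    · simp [h1]
  have h2 (s : Finset H) : ∃ r, HBRep φ K (-HBU M (∑ ζ ∈ s, Finsupp.single ζ (c ζ))) r := by
    induction s using Finset.induction_on with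
    | empty => exact ⟨0, by simpa using HBRep.zero⟩
    | insert ζ s hζ ih =>
      obtain ⟨r, hr⟩ := ih
      have := ((HBRep.neg_G (φ := φ) (K := K) (Finsupp.single ζ (1 : Alg M))).smul (hc ζ)).add hr
      refine ⟨_, by
        convert this using 1
        rw [Finset.sum_insert hζ, map_add, ← h1, smul_neg, ← map_smul, Finsupp.smul_single_one,
          neg_add]⟩
  have := h2 c.support
  rwa [show ∑ ζ ∈ c.support, Finsupp.single ζ (c ζ) = c from c.sum_single] at this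

theorem HBRep.neg {x : H → H → Alg M} {r : ℝ} (hx : HBRep φ K x r) : ∃ s, HBRep φ K (-x) s := by
  classical
  obtain ⟨c, κ, _, t, hc, rfl, -⟩ := hx
  obtain ⟨r₁, h₁⟩ := HBRep.neg_U (φ := φ) (K := K) c hc
  have h2 (s : Finset κ) : ∃ r, HBRep φ K (∑ k ∈ s, HBG (t k) (t k)) r := by
    induction s using Finset.induction_on with
    | empty => exact ⟨0, by simpa using HBRep.zero⟩
    | insert k s hk ih =>
      obtain ⟨r, hr⟩ := ih
      obtain ⟨r', hr'⟩ := HBRep.G (φ := φ) (K := K) (t k)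
      exact ⟨_, by rw [Finset.sum_insert hk]; exact hr'.add hr⟩
  obtain ⟨r₂, h₂⟩ := h2 Finset.univ
  exact ⟨_, by rw [neg_sub, sub_eq_neg_add]; exact h₁.add h₂⟩

theorem HB_norm_sq (x : H) : ((‖x‖ ^ 2 : ℝ) : ℂ) = ⟪x, x⟫_ℂ := by
  rw [Complex.ofReal_pow]
  exact (inner_self_eq_norm_sq_to_K (𝕜 := ℂ) x).symm

theorem HB_quad {κ σ : Type*} [Fintype κ] [Fintype σ] (X : κ → σ → Alg M) (η : σ → H) :
    ((∑ k, ‖∑ j, (X k j : H →L[ℂ] H) (η j)‖ ^ 2 : ℝ) : ℂ) =
      ∑ j, ∑ j', ⟪η j, ((∑ k, star (X k j) * X k j' : Alg M) : H →L[ℂ] H) (η j')⟫_ℂ := by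
  have e (j j' : σ) : ⟪η j, ((∑ k, star (X k j) * X k j' : Alg M) : H →L[ℂ] H) (η j')⟫_ℂ =
      ∑ k, ⟪(X k j : H →L[ℂ] H) (η j), (X k j' : H →L[ℂ] H) (η j')⟫_ℂ := by
    rw [← vecF_apply, map_sum]
    refine Finset.sum_congr rfl fun k _ => ?_
    rw [vecF_apply, Alg.mul_apply, Alg.inner_star_right]
  simp_rw [e]
  rw [Complex.ofReal_sum]
  conv_rhs => enter [2, j]; rw [Finset.sum_comm]
  rw [Finset.sum_comm]
  refine Finset.sum_congr rfl fun k _ => ?_
  rw [HB_norm_sq, sum_inner]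
  exact Finset.sum_congr rfl fun j _ => inner_sum _ _ _

theorem HB_eq_zero {κ : Type*} [Fintype κ] (a : κ → Alg M) (h : ∑ k, star (a k) * a k = 0) (k : κ) :
    a k = 0 := by
  refine Subtype.ext (ContinuousLinearMap.ext fun η => ?_)
  have := HB_quad (σ := Unit) (fun k _ => a k) fun _ => η
  simp only [Finset.univ_unique, Finset.sum_singleton, h] at this
  have h2 : ∑ k, ‖(a k : H →L[ℂ] H) η‖ ^ 2 = 0 := by
    apply Complex.ofReal_injective
    rw [this]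
    simp
  have h3 := (Finset.sum_eq_zero_iff_of_nonneg fun k _ => sq_nonneg _).1 h2 k (Finset.mem_univ k)
  simpa using h3

theorem HBRep.nonneg (h : IsCBK M φ K) {r : ℝ} (hr : HBRep φ K 0 r) : 0 ≤ r := by
  classical
  obtain ⟨c, κ, _, t, hc, h0, hr⟩ := hr
  have hG (ζ ζ' : H) :
      ∑ k, star (t k ζ) * t k ζ' = if ζ = ζ' then c ζ • (1 : Alg M) else 0 := by
    have := congrFun (congrFun (sub_eq_zero.1 h0.symm) ζ) ζ'
    rw [HBU_apply, Finset.sum_apply, Finset.sum_apply] at this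
    exact this.symm
  have hsupp (k : κ) : (t k).support ⊆ c.support := by
    intro ζ hζ
    rw [Finsupp.mem_support_iff] at hζ ⊢
    intro h0
    exact hζ (HB_eq_zero (fun k => t k ζ) (by rw [hG, if_pos rfl, h0, zero_smul]) k)
  let e : Fin c.support.card ≃ c.support := c.support.equivFin.symm
  have hpos (j : Fin c.support.card) : 0 < √(c (e j)) :=
    Real.sqrt_pos.2 (lt_of_le_of_ne (hc _) (Finsupp.mem_support_iff.1 (e j).2).symm)
  have hsum (f : H → H) : ∑ j, f (e j) = ∑ ζ ∈ c.support, f ζ := by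
    rw [e.sum_comp fun ζ => f ζ, Finset.sum_coe_sort]
  have hsum' (f : H → ℝ) : ∑ j, f (e j) = ∑ ζ ∈ c.support, f ζ := by
    rw [e.sum_comp fun ζ => f ζ, Finset.sum_coe_sort]
  have key := h κ (Fin c.support.card) (fun k j => (√(c (e j)))⁻¹ • t k (e j)) (fun η => by
    refine le_of_eq (Complex.ofReal_injective ?_)
    rw [HB_quad, Complex.ofReal_sum]
    refine Finset.sum_congr rfl fun j _ => ?_
    have e1 (j' : Fin c.support.card) :
        ∑ k, star ((√(c (e j)))⁻¹ • t k (e j)) * (√(c (e j')))⁻¹ • t k (e j') =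
          if j = j' then (1 : Alg M) else 0 := by
      simp only [star_smul, star_trivial, smul_mul_smul_comm, ← Finset.smul_sum, hG]
      by_cases hj : j = j'
      · subst hj
        rw [if_pos rfl, if_pos rfl, smul_smul, ← mul_inv, Real.mul_self_sqrt (hc _),
          inv_mul_cancel₀ (Finsupp.mem_support_iff.1 (e j).2), one_smul]
      · rw [if_neg hj, if_neg fun h' => hj (e.injective (Subtype.ext h')), smul_zero]
    simp_rw [e1]
    rw [Finset.sum_eq_single j]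
    · rw [if_pos rfl, HB_norm_sq]
      rfl
    · intro j' _ hj
      rw [if_neg (Ne.symm hj)]
      simp
    · simp) fun j => √(c (e j)) • (e j : H)
  have e2 (k : κ) : ∑ j, (φ ((√(c (e j)))⁻¹ • t k (e j)) : H →L[ℂ] H) (√(c (e j)) • (e j : H)) =
      evalL φ (t k) := by
    rw [HB_evalL_eq φ (t k) (hsupp k), ← hsum]
    refine Finset.sum_congr rfl fun j _ => ?_
    rw [φ.map_smul_of_tower, ContinuousLinearMap.map_smul_of_tower]
    change √(c (e j)) • (√(c (e j)))⁻¹ • (φ (t k (e j)) : H →L[ℂ] H) (e j) = _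
    rw [smul_smul, mul_inv_cancel₀ (hpos j).ne', one_smul]
  have e3 : ∑ j, ‖√(c (e j)) • (e j : H)‖ ^ 2 = HBN c := by
    rw [hsum' fun ζ => ‖√(c ζ) • ζ‖ ^ 2, HBN, Finsupp.linearCombination_apply, Finsupp.sum]
    refine Finset.sum_congr rfl fun ζ _ => ?_
    rw [norm_smul, mul_pow, Real.norm_eq_abs, sq_abs, Real.sq_sqrt (hc ζ), smul_eq_mul]
  simp only [e2, e3] at key
  linarith

/-- **Hahn–Banach lemma.**  Recipe: `E = (H × H →₀ Alg M)` (real vector space),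
`G t t' = ∑ ζ ζ', single (ζ, ζ') (star (t ζ) * t' ζ')` (real bilinear), `u ζ = single (ζ, ζ) 1`.
A representation of `x : E` is `x = ∑ s, c s • u (ζ s) - ∑ k, G (t k) (t k)` with `c s ≥ 0`, its
cost is `K² ∑ c s ‖ζ s‖² - ∑ ‖evalL φ (t k)‖²`.
(1) Representations of `0` have cost `≥ 0`: with `c ζ` the total weight at `ζ`,
`∑ k, star (t k ζ) * t k ζ' = δ c ζ`, so `t k ζ = 0` if `c ζ = 0` and
`X k ζ = (√(c ζ))⁻¹ • t k ζ` is a contraction matrix; apply `IsCBK` to the vectors `√(c ζ) • ζ`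
(reindex the finite support by `Fin n`).
(2) The representable `x` form a subspace `E₀`: `G t t` is representable because
`n ∑ ζ, single (ζ, ζ) (t ζ⋆ t ζ) - G t t = ½ ∑ ζ ζ', G d d` with
`d = single ζ (t ζ) - single ζ' (t ζ')` (`n` = size of the support) and `‖a‖² - a⋆ a = b⋆ b`;
`-u ζ = -G (single ζ 1) (single ζ 1)`.
(3) `p x` = infimum of the costs is sublinear on `E₀`; `exists_extension_of_le_sublinear` from
`0` on `⊥` gives `Λ ≤ p`; extend `Λ` to `E` (`LinearMap.exists_extend`) and put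
`b t t' = Λ (G t t' + G t' t) / 2`. -/
theorem exists_hb {φ : Alg M →L[ℂ] Alg M} {K : ℝ} (h : IsCBK M φ K) :
    ∃ b : LinearMap.BilinForm ℝ (H →₀ Alg M), (∀ t t', b t t' = b t' t) ∧
      (∀ t, ‖evalL φ t‖ ^ 2 ≤ b t t) ∧
      (∀ ζ g, ‖g‖ ≤ 1 → b (Finsupp.single ζ g) (Finsupp.single ζ g) ≤ K ^ 2 * ‖ζ‖ ^ 2) ∧
      ∀ h t, (∀ ζ, star h * h * t ζ = t ζ) → b (lmul h t) (lmul h t) = b t t := by
  obtain ⟨Λ, hΛ⟩ := HB_abstract (HBRep φ K) HBRep.zero (fun _ _ _ _ => HBRep.add)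
    (fun _ _ _ => HBRep.smul) (fun _ => HBRep.nonneg h) fun _ _ => HBRep.neg
  let b₀ : LinearMap.BilinForm ℝ (H →₀ Alg M) := HBG.compr₂ Λ
  have hb (t : H →₀ Alg M) : ((1 / 2 : ℝ) • (b₀ + b₀.flip)) t t = Λ (HBG t t) := by
    change (1 / 2 : ℝ) * (Λ (HBG t t) + Λ (HBG t t)) = _
    ring
  refine ⟨(1 / 2 : ℝ) • (b₀ + b₀.flip), fun t t' => ?_, fun t => ?_, fun ζ g hg => ?_,
    fun u t hu => ?_⟩
  · change (1 / 2 : ℝ) * (Λ (HBG t t') + Λ (HBG t' t)) = (1 / 2 : ℝ) * (Λ (HBG t' t) + Λ (HBG t t'))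
    ring
  · have := hΛ _ _ (HBRep.neg_G t)
    rw [map_neg] at this
    rw [hb]
    linarith
  · have := hΛ _ _ (HBRep.single ζ g (c := 1) (by nlinarith [norm_nonneg g]))
    rwa [hb, ← one_mul (‖ζ‖ ^ 2)]
  · rw [hb, hb]
    congr 1
    funext ζ ζ'
    simp only [HBG_apply, lmul, Finsupp.mapRange_apply]
    rw [star_mul, mul_assoc, ← mul_assoc (star u), hu]

end

end Crest.Agent.R121
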