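import Crest.Agent.R121.Basic
import Crest.Prelude.Def_Hochschild

/-!
# Row 121: Hochschild cochains: inner homotopy, last slot averaging, weak limits
-/

open scoped InnerProductSpace ComplexOrder Topology
open Filter Crest.OpAlg

set_option linter.unusedSectionVars false

namespace Crest.Agent.R121

noncomputable section

section abstract

variable {A : Type*} [NormedRing A] [NormedAlgebra ℂ A]

/-- Bounded cochains. -/
abbrev Coch (A : Type*) [NormedRing A] [NormedAlgebra ℂ A] (n : ℕ) :=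
  ContinuousMultilinearMap ℂ (fun _ : Fin n => A) A

/-- The part of the Hochschild differential not involving the left action. -/
def dR {k : ℕ} (f : (Fin k → A) → A) (a : Fin (k + 1) → A) : A :=
  (∑ j : Fin k, ((-1 : ℤ) ^ (j.val + 1)) • f (mergeArgs j a)) +
    ((-1 : ℤ) ^ (k + 1)) • (f (fun i => a i.castSucc) * a (Fin.last k))

theorem hochschildDiff_eq {k : ℕ} (f : (Fin k → A) → A) (a : Fin (k + 1) → A) :
    hochschildDiff f a = a 0 * f (Fin.tail a) + dR f a := by
  rw [hochschildDiff, dR, add_assoc]; rfl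

theorem mergeArgs_zero {k : ℕ} (a b : A) (l : Fin k → A) :
    mergeArgs (0 : Fin (k + 1)) (Fin.cons a (Fin.cons b l : Fin (k + 1) → A) : Fin (k + 2) → A) =
      (Fin.cons (a * b) l : Fin (k + 1) → A) := by
  funext i
  refine Fin.cases ?_ (fun i => ?_) i
  · simp [mergeArgs]
  · simp [mergeArgs]

theorem mergeArgs_succ {k : ℕ} (j : Fin k) (a : A) (l : Fin (k + 1) → A) :
    mergeArgs j.succ (Fin.cons a l : Fin (k + 2) → A) =
      (Fin.cons a (mergeArgs j l) : Fin (k + 1) → A) := by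
  funext i
  refine Fin.cases ?_ (fun i => ?_) i
  · simp [mergeArgs]
  · simp only [mergeArgs, Fin.val_succ, Nat.add_lt_add_iff_right, Nat.add_right_cancel_iff,
      Fin.cons_succ, ← Fin.succ_castSucc]

theorem dR_zero (f : (Fin 0 → A) → A) (a : Fin 1 → A) : dR f a = -(f Fin.elim0 * a 0) := by
  have : (fun i : Fin 0 => a i.castSucc) = Fin.elim0 := Subsingleton.elim _ _
  simp [dR, this]

theorem dR_cons {k : ℕ} (f : (Fin (k + 1) → A) → A) (a b : A) (l : Fin k → A) :
    dR f (Fin.cons a (Fin.cons b l : Fin (k + 1) → A)) =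
      -f (Fin.cons (a * b) l) - dR (fun x => f (Fin.cons a x)) (Fin.cons b l) := by
  have h1 : (fun i : Fin (k + 1) =>
      (Fin.cons a (Fin.cons b l : Fin (k + 1) → A) : Fin (k + 2) → A) i.castSucc) =
      Fin.cons a fun i : Fin k => (Fin.cons b l : Fin (k + 1) → A) i.castSucc := by
    funext i
    refine Fin.cases rfl (fun i => ?_) i
    simp only [← Fin.succ_castSucc, Fin.cons_succ]
  have h2 : (Fin.cons a (Fin.cons b l : Fin (k + 1) → A) : Fin (k + 2) → A) (Fin.last (k + 1)) =
      (Fin.cons b l : Fin (k + 1) → A) (Fin.last k) := by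
    rw [← Fin.succ_last, Fin.cons_succ]
  simp only [dR, Fin.sum_univ_succ, mergeArgs_zero, mergeArgs_succ, h1, h2, Fin.val_zero,
    Fin.val_succ, pow_succ (-1 : ℤ) (_ + 1), mul_neg, mul_one, neg_smul, Finset.sum_neg_distrib]
  simp
  abel

theorem dR_sub {k : ℕ} (f g : (Fin k → A) → A) (a : Fin (k + 1) → A) :
    dR (fun x => f x - g x) a = dR f a - dR g a := by
  simp only [dR, smul_sub, Finset.sum_sub_distrib, sub_mul]; abel

theorem dR_mul {k : ℕ} (c : A) (f : (Fin k → A) → A) (a : Fin (k + 1) → A) :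
    dR (fun x => c * f x) a = c * dR f a := by
  simp only [dR, mul_add, Finset.mul_sum, mul_smul_comm, mul_assoc]

/-- The prism operator. -/
def prism (α : A → A) (w : A) : (k : ℕ) → ((Fin (k + 1) → A) → A) → (Fin k → A) → A
  | 0, f, l => f (Fin.cons w l)
  | k + 1, f, l => f (Fin.cons w l) - prism α w k (fun x => f (Fin.cons (α (l 0)) x)) (Fin.tail l)

theorem prism_cons (α : A → A) (w : A) {k : ℕ} (f : (Fin (k + 2) → A) → A) (a : A)
    (l : Fin k → A) : prism α w (k + 1) f (Fin.cons a l) =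
      f (Fin.cons w (Fin.cons a l)) - prism α w k (fun x => f (Fin.cons (α a) x)) l := by
  rw [prism]; simp

theorem prism_sub (α : A → A) (w : A) : ∀ (k : ℕ) (f g : (Fin (k + 1) → A) → A) (l : Fin k → A),
    prism α w k (fun x => f x - g x) l = prism α w k f l - prism α w k g l
  | 0, _, _, _ => rfl
  | k + 1, f, g, l => by
    rw [prism, prism, prism, prism_sub α w k]; abel

theorem prism_mul (α : A → A) (w c : A) : ∀ (k : ℕ) (f : (Fin (k + 1) → A) → A) (l : Fin k → A),
    prism α w k (fun x => c * f x) l = c * prism α w k f l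
  | 0, _, _ => rfl
  | k + 1, f, l => by
    rw [prism, prism, prism_mul α w c k, mul_sub]

theorem prism_neg (α : A → A) (w : A) (k : ℕ) (f : (Fin (k + 1) → A) → A) (l : Fin k → A) :
    prism α w k (fun x => -f x) l = -prism α w k f l := by
  simpa using prism_mul α w (-1) k f l

theorem prism_dR {α : A → A} (hm : ∀ x y, α (x * y) = α x * α y) {w : A}
    (h₁ : ∀ x, α x * w = w * x) : ∀ (k : ℕ) (f : (Fin (k + 1) → A) → A) (a : Fin (k + 1) → A),
    dR (prism α w k f) a + prism α w (k + 1) (dR f) a = -(f (fun i => α (a i)) * w)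
  | 0, f, a => by
    obtain ⟨a, l, rfl⟩ : ∃ (b : A) (l : Fin 0 → A), a = Fin.cons b l :=
      ⟨a 0, Fin.tail a, (Fin.cons_self_tail a).symm⟩
    obtain rfl : l = Fin.elim0 := Subsingleton.elim _ _
    have h2 : (fun i => α ((Fin.cons a Fin.elim0 : Fin 1 → A) i)) =
        (Fin.cons (α a) Fin.elim0 : Fin 1 → A) := by
      funext i; refine Fin.cases rfl (fun i => i.elim0) i
    rw [prism_cons, dR_zero, prism, prism, dR_cons, dR_cons, dR_zero, dR_zero, h₁, h2]
    simp only [Fin.cons_zero]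
    abel
  | k + 1, f, a => by
    obtain ⟨a, l, rfl⟩ : ∃ (b : A) (l : Fin (k + 1) → A), a = Fin.cons b l :=
      ⟨a 0, Fin.tail a, (Fin.cons_self_tail a).symm⟩
    obtain ⟨b, l, rfl⟩ : ∃ (b : A) (l' : Fin k → A), l = Fin.cons b l' :=
      ⟨l 0, Fin.tail l, (Fin.cons_self_tail l).symm⟩
    have ih := prism_dR hm h₁ k (fun x => f (Fin.cons (α a) x)) (Fin.cons b l)
    have h2 : (fun i => α ((Fin.cons a (Fin.cons b l : Fin (k + 1) → A) : Fin (k + 2) → A) i)) =
        (Fin.cons (α a) fun i => α ((Fin.cons b l : Fin (k + 1) → A) i) : Fin (k + 2) → A) := by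
      funext i; refine Fin.cases rfl (fun i => rfl) i
    have h3 : (fun x : Fin (k + 2) → A => dR f (Fin.cons (α a) x)) = fun x =>
        -f (Fin.cons (α a * x 0) (Fin.tail x)) - dR (fun y => f (Fin.cons (α a) y)) x := by
      funext x
      conv_lhs => rw [← Fin.cons_self_tail x]
      rw [dR_cons, Fin.cons_self_tail]
    have h4 : (fun x : Fin k → A => prism α w (k + 1) f (Fin.cons a x)) = fun x =>
        f (Fin.cons w (Fin.cons a x)) - prism α w k (fun y => f (Fin.cons (α a) y)) x :=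
      funext fun x => prism_cons α w f a x
    rw [h2, ← ih, dR_cons, h4, dR_sub, prism_cons α w f, prism_cons α w (dR f), h3, prism_sub,
      prism_neg, prism_cons α w (fun x => f (Fin.cons (α a * x 0) (Fin.tail x))), dR_cons,
      dR_cons (fun x => f (Fin.cons w x))]
    simp only [Fin.cons_zero, Fin.tail_cons, hm, h₁]
    abel

theorem exists_prismL {α : A →L[ℂ] A} (hα : ‖α‖ ≤ 1) {w : A} (hw : ‖w‖ ≤ 1) : ∀ k : ℕ,
    ∃ P : Coch A (k + 1) →ₗ[ℂ] Coch A k, (∀ f, ‖P f‖ ≤ (k + 1) * ‖f‖) ∧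
      ∀ f l, P f l = prism α w k f l := by
  have hc : ∀ {k : ℕ} (f : Coch A (k + 1)) (x : A), ‖f.curryLeft x‖ ≤ ‖f‖ * ‖x‖ := fun f x => by
    simpa using f.curryLeft.le_opNorm x
  have hw' : ∀ {k : ℕ} (f : Coch A (k + 1)), ‖f.curryLeft w‖ ≤ ‖f‖ := fun f =>
    (hc f w).trans (mul_le_of_le_one_right (norm_nonneg _) hw)
  let C : ∀ k : ℕ, Coch A (k + 1) →ₗ[ℂ] Coch A k := fun k =>
    { toFun := fun f => f.curryLeft w
      map_add' := fun f g => by ext l; simp
      map_smul' := fun c f => by ext l; simp }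
  intro k
  induction k with
  | zero => exact ⟨C 0, fun f => (hw' f).trans (by simp), fun f l => rfl⟩
  | succ k ih =>
    obtain ⟨P, hP, hP'⟩ := ih
    have hb : ∀ (f : Coch A (k + 2)) (x : A),
        ‖P (f.curryLeft (α x))‖ ≤ (k + 1) * ‖f‖ * ‖x‖ := fun f x => by
      refine (hP _).trans ?_
      rw [mul_assoc]
      gcongr
      refine (hc f _).trans ?_
      gcongr
      exact (α.le_of_opNorm_le hα x).trans (by simp)
    let R : Coch A (k + 2) → A →L[ℂ] Coch A k := fun f =>
      LinearMap.mkContinuous (P ∘ₗ (f.curryLeft.comp α).toLinearMap) _ (hb f)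
    have hR : ∀ f x, R f x = P (f.curryLeft (α x)) := fun _ _ => rfl
    let S : Coch A (k + 2) →ₗ[ℂ] Coch A (k + 1) :=
      { toFun := fun f => ContinuousLinearMap.uncurryLeft (Ei := fun _ : Fin (k + 1) => A) (R f)
        map_add' := fun f g => by
          ext l
          have : (f + g).curryLeft (α (l 0)) = f.curryLeft (α (l 0)) + g.curryLeft (α (l 0)) := by
            ext x; simp
          simp [hR, this]
        map_smul' := fun c f => by
          ext l
          have : (c • f).curryLeft (α (l 0)) = c • f.curryLeft (α (l 0)) := by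
            ext x; simp
          simp [hR, this] }
    refine ⟨C (k + 1) - S, fun f => ?_, fun f l => ?_⟩
    · have h1 : ‖S f‖ ≤ (k + 1) * ‖f‖ := by
        change ‖ContinuousLinearMap.uncurryLeft (Ei := fun _ : Fin (k + 1) => A) (R f)‖ ≤ _
        rw [ContinuousLinearMap.uncurryLeft_norm]
        exact LinearMap.mkContinuous_norm_le _ (by positivity) _
      have h2 : ‖C (k + 1) f‖ ≤ ‖f‖ := hw' f
      rw [LinearMap.sub_apply]
      refine (norm_sub_le _ _).trans ?_
      push_cast
      linarith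
    · rw [prism, LinearMap.sub_apply, sub_apply]
      congr 1
      exact hP' (f.curryLeft (α (l 0))) (Fin.tail l)

/-- **Homotopy lemma.** -/
theorem exists_homotopy {α : A →L[ℂ] A} (hα : ‖α‖ ≤ 1) (hm : ∀ x y, α (x * y) = α x * α y)
    {w w' : A} (hw : ‖w‖ ≤ 1) (hw' : ‖w'‖ ≤ 1) (h₁ : ∀ x, α x * w = w * x)
    (h₂ : ∀ x, w' * α x = x * w') (h₃ : w' * w = 1) {n : ℕ} (f : Coch A (n + 1))
    (hf : ∀ a, hochschildDiff f a = 0) :
    ∃ g : Coch A n, ‖g‖ ≤ (n + 1) * ‖f‖ ∧
      ∀ a, hochschildDiff g a = f a - w' * f (fun i => α (a i)) * w := by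
  obtain ⟨P, hP, hP'⟩ := exists_prismL hα hw n
  refine ⟨(Lm w').compContinuousMultilinearMap (P f), ?_, fun a => ?_⟩
  · refine (ContinuousLinearMap.norm_compContinuousMultilinearMap_le _ _).trans ?_
    exact (mul_le_of_le_one_left (norm_nonneg _) ((norm_Lm_le w').trans hw')).trans (hP f)
  · have h4 : ⇑((Lm w').compContinuousMultilinearMap (P f)) = fun l => w' * prism α w n f l :=
      funext fun l => by rw [← hP']; rfl
    have h5 : dR f = fun x => -(x 0 * f (Fin.tail x)) := funext fun x => by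
      have := hf x
      rw [hochschildDiff_eq] at this
      exact eq_neg_of_add_eq_zero_right this
    have h6 := prism_dR hm h₁ n f a
    rw [h5, prism_neg, prism] at h6
    simp only [Fin.cons_zero, Fin.tail_cons, prism_mul] at h6
    rw [hochschildDiff_eq, h4, dR_mul, ← mul_assoc, ← h₂, mul_assoc, ← mul_add,
      eq_sub_of_add_eq h6, mul_assoc w']
    conv_rhs => rw [← one_mul (f a), ← h₃]
    noncomm_ring

theorem mergeArgs_castSucc {k : ℕ} (j : Fin k) (a : Fin (k + 1) → A) (x : A) :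
    mergeArgs j.castSucc (Fin.snoc a x : Fin (k + 2) → A) =
      (Fin.snoc (mergeArgs j a) x : Fin (k + 1) → A) := by
  funext i
  refine Fin.lastCases ?_ (fun i => ?_) i
  · have h1 : ¬k < j.val := by omega
    have h2 : ¬k = j.val := by omega
    simp [mergeArgs, h1, h2]
  · simp only [mergeArgs, Fin.val_castSucc, Fin.snoc_castSucc, Fin.succ_castSucc]

theorem mergeArgs_last {k : ℕ} (a : Fin (k + 1) → A) (x : A) :
    mergeArgs (Fin.last k) (Fin.snoc a x : Fin (k + 2) → A) =
      (Fin.snoc (fun i => a i.castSucc) (a (Fin.last k) * x) : Fin (k + 1) → A) := by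
  funext i
  refine Fin.lastCases ?_ (fun i => ?_) i
  · simp [mergeArgs]
  · simp [mergeArgs]

/-- **Last slot lemma.** -/
theorem exists_last_slot {α : A →L[ℂ] A} (hm : ∀ x y, α (x * y) = α x * α y)
    (Q : (A →L[ℂ] A) →L[ℂ] A) (h₁ : ∀ a φ, Q (Lm (α a) ∘L φ) = a * Q φ)
    (h₂ : ∀ a φ, Q (φ ∘L Lm (α a)) = Q φ * a) {n : ℕ} (f : Coch A (n + 1))
    (hf : ∀ a, hochschildDiff f a = 0) :
    ∃ g : Coch A n, ∀ a, hochschildDiff g a = Q (Lm (f fun i => α (a i))) := by
  let F : ContinuousMultilinearMap ℂ (fun _ : Fin n => A) (A →L[ℂ] A) :=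
    (ContinuousMultilinearMap.curryRight (Ei := fun _ : Fin (n + 1) => A) f).compContinuousLinearMap
      fun _ => α
  have hF : ∀ a x, F a x = f (Fin.snoc (fun i => α (a i)) x) := fun _ _ => rfl
  refine ⟨((-1 : ℤ) ^ (n + 1)) • Q.compContinuousMultilinearMap F, fun a => ?_⟩
  have hmerge : ∀ j : Fin n, mergeArgs j (fun i => α (a i)) = fun i => α (mergeArgs j a i) := by
    intro j; funext i
    simp only [mergeArgs]
    split_ifs <;> simp [hm]
  have key : Lm (α (a 0)) ∘L F (fun i => a i.succ) +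
      (∑ j : Fin n, ((-1 : ℤ) ^ (j.val + 1)) • F (mergeArgs j a)) +
      ((-1 : ℤ) ^ (n + 1)) • (F (fun i => a i.castSucc) ∘L Lm (α (a (Fin.last n)))) =
      ((-1 : ℤ) ^ (n + 1)) • Lm (f fun i => α (a i)) := by
    ext x
    have h := hf (Fin.snoc (fun i => α (a i)) x)
    have e1 : (fun i : Fin (n + 1) =>
        (Fin.snoc (fun i => α (a i)) x : Fin (n + 2) → A) i.succ) =
        Fin.snoc (fun i : Fin n => α (a i.succ)) x := by
      funext i
      refine Fin.lastCases (by simp) (fun i => ?_) i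
      simp only [Fin.succ_castSucc, Fin.snoc_castSucc]
    have e2 : (Fin.snoc (fun i => α (a i)) x : Fin (n + 2) → A) 0 = α (a 0) := by
      rw [← Fin.castSucc_zero, Fin.snoc_castSucc]
    rw [hochschildDiff, Fin.sum_univ_castSucc, e1, e2, mergeArgs_last] at h
    simp only [mergeArgs_castSucc, hmerge, Fin.snoc_castSucc, Fin.snoc_last, Fin.val_castSucc,
      Fin.val_last, pow_succ (-1 : ℤ) (n + 1), mul_neg, mul_one, neg_smul] at h
    simp only [add_apply, smul_apply, sum_apply, ContinuousLinearMap.comp_apply, hF,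
      ContinuousLinearMap.mul_apply']
    rw [← add_neg_eq_zero, ← h]
    abel
  have h := congrArg Q key
  simp only [map_add, map_sum, map_zsmul, h₁, h₂] at h
  have h3 : Q (Lm (f fun i => α (a i))) =
      ((-1 : ℤ) ^ (n + 1)) • ((-1 : ℤ) ^ (n + 1)) • Q (Lm (f fun i => α (a i))) := by
    rw [smul_smul, ← mul_pow]; simp
  rw [h3, ← h, hochschildDiff]
  simp only [smul_apply, ContinuousLinearMap.compContinuousMultilinearMap_coe,
    Function.comp_apply, smul_add, Finset.smul_sum, mul_smul_comm, smul_mul_assoc, smul_smul,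
    mul_comm ((-1 : ℤ) ^ (n + 1))]

end abstract

variable {H : Type*} [NormedAddCommGroup H] [InnerProductSpace ℂ H] [CompleteSpace H]
  {M : VonNeumannAlgebra H}

/-- Weak limits of cochains. -/
theorem exists_wlim_coch {X : Type*} (𝒰 : Ultrafilter X) {n : ℕ} (g : X → Coch (Alg M) n)
    {C : ℝ} (hg : ∀ x, ‖g x‖ ≤ C) :
    ∃ G : Coch (Alg M) n, ∀ a, hochschildDiff G a = wlim 𝒰 fun x => hochschildDiff (g x) a := by
  have hb : ∀ (a : Fin n → Alg M) x, ‖g x a‖ ≤ C * ∏ i, ‖a i‖ := fun a x =>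
    (g x).le_of_opNorm_le (hg x) a
  let G₀ : MultilinearMap ℂ (fun _ : Fin n => Alg M) (Alg M) :=
    { toFun := fun a => wlim 𝒰 fun x => g x a
      map_update_add' := fun a i u v => by
        simp only [ContinuousMultilinearMap.map_update_add]
        exact wlim_add 𝒰 (hb _) (hb _)
      map_update_smul' := fun a i c u => by
        simp only [ContinuousMultilinearMap.map_update_smul]
        exact wlim_smul 𝒰 (hb _) c }
  refine ⟨G₀.mkContinuous C fun a => norm_wlim_le 𝒰 (hb a), fun a => ?_⟩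
  have hC : ∃ C', ∀ x, ‖hochschildDiff (g x) a‖ ≤ C' := by
    refine ⟨‖a 0‖ * (C * ∏ i : Fin n, ‖a i.succ‖) + (∑ j : Fin n, C * ∏ i, ‖mergeArgs j a i‖) +
      C * (∏ i : Fin n, ‖a i.castSucc‖) * ‖a (Fin.last n)‖, fun x => ?_⟩
    have hs : ∀ (k : ℕ) (y : Alg M), ‖((-1 : ℤ) ^ k) • y‖ = ‖y‖ := fun k y => by
      rcases neg_one_pow_eq_or ℤ k with h | h <;> simp [h]
    refine norm_add_le_of_le (norm_add_le_of_le ((norm_mul_le _ _).trans ?_)
      (norm_sum_le_of_le _ fun j _ => ?_)) ?_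
    · gcongr; exact hb _ x
    · rw [hs]; exact hb _ x
    · rw [hs]; exact (norm_mul_le _ _).trans (by gcongr; exact hb _ x)
  obtain ⟨C', hC'⟩ := hC
  refine (wlim_eq 𝒰 hC' fun η ξ => ?_).symm
  simp only [← vecF_apply, hochschildDiff, map_add, map_sum, map_zsmul]
  refine Tendsto.add (Tendsto.add ?_ ?_) ?_
  · simp only [vecF_apply, Alg.mul_apply, ← Alg.inner_star_left (a 0)]
    exact tendsto_inner_wlim 𝒰 (hb fun i => a i.succ) (((star (a 0) : Alg M) : H →L[ℂ] H) η) ξ
  · exact tendsto_finsetSum _ fun j _ =>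
      (tendsto_wlim 𝒰 (hb _) (isNormal_vecF η ξ)).const_smul _
  · exact (tendsto_inner_wlim 𝒰 (hb _) η ((a (Fin.last n) : H →L[ℂ] H) ξ)).const_smul _

end

end Crest.Agent.R121
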