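import Crest.Agent.R121.Good
import Crest.Agent.R121.AvgIII
import Crest.Agent.R121.Gamma
import Crest.Agent.R121.Hoch

/-!
# Row 121: bounded Hochschild cohomology of a von Neumann algebra vanishes
-/

open Crest.OpAlg
open scoped InnerProductSpace ComplexOrder Topology
open Filter

set_option linter.unusedSectionVars false

namespace Crest.Agent.R121

noncomputable section

variable {H : Type*} [NormedAddCommGroup H] [InnerProductSpace ℂ H] [CompleteSpace H]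
  {M : VonNeumannAlgebra H}

theorem AvgZ.eq_mul {z : Alg M} (hz : IsCentralProj M z) {𝓒 : (Alg M →L[ℂ] Alg M) → Prop}
    {P : (Alg M →L[ℂ] Alg M) →L[ℂ] Alg M} (h : AvgZ M z 𝓒 P) (φ : Alg M →L[ℂ] Alg M) :
    z * P φ = P φ := by
  rw [← (hz.2 _).eq, h.supp]

theorem AvgZ.Lm {z : Alg M} {𝓒 : (Alg M →L[ℂ] Alg M) → Prop}
    {P : (Alg M →L[ℂ] Alg M) →L[ℂ] Alg M} (h : AvgZ M z 𝓒 P) (c : Alg M) :
    P (Lm c) = c * z := by
  rw [← h.unit, ← h.left, ContinuousLinearMap.comp_id]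

theorem exists_Q : ∃ (α : Alg M →L[ℂ] Alg M) (w : ℕ → Alg M)
    (Q : (Alg M →L[ℂ] Alg M) →L[ℂ] Alg M), ‖α‖ ≤ 1 ∧ (∀ x y, α (x * y) = α x * α y) ∧
    (∀ i x, α x * w i = w i * x) ∧ (∀ i x, star (w i) * α x = x * star (w i)) ∧
    (∀ i, star (w i) * w i = 1) ∧ (∀ a φ, Q (Lm (α a) ∘L φ) = a * Q φ) ∧
    (∀ a φ, Q (φ ∘L Lm (α a)) = Q φ * a) ∧
    ∀ c, Q (Lm c) = wlim (hyperfilter ℕ) fun N =>
      ((N + 1 : ℕ) : ℂ)⁻¹ • ∑ i ∈ Finset.range (N + 1), star (w i) * c * w i := by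
  obtain ⟨𝓕₁, 𝓕₂, hB₁, hB₂, hab, hna, horth, hno⟩ := exists_decomp (M := M)
  obtain ⟨P₁, hP₁⟩ := avgZ_I hB₁ hab
  obtain ⟨P₂, hP₂⟩ := avgZ_II hB₂ hna
  have hz₁ := cen_central (M := M) 𝓕₁
  have hz₂ := cen_central (M := M) 𝓕₂
  set z₁ := cen M 𝓕₁
  set z₂ := cen M 𝓕₂
  have horth' : z₂ * z₁ = 0 := by rw [(hz₁.2 z₂).eq, horth]
  have h11 : z₁ * z₁ = z₁ := hz₁.1.isIdempotentElem.eq
  have h22 : z₂ * z₂ = z₂ := hz₂.1.isIdempotentElem.eq
  have hz : IsCentralProj M (1 - z₁ - z₂) := by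
    refine ⟨⟨?_, ?_⟩, fun a => ((Commute.one_right a).sub_right (hz₁.2 a)).sub_right (hz₂.2 a)⟩
    · simp only [IsIdempotentElem, sub_mul, mul_sub, one_mul, mul_one, h11, h22, horth, horth']
      abel
    · exact ((IsSelfAdjoint.one _).sub hz₁.1.isSelfAdjoint).sub hz₂.1.isSelfAdjoint
  set z := 1 - z₁ - z₂ with hzdef
  have hsum : 1 - z = z₁ + z₂ := by rw [hzdef]; abel
  have hzz : z * z = z := hz.1.isIdempotentElem.eq
  obtain ⟨P₃, hP₃⟩ := avgZ_III hz hno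
  obtain ⟨s, hs⟩ := exists_isoms hz.1 hno
  obtain ⟨α, hα, hm, ha₁, ha₂, ha₃⟩ := exists_alpha hz hs
  obtain ⟨γ, hcb, hγ₁, hγ₂, hγ₃⟩ := exists_gamma hz hs ha₁ ha₂
  have hc1 : ∀ a, Commute a (1 - z) := fun a => (Commute.one_right a).sub_right (hz.2 a)
  have hs0 : ∀ i, (1 - z) * s i = 0 := fun i => by rw [sub_mul, one_mul, hs.left, sub_self]
  have hst : star (1 - z) = 1 - z := by rw [star_sub, star_one, hz.1.isSelfAdjoint.star_eq]
  have hs0' : ∀ i, star (s i) * (1 - z) = 0 := fun i => by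
    rw [← hst, ← star_mul, hs0, star_zero]
  have h1z : (1 - z) * (1 - z) = 1 - z := hz.1.one_sub.isIdempotentElem.eq
  have hαz : ∀ {y : Alg M}, (1 - z) * y = y → ∀ a, α a * y = a * y := fun {y} hy a => by
    rw [← hy, ← mul_assoc, ha₃, mul_assoc]
  have hzα : ∀ {y : Alg M}, (1 - z) * y = y → ∀ a, y * α a = y * a := fun {y} hy a => by
    rw [← hy, ← (hc1 y).eq, mul_assoc, ← (hc1 (α a)).eq, ha₃, (hc1 a).eq, ← mul_assoc]
  have hy₁ : ∀ φ, (1 - z) * P₁ φ = P₁ φ := fun φ => by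
    rw [← hP₁.eq_mul hz₁ φ, ← mul_assoc, hsum, add_mul, h11, horth', add_zero]
  have hy₂ : ∀ φ, (1 - z) * P₂ φ = P₂ φ := fun φ => by
    rw [← hP₂.eq_mul hz₂ φ, ← mul_assoc, hsum, add_mul, h22, horth, zero_add]
  have hsn : ∀ i, ‖s i‖ ≤ 1 := fun i => by
    have h1 := CStarRing.norm_star_mul_self (x := s i)
    rw [hs.orth, if_pos rfl] at h1
    have := hz.1.norm_le
    nlinarith [norm_nonneg (s i)]
  refine ⟨α, fun i => 1 - z + s i, P₁ + P₂ + P₃ ∘L γ, hα, hm, fun i x => ?_, fun i x => ?_,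
    fun i => ?_, fun a φ => ?_, fun a φ => ?_, fun c => ?_⟩
  · rw [mul_add, ha₁, ha₃, add_mul, (hc1 x).eq]
  · rw [star_add, hst, add_mul, ha₂, mul_add, ← (hc1 (α x)).eq, ha₃]
  · rw [star_add, hst, add_mul, mul_add, mul_add, h1z, hs0, hs0', hs.orth, if_pos rfl]; abel
  · simp only [add_apply, ContinuousLinearMap.comp_apply, hP₁.left, hP₂.left, hγ₁, hP₃.left,
      hαz (hy₁ φ), hαz (hy₂ φ), mul_add]
  · simp only [add_apply, ContinuousLinearMap.comp_apply, hP₁.modular φ trivial,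
      hP₂.modular φ trivial, hγ₂, hP₃.modular _ (hcb φ), hzα (hy₁ φ), hzα (hy₂ φ), add_mul]
  · have hb : ∀ N : ℕ, ‖((N + 1 : ℕ) : ℂ)⁻¹ • ∑ i ∈ Finset.range (N + 1), star (s i) * c * s i‖
        ≤ ‖c‖ := fun N => by
      rw [norm_smul, norm_inv, Complex.norm_natCast, inv_mul_le_iff₀ (by positivity)]
      refine (norm_sum_le_of_le _ (n := fun _ => ‖c‖) fun i _ => ?_).trans (by simp)
      refine (norm_mul_le _ _).trans ((mul_le_of_le_one_right (norm_nonneg _) (hsn i)).trans ?_)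
      exact (norm_mul_le _ _).trans (mul_le_of_le_one_left (norm_nonneg _) (by simpa using hsn i))
    have h1 : ∀ i, star (1 - z + s i) * c * (1 - z + s i) = c * (1 - z) + star (s i) * c * s i :=
      fun i => by
        rw [star_add, hst, add_mul, add_mul, mul_add, mul_add, ← (hc1 c).eq, mul_assoc c, h1z,
          mul_assoc c, hs0, mul_assoc _ c (1 - z), (hc1 c).eq, ← mul_assoc (star (s i)), hs0']
        simp
    have h2 : ∀ N : ℕ, ((N + 1 : ℕ) : ℂ)⁻¹ • ∑ i ∈ Finset.range (N + 1),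
        star (1 - z + s i) * c * (1 - z + s i) = c * (1 - z) +
        ((N + 1 : ℕ) : ℂ)⁻¹ • ∑ i ∈ Finset.range (N + 1), star (s i) * c * s i := fun N => by
      simp only [h1, Finset.sum_add_distrib, Finset.sum_const, Finset.card_range, smul_add]
      rw [← Nat.cast_smul_eq_nsmul ℂ, smul_smul, inv_mul_cancel₀ (by exact_mod_cast N.succ_ne_zero),
        one_smul]
    simp only [add_apply, ContinuousLinearMap.comp_apply, hP₁.Lm, hP₂.Lm, hγ₃, hP₃.Lm, h2]
    rw [wlim_add _ (fun _ => le_rfl) hb, wlim_const, ← wlim_mul_right _ hb, hsum, mul_add]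
    congr 2
    funext N
    rw [smul_mul_assoc, Finset.sum_mul]
    congr 1
    refine Finset.sum_congr rfl fun i _ => ?_
    rw [mul_assoc _ (s i), (hz.2 (s i)).eq, hs.left]

theorem hochschildDiff_add {A : Type*} [NormedRing A] [NormedAlgebra ℂ A] {n : ℕ}
    (g g' : Coch A n) (a : Fin (n + 1) → A) :
    hochschildDiff (g + g' : Coch A n) a = hochschildDiff g a + hochschildDiff g' a := by
  simp only [hochschildDiff, add_apply, mul_add, add_mul, smul_add, Finset.sum_add_distrib]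
  abel

theorem hochschildDiff_avg {A : Type*} [NormedRing A] [NormedAlgebra ℂ A] {n : ℕ} (c : ℂ)
    (s : Finset ℕ) (g : ℕ → Coch A n) (a : Fin (n + 1) → A) :
    hochschildDiff (c • ∑ i ∈ s, g i : Coch A n) a = c • ∑ i ∈ s, hochschildDiff (g i) a := by
  simp only [hochschildDiff, smul_apply, sum_apply, Finset.mul_sum,
    Finset.sum_mul, mul_smul_comm, smul_mul_assoc, Finset.sum_add_distrib, smul_add,
    Finset.smul_sum, smul_comm c]
  rw [Finset.sum_comm]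

theorem vanishing {n : ℕ} (f : Coch (Alg M) (n + 1)) (hf : ∀ a, hochschildDiff f a = 0) :
    ∃ g : Coch (Alg M) n, ∀ a, hochschildDiff g a = f a := by
  obtain ⟨α, w, Q, hα, hm, h₁, h₂, h₃, hQ₁, hQ₂, hQ₃⟩ := exists_Q (M := M)
  have hw : ∀ i, ‖w i‖ ≤ 1 := fun i => by
    have h1 := CStarRing.norm_star_mul_self (x := w i)
    rw [h₃] at h1
    have := (IsStarProjection.one (Alg M)).norm_le
    nlinarith [norm_nonneg (w i)]
  choose g hg hg' using fun i => exists_homotopy hα hm (hw i) (by simpa using hw i) (h₁ i) (h₂ i)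
    (h₃ i) f hf
  obtain ⟨g₁, hg₁⟩ := exists_last_slot hm Q hQ₁ hQ₂ f hf
  obtain ⟨g₂, hg₂⟩ := exists_wlim_coch (hyperfilter ℕ)
    (fun N : ℕ => ((N + 1 : ℕ) : ℂ)⁻¹ • ∑ i ∈ Finset.range (N + 1), g i) (C := (n + 1) * ‖f‖)
    fun N => by
      rw [norm_smul, norm_inv, Complex.norm_natCast, inv_mul_le_iff₀ (by positivity)]
      exact (norm_sum_le_of_le _ fun i _ => hg i).trans (by simp)
  refine ⟨g₂ + g₁, fun a => ?_⟩
  set c := f fun i => α (a i)
  have hb : ∀ N : ℕ, ‖((N + 1 : ℕ) : ℂ)⁻¹ • ∑ i ∈ Finset.range (N + 1), star (w i) * c * w i‖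
      ≤ ‖c‖ := fun N => by
    rw [norm_smul, norm_inv, Complex.norm_natCast, inv_mul_le_iff₀ (by positivity)]
    refine (norm_sum_le_of_le _ (n := fun _ => ‖c‖) fun i _ => ?_).trans (by simp)
    refine (norm_mul_le _ _).trans ((mul_le_of_le_one_right (norm_nonneg _) (hw i)).trans ?_)
    exact (norm_mul_le _ _).trans (mul_le_of_le_one_left (norm_nonneg _) (by simpa using hw i))
  have h4 : ∀ N : ℕ, hochschildDiff (((N + 1 : ℕ) : ℂ)⁻¹ • ∑ i ∈ Finset.range (N + 1), g i :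
      Coch (Alg M) n) a = f a -
      ((N + 1 : ℕ) : ℂ)⁻¹ • ∑ i ∈ Finset.range (N + 1), star (w i) * c * w i := fun N => by
    simp only [hochschildDiff_avg, hg', Finset.sum_sub_distrib, Finset.sum_const,
      Finset.card_range, smul_sub]
    rw [← Nat.cast_smul_eq_nsmul ℂ, smul_smul, inv_mul_cancel₀ (by exact_mod_cast N.succ_ne_zero),
      one_smul]
  rw [hochschildDiff_add, hg₁, hg₂, hQ₃]
  simp only [h4]
  rw [wlim_sub _ (fun _ => le_rfl) hb, wlim_const, sub_add_cancel]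

end

end Crest.Agent.R121
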