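import Crest.Agent.R121.Tr
import Crest.Agent.R124.LemT
import Crest.Agent.R124.GT

/-!
# Row 121: a matrix algebra `ρ (M_D)` inside a tracial C⋆-algebra

Definitions used by the random matrix part (`Piv`, `Swap`, `D1`, `Twist`, `Core`).
-/

open MeasureTheory
open scoped InnerProductSpace ComplexOrder Topology

set_option linter.unusedSectionVars false

namespace Crest.Agent.R121

open R124 (UG haar tau)

noncomputable section

variable {A : Type*} [CStarAlgebra A] {D : Type} [Fintype D] [DecidableEq D]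

/-- Matrix units. -/
def eA (ρ : Matrix D D ℂ →⋆ₐ[ℂ] A) (k l : D) : A := ρ (Matrix.single k l 1)

/-- The averaging map onto the commutant of `ρ (M_D)`. -/
def cEA (ρ : Matrix D D ℂ →⋆ₐ[ℂ] A) (x : A) : A :=
  (Fintype.card D : ℂ)⁻¹ • ∑ k, ∑ l, eA ρ k l * x * eA ρ l k

/-- The word `A₀ v A₁ v ⋯ A_{k-1} v`, `v = ρ V`. -/
def wordA (ρ : Matrix D D ℂ →⋆ₐ[ℂ] A) (L : List A) (V : UG D) : A :=
  (L.map fun a => a * ρ (V : Matrix D D ℂ)).prod

/-- The `(b, c)` entry of `x`, an element of the commutant of `ρ (M_D)`. -/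
def entry (ρ : Matrix D D ℂ →⋆ₐ[ℂ] A) (x : A) (b c : D) : A := ∑ k, eA ρ k b * x * eA ρ c k

/-- Flatness: the normalised sum of the fourth powers of the 4-norms of the entries. -/
def kappa (T : TrState A) (ρ : Matrix D D ℂ →⋆ₐ[ℂ] A) (x : A) : ℝ :=
  (Fintype.card D : ℝ)⁻¹ * ∑ b, ∑ c, T.n2 (star (entry ρ x b c) * entry ρ x b c) ^ 2

/-- Maps that are contractive for both norms. -/
structure InL (T : TrState A) (Φ : A →L[ℂ] A) : Prop where
  norm_le : ‖Φ‖ ≤ 1
  n2_le : ∀ a, T.n2 (Φ a) ≤ T.n2 a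

/-- The function `g ↦ τ (Φ g * g⋆)`. -/
def Fv (T : TrState A) (Φ : A →L[ℂ] A) (g : A) : ℂ := T.τ (Φ g * star g)

/-- `x ↦ a⋆ Φ (a x)`. -/
def shiftL (Φ : A →L[ℂ] A) (a : A) : A →L[ℂ] A := Lm (star a) ∘L Φ ∘L Lm a

/-- The average of `shiftL Φ u` over the unitary group of `ρ (M_D)`. -/
def avgG (ρ : Matrix D D ℂ →⋆ₐ[ℂ] A) (Φ : A →L[ℂ] A) : A →L[ℂ] A :=
  (Fintype.card D : ℂ)⁻¹ • ∑ c, ∑ d, Lm (eA ρ d c) ∘L Φ ∘L Lm (eA ρ c d)

variable (T : TrState A) (ρ : Matrix D D ℂ →⋆ₐ[ℂ] A)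

/-! ### Matrix units -/

theorem eA_mul_eA (k l m n : D) : eA ρ k l * eA ρ m n = if l = m then eA ρ k n else 0 := by
  unfold eA
  rw [← map_mul]
  split_ifs with h
  · subst h; rw [Matrix.single_mul_single_same, mul_one]
  · rw [Matrix.single_mul_single_of_ne _ _ _ _ h, map_zero]

theorem eA_mul_eA_same (k l n : D) : eA ρ k l * eA ρ l n = eA ρ k n := by
  rw [eA_mul_eA, if_pos rfl]

@[simp] theorem star_eA (k l : D) : star (eA ρ k l) = eA ρ l k := by
  unfold eA
  rw [← map_star, Matrix.star_eq_conjTranspose, Matrix.conjTranspose_single, star_one]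

theorem sum_eA_diag : ∑ k, eA ρ k k = 1 := by
  unfold eA
  rw [← map_sum, ← map_one ρ]
  congr 1
  ext i j
  simp [Matrix.sum_apply, Matrix.single_apply, Matrix.one_apply, Finset.sum_ite_eq', ite_and]

theorem rho_eq_sum (X : Matrix D D ℂ) : ρ X = ∑ k, ∑ l, X k l • eA ρ k l := by
  conv_lhs => rw [Matrix.matrix_eq_sum_single X]
  simp only [map_sum, eA, ← map_smul, Matrix.smul_single, smul_eq_mul, mul_one]

theorem eA_proj (k : D) : IsStarProjection (eA ρ k k) :=
  ⟨eA_mul_eA_same ρ k k k, star_eA ρ k k⟩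

theorem norm_eA_le (k l : D) : ‖eA ρ k l‖ ≤ 1 := by
  have h1 := CStarRing.norm_star_mul_self (x := eA ρ k l)
  rw [star_eA, eA_mul_eA_same] at h1
  have := (eA_proj ρ l).norm_le
  nlinarith [norm_nonneg (eA ρ k l)]

theorem norm_rho_unitary_le (V : UG D) : ‖ρ (V : Matrix D D ℂ)‖ ≤ 1 :=
  R124.norm_le_one_of_mem_unitary (R124.rho_mem_unitary ρ V)

theorem commute_rho_of_eA {x : A} (h : ∀ k l, Commute (eA ρ k l) x) (X : Matrix D D ℂ) :
    Commute (ρ X) x := by
  rw [rho_eq_sum]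
  exact Commute.sum_left _ _ _ fun k _ => Commute.sum_left _ _ _ fun l _ => (h k l).smul_left _

/-! ### Entries -/

theorem eA_mul_entry (x : A) (a b c d : D) :
    eA ρ a d * entry ρ x b c = eA ρ a b * x * eA ρ c d := by
  rw [entry, Finset.mul_sum, Finset.sum_eq_single d]
  · rw [← mul_assoc, ← mul_assoc, eA_mul_eA_same]
  · intro k _ hk
    rw [← mul_assoc, ← mul_assoc, eA_mul_eA, if_neg (Ne.symm hk), zero_mul, zero_mul]
  · simp

theorem entry_mul_eA (x : A) (a b c d : D) :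
    entry ρ x b c * eA ρ a d = eA ρ a b * x * eA ρ c d := by
  rw [entry, Finset.sum_mul, Finset.sum_eq_single a]
  · rw [mul_assoc _ (eA ρ c a), eA_mul_eA_same]
  · intro k _ hk
    rw [mul_assoc _ (eA ρ c k), eA_mul_eA, if_neg hk, mul_zero]
  · simp

theorem commute_eA_entry (x : A) (a d b c : D) : Commute (eA ρ a d) (entry ρ x b c) :=
  (eA_mul_entry ρ x a b c d).trans (entry_mul_eA ρ x a b c d).symm

theorem star_entry (x : A) (b c : D) : star (entry ρ x b c) = entry ρ (star x) c b := by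
  simp only [entry, star_sum, star_mul, star_eA, mul_assoc]

theorem entry_mul (x y : A) (b c : D) :
    entry ρ (x * y) b c = ∑ k, entry ρ x b k * entry ρ y k c := by
  have h : ∀ k, entry ρ x b k * entry ρ y k c =
      ∑ m, eA ρ m b * x * (eA ρ k k * y * eA ρ c m) := fun k => by
    conv_lhs => rw [entry, Finset.sum_mul]
    exact Finset.sum_congr rfl fun m _ => by rw [mul_assoc, eA_mul_entry]
  simp only [h]
  rw [Finset.sum_comm, entry]
  refine Finset.sum_congr rfl fun m _ => ?_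
  rw [← Finset.mul_sum, ← Finset.sum_mul, ← Finset.sum_mul, sum_eA_diag, one_mul]
  simp only [mul_assoc]

theorem entry_rho (X : Matrix D D ℂ) (b c : D) : entry ρ (ρ X) b c = X b c • (1 : A) := by
  rw [entry, ← sum_eA_diag ρ, Finset.smul_sum]
  refine Finset.sum_congr rfl fun k _ => ?_
  simp only [eA]
  rw [← map_mul, ← map_mul, Matrix.single_mul_mul_single, ← map_smul, Matrix.smul_single, one_mul,
    smul_eq_mul]

theorem entry_one (b c : D) : entry ρ 1 b c = if b = c then 1 else 0 := by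
  rw [← map_one ρ, entry_rho, Matrix.one_apply, map_one]
  split_ifs <;> simp

/-- Recipe: `star (entry) * entry = ∑ k, e k c * (star x * e b b * x) * e c k`, or use
orthogonality of the summands. -/
theorem norm_entry_le (x : A) (b c : D) : ‖entry ρ x b c‖ ≤ ‖x‖ := by
  let _ := CStarAlgebra.spectralOrder A
  have _ := CStarAlgebra.spectralOrderedRing A
  have h1 : ‖eA ρ b b * x‖ ≤ ‖x‖ :=
    (norm_mul_le _ _).trans (mul_le_of_le_one_left (norm_nonneg _) (norm_eA_le ρ b b))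
  have h2 : star (entry ρ x b c) * entry ρ x b c =
      ∑ k, star (eA ρ c k) * (star (eA ρ b b * x) * (eA ρ b b * x)) * eA ρ c k := by
    rw [star_entry]
    conv_lhs => rw [entry, Finset.sum_mul]
    refine Finset.sum_congr rfl fun k _ => ?_
    rw [mul_assoc, eA_mul_entry, star_mul, star_eA, star_eA]
    simp only [mul_assoc]
    rw [← mul_assoc (eA ρ b b) (eA ρ b b), eA_mul_eA_same]
  have h3 : star (entry ρ x b c) * entry ρ x b c ≤ algebraMap ℝ A (‖eA ρ b b * x‖ ^ 2) := by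
    rw [h2]
    refine (Finset.sum_le_sum fun k _ => star_left_conjugate_le_conjugate
      CStarAlgebra.star_mul_le_algebraMap_norm_sq (eA ρ c k)).trans (le_of_eq ?_)
    simp only [Algebra.algebraMap_eq_smul_one, mul_smul_comm, smul_mul_assoc, mul_one, star_eA,
      eA_mul_eA_same]
    rw [← Finset.smul_sum, sum_eA_diag]
  have h4 := (CStarAlgebra.norm_le_iff_le_algebraMap _ (sq_nonneg _)
    (star_mul_self_nonneg _)).2 h3
  rw [CStarRing.norm_star_mul_self, ← sq] at h4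
  exact (le_of_sq_le_sq (by simpa using h4) (norm_nonneg _)).trans h1

/-- Recipe: `τ (e b b * n) = τ (e b b' * e b' b * n) = τ (e b' b' * n)`; sum over `b'`. -/
theorem τ_eA_mul [Nonempty D] {n : A} (hn : ∀ k l, Commute (eA ρ k l) n) (b : D) :
    T.τ (eA ρ b b * n) = (Fintype.card D : ℂ)⁻¹ * T.τ n := by
  have h : ∀ b', T.τ (eA ρ b' b' * n) = T.τ (eA ρ b b * n) := fun b' => by
    rw [← eA_mul_eA_same ρ b' b b', mul_assoc, T.tr, (hn b b').eq, mul_assoc, eA_mul_eA_same, T.tr]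
  have h2 : T.τ n = Fintype.card D * T.τ (eA ρ b b * n) := by
    conv_lhs => rw [← one_mul n, ← sum_eA_diag ρ, Finset.sum_mul, map_sum]
    simp [h]
  rw [h2, ← mul_assoc, inv_mul_cancel₀ (by exact_mod_cast Fintype.card_ne_zero), one_mul]

theorem sum_n2_entry_sq (x : A) :
    ∑ b, ∑ c, T.n2 (entry ρ x b c) ^ 2 = Fintype.card D * T.n2 x ^ 2 := by
  have h : ∑ b, ∑ c, T.τ (star (entry ρ x b c) * entry ρ x b c) =
      Fintype.card D * T.τ (star x * x) := by
    rw [Finset.sum_comm]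
    have h1 : ∀ c, ∑ b, T.τ (star (entry ρ x b c) * entry ρ x b c) =
        Fintype.card D * T.τ (eA ρ c c * (star x * x)) := fun c => by
      simp only [star_entry]
      rw [← map_sum, ← entry_mul, entry, map_sum]
      have : ∀ k, T.τ (eA ρ k c * (star x * x) * eA ρ c k) = T.τ (eA ρ c c * (star x * x)) :=
        fun k => by rw [T.tr, ← mul_assoc, eA_mul_eA_same]
      simp [this]
    simp only [h1]
    rw [← Finset.mul_sum, ← map_sum, ← Finset.sum_mul, sum_eA_diag, one_mul]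
  simp only [← T.coe_n2_sq] at h
  exact_mod_cast h

theorem kappa_nonneg (x : A) : 0 ≤ kappa T ρ x := by
  unfold kappa; positivity

/-- Recipe: `star_entry`, `Finset.sum_comm`, and `τ (n⋆ n n⋆ n) = τ (n n⋆ n n⋆)`. -/
theorem kappa_star (x : A) : kappa T ρ (star x) = kappa T ρ x := by
  unfold kappa
  congr 1
  rw [Finset.sum_comm]
  refine Finset.sum_congr rfl fun b _ => Finset.sum_congr rfl fun c _ => ?_
  rw [← star_entry, T.n2_sq, T.n2_sq]
  simp only [star_mul, star_star]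
  rw [mul_assoc, T.tr]
  simp only [mul_assoc]

/-! ### Words -/

@[simp] theorem wordA_nil (V : UG D) : wordA ρ [] V = 1 := rfl

@[simp] theorem wordA_cons (a : A) (L : List A) (V : UG D) :
    wordA ρ (a :: L) V = a * ρ (V : Matrix D D ℂ) * wordA ρ L V := by
  simp [wordA]

theorem wordA_append (L L' : List A) (V : UG D) :
    wordA ρ (L ++ L') V = wordA ρ L V * wordA ρ L' V := by
  simp [wordA]

theorem continuous_wordA (L : List A) : Continuous (wordA ρ L) := by
  induction L with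
  | nil => exact continuous_const
  | cons a L ih =>
    have : wordA ρ (a :: L) = fun V : UG D => a * ρ (V : Matrix D D ℂ) * wordA ρ L V :=
      funext (wordA_cons ρ a L)
    rw [this]
    exact (continuous_const.mul (R124.continuous_rho_coe ρ)).mul ih

theorem wordA_mem_unitary {L : List A} (hL : ∀ a ∈ L, a ∈ unitary A) (V : UG D) :
    wordA ρ L V ∈ unitary A := by
  induction L with
  | nil => exact one_mem _
  | cons a L ih =>
    rw [wordA_cons]
    exact mul_mem (mul_mem (hL a (by simp)) (R124.rho_mem_unitary ρ V))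
      (ih fun b hb => hL b (by simp [hb]))

theorem norm_wordA_le {L : List A} (hL : ∀ a ∈ L, ‖a‖ ≤ 1) (V : UG D) : ‖wordA ρ L V‖ ≤ 1 := by
  induction L with
  | nil => exact (IsStarProjection.one A).norm_le
  | cons a L ih =>
    rw [wordA_cons]
    refine (norm_mul_le _ _).trans (mul_le_one₀ ((norm_mul_le _ _).trans
      (mul_le_one₀ (hL a (by simp)) (norm_nonneg _) (norm_rho_unitary_le ρ V)))
      (norm_nonneg _) (ih fun b hb => hL b (by simp [hb])))

/-- The adjoint of a word at `V⁻¹` is again a word. -/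
theorem star_wordA_inv (a : A) (L : List A) (V : UG D) :
    star (wordA ρ (a :: L) V⁻¹) =
      ρ (V : Matrix D D ℂ) * wordA ρ (L.map star).reverse V * star a := by
  have hv : star (ρ ((V⁻¹ : UG D) : Matrix D D ℂ)) = ρ (V : Matrix D D ℂ) := by
    rw [← map_star, Matrix.UnitaryGroup.inv_val, star_star]
  induction L generalizing a with
  | nil => simp only [wordA_cons, wordA_nil, mul_one, star_mul, hv, List.map_nil, List.reverse_nil]
  | cons b L ih =>
    rw [wordA_cons, star_mul, star_mul, ih, hv, List.map_cons, List.reverse_cons, wordA_append,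
      wordA_cons, wordA_nil]
    simp only [mul_assoc, mul_one]

/-- **Lemma T** in tracial form.  Recipe: GNS.  `letI := CStarAlgebra.spectralOrder A`,
`CStarAlgebra.spectralOrderedRing`, `φ : A →ₚ[ℂ] ℂ` from `T` (positive elements are `star b * b`),
`π = φ.gnsStarAlgHom`, `Ω = (φ.toPreGNS 1 : φ.GNS)`, `‖π x Ω‖ = T.n2 x` (see `R124/Dilate.lean`);
`R124.lemT1 (π.comp ρ) (L.map π) … (R124.Wc.const (A := 1) …)`, `π (cEA ρ x) = R124.cE _ (π x)`,
`π (wordA ρ L V) = R124.word _ (L.map π) V`, `NonUnitalStarAlgHom.norm_apply_le`. -/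
theorem lemT_tr [Nonempty D] {L : List A} (hL : L ≠ []) (hL1 : ∀ a ∈ L, ‖a‖ ≤ 1) {m : ℕ}
    (hm : L.length ≤ m) : ∫ V, T.n2 (cEA ρ (wordA ρ L V)) ∂haar D ≤ tau D m := by
  let _ := CStarAlgebra.spectralOrder A
  have _ := CStarAlgebra.spectralOrderedRing A
  let φ : A →ₚ[ℂ] ℂ := PositiveLinearMap.mk₀ T.τ.toLinearMap fun x hx => by
    obtain ⟨s, rfl⟩ := CStarAlgebra.nonneg_iff_eq_star_mul_self.1 hx
    exact T.pos s
  let π := φ.gnsStarAlgHom
  let Ω : φ.GNS := (φ.toPreGNS 1 : φ.PreGNS)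
  have h1 : ∀ x, ‖π x Ω‖ = T.n2 x := fun x => by
    have h : π x Ω = (φ.leftMulMapPreGNS x (φ.toPreGNS 1) : φ.PreGNS) :=
      φ.gnsNonUnitalStarAlgHom_apply_coe
    rw [h, UniformSpace.Completion.norm_coe, PositiveLinearMap.preGNS_norm_def]
    simp only [PositiveLinearMap.leftMulMapPreGNS_apply, PositiveLinearMap.ofPreGNS_toPreGNS,
      mul_one]
    rfl
  have h2 : ‖Ω‖ = 1 := by
    have := h1 1
    rwa [map_one, T.n2_one] at this
  have h3 : ∀ x, π (cEA ρ x) = R124.cE (π.comp ρ) (π x) := fun x => by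
    simp only [cEA, R124.cE_apply, map_smul, map_sum, map_mul]
    rfl
  have h4 : ∀ V, π (wordA ρ L V) = R124.word (π.comp ρ) (L.map π) V := fun V => by
    simp only [wordA, R124.word, map_list_prod, List.map_map]
    congr 1
    exact List.map_congr_left fun a _ => by simp
  have h5 := R124.lemT1 (π.comp ρ) (L.map π) (by simpa using hL) (fun B hB => by
      obtain ⟨a, ha, rfl⟩ := List.mem_map.1 hB
      exact (NonUnitalStarAlgHom.norm_apply_le π a).trans (hL1 a ha))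
    (R124.Wc.const (A := 1) (IsStarProjection.one _).norm_le) le_rfl (m := m) (by simpa using hm)
    (Nat.cast_nonneg m) Ω
  rw [h2, mul_one] at h5
  simp only [← h1, h3, h4]
  exact h5

theorem sum_eA_mul_eA [Nonempty D] (x : A) :
    ∑ k, ∑ l, eA ρ k l * x * eA ρ l k = (Fintype.card D : ℂ) • cEA ρ x := by
  rw [cEA, smul_smul, mul_inv_cancel₀ (by exact_mod_cast Fintype.card_ne_zero), one_smul]

theorem continuous_cEA : Continuous (cEA ρ) := by
  unfold cEA; fun_prop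

/-! ### Unitary designs -/

/-- A finite family of unitaries with the second moments of Haar measure. -/
def IsDesign {ι : Type} [Fintype ι] (U : ι → UG D) : Prop :=
  ∀ a b c d, ∑ i, (U i : Matrix D D ℂ) a b * starRingEnd ℂ ((U i : Matrix D D ℂ) c d) =
    if a = c ∧ b = d then (Fintype.card ι : ℂ) / Fintype.card D else 0

/-- Recipe: put an `AddCommGroup` structure on `D` (`(Fintype.equivFin D).addCommGroup`),
`ι = (D → Bool) × D`, `U (ε, s) a b = if b = a + s then sg ε a else 0` (`R124.GT.sum_sg_mul`). -/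
theorem exists_design [Nonempty D] :
    ∃ (ι : Type) (_ : Fintype ι) (_ : Nonempty ι) (U : ι → UG D), IsDesign U := by
  have : NeZero (Fintype.card D) := ⟨Fintype.card_ne_zero⟩
  let _ : AddCommGroup D := (Fintype.equivFin D).addCommGroup
  have hsq : ∀ (ε : D → Bool) (a : D), ((R124.GT.sg ε a : ℝ) : ℂ) * (R124.GT.sg ε a : ℝ) = 1 :=
    fun ε a => by
      unfold R124.GT.sg
      split_ifs <;> simp
  refine ⟨(D → Bool) × D, inferInstance, inferInstance, fun i =>
    ⟨Matrix.of fun a b => if b = a + i.2 then ((R124.GT.sg i.1 a : ℝ) : ℂ) else 0, ?_⟩, ?_⟩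
  · rw [Matrix.mem_unitaryGroup_iff]
    ext a c
    rw [Matrix.mul_apply, Finset.sum_eq_single (a + i.2) (fun b _ hb => by simp [hb]) (by simp)]
    by_cases h : a = c
    · subst h
      simp [hsq]
    · simp [h]
  · intro a b c d
    rw [Fintype.sum_prod_type_right, Finset.sum_eq_single (b - a) (fun s _ hs => by
      have : b ≠ a + s := fun h => hs (by rw [h]; abel)
      simp [this]) (by simp)]
    simp only [Matrix.of_apply, add_sub_cancel, if_true]
    by_cases hd : d = c + (b - a)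
    · simp only [if_pos hd, Complex.conj_ofReal, ← Complex.ofReal_mul, ← Complex.ofReal_sum,
        R124.GT.sum_sg_mul]
      by_cases hac : a = c
      · have hbd : b = d := by rw [hd, hac]; abel
        have h0 : (Fintype.card D : ℂ) ≠ 0 := by exact_mod_cast Fintype.card_ne_zero
        rw [if_pos hac, if_pos ⟨hac, hbd⟩, Fintype.card_prod, Nat.cast_mul,
          mul_div_cancel_right₀ _ h0, Complex.ofReal_natCast]
      · simp [hac]
    · rw [if_neg (show ¬(a = c ∧ b = d) from fun h => hd (by rw [← h.1, ← h.2]; abel))]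
      simp [hd]

/-- A bilinear map, bundled. -/
def matBil {E : Type*} [AddCommGroup E] [Module ℂ E] (B : A → A → E)
    (h₁ : ∀ y, IsLinearMap ℂ fun x => B x y) (h₂ : ∀ x, IsLinearMap ℂ (B x)) :
    A →ₗ[ℂ] A →ₗ[ℂ] E :=
  LinearMap.mk₂ ℂ B (fun x x' y => (h₁ y).map_add x x') (fun c x y => (h₁ y).map_smul c x)
    (fun x y y' => (h₂ x).map_add y y') (fun c x y => (h₂ x).map_smul c y)

theorem mat_bil_sum {E : Type*} [AddCommGroup E] [Module ℂ E] (B : A → A → E)
    (h₁ : ∀ y, IsLinearMap ℂ fun x => B x y) (h₂ : ∀ x, IsLinearMap ℂ (B x)) {α : Type}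
    [Fintype α] (u : α → ℂ) (x y : α → A) :
    B (∑ i, u i • x i) (∑ j, starRingEnd ℂ (u j) • y j) =
      ∑ i, ∑ j, (u i * starRingEnd ℂ (u j)) • B (x i) (y j) := by
  change matBil B h₁ h₂ _ _ = ∑ i, ∑ j, _ • matBil B h₁ h₂ (x i) (y j)
  simp only [map_sum, map_smul, LinearMap.sum_apply, LinearMap.smul_apply, Finset.smul_sum,
    smul_smul]
  rw [Finset.sum_comm]
  simp only [mul_comm]

/-- Recipe: expand with `rho_eq_sum`. -/
theorem IsDesign.sum_bilin [Nonempty D] {ι : Type} [Fintype ι] [Nonempty ι] {U : ι → UG D}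
    (hU : IsDesign U) {E : Type*} [AddCommGroup E] [Module ℂ E] (B : A → A → E)
    (h₁ : ∀ y, IsLinearMap ℂ fun x => B x y) (h₂ : ∀ x, IsLinearMap ℂ (B x)) :
    (Fintype.card D : ℂ)⁻¹ • ∑ c, ∑ d, B (eA ρ c d) (eA ρ d c) =
      (Fintype.card ι : ℂ)⁻¹ • ∑ i, B (ρ (U i : Matrix D D ℂ)) (star (ρ (U i : Matrix D D ℂ))) := by
  have h : ∀ i, B (ρ (U i : Matrix D D ℂ)) (star (ρ (U i : Matrix D D ℂ))) =
      ∑ p : D × D, ∑ q : D × D, ((U i : Matrix D D ℂ) p.1 p.2 *
        starRingEnd ℂ ((U i : Matrix D D ℂ) q.1 q.2)) • B (eA ρ p.1 p.2) (eA ρ q.2 q.1) := fun i => by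
    rw [← mat_bil_sum B h₁ h₂ (fun p : D × D => (U i : Matrix D D ℂ) p.1 p.2), rho_eq_sum,
      ← Fintype.sum_prod_type']
    simp only [star_sum, star_smul, star_eA, RCLike.star_def]
  simp only [h]
  rw [Finset.sum_comm (s := (Finset.univ : Finset ι))]
  have h3 : ∀ p : D × D, ∑ i, ∑ q : D × D, ((U i : Matrix D D ℂ) p.1 p.2 *
      starRingEnd ℂ ((U i : Matrix D D ℂ) q.1 q.2)) • B (eA ρ p.1 p.2) (eA ρ q.2 q.1) =
      ((Fintype.card ι : ℂ) / Fintype.card D) • B (eA ρ p.1 p.2) (eA ρ p.2 p.1) := fun p => by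
    rw [Finset.sum_comm, Finset.sum_eq_single p]
    · rw [← Finset.sum_smul, hU, if_pos ⟨rfl, rfl⟩]
    · intro q _ hq
      rw [← Finset.sum_smul, hU, if_neg fun h => hq (Prod.ext h.1 h.2).symm, zero_smul]
    · simp
  have h0 : (Fintype.card ι : ℂ) ≠ 0 := by exact_mod_cast Fintype.card_ne_zero
  simp only [h3]
  rw [← Finset.smul_sum, smul_smul, ← Fintype.sum_prod_type', div_eq_mul_inv, ← mul_assoc,
    inv_mul_cancel₀ h0, one_mul]

/-- Unitary invariance.  Recipe: `ρ V * e c d = ∑ k, V k c • e k d`,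
`e d c * star (ρ V) = ∑ l, conj (V l c) • e d l`, `∑ c, V k c * conj (V l c) = δ k l`. -/
theorem sum_bilin_inv {E : Type*} [AddCommGroup E] [Module ℂ E] (B : A → A → E)
    (h₁ : ∀ y, IsLinearMap ℂ fun x => B x y) (h₂ : ∀ x, IsLinearMap ℂ (B x)) (V : UG D) :
    ∑ c, ∑ d, B (ρ (V : Matrix D D ℂ) * eA ρ c d) (eA ρ d c * star (ρ (V : Matrix D D ℂ))) =
      ∑ c, ∑ d, B (eA ρ c d) (eA ρ d c) := by
  have e1 : ∀ c d, ρ (V : Matrix D D ℂ) * eA ρ c d = ∑ k, (V : Matrix D D ℂ) k c • eA ρ k d :=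
    fun c d => by
      rw [rho_eq_sum, Finset.sum_mul]
      refine Finset.sum_congr rfl fun k _ => ?_
      rw [Finset.sum_mul, Finset.sum_eq_single c]
      · rw [smul_mul_assoc, eA_mul_eA_same]
      · intro l _ hl
        rw [smul_mul_assoc, eA_mul_eA, if_neg hl, smul_zero]
      · simp
  have e2 : ∀ c d, eA ρ d c * star (ρ (V : Matrix D D ℂ)) =
      ∑ l, starRingEnd ℂ ((V : Matrix D D ℂ) l c) • eA ρ d l := fun c d => by
    rw [← star_eA ρ c d, ← star_mul, e1]
    simp only [star_sum, star_smul, star_eA, RCLike.star_def]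
  have e3 : ∀ k l, ∑ c, (V : Matrix D D ℂ) k c * starRingEnd ℂ ((V : Matrix D D ℂ) l c) =
      if k = l then 1 else 0 := fun k l => by
    have := congrFun (congrFun (Matrix.mem_unitaryGroup_iff.1 V.2) k) l
    rwa [Matrix.mul_apply, Matrix.one_apply] at this
  simp only [e1, e2, mat_bil_sum B h₁ h₂]
  rw [Finset.sum_comm, Finset.sum_comm (f := fun c d => B (eA ρ c d) (eA ρ d c))]
  refine Finset.sum_congr rfl fun d _ => ?_
  rw [Finset.sum_comm]
  refine Finset.sum_congr rfl fun k _ => ?_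
  rw [Finset.sum_comm]
  simp only [← Finset.sum_smul, e3, ite_smul, one_smul, zero_smul, Finset.sum_ite_eq,
    Finset.mem_univ, if_true]

/-- A flat unitary.  Recipe: the Fourier matrix, e.g. from `ZMod (card D)` and
`ZMod.stdAddChar` (`AddChar.sum_mulShift`), transported along an equivalence. -/
theorem exists_flat [Nonempty D] :
    ∃ U : UG D, ∀ a b, ‖(U : Matrix D D ℂ) a b‖ ^ 2 = (Fintype.card D : ℝ)⁻¹ := by
  have : NeZero (Fintype.card D) := ⟨Fintype.card_ne_zero⟩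
  set n := Fintype.card D with hn
  have hn0 : (0 : ℝ) < n := by exact_mod_cast Fintype.card_pos
  let e : D ≃ ZMod n := Fintype.equivOfCardEq (by rw [ZMod.card])
  have hs : (((√n)⁻¹ : ℝ) : ℂ) * ((√n)⁻¹ : ℝ) = (n : ℂ)⁻¹ := by
    rw [← Complex.ofReal_mul, ← mul_inv, Real.mul_self_sqrt hn0.le]
    simp
  refine ⟨⟨Matrix.of fun a b => (((√n)⁻¹ : ℝ) : ℂ) * ZMod.stdAddChar (e a * e b), ?_⟩,
    fun a b => ?_⟩
  · rw [Matrix.mem_unitaryGroup_iff]
    ext a c
    have h1 : ∀ b, (((√n)⁻¹ : ℝ) : ℂ) * ZMod.stdAddChar (e a * e b) *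
        star ((((√n)⁻¹ : ℝ) : ℂ) * ZMod.stdAddChar (e c * e b)) =
        (n : ℂ)⁻¹ * ZMod.stdAddChar (e b * (e a - e c)) := fun b => by
      rw [RCLike.star_def, map_mul (starRingEnd ℂ), Complex.conj_ofReal, ← AddChar.map_neg_eq_conj,
        mul_mul_mul_comm, hs, ← AddChar.map_add_eq_mul]
      congr 2
      ring
    simp only [Matrix.mul_apply, Matrix.star_apply, Matrix.of_apply, h1]
    rw [← Finset.mul_sum, e.sum_comp fun x => ZMod.stdAddChar (x * (e a - e c)),
      AddChar.sum_mulShift _ (ZMod.isPrimitive_stdAddChar n), Matrix.one_apply, ZMod.card]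
    by_cases h : a = c
    · have h0 : (n : ℂ) ≠ 0 := by exact_mod_cast hn0.ne'
      simp [h, h0]
    · simp [h, sub_eq_zero]
  · simp only [Matrix.of_apply, norm_mul, AddChar.norm_apply, mul_one, Complex.norm_real]
    rw [Real.norm_eq_abs, sq_abs, inv_pow, Real.sq_sqrt hn0.le]

/-! ### The class `InL` -/

theorem shiftL_apply (Φ : A →L[ℂ] A) (a x : A) : shiftL Φ a x = star a * Φ (a * x) := rfl

theorem shiftL_shiftL (Φ : A →L[ℂ] A) (a b : A) : shiftL (shiftL Φ a) b = shiftL Φ (a * b) := by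
  ext x; simp [shiftL_apply, mul_assoc]

theorem shiftL_one (Φ : A →L[ℂ] A) : shiftL Φ 1 = Φ := by
  ext x; simp [shiftL_apply]

theorem Fv_shiftL (Φ : A →L[ℂ] A) (a g : A) : Fv T (shiftL Φ a) g = Fv T Φ (a * g) := by
  rw [Fv, Fv, shiftL_apply, mul_assoc, T.tr, star_mul, mul_assoc]

variable {T} in
/-- `x ↦ a * Φ (b * x * c) * d` stays in the class. -/
theorem InL.sandwich {Φ : A →L[ℂ] A} (h : InL T Φ) {a b c d : A} (ha : ‖a‖ ≤ 1) (hb : ‖b‖ ≤ 1)
    (hc : ‖c‖ ≤ 1) (hd : ‖d‖ ≤ 1) : InL T (Lm a ∘L Rm d ∘L Φ ∘L Lm b ∘L Rm c) := by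
  have key : ∀ N : A → ℝ, (∀ x, 0 ≤ N x) → (∀ u x, N (u * x) ≤ ‖u‖ * N x) →
      (∀ x u, N (x * u) ≤ N x * ‖u‖) → (∀ x, N (Φ x) ≤ N x) →
      ∀ x, N (a * (Φ (b * (x * c)) * d)) ≤ N x := fun N h0 h1 h2 h3 x =>
    calc N (a * (Φ (b * (x * c)) * d)) ≤ N (Φ (b * (x * c)) * d) :=
          (h1 _ _).trans (mul_le_of_le_one_left (h0 _) ha)
      _ ≤ N (Φ (b * (x * c))) := (h2 _ _).trans (mul_le_of_le_one_right (h0 _) hd)
      _ ≤ N (b * (x * c)) := h3 _
      _ ≤ N (x * c) := (h1 _ _).trans (mul_le_of_le_one_left (h0 _) hb)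
      _ ≤ N x := (h2 _ _).trans (mul_le_of_le_one_right (h0 _) hc)
  refine ⟨ContinuousLinearMap.opNorm_le_bound _ zero_le_one fun x => ?_,
    key T.n2 T.n2_nonneg T.n2_mul_le_left T.n2_mul_le_right h.n2_le⟩
  rw [one_mul]
  exact key norm norm_nonneg norm_mul_le norm_mul_le
    (fun y => by simpa using Φ.le_of_opNorm_le h.norm_le y) x

variable {T} in
theorem InL.shiftL {Φ : A →L[ℂ] A} (h : InL T Φ) {a : A} (ha : ‖a‖ ≤ 1) :
    InL T (shiftL Φ a) := by
  have h1 : ‖(1 : A)‖ ≤ 1 := (IsStarProjection.one A).norm_le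
  have h2 := h.sandwich (a := star a) (by rwa [norm_star]) ha h1 h1
  convert h2 using 1
  ext x
  simp [shiftL_apply]

variable {T} in
theorem InL.norm_τ_le {Φ : A →L[ℂ] A} (h : InL T Φ) (a c : A) :
    ‖T.τ (Φ a * c)‖ ≤ T.n2 a * T.n2 c :=
  (T.norm_τ_mul_le _ _).trans (mul_le_mul_of_nonneg_right (h.n2_le a) (T.n2_nonneg c))

theorem continuous_Fv (Φ : A →L[ℂ] A) : Continuous (Fv T Φ) := by
  unfold Fv; fun_prop

theorem avgG_apply (Φ : A →L[ℂ] A) (x : A) :
    avgG ρ Φ x = (Fintype.card D : ℂ)⁻¹ • ∑ c, ∑ d, eA ρ d c * Φ (eA ρ c d * x) := by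
  simp [avgG]

theorem mat_lin₁ (Φ : A →L[ℂ] A) (z y : A) : IsLinearMap ℂ fun x => y * Φ (x * z) :=
  ⟨fun _ _ => by rw [add_mul, map_add, mul_add],
    fun _ _ => by rw [smul_mul_assoc, map_smul, mul_smul_comm]⟩

theorem mat_lin₂ (Φ : A →L[ℂ] A) (z x : A) : IsLinearMap ℂ fun y => y * Φ (x * z) :=
  ⟨fun _ _ => add_mul _ _ _, fun _ _ => smul_mul_assoc _ _ _⟩

/-- Recipe: `sum_bilin_inv` with `B x y = y * Φ (x * z)`. -/
theorem avgG_shiftL (Φ : A →L[ℂ] A) (V : UG D) :
    avgG ρ (shiftL Φ (ρ (V : Matrix D D ℂ))) = avgG ρ Φ := by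
  ext z
  rw [avgG_apply, avgG_apply,
    ← sum_bilin_inv ρ (fun x y => y * Φ (x * z)) (mat_lin₁ Φ z) (mat_lin₂ Φ z) V]
  simp only [shiftL_apply, mul_assoc]

/-- Recipe: `IsDesign.sum_bilin` with `B x y = y * Φ (x * z)`. -/
theorem IsDesign.avgG [Nonempty D] {ι : Type} [Fintype ι] [Nonempty ι] {U : ι → UG D}
    (hU : IsDesign U) (Φ : A →L[ℂ] A) :
    avgG ρ Φ = (Fintype.card ι : ℂ)⁻¹ • ∑ i, shiftL Φ (ρ (U i : Matrix D D ℂ)) := by
  ext z
  rw [avgG_apply, hU.sum_bilin ρ (fun x y => y * Φ (x * z)) (mat_lin₁ Φ z) (mat_lin₂ Φ z)]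
  simp [shiftL_apply]

end

end Crest.Agent.R121
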