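import Crest.Agent.R121.Mat

/-!
# Row 121: the pivot lemma (Schwinger–Dyson equation for a bilinear form in two words)
-/

open MeasureTheory
open scoped InnerProductSpace ComplexOrder Topology

set_option linter.unusedSectionVars false

namespace Crest.Agent.R121

open R124 (UG haar tau)

noncomputable section

variable {A : Type*} [CStarAlgebra A] {D : Type} [Fintype D] [DecidableEq D]
  (T : TrState A) (ρ : Matrix D D ℂ →⋆ₐ[ℂ] A)

/-- The form `(a, c) ↦ conj (β c⋆ a⋆)`. -/
def Bil.adj (β : Bil A) : Bil A :=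
  Bil.ofL (LinearMap.mkContinuous₂ (LinearMap.mk₂ ℂ
    (fun a c => starRingEnd ℂ (β (star c) (star a)))
    (fun a a' c => by simp [star_add])
    (fun z a c => by simp [star_smul])
    (fun a c c' => by simp [star_add])
    (fun z a c => by simp [star_smul])) ‖β‖ fun a c => by
      simpa [mul_right_comm] using β.norm_apply_le (star c) (star a))

@[simp] theorem Bil.adj_apply (β : Bil A) (a c : A) :
    β.adj a c = starRingEnd ℂ (β (star c) (star a)) := rfl

@[fun_prop] theorem Bil.continuous_comp {X : Type*} [TopologicalSpace X] (β : Bil A)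
    {f g : X → A} (hf : Continuous f) (hg : Continuous g) :
    Continuous fun x => β.toL (f x) (g x) :=
  (β.toL.continuous.comp hf).clm_apply hg

attribute [local fun_prop] continuous_wordA continuous_cEA

theorem SD_bil (β : Bil A) {X Y : UG D → A} {G G' : UG D → Matrix D D ℂ → A}
    (hX : R124.SD X G) (hY : R124.SD Y G') :
    R124.SD (fun V => β (X V) (Y V)) (fun V Z => β (G V Z) (Y V) + β (X V) (G' V Z)) where
  contT := β.continuous_comp hX.contT hY.contT
  contG Z := (β.continuous_comp (hX.contG Z) hY.contT).add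
    (β.continuous_comp hX.contT (hY.contG Z))
  lin V := ⟨fun Z W => by
      rw [(hX.lin V).map_add, (hY.lin V).map_add]
      simp only [map_add, _root_.add_apply]
      ring,
    fun c Z => by
      rw [(hX.lin V).map_smul, (hY.lin V).map_smul]
      simp only [map_smul, _root_.smul_apply, smul_add]⟩
  deriv Z hZ V := by
    have := (β.toL.bilinearRestrictScalars ℝ).hasDerivAt_of_bilinear
      (fun _ => hX.deriv Z hZ V) (fun _ => hY.deriv Z hZ V)
    simp only [R124.expU_zero, mul_one,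
      ContinuousLinearMap.bilinearRestrictScalars_apply_apply] at this
    rw [add_comm]
    exact this

theorem SD_wordA (L : List A) : R124.SD (wordA ρ L) fun V Z => ∑ j ∈ Finset.range L.length,
    wordA ρ (L.take (j + 1)) V * ρ Z * wordA ρ (L.drop (j + 1)) V := by
  induction L with
  | nil => exact (R124.SD.const (1 : A)).congr (fun _ => rfl) (fun _ _ => by simp)
  | cons a L ih =>
    refine (((R124.SD.const a).mul (R124.SD.rho ρ)).mul ih).congr
      (fun V => (wordA_cons ρ a L V).symm) fun V Z => ?_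
    rw [List.length_cons, Finset.sum_range_succ']
    simp only [List.take_succ_cons, List.drop_succ_cons, wordA_cons, List.take_zero,
      List.drop_zero, wordA_nil, Finset.mul_sum, mul_assoc, zero_mul, zero_add, one_mul]
    rw [add_comm]

theorem cEA_one [Nonempty D] : cEA ρ 1 = 1 := by
  simp only [cEA, mul_one, eA_mul_eA_same, Finset.sum_const, Finset.card_univ,
    ← Finset.smul_sum, sum_eA_diag]
  rw [← Nat.cast_smul_eq_nsmul ℂ, smul_smul,
    inv_mul_cancel₀ (by exact_mod_cast Fintype.card_ne_zero), one_smul]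

theorem Bil.avg_left (β : Bil A) (p x q s : A) :
    (Fintype.card D : ℂ)⁻¹ * ∑ c, ∑ d, β (p * eA ρ c d * x * eA ρ d c * q) s =
      β (p * cEA ρ x * q) s := by
  simp only [cEA, mul_smul_comm, smul_mul_assoc, Finset.mul_sum, Finset.sum_mul, map_smul, map_sum,
    _root_.smul_apply, _root_.sum_apply, smul_eq_mul, mul_assoc]

theorem SD_avg {F : D → D → UG D → ℂ} {G : D → D → UG D → Matrix D D ℂ → ℂ}
    (h : ∀ c d, R124.SD (F c d) (G c d)) :
    ∫ V, (Fintype.card D : ℂ)⁻¹ * ∑ c, ∑ d, G c d V (Matrix.single d c 1) ∂haar D = 0 := by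
  rw [integral_const_mul, integral_finsetSum _ fun c _ => integrable_finsetSum _ fun d _ =>
    R124.integrable_haar ((h c d).contG (Matrix.single d c 1))]
  rw [Finset.sum_eq_zero, mul_zero]
  intro c _
  rw [integral_finsetSum _ fun d _ =>
    R124.integrable_haar ((h c d).contG (Matrix.single d c 1))]
  exact Finset.sum_eq_zero fun d _ => (h c d).integral_eq_zero _

/-- The exact Schwinger–Dyson identity behind the pivot lemma. -/
theorem pivot_id [Nonempty D] (β : Bil A) (L₁ L₂ R : List A) (y₀ y₁ : A) :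
    (∑ j ∈ Finset.range L₁.length, ∫ V, β (wordA ρ (L₁.take (j + 1)) V *
        cEA ρ (wordA ρ (L₁.drop (j + 1)) V) * (y₀ * wordA ρ L₂ V))
        (star (y₁ * wordA ρ R V)) ∂haar D) +
      (∑ j ∈ Finset.range L₂.length, ∫ V, β (wordA ρ L₁ V *
        cEA ρ (y₀ * wordA ρ (L₂.take (j + 1)) V) * wordA ρ (L₂.drop (j + 1)) V)
        (star (y₁ * wordA ρ R V)) ∂haar D) =
      ∑ j ∈ Finset.range R.length, ∫ V, (Fintype.card D : ℂ)⁻¹ * ∑ c, ∑ d,
        β (wordA ρ L₁ V * eA ρ c d * y₀ * wordA ρ L₂ V)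
          (star (y₁ * wordA ρ (R.take (j + 1)) V * eA ρ c d * wordA ρ (R.drop (j + 1)) V))
        ∂haar D := by
  have h := fun c d => SD_bil β
    ((((SD_wordA ρ L₁).mul (R124.SD.const (eA ρ c d))).mul (R124.SD.const y₀)).mul
      (SD_wordA ρ L₂)) ((R124.SD.const y₁).mul (SD_wordA ρ R)).star
  have key := SD_avg h
  rw [← sub_eq_zero, ← key, ← integral_finsetSum, ← integral_finsetSum, ← integral_finsetSum,
    ← integral_add, ← integral_sub]
  · refine integral_congr_ae (Filter.Eventually.of_forall fun V => ?_)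
    have hs : ∀ c d : D, ρ (star (Matrix.single d c (1 : ℂ))) = eA ρ c d := fun c d => by
      rw [map_star]; exact star_eA ρ d c
    have he : ∀ c d : D, ρ (Matrix.single d c (1 : ℂ)) = eA ρ d c := fun _ _ => rfl
    have hc : ∀ (s : Finset ℕ) (f : ℕ → D → D → ℂ),
        ∑ j ∈ s, ∑ c, ∑ d, f j c d = ∑ c, ∑ d, ∑ j ∈ s, f j c d := fun s f => by
      rw [Finset.sum_comm]
      exact Finset.sum_congr rfl fun c _ => Finset.sum_comm
    simp only [hs, he, ← Bil.avg_left ρ β, ← Finset.mul_sum (a := (Fintype.card D : ℂ)⁻¹), hc]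
    rw [Finset.sum_comm, ← mul_add, ← mul_sub]
    congr 1
    simp only [← Finset.sum_add_distrib, ← Finset.sum_sub_distrib]
    refine Finset.sum_congr rfl fun c _ => Finset.sum_congr rfl fun d _ => ?_
    simp only [mul_zero, zero_mul, add_zero, zero_add, map_add, map_neg, _root_.add_apply,
      Finset.sum_mul, Finset.mul_sum, star_sum, map_sum, _root_.sum_apply, mul_assoc,
      sub_eq_add_neg]
  all_goals first
    | exact R124.integrable_haar (by fun_prop)
    | exact fun _ _ => R124.integrable_haar (by fun_prop)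

/-- **Pivot lemma.**  Recipe: first prove `SD` for `V ↦ β (X V) (Y V)` from `SD X G`, `SD Y G'`
(derivative `β (G V Z) (Y V) + β (X V) (G' V Z)`) and
`SD (wordA ρ L) fun V Z => ∑ j ∈ range L.length,
  wordA ρ (L.take (j+1)) V * ρ Z * wordA ρ (L.drop (j+1)) V` (induction on `L`, `SD.mul`,
`SD.rho`, `Finset.sum_range_succ'`; compare `R124/LemTAux.lean`).  Apply
`R124.SD.integral_eq_zero` to
`V ↦ β (word L₁ * e c d * y₀ * word L₂) (star (y₁ * word R))` in the direction
`Matrix.single d c 1` and sum over `c d`, divide by `card D`.  The last position of `L₁` gives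
`∑ c d, e d c * e c d = card D`, i.e. the first integral; `SD.star` gives minus the sum over `j`;
the other positions of `L₁` give `β (word take * cEA (word drop) * y₀ * word L₂) _`
(`sum_eA_mul_eA`), the positions of `L₂` give
`β (word L₁ * cEA (y₀ * word (take (i+1) L₂)) * word drop) _`, and
`y₀ * word (a :: L) = word (y₀ * a :: L)`.  Each of them has norm at most
`T.n2 (cEA ρ (word _))` (`n2_mul_le_left`, `n2_mul_le_right`, `n2_le_norm`, `norm_wordA_le`),
whose integral is at most `tau D m` by `lemT_tr`. -/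
theorem pivot [Nonempty D] (β : Bil A) (hβ : ∀ a c, ‖β a c‖ ≤ T.n2 a * T.n2 c)
    {L₁ L₂ R : List A} {y₀ y₁ : A} (hne : L₁ ≠ []) (h₁ : ∀ a ∈ L₁, ‖a‖ ≤ 1)
    (h₂ : ∀ a ∈ L₂, ‖a‖ ≤ 1) (hR : ∀ a ∈ R, ‖a‖ ≤ 1) (hy₀ : ‖y₀‖ ≤ 1) (hy₁ : ‖y₁‖ ≤ 1)
    {m : ℕ} (hm₁ : L₁.length ≤ m) (hm₂ : L₂.length ≤ m) :
    ‖(∫ V, β (wordA ρ L₁ V * y₀ * wordA ρ L₂ V) (star (y₁ * wordA ρ R V)) ∂haar D) -
      ∑ j ∈ Finset.range R.length, ∫ V, (Fintype.card D : ℂ)⁻¹ * ∑ c, ∑ d,
        β (wordA ρ L₁ V * eA ρ c d * y₀ * wordA ρ L₂ V)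
          (star (y₁ * wordA ρ (R.take (j + 1)) V * eA ρ c d * wordA ρ (R.drop (j + 1)) V))
        ∂haar D‖ ≤ (L₁.length + L₂.length : ℕ) * tau D m := by
  obtain ⟨n, hn⟩ : ∃ n, L₁.length = n + 1 :=
    Nat.exists_eq_succ_of_ne_zero (by simpa using hne)
  have hτ := R124.tau_nonneg (D := D) m
  have hS : ∀ V, T.n2 (star (y₁ * wordA ρ R V)) ≤ 1 := fun V => by
    rw [T.n2_star]
    exact (T.n2_le_norm _).trans ((norm_mul_le _ _).trans
      (mul_le_one₀ hy₁ (norm_nonneg _) (norm_wordA_le ρ hR V)))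
  have hb : ∀ {p q : UG D → A} {L : List A}, (∀ V, ‖p V‖ ≤ 1) → (∀ V, ‖q V‖ ≤ 1) → L ≠ [] →
      (∀ a ∈ L, ‖a‖ ≤ 1) → L.length ≤ m →
      ‖∫ V, β (p V * cEA ρ (wordA ρ L V) * q V) (star (y₁ * wordA ρ R V)) ∂haar D‖ ≤ tau D m := by
    intro p q L hp hq hL hL1 hLm
    refine le_trans (norm_integral_le_of_norm_le (R124.integrable_haar
      (T.continuous_n2.comp ((continuous_cEA ρ).comp (continuous_wordA ρ L))))
      (Filter.Eventually.of_forall fun V => ?_)) (lemT_tr T ρ hL hL1 hLm)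
    refine (hβ _ _).trans ((mul_le_of_le_one_right (T.n2_nonneg _) (hS V)).trans ?_)
    refine (T.n2_mul_le_right _ _).trans ((mul_le_of_le_one_right (T.n2_nonneg _) (hq V)).trans ?_)
    exact (T.n2_mul_le_left _ _).trans (mul_le_of_le_one_left (T.n2_nonneg _) (hp V))
  rw [← pivot_id, hn, Finset.sum_range_succ, ← hn, List.take_length, List.drop_length]
  simp only [wordA_nil, cEA_one, mul_one, ← mul_assoc]
  rw [add_right_comm, sub_add_cancel_right, norm_neg]
  refine (norm_add_le _ _).trans ?_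
  have e₁ : ‖∑ j ∈ Finset.range n, ∫ V, β (wordA ρ (L₁.take (j + 1)) V *
      cEA ρ (wordA ρ (L₁.drop (j + 1)) V) * y₀ * wordA ρ L₂ V)
      (star (y₁ * wordA ρ R V)) ∂haar D‖ ≤ n * tau D m := by
    refine (norm_sum_le_of_le _ (n := fun _ => tau D m) fun j hj => ?_).trans (by simp)
    have hj' := Finset.mem_range.1 hj
    simp only [mul_assoc _ y₀]
    refine hb (fun V => norm_wordA_le ρ (fun a ha => h₁ a (List.mem_of_mem_take ha)) V)
      (fun V => (norm_mul_le _ _).trans
        (mul_le_one₀ hy₀ (norm_nonneg _) (norm_wordA_le ρ h₂ V)))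
      (by rw [Ne, List.drop_eq_nil_iff]; omega)
      (fun a ha => h₁ a (List.mem_of_mem_drop ha)) (by rw [List.length_drop]; omega)
  have e₂ : ‖∑ j ∈ Finset.range L₂.length, ∫ V, β (wordA ρ L₁ V *
      cEA ρ (y₀ * wordA ρ (L₂.take (j + 1)) V) * wordA ρ (L₂.drop (j + 1)) V)
      (star (y₁ * wordA ρ R V)) ∂haar D‖ ≤ L₂.length * tau D m := by
    refine (norm_sum_le_of_le _ (n := fun _ => tau D m) fun j hj => ?_).trans (by simp)
    have hj' := Finset.mem_range.1 hj
    obtain _ | ⟨a, L⟩ := L₂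
    · simp at hj'
    have e : ∀ V, y₀ * wordA ρ ((a :: L).take (j + 1)) V =
        wordA ρ ((y₀ * a) :: L.take j) V := fun V => by
      simp only [List.take_succ_cons, wordA_cons, mul_assoc]
    simp only [e]
    refine hb (fun V => norm_wordA_le ρ h₁ V)
      (fun V => norm_wordA_le ρ (fun a ha => h₂ a (List.mem_of_mem_drop ha)) V)
      (List.cons_ne_nil _ _) (fun b hb => ?_) ?_
    · rcases List.mem_cons.1 hb with rfl | hb
      · exact (norm_mul_le _ _).trans (mul_le_one₀ hy₀ (norm_nonneg _) (h₂ a (by simp)))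
      · exact h₂ b (List.mem_cons_of_mem _ (List.mem_of_mem_take hb))
    · simp only [List.length_cons, List.length_take] at hm₂ ⊢
      omega
  refine (add_le_add e₁ e₂).trans ?_
  rw [hn]
  push_cast
  nlinarith

/-- Pivot in the right argument.  Recipe: `pivot` for `β.adj`, `integral_conj`. -/
theorem pivot_right [Nonempty D] (β : Bil A) (hβ : ∀ a c, ‖β a c‖ ≤ T.n2 a * T.n2 c)
    {L₁ L₂ R : List A} {y₀ y₁ : A} (hne : L₁ ≠ []) (h₁ : ∀ a ∈ L₁, ‖a‖ ≤ 1)
    (h₂ : ∀ a ∈ L₂, ‖a‖ ≤ 1) (hR : ∀ a ∈ R, ‖a‖ ≤ 1) (hy₀ : ‖y₀‖ ≤ 1) (hy₁ : ‖y₁‖ ≤ 1)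
    {m : ℕ} (hm₁ : L₁.length ≤ m) (hm₂ : L₂.length ≤ m) :
    ‖(∫ V, β (y₁ * wordA ρ R V) (star (wordA ρ L₁ V * y₀ * wordA ρ L₂ V)) ∂haar D) -
      ∑ j ∈ Finset.range R.length, ∫ V, (Fintype.card D : ℂ)⁻¹ * ∑ c, ∑ d,
        β (y₁ * wordA ρ (R.take (j + 1)) V * eA ρ c d * wordA ρ (R.drop (j + 1)) V)
          (star (wordA ρ L₁ V * eA ρ c d * y₀ * wordA ρ L₂ V))
        ∂haar D‖ ≤ (L₁.length + L₂.length : ℕ) * tau D m := by
  have h := pivot T ρ β.adj (fun a c => by
    rw [Bil.adj_apply, Complex.norm_conj, mul_comm, ← T.n2_star a, ← T.n2_star c]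
    exact hβ _ _) hne h₁ h₂ hR hy₀ hy₁ hm₁ hm₂
  rw [← Complex.norm_conj] at h
  simp only [map_sub, map_sum, ← integral_conj, map_mul, Bil.adj_apply, Complex.conj_conj,
    star_star, map_inv₀, Complex.conj_natCast] at h
  exact h

end

end Crest.Agent.R121
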