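import Crest.Agent.R121.Tr
import Crest.Agent.R121.Spec

/-!
# Row 121: smoothing (every bounded map becomes `L²`-bounded) and central linearity
-/

open scoped InnerProductSpace ComplexOrder Topology
open Filter

set_option linter.unusedSectionVars false

namespace Crest.Agent.R121

noncomputable section

variable {H : Type*} [NormedAddCommGroup H] [InnerProductSpace ℂ H] [CompleteSpace H]
  {M : VonNeumannAlgebra H}

/-- The 2-norm is lower semicontinuous for weak limits.  Recipe: `c = star (wlim 𝒰 X)`,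
`tendsto_wlim` for the normal functional `τ (c ·)` (`IsNormal.mul`), `norm_τ_mul_le`. -/
theorem n2_wlim_le (T : TrState (Alg M)) (hT : IsNormal M T.τ) {ι : Type*} (𝒰 : Ultrafilter ι)
    {X : ι → Alg M} {C c : ℝ} (hX : ∀ i, ‖X i‖ ≤ C)
    (h : ∀ ε > 0, ∀ᶠ i in 𝒰, T.n2 (X i) ≤ c + ε) : T.n2 (wlim 𝒰 X) ≤ c := by
  refine le_of_forall_pos_le_add fun ε hε => ?_
  have h0 : 0 ≤ c + ε := by
    obtain ⟨i, hi⟩ := (h ε hε).exists
    exact (T.n2_nonneg _).trans hi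
  have h1 := (tendsto_wlim 𝒰 hX (hT.mul (star (wlim 𝒰 X)) 1)).norm
  have e : ∀ x, (T.τ.comp ((Lm (star (wlim 𝒰 X))).comp (Rm 1))) x = T.τ (star (wlim 𝒰 X) * x) :=
    fun x => by simp
  simp only [e] at h1
  have h2 : ‖T.τ (star (wlim 𝒰 X) * wlim 𝒰 X)‖ ≤ T.n2 (wlim 𝒰 X) * (c + ε) :=
    le_of_tendsto h1 ((h ε hε).mono fun i hi => (T.norm_τ_star_mul_le _ _).trans
      (mul_le_mul_of_nonneg_left hi (T.n2_nonneg _)))
  rw [← T.coe_n2_sq, Complex.norm_real, Real.norm_of_nonneg (sq_nonneg _), sq] at h2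
  rcases (T.n2_nonneg (wlim 𝒰 X)).eq_or_lt with h3 | h3
  · rw [← h3]; exact h0
  · exact le_of_mul_le_mul_left h2 h3

/-- Passing to an ultralimit of averaging elements. -/
theorem Smooth_lim {X : Type*} (Q : X → ℝ → Dg (Alg M) → Prop)
    (hmono : ∀ x δ ε t, δ ≤ ε → Q x δ t → Q x ε t)
    (hQ : ∀ (S : Finset X) (ε : ℝ), 0 < ε → ∃ t : Dg (Alg M), ‖t‖ ≤ 1 ∧
      Pt M t (ContinuousLinearMap.id ℂ _) = 1 ∧ ∀ x ∈ S, Q x ε t) :
    ∃ (𝒰 : Ultrafilter (Finset X × ℕ)) (t : Finset X × ℕ → Dg (Alg M)), (∀ i, ‖t i‖ ≤ 1) ∧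
      Pt M (ulimL 𝒰 t) (ContinuousLinearMap.id ℂ _) = 1 ∧
      ∀ x, ∀ ε > 0, ∀ᶠ i in 𝒰, Q x ε (t i) := by
  classical
  choose t h1 h2 h3 using fun i : Finset X × ℕ =>
    hQ i.1 (1 / ((i.2 : ℝ) + 1)) Nat.one_div_pos_of_nat
  refine ⟨Ultrafilter.of atTop, t, h1, ?_, fun x ε hε => ?_⟩
  · rw [Pt_ulimL _ h1]
    simp only [h2]
    exact wlim_const _ _
  · obtain ⟨n, hn⟩ := exists_nat_one_div_lt hε
    refine Ultrafilter.of_le atTop ((eventually_ge_atTop ({x}, n)).mono fun i hi => ?_)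
    exact hmono x _ ε _ ((Nat.one_div_le_one_div hi.2).trans hn.le)
      (h3 i x (hi.1 (Finset.mem_singleton_self x)))

theorem Smooth_norm_Pt_le {t : Dg (Alg M)} (h : ‖t‖ ≤ 1) (φ : Alg M →L[ℂ] Alg M) :
    ‖Pt M t φ‖ ≤ ‖φ‖ :=
  (norm_Pt_apply_le _ _).trans (mul_le_of_le_one_left (norm_nonneg _) h)

theorem Smooth_defect_le {t : Dg (Alg M)} (h : ‖t‖ ≤ 1) (φ : Alg M →L[ℂ] Alg M) (y : Alg M) :
    ‖Pt M t (φ ∘L Lm y) - Pt M t φ * y‖ ≤ ‖φ ∘L Lm y‖ + ‖φ‖ * ‖y‖ :=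
  (norm_sub_le _ _).trans (add_le_add (Smooth_norm_Pt_le h _) ((norm_mul_le _ _).trans
    (mul_le_mul_of_nonneg_right (Smooth_norm_Pt_le h _) (norm_nonneg _))))

theorem Smooth_defect {X : Type*} (𝒰 : Ultrafilter X) {t : X → Dg (Alg M)} (h : ∀ i, ‖t i‖ ≤ 1)
    (φ : Alg M →L[ℂ] Alg M) (y : Alg M) :
    Pt M (ulimL 𝒰 t) (φ ∘L Lm y) - Pt M (ulimL 𝒰 t) φ * y =
      wlim 𝒰 fun i => Pt M (t i) (φ ∘L Lm y) - Pt M (t i) φ * y := by
  rw [Pt_ulimL _ h, Pt_ulimL _ h, ← wlim_mul_right 𝒰 fun i => Smooth_norm_Pt_le (h i) φ,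
    wlim_sub 𝒰 (fun i => Smooth_norm_Pt_le (h i) _) fun i => (norm_mul_le _ _).trans
      (mul_le_mul_of_nonneg_right (Smooth_norm_Pt_le (h i) φ) (norm_nonneg y))]

theorem Smooth_Pt_pinch {ι : Type} [Fintype ι] (r : ι → Alg M) (φ : Alg M →L[ℂ] Alg M) :
    Pt M (∑ i, Dg.elem (r i) (r i)) φ = ∑ i, φ (r i) * r i := by
  rw [Pt_sum]
  simp only [Pt_elem]

theorem Smooth_Pt_pinch_id {ι : Type} [Fintype ι] {r : ι → Alg M}
    (hr : ∀ i, IsStarProjection (r i)) (h1 : ∑ i, r i = 1) :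
    Pt M (∑ i, Dg.elem (r i) (r i)) (ContinuousLinearMap.id ℂ _) = 1 := by
  rw [Smooth_Pt_pinch, ← h1]
  exact Finset.sum_congr rfl fun i _ => (hr i).isIdempotentElem.eq

/-- Pythagoras for the 2-norm. -/
theorem Smooth_n2_sum {A : Type*} [CStarAlgebra A] (T : TrState A) {ι : Type} [Fintype ι]
    {r : ι → A} (hr : ∀ i, IsStarProjection (r i)) (ho : ∀ i j, i ≠ j → r i * r j = 0)
    (y : ι → A) : T.n2 (∑ i, y i * r i) ^ 2 = ∑ i, T.n2 (y i * r i) ^ 2 := by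
  simp only [T.n2_sq]
  rw [star_sum, Finset.sum_mul_sum, map_sum, Complex.re_sum]
  refine Finset.sum_congr rfl fun i _ => ?_
  rw [map_sum, Finset.sum_eq_single i]
  · intro j _ hj
    rw [T.tr, star_mul, (hr i).isSelfAdjoint.star_eq, mul_assoc, ← mul_assoc (r j), ho j i hj,
      zero_mul, mul_zero, map_zero]
  · simp

theorem Smooth_piece {A : Type*} [CStarAlgebra A] (T : TrState A) {r a : A}
    (hr : IsStarProjection r) {l ε : ℝ} (h : ‖r * (star a * a) * r - (l : ℂ) • r‖ ≤ ε) :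
    (‖a * r‖ * T.n2 r) ^ 2 ≤ T.n2 (a * r) ^ 2 + 2 * ε * T.n2 r ^ 2 := by
  have hrs := hr.isSelfAdjoint.star_eq
  have hrr := hr.isIdempotentElem.eq
  have e : r * (star a * a) * r = star (a * r) * (a * r) := by
    simp only [star_mul, hrs, mul_assoc]
  rw [e] at h
  have h1 : ‖a * r‖ ^ 2 ≤ |l| + ε := by
    rw [sq, ← CStarRing.norm_star_mul_self]
    have h2 : ‖(l : ℂ) • r‖ ≤ |l| := by
      rw [norm_smul, Complex.norm_real, Real.norm_eq_abs]
      exact mul_le_of_le_one_right (abs_nonneg _) hr.norm_le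
    have h3 := norm_sub_norm_le (star (a * r) * (a * r)) ((l : ℂ) • r)
    linarith
  have h4 := T.norm_τ_mul_pos_le (star (a * r) * (a * r) - (l : ℂ) • r) r
  have e2 : (star (a * r) * (a * r) - (l : ℂ) • r) * (star r * r) =
      star (a * r) * (a * r) - (l : ℂ) • (star r * r) := by
    simp only [hrs, hrr, sub_mul, mul_assoc, smul_mul_assoc]
  rw [e2, map_sub, map_smul, ← T.coe_n2_sq, ← T.coe_n2_sq, smul_eq_mul, ← Complex.ofReal_mul,
    ← Complex.ofReal_sub, Complex.norm_real, Real.norm_eq_abs] at h4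
  have h5 := mul_le_mul_of_nonneg_right h (sq_nonneg (T.n2 r))
  have h6 := mul_le_mul_of_nonneg_right h1 (sq_nonneg (T.n2 r))
  have h7 := abs_sub_abs_le_abs_sub (l * T.n2 r ^ 2) (T.n2 (a * r) ^ 2)
  rw [abs_sub_comm, abs_mul, abs_of_nonneg (sq_nonneg (T.n2 r)),
    abs_of_nonneg (sq_nonneg (T.n2 (a * r)))] at h7
  rw [mul_pow]
  linarith

/-- The norm of a block diagonal element. -/
theorem Smooth_norm_sum {ι : Type} [Fintype ι] {r : ι → Alg M} (hr : ∀ i, IsStarProjection (r i))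
    (ho : ∀ i j, i ≠ j → r i * r j = 0) (h1 : ∑ i, r i = 1) (w : ι → Alg M)
    (hl : ∀ i, r i * w i = w i) (hw : ∀ i, w i * r i = w i) {C : ℝ} (hC : 0 ≤ C)
    (hb : ∀ i, ‖w i‖ ≤ C) : ‖∑ i, w i‖ ≤ C := by
  have py : ∀ ζ : H, ∑ i, ‖(r i : H →L[ℂ] H) ζ‖ ^ 2 = ‖ζ‖ ^ 2 := fun ζ => by
    have h2 : ∑ i, SpecQ (r i) ζ = SpecQ (∑ i, r i) ζ := by
      simp [SpecQ]
    simp only [← SpecQ_proj (hr _)]
    rw [h2, h1, SpecQ_proj (IsStarProjection.one _)]
    rfl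
  have e : ∀ i, r i * ∑ j, w j = w i * r i := fun i => by
    rw [Finset.mul_sum, Finset.sum_eq_single i, hl, hw]
    · intro j _ hj
      rw [← hl j, ← mul_assoc, ho i j hj.symm, zero_mul]
    · simp
  refine ContinuousLinearMap.opNorm_le_bound ((∑ i, w i : Alg M) : H →L[ℂ] H) hC fun ζ => ?_
  refine le_of_sq_le_sq ?_ (by positivity)
  rw [mul_pow, ← py, ← py ζ, Finset.mul_sum]
  refine Finset.sum_le_sum fun i _ => ?_
  rw [← Alg.mul_apply, e, Alg.mul_apply, ← mul_pow]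
  exact pow_le_pow_left₀ (norm_nonneg _) ((Alg.norm_apply_le _ _).trans
    (mul_le_mul_of_nonneg_right (hb i) (norm_nonneg _))) 2

/-- Recipe: index set `Finset (Alg M) × ℕ`, `𝒰 = Ultrafilter.of atTop`; for `(S, n)` take
`exists_partition` for the selfadjoint members of `S`, `p = 1`, `ε = 1/(n+1)`, and
`t (S, n) = ∑ i, Dg.elem (r i) (r i)` (`norm_sum_elem_le`), `t = ulimL 𝒰 _` (`Pt_ulimL`, `Pt_sum`,
`Pt_elem`).  If `star a * a ∈ S` then
`n2 (∑ φ (a r i) r i)² = ∑ τ (r i φ(a r i)⋆ φ(a r i) r i) ≤ ‖φ‖² ∑ ‖r i a⋆ a r i‖ τ (r i)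
  ≤ ‖φ‖² (n2 a² + 2 ε)`, because `‖r x r - l r‖ ≤ ε` gives
`‖r x r‖ τ r ≤ (|l| + ε) τ r ≤ ‖τ (r x r)‖ + 2 ε τ r`.  Finish with `n2_wlim_le`. -/
theorem exists_smooth (T : TrState (Alg M)) (hT : IsNormal M T.τ) :
    ∃ t : Dg (Alg M), ‖t‖ ≤ 1 ∧ Pt M t (ContinuousLinearMap.id ℂ _) = 1 ∧
      ∀ φ a, T.n2 (rho t φ a) ≤ ‖φ‖ * T.n2 a := by
  classical
  obtain ⟨𝒰, t, h1, h2, h3⟩ := Smooth_lim (M := M)
    (fun a ε t => ∀ φ, T.n2 (Pt M t (φ ∘L Lm a)) ≤ ‖φ‖ * (T.n2 a + ε))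
    (fun a δ ε t h h' φ => (h' φ).trans (by gcongr)) fun S ε hε => by
      obtain ⟨ι, _, r, hr, ho, hs, -, hl⟩ := exists_partition (S.image fun a => star a * a)
        (fun x hx => by
          obtain ⟨a, -, rfl⟩ := Finset.mem_image.1 hx
          exact IsSelfAdjoint.star_mul_self a) (IsStarProjection.one _)
        (by positivity : 0 < ε ^ 2 / 2)
      refine ⟨_, norm_sum_elem_le r hr ho, Smooth_Pt_pinch_id hr hs, fun a ha φ => ?_⟩
      have hn := T.n2_nonneg a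
      have e1 := Smooth_n2_sum T hr ho fun _ => a
      have e2 := Smooth_n2_sum T hr ho fun _ => 1
      rw [← Finset.mul_sum, hs, mul_one] at e1 e2
      simp only [T.n2_one, one_mul] at e2
      refine (pow_le_pow_iff_left₀ (T.n2_nonneg _) (by positivity) two_ne_zero).1 ?_
      rw [Smooth_Pt_pinch, Smooth_n2_sum T hr ho]
      calc ∑ i, T.n2 ((φ ∘L Lm a) (r i) * r i) ^ 2
          ≤ ∑ i, ‖φ‖ ^ 2 * (T.n2 (a * r i) ^ 2 + 2 * (ε ^ 2 / 2) * T.n2 (r i) ^ 2) := by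
            refine Finset.sum_le_sum fun i _ => ?_
            obtain ⟨l, h⟩ := hl i _ (Finset.mem_image_of_mem _ ha)
            refine le_trans ?_ (mul_le_mul_of_nonneg_left (Smooth_piece T (hr i) h) (sq_nonneg _))
            rw [← mul_pow, ← mul_assoc]
            exact pow_le_pow_left₀ (T.n2_nonneg _) ((T.n2_mul_le_left _ _).trans
              (mul_le_mul_of_nonneg_right (φ.le_opNorm _) (T.n2_nonneg _))) 2
        _ = ‖φ‖ ^ 2 * (T.n2 a ^ 2 + ε ^ 2) := by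
            rw [← Finset.mul_sum, Finset.sum_add_distrib, ← Finset.mul_sum, ← e1, ← e2]
            ring
        _ ≤ (‖φ‖ * (T.n2 a + ε)) ^ 2 := by
            rw [mul_pow]
            exact mul_le_mul_of_nonneg_left (by nlinarith [mul_nonneg hn hε.le]) (sq_nonneg _)
  refine ⟨ulimL 𝒰 t, norm_ulimL_le 𝒰 h1, h2, fun φ a => ?_⟩
  rw [rho_apply, Pt_ulimL _ h1]
  refine n2_wlim_le T hT 𝒰 (fun i => Smooth_norm_Pt_le (h1 i) _) fun ε hε => ?_
  have h0 := norm_nonneg φ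
  filter_upwards [h3 a (ε / (‖φ‖ + 1)) (by positivity)] with i hi
  refine (hi φ).trans ?_
  rw [mul_add, add_le_add_iff_left, ← mul_div_assoc, div_le_iff₀ (by positivity)]
  linarith

/-- Averaging over the centre.  Recipe: as `exists_smooth`, partitions for the selfadjoint
central members of `S`; the `r i` are central (fourth clause of `exists_partition`).  For
selfadjoint central `z ∈ S` put `z' = ∑ l i • r i`, `‖z - z'‖ ≤ ε` (for central orthogonal
projections `‖∑ y i * r i‖ ≤ max ‖y i * r i‖`); `∑ φ (x z' r i) r i = (∑ φ (x r i) r i) z'`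
exactly, so the defect is at most `2 ‖φ‖ ‖x‖ ε` (`norm_Pt_apply_le`).  A central element is a
combination of two selfadjoint central elements. -/
theorem exists_central :
    ∃ t : Dg (Alg M), ‖t‖ ≤ 1 ∧ Pt M t (ContinuousLinearMap.id ℂ _) = 1 ∧
      ∀ φ (z : Alg M), (∀ a, Commute a z) → Pt M t (φ ∘L Lm z) = Pt M t φ * z := by
  classical
  obtain ⟨𝒰, t, h1, h2, h3⟩ := Smooth_lim (M := M)
    (fun z ε t => IsSelfAdjoint z → (∀ a, Commute a z) →
      ∀ φ, ‖Pt M t (φ ∘L Lm z) - Pt M t φ * z‖ ≤ 2 * ‖φ‖ * ε)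
    (fun a δ ε t h h' hz hc φ => (h' hz hc φ).trans (by gcongr)) fun S ε hε => by
      obtain ⟨ι, _, r, hr, ho, hs, hc, hl⟩ := exists_partition
        (S.filter fun z => IsSelfAdjoint z ∧ ∀ a, Commute a z)
        (fun x hx => (Finset.mem_filter.1 hx).2.1) (IsStarProjection.one _) hε
      have hc' : ∀ y i, Commute y (r i) := fun y => hc y (Commute.one_right _)
        (Commute.one_right _) fun x hx =>
          ⟨(Finset.mem_filter.1 hx).2.2 _, (Finset.mem_filter.1 hx).2.2 _⟩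
      refine ⟨_, norm_sum_elem_le r hr ho, Smooth_Pt_pinch_id hr hs, fun z hz hsa hcz φ => ?_⟩
      rw [Smooth_Pt_pinch, Smooth_Pt_pinch, Finset.sum_mul, ← Finset.sum_sub_distrib]
      have e : ∀ i, (φ ∘L Lm z) (r i) * r i - φ (r i) * r i * z =
          ((φ ∘L Lm z) (r i) - φ (r i) * z) * r i := fun i => by
        rw [sub_mul, mul_assoc, mul_assoc, (hc' z i).eq]
      have e' : ∀ i, ((φ ∘L Lm z) (r i) - φ (r i) * z) * r i * r i =
          ((φ ∘L Lm z) (r i) - φ (r i) * z) * r i := fun i => by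
        rw [mul_assoc, (hr i).isIdempotentElem.eq]
      simp only [e]
      refine Smooth_norm_sum hr ho hs _ (fun i => by rw [← (hc' _ i).eq, e']) e'
        (by positivity) fun i => ?_
      obtain ⟨l, h⟩ := hl i z (Finset.mem_filter.2 ⟨hz, hsa, hcz⟩)
      rw [← (hc' z i).eq, mul_assoc, (hr i).isIdempotentElem.eq] at h
      have e1 : ((φ ∘L Lm z) (r i) - φ (r i) * z) * r i =
          φ (z * r i - (l : ℂ) • r i) * r i - φ (r i) * (z * r i - (l : ℂ) • r i) := by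
        simp only [map_sub, map_smul, sub_mul, mul_sub, mul_assoc, smul_mul_assoc, mul_smul_comm]
        rw [sub_sub_sub_cancel_right]
        rfl
      rw [e1]
      have h4 : ‖φ (z * r i - (l : ℂ) • r i) * r i‖ ≤ ‖φ‖ * ε :=
        (norm_mul_le _ _).trans ((mul_le_of_le_one_right (norm_nonneg _) (hr i).norm_le).trans
          (φ.le_opNorm_of_le h))
      have h5 : ‖φ (r i) * (z * r i - (l : ℂ) • r i)‖ ≤ ‖φ‖ * ε :=
        (norm_mul_le _ _).trans (mul_le_mul (φ.unit_le_opNorm _ (hr i).norm_le) h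
          (norm_nonneg _) (norm_nonneg _))
      refine (norm_sub_le _ _).trans ?_
      linarith
  refine ⟨ulimL 𝒰 t, norm_ulimL_le 𝒰 h1, h2, fun φ z hz => ?_⟩
  have key : ∀ z : Alg M, IsSelfAdjoint z → (∀ a, Commute a z) →
      rho (ulimL 𝒰 t) φ z = Pt M (ulimL 𝒰 t) φ * z := fun z hsa hcz => by
    rw [rho_apply, ← sub_eq_zero, Smooth_defect 𝒰 h1]
    refine wlim_of_tendsto 𝒰 (fun i => Smooth_defect_le (h1 i) φ z)
      (Metric.tendsto_nhds.2 fun ε hε => ?_)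
    have h0 := norm_nonneg φ
    filter_upwards [h3 z (ε / (2 * ‖φ‖ + 1)) (by positivity)] with i hi
    rw [dist_zero_right]
    refine (hi hsa hcz φ).trans_lt ?_
    rw [← mul_div_assoc, div_lt_iff₀ (by positivity)]
    linarith
  have hz' : ∀ a, Commute a (star z) := fun a => by simpa using (hz (star a)).star_star
  have k1 := key (z + star z) (IsSelfAdjoint.add_star_self z) fun a => (hz a).add_right (hz' a)
  have k2 := key (Complex.I • (z - star z))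
    (by rw [IsSelfAdjoint, star_smul, star_sub, star_star, RCLike.star_def, Complex.conj_I,
      neg_smul, ← smul_neg, neg_sub])
    fun a => ((hz a).sub_right (hz' a)).smul_right _
  have e : z = (2 : ℂ)⁻¹ • (z + star z) - ((2 : ℂ)⁻¹ * Complex.I) • Complex.I • (z - star z) := by
    rw [smul_smul, mul_assoc, Complex.I_mul_I]
    module
  rw [← rho_apply, e, map_sub, map_smul, map_smul _ (_ * _), k1, k2]
  simp only [mul_sub, mul_smul_comm]

end

end Crest.Agent.R121
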