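import Crest.Agent.R121.Var

/-!
# Row 121: tracial states, the 2-norm, the mean ergodic lemma
-/

open scoped InnerProductSpace ComplexOrder Topology
open Filter

set_option linter.unusedSectionVars false

namespace Crest.Agent.R121

noncomputable section

/-- A tracial state. -/
structure TrState (A : Type*) [CStarAlgebra A] where
  /-- the functional -/
  τ : A →L[ℂ] ℂ
  one : τ 1 = 1
  pos : ∀ x, 0 ≤ τ (star x * x)
  tr : ∀ x y, τ (x * y) = τ (y * x)

variable {A : Type*} [CStarAlgebra A]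

namespace TrState

variable (T : TrState A)

/-- The 2-norm. -/
def n2 (x : A) : ℝ := √(T.τ (star x * x)).re

/-- Faithfulness. -/
def Faithful : Prop := ∀ x, T.τ (star x * x) = 0 → x = 0

theorem n2_nonneg (x : A) : 0 ≤ T.n2 x := Real.sqrt_nonneg _

theorem n2_sq (x : A) : T.n2 x ^ 2 = (T.τ (star x * x)).re :=
  Real.sq_sqrt (Complex.nonneg_iff.1 (T.pos x)).1

theorem coe_n2_sq (x : A) : ((T.n2 x ^ 2 : ℝ) : ℂ) = T.τ (star x * x) := by
  rw [n2_sq]
  exact Complex.ext rfl (by simpa using (Complex.nonneg_iff.1 (T.pos x)).2)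

theorem n2_star (x : A) : T.n2 (star x) = T.n2 x := by rw [n2, n2, star_star, T.tr]

/-- Recipe: polarisation (`τ ((x + y)⋆ (x + y))` and `τ ((x + I y)⋆ (x + I y))` are real). -/
theorem τ_star (x : A) : T.τ (star x) = starRingEnd ℂ (T.τ x) := by
  have h0 := (Complex.nonneg_iff.1 (T.pos x)).2
  have h1 := (Complex.nonneg_iff.1 (T.pos (x + 1))).2
  have h2 := (Complex.nonneg_iff.1 (T.pos (x + Complex.I • (1 : A)))).2
  have e1 : star (x + 1) * (x + 1) = star x * x + star x + x + 1 := by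
    simp only [star_add, star_one, add_mul, mul_add, mul_one, one_mul]; abel
  have e2 : star (x + Complex.I • (1 : A)) * (x + Complex.I • (1 : A)) =
      star x * x + Complex.I • star x - Complex.I • x + 1 := by
    simp only [star_add, star_smul, star_one, add_mul, mul_add, mul_smul_comm, smul_mul_assoc,
      mul_one, one_mul, smul_add, smul_smul, RCLike.star_def, Complex.conj_I, neg_mul,
      Complex.I_mul_I, neg_neg, one_smul, neg_smul, smul_neg]
    abel
  rw [e1] at h1
  rw [e2] at h2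
  simp only [map_add, map_sub, map_smul, T.one, smul_eq_mul, Complex.add_im, Complex.sub_im,
    Complex.mul_im, Complex.I_re, Complex.I_im, Complex.one_im, zero_mul, one_mul,
    zero_add] at h1 h2
  apply Complex.ext
  · simp only [Complex.conj_re]; linarith
  · simp only [Complex.conj_im]; linarith

/-- The semi-inner product `(x, y) ↦ τ (x⋆ y)`. -/
@[reducible] def trCore : PreInnerProductSpace.Core ℂ A where
  inner x y := T.τ (star x * y)
  conj_inner_symm x y := by rw [← T.τ_star, star_mul, star_star]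
  re_inner_nonneg x := (Complex.nonneg_iff.1 (T.pos x)).1
  add_left x y z := by rw [star_add, add_mul, map_add]
  smul_left x y r := by rw [star_smul, smul_mul_assoc, map_smul]; rfl

/-- Cauchy–Schwarz. -/
theorem norm_τ_star_mul_le (x y : A) : ‖T.τ (star x * y)‖ ≤ T.n2 x * T.n2 y := by
  have h : ‖T.τ (star x * y)‖ * ‖T.τ (star y * x)‖ ≤
      (T.τ (star x * x)).re * (T.τ (star y * y)).re :=
    InnerProductSpace.Core.inner_mul_inner_self_le (𝕜 := ℂ) (c := T.trCore) x y
  have h2 : ‖T.τ (star y * x)‖ = ‖T.τ (star x * y)‖ := by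
    rw [← Complex.norm_conj, ← T.τ_star, star_mul, star_star]
  rw [h2, ← T.n2_sq, ← T.n2_sq, ← mul_pow, ← sq] at h
  exact le_of_sq_le_sq (by simpa using h) (mul_nonneg (T.n2_nonneg x) (T.n2_nonneg y))

theorem norm_τ_mul_le (x y : A) : ‖T.τ (x * y)‖ ≤ T.n2 x * T.n2 y := by
  simpa [n2_star] using T.norm_τ_star_mul_le (star x) y

theorem tr_re_mono [PartialOrder A] [StarOrderedRing A] {a b : A} (h : a ≤ b) :
    (T.τ a).re ≤ (T.τ b).re := by
  obtain ⟨s, hs⟩ := CStarAlgebra.nonneg_iff_eq_star_mul_self.1 (sub_nonneg.2 h)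
  have h1 := (Complex.nonneg_iff.1 (T.pos s)).1
  rw [← hs, map_sub, Complex.sub_re] at h1
  linarith

/-- Recipe: `‖a‖² - a⋆ a = b⋆ b` (`letI := CStarAlgebra.spectralOrder A`, `CFC.sqrt`). -/
theorem n2_mul_le_left (a x : A) : T.n2 (a * x) ≤ ‖a‖ * T.n2 x := by
  let _ := CStarAlgebra.spectralOrder A
  have _ := CStarAlgebra.spectralOrderedRing A
  have h1 : star x * (star a * a) * x ≤ star x * algebraMap ℝ A (‖a‖ ^ 2) * x :=
    star_left_conjugate_le_conjugate CStarAlgebra.star_mul_le_algebraMap_norm_sq x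
  have h2 := T.tr_re_mono h1
  have e1 : star x * (star a * a) * x = star (a * x) * (a * x) := by
    simp only [star_mul, mul_assoc]
  have e2 : star x * algebraMap ℝ A (‖a‖ ^ 2) * x = ((‖a‖ ^ 2 : ℝ) : ℂ) • (star x * x) := by
    rw [Algebra.algebraMap_eq_smul_one, mul_smul_comm, mul_one, smul_mul_assoc, Complex.coe_smul]
  rw [e1, e2, map_smul, smul_eq_mul, Complex.re_ofReal_mul, ← T.n2_sq, ← T.n2_sq, ← mul_pow] at h2
  exact le_of_sq_le_sq (by simpa using h2) (mul_nonneg (norm_nonneg a) (T.n2_nonneg x))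

theorem n2_mul_le_right (x a : A) : T.n2 (x * a) ≤ T.n2 x * ‖a‖ := by
  rw [← n2_star, star_mul, mul_comm, ← norm_star a, ← T.n2_star x]
  exact T.n2_mul_le_left _ _

theorem n2_one : T.n2 1 = 1 := by simp [n2, T.one]

theorem n2_zero : T.n2 0 = 0 := by simp [n2]

theorem n2_le_norm (x : A) : T.n2 x ≤ ‖x‖ := by
  simpa [n2_one] using T.n2_mul_le_left x 1

theorem norm_τ_le (x : A) : ‖T.τ x‖ ≤ T.n2 x := by
  simpa [n2_one] using T.norm_τ_mul_le x 1

theorem n2_add_le (x y : A) : T.n2 (x + y) ≤ T.n2 x + T.n2 y := by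
  have e : star (x + y) * (x + y) = star x * x + star y * y + star x * y + star y * x := by
    simp only [star_add, add_mul, mul_add]; abel
  have h1 := (Complex.re_le_norm _).trans (T.norm_τ_star_mul_le x y)
  have h2 := (Complex.re_le_norm _).trans (T.norm_τ_star_mul_le y x)
  have h3 : T.n2 (x + y) ^ 2 ≤ (T.n2 x + T.n2 y) ^ 2 := by
    rw [T.n2_sq, e, map_add, map_add, map_add, Complex.add_re, Complex.add_re, Complex.add_re,
      ← T.n2_sq, ← T.n2_sq]
    nlinarith
  exact le_of_sq_le_sq (by simpa using h3) (add_nonneg (T.n2_nonneg x) (T.n2_nonneg y))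

theorem n2_smul (c : ℂ) (x : A) : T.n2 (c • x) = ‖c‖ * T.n2 x := by
  have e : star (c • x) * (c • x) = ((‖c‖ ^ 2 : ℝ) : ℂ) • (star x * x) := by
    rw [star_smul, smul_mul_assoc, mul_smul_comm, smul_smul, RCLike.star_def,
      Complex.conj_mul', Complex.ofReal_pow]
  rw [n2, n2, e, map_smul, smul_eq_mul, Complex.re_ofReal_mul, Real.sqrt_mul (sq_nonneg _),
    Real.sqrt_sq (norm_nonneg c)]

theorem n2_neg (x : A) : T.n2 (-x) = T.n2 x := by simp [n2]

theorem n2_sub_le (x y : A) : T.n2 (x - y) ≤ T.n2 x + T.n2 y := by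
  rw [sub_eq_add_neg, ← T.n2_neg y]; exact T.n2_add_le _ _

theorem n2_sum_le {ι : Type*} (s : Finset ι) (x : ι → A) :
    T.n2 (∑ i ∈ s, x i) ≤ ∑ i ∈ s, T.n2 (x i) :=
  Finset.le_sum_of_subadditive T.n2 T.n2_zero.le T.n2_add_le s x

theorem n2_unitary_mul {u : A} (hu : u ∈ unitary A) (x : A) : T.n2 (u * x) = T.n2 x := by
  rw [n2, n2, star_mul, mul_assoc, ← mul_assoc (star u), hu.1, one_mul]

theorem n2_mul_unitary (x : A) {u : A} (hu : u ∈ unitary A) : T.n2 (x * u) = T.n2 x := by
  rw [← n2_star, star_mul, T.n2_unitary_mul (Unitary.star_mem hu), n2_star]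

theorem n2_unitary {u : A} (hu : u ∈ unitary A) : T.n2 u = 1 := by
  rw [← T.n2_one, ← T.n2_mul_unitary 1 hu, one_mul]

theorem continuous_n2 : Continuous T.n2 := by
  unfold n2; fun_prop

/-- `|τ(c h)| ≤ ‖c‖ τ(h)` for `h = s⋆ s`. -/
theorem norm_τ_mul_pos_le (c s : A) : ‖T.τ (c * (star s * s))‖ ≤ ‖c‖ * T.n2 s ^ 2 := by
  rw [← mul_assoc, sq, ← mul_assoc]
  refine (T.norm_τ_mul_le _ _).trans (mul_le_mul_of_nonneg_right ?_ (T.n2_nonneg _))
  simpa [n2_star] using T.n2_mul_le_left c (star s)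

theorem eq_zero_of_forall (hT : T.Faithful) {c : A} (h : ∀ y, T.τ (y * c) = 0) : c = 0 :=
  hT c (h _)

/-- Truncation.  Recipe: `x' = x * cfc f (x⋆ x)` with `f t = η / max η √t`. -/
theorem exists_trunc (x : A) {η : ℝ} (hη : 0 < η) :
    ∃ x' : A, ‖x'‖ ≤ η ∧ T.n2 (x - x') ≤ T.n2 (star x * x) / η := by
  let _ := CStarAlgebra.spectralOrder A
  have _ := CStarAlgebra.spectralOrderedRing A
  set a : A := star x * x with ha
  have hsa : IsSelfAdjoint a := IsSelfAdjoint.star_mul_self x
  have hsp : ∀ t ∈ spectrum ℝ a, 0 ≤ t := spectrum_star_mul_self_nonneg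
  have hmax : ∀ t : ℝ, 0 < max η √t := fun t => lt_max_of_lt_left hη
  let f : ℝ → ℝ := fun t => η / max η √t
  have hf : Continuous f :=
    continuous_const.div (continuous_const.max Real.continuous_sqrt) fun t => (hmax t).ne'
  have key : ∀ g : ℝ → ℝ, Continuous g →
      star (x * cfc g a) * (x * cfc g a) = cfc (fun t => g t * t * g t) a := by
    intro g hg
    rw [star_mul, (cfc_predicate g a : IsSelfAdjoint _).star_eq, cfc_mul _ _ a,
      cfc_mul g (fun t => t) a, cfc_id' ℝ a, mul_assoc, mul_assoc, ← mul_assoc (star x), ← ha]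
  refine ⟨x * cfc f a, ?_, ?_⟩
  · have h1 : ‖x * cfc f a‖ * ‖x * cfc f a‖ ≤ η * η := by
      rw [← CStarRing.norm_star_mul_self, key f hf]
      refine norm_cfc_le (by positivity) fun t ht => ?_
      have h0 := hsp t ht
      have h2 : f t * √t ≤ η := by
        rw [show f t = η / max η √t from rfl, div_mul_eq_mul_div, div_le_iff₀ (hmax t)]
        exact mul_le_mul_of_nonneg_left (le_max_right _ _) hη.le
      have h3 : 0 ≤ f t * √t := mul_nonneg (div_nonneg hη.le (hmax t).le) (Real.sqrt_nonneg t)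
      have h4 : f t * t * f t = (f t * √t) * (f t * √t) := by
        rw [mul_mul_mul_comm, Real.mul_self_sqrt h0]
        ring
      rw [h4, Real.norm_of_nonneg (mul_nonneg h3 h3)]
      exact mul_self_le_mul_self h3 h2
    exact (mul_self_le_mul_self_iff (norm_nonneg _) hη.le).2 h1
  · have e1 : x - x * cfc f a = x * cfc (fun t => 1 - f t) a := by
      rw [cfc_sub _ _ a, cfc_const_one ℝ a, mul_sub, mul_one]
    have e2 : cfc (fun t : ℝ => (η⁻¹ ^ 2) * (t * t)) a = ((η⁻¹ ^ 2 : ℝ) : ℂ) • (star a * a) := by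
      rw [cfc_const_mul _ _ a, cfc_mul (fun t => t) (fun t => t) a, cfc_id' ℝ a, hsa.star_eq,
        Complex.coe_smul]
    have h1 : cfc (fun t => (1 - f t) * t * (1 - f t)) a ≤
        cfc (fun t : ℝ => (η⁻¹ ^ 2) * (t * t)) a := by
      refine cfc_mono fun t ht => ?_
      have h0 := hsp t ht
      rcases le_total (√t) η with h | h
      · have : f t = 1 := by
          rw [show f t = η / max η √t from rfl, max_eq_left h, div_self hη.ne']
        rw [this, sub_self, mul_zero]
        positivity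
      · have h2 : 0 ≤ f t := div_nonneg hη.le (hmax t).le
        have h3 : f t ≤ 1 := (div_le_one (hmax t)).2 (le_max_left _ _)
        have h4 : η ^ 2 ≤ t := by
          rw [← Real.sq_sqrt h0]; exact pow_le_pow_left₀ hη.le h 2
        have h5 : 1 ≤ η⁻¹ ^ 2 * t := by
          rw [inv_pow, ← div_eq_inv_mul, le_div_iff₀ (by positivity), one_mul]; exact h4
        have h6 : (1 - f t) * (1 - f t) ≤ 1 := by nlinarith
        calc (1 - f t) * t * (1 - f t) = (1 - f t) * (1 - f t) * t := by ring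
          _ ≤ η⁻¹ ^ 2 * t * t := mul_le_mul_of_nonneg_right (h6.trans h5) h0
          _ = _ := by ring
    have h2 := T.tr_re_mono h1
    rw [← key (fun t => 1 - f t) (continuous_const.sub hf), e2, map_smul, smul_eq_mul, Complex.re_ofReal_mul,
      ← T.n2_sq, ← T.n2_sq, ← mul_pow, ← e1, ← div_eq_inv_mul] at h2
    exact le_of_sq_le_sq (by simpa using h2) (div_nonneg (T.n2_nonneg _) hη.le)

/-- The real bilinear form `∑ i, re τ ((w i)⋆ (w' i))` on tuples. -/
def trForm (ι : Type*) [Fintype ι] : LinearMap.BilinForm ℝ (ι → A) :=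
  LinearMap.mk₂ ℝ (fun w w' => ∑ i, (T.τ (star (w i) * w' i)).re)
    (fun w₁ w₂ w' => by
      simp only [Pi.add_apply, star_add, add_mul, map_add, Complex.add_re,
        Finset.sum_add_distrib])
    (fun c w w' => by
      simp only [Pi.smul_apply, star_smul, star_trivial, smul_mul_assoc, smul_eq_mul,
        Finset.mul_sum, ContinuousLinearMap.map_smul_of_tower, Complex.real_smul,
        Complex.re_ofReal_mul])
    (fun w w₁ w₂ => by
      simp only [Pi.add_apply, mul_add, map_add, Complex.add_re, Finset.sum_add_distrib])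
    (fun c w w' => by
      simp only [Pi.smul_apply, mul_smul_comm, smul_eq_mul, Finset.mul_sum,
        ContinuousLinearMap.map_smul_of_tower, Complex.real_smul, Complex.re_ofReal_mul])

theorem trForm_apply {ι : Type*} [Fintype ι] (w w' : ι → A) :
    T.trForm ι w w' = ∑ i, (T.τ (star (w i) * w' i)).re := rfl

theorem trForm_self {ι : Type*} [Fintype ι] (w : ι → A) :
    T.trForm ι w w = ∑ i, T.n2 (w i) ^ 2 := by
  simp only [trForm_apply, n2_sq]

theorem trForm_symm {ι : Type*} [Fintype ι] (w w' : ι → A) :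
    T.trForm ι w w' = T.trForm ι w' w := by
  simp only [trForm_apply]
  refine Finset.sum_congr rfl fun i _ => ?_
  rw [← Complex.conj_re, ← T.τ_star, star_mul, star_star]

/-- Mean ergodic lemma.  Recipe: `var_inf`, `var_close` with `U = Unit`, `W = A →₀ ℝ`,
`𝓚` = probability vectors supported in `G`, `b w w' = ∑ i, re τ ((av w i)⋆ av w' i)`,
`av w i = w.sum fun g c => c • (g y_i g⋆)`; `Finsupp.mapDomain (u * ·) w` is again a near
minimiser; apply `var_close` to the pair (`J = Bool`).  (Or work with `W = ι → A` and `𝓚` the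
set of tuples of such averages.) -/
theorem exists_avg (G : Set A) (h1 : (1 : A) ∈ G) (hu : ∀ g ∈ G, g ∈ unitary A)
    (hmul : ∀ g ∈ G, ∀ h ∈ G, g * h ∈ G) {ι : Type*} [Fintype ι] (y : ι → A) {ε : ℝ}
    (hε : 0 < ε) :
    ∃ (κ : Type) (_ : Fintype κ) (g : κ → A) (w : κ → ℝ), (∀ k, g k ∈ G) ∧ (∀ k, 0 ≤ w k) ∧
      ∑ k, w k = 1 ∧ ∀ u ∈ G, ∀ i,
        T.n2 (u * (∑ k, (w k : ℂ) • (g k * y i * star (g k))) * star u -
          ∑ k, (w k : ℂ) • (g k * y i * star (g k))) ≤ ε := by
  let S : Set (ι → A) := (fun g i => g * y i * star g) '' G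
  let 𝓚 : Set (ι → A) := convexHull ℝ S
  have hne : 𝓚.Nonempty := ⟨_, subset_convexHull ℝ S ⟨1, h1, rfl⟩⟩
  have hpos : ∀ w : ι → A, 0 ≤ T.trForm ι w w := fun w => by
    rw [trForm_self]; positivity
  obtain ⟨N₀, hN, hmin⟩ := var_inf (U := Unit) (fun _ => T.trForm ι) (fun _ => hpos) hne
    fun w _ => ⟨_, fun _ => le_rfl⟩
  have hη : 0 < ε ^ 2 / 16 := by positivity
  obtain ⟨v, hv, hvmin⟩ := hmin _ hη
  obtain ⟨κ, hκ, w, z, hw0, hw1, hz, hsum⟩ := mem_convexHull_iff_exists_fintype.1 hv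
  choose g hg hgz using hz
  have hvi : ∀ i, ∑ k, (w k : ℂ) • (g k * y i * star (g k)) = v i := by
    intro i
    rw [← hsum, Finset.sum_apply]
    refine Finset.sum_congr rfl fun k _ => ?_
    rw [Pi.smul_apply, ← hgz k, Complex.coe_smul]
  refine ⟨κ, hκ, g, w, hg, hw0, hw1, fun u huG i => ?_⟩
  rw [hvi]
  let v' : ι → A := fun i => u * v i * star u
  have hv' : v' ∈ 𝓚 := by
    refine mem_convexHull_of_exists_fintype w (fun k i => u * g k * y i * star (u * g k)) hw0 hw1
      (fun k => ⟨u * g k, hmul u huG _ (hg k), rfl⟩) ?_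
    funext i
    rw [Finset.sum_apply]
    change _ = u * v i * star u
    rw [← hvi, Finset.mul_sum, Finset.sum_mul]
    refine Finset.sum_congr rfl fun k _ => ?_
    simp only [Pi.smul_apply, star_mul, Complex.coe_smul, mul_smul_comm, smul_mul_assoc,
      mul_assoc]
  have hv'v : T.trForm ι v' v' = T.trForm ι v v := by
    simp only [trForm_self]
    refine Finset.sum_congr rfl fun i _ => ?_
    change T.n2 (u * v i * star u) ^ 2 = _
    rw [T.n2_mul_unitary _ (Unitary.star_mem (hu u huG)), T.n2_unitary_mul (hu u huG)]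
  obtain ⟨-, hcl⟩ := var_close (U := Unit) (fun _ => T.trForm ι) (fun _ => T.trForm_symm)
    (fun _ => hpos) (convex_convexHull ℝ S) hη hN (J := Bool) (fun j => cond j v' v)
    (fun j => by cases j; exacts [hv, hv'])
    (fun j u' => by
      cases j
      · exact hvmin u'
      · exact hv'v.trans_le (hvmin u'))
  have h2 := hcl true false
  rw [trForm_self] at h2
  have h3 : T.n2 ((v' - v) i) ^ 2 ≤ ∑ i, T.n2 ((v' - v) i) ^ 2 :=
    Finset.single_le_sum (f := fun i => T.n2 ((v' - v) i) ^ 2) (fun _ _ => sq_nonneg _)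
      (Finset.mem_univ i)
  have h4 : T.n2 ((v' - v) i) ^ 2 ≤ ε ^ 2 := by
    refine (h3.trans h2).trans (le_of_eq ?_)
    rw [Fintype.card_bool]; push_cast; ring
  exact le_of_sq_le_sq (by simpa using h4) hε.le

end TrState

end

end Crest.Agent.R121
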