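import Crest.Agent.R121.Spec
import Crest.Agent.R121.Var

/-!
# Row 121: an almost tracial functional yields a trace
-/

open scoped InnerProductSpace ComplexOrder Topology
open Filter

set_option linter.unusedSectionVars false

namespace Crest.Agent.R121

noncomputable section

variable {H : Type*} [NormedAddCommGroup H] [InnerProductSpace ℂ H] [CompleteSpace H]
  {M : VonNeumannAlgebra H}

theorem Trace_star {A : Type*} [CStarAlgebra A] (ω : A →L[ℂ] ℂ) (hω : ∀ y, 0 ≤ ω (star y * y))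
    (x : A) : ω (star x) = starRingEnd ℂ (ω x) := by
  have h0 := (Complex.nonneg_iff.1 (hω x)).2
  have h1 := (Complex.nonneg_iff.1 (hω (x + 1))).2
  have h2 := (Complex.nonneg_iff.1 (hω (x + Complex.I • (1 : A)))).2
  have h3 := (Complex.nonneg_iff.1 (hω 1)).2
  have e1 : star (x + 1) * (x + 1) = star x * x + star x + x + 1 := by
    simp only [star_add, star_one, add_mul, mul_add, mul_one, one_mul]; abel
  have e2 : star (x + Complex.I • (1 : A)) * (x + Complex.I • (1 : A)) =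
      star x * x + Complex.I • star x - Complex.I • x + 1 := by
    simp only [star_add, star_smul, star_one, add_mul, mul_add, mul_smul_comm, smul_mul_assoc,
      mul_one, one_mul, smul_add, smul_smul, RCLike.star_def, Complex.conj_I, neg_mul,
      Complex.I_mul_I, neg_neg, one_smul, neg_smul, smul_neg]
    abel
  rw [e1] at h1
  rw [e2] at h2
  rw [star_one, one_mul] at h3
  simp only [map_add, map_sub, map_smul, smul_eq_mul, Complex.add_im, Complex.sub_im,
    Complex.mul_im, Complex.I_re, Complex.I_im, zero_mul, one_mul, zero_add] at h1 h2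
  apply Complex.ext
  · simp only [Complex.conj_re]; linarith
  · simp only [Complex.conj_im]; linarith

theorem Trace_cs {A : Type*} [CStarAlgebra A] (ω : A →L[ℂ] ℂ) (hω : ∀ y, 0 ≤ ω (star y * y))
    (x : A) : ‖ω x‖ ^ 2 ≤ (ω 1).re * (ω (star x * x)).re := by
  let core : PreInnerProductSpace.Core ℂ A :=
    { inner := fun x y => ω (star x * y)
      conj_inner_symm := fun x y => by rw [← Trace_star ω hω, star_mul, star_star]
      re_inner_nonneg := fun x => (Complex.nonneg_iff.1 (hω x)).1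
      add_left := fun x y z => by rw [star_add, add_mul, map_add]
      smul_left := fun x y r => by rw [star_smul, smul_mul_assoc, map_smul]; rfl }
  have h : ‖ω (star 1 * x)‖ * ‖ω (star x * 1)‖ ≤ (ω (star 1 * 1)).re * (ω (star x * x)).re :=
    InnerProductSpace.Core.inner_mul_inner_self_le (𝕜 := ℂ) (c := core) 1 x
  rwa [star_one, one_mul, mul_one, mul_one, Trace_star ω hω, Complex.norm_conj, ← sq] at h

/-- From projections to squares.  Recipe: `exists_partition` for `S = {x⋆ x}`, `p = f`; the `r i`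
commute with `x⋆ x` (fourth clause), so `x⋆ x = ∑ (x r i)⋆ (x r i)`; with
`‖r x⋆ x r - l r‖ ≤ ε`: `(l + ε) r - r x⋆ x r` is a square, so
`re ω ((x r)⋆ (x r)) ≤ (l + ε) re ω r ≤ max (l + ε) 0 * c ‖r ξ‖² ≤ c (‖x r ξ‖² + 2 ε ‖r ξ‖²)`. -/
theorem le_of_proj_le {f : Alg M} (hf : IsStarProjection f) (ω : Alg M →L[ℂ] ℂ)
    (hω : ∀ y, 0 ≤ ω (star y * y)) (ξ : H) {c : ℝ} (hc : 0 ≤ c)
    (h : ∀ r, IsStarProjection r → r * f = r → (ω r).re ≤ c * ‖(r : H →L[ℂ] H) ξ‖ ^ 2)
    {x : Alg M} (hx : x * f = x) : (ω (star x * x)).re ≤ c * ‖(x : H →L[ℂ] H) ξ‖ ^ 2 := by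
  classical
  have hfs := hf.isSelfAdjoint.star_eq
  set a := star x * x with ha
  have has : IsSelfAdjoint a := IsSelfAdjoint.star_mul_self x
  have haf : a * f = a := by rw [ha, mul_assoc, hx]
  have hfa : f * a = a := by simpa [hfs, has.star_eq] using congrArg star haf
  have hcf : Commute a f := by rw [Commute, SemiconjBy, haf, hfa]
  have key : ∀ ε > 0, (ω a).re ≤ c * ‖(x : H →L[ℂ] H) ξ‖ ^ 2 + ε * (2 * c * ‖ξ‖ ^ 2) := by
    intro ε hε
    obtain ⟨ι, _, r, hr, ho, hsum, hcom, hl⟩ := exists_partition {a} (by simpa using has) hf hε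
    have hc' : ∀ i, Commute a (r i) := hcom a hcf (by rwa [has.star_eq]) (by simp [has.star_eq])
    have hrf : ∀ i, r i * f = r i := fun i => hsum ▸ Spec_mul_sum hr ho i
    have hone : ∀ i, (ω (r i * a * r i)).re ≤
        c * (SpecQ (r i * a * r i) ξ + 2 * ε * SpecQ (r i) ξ) := by
      intro i
      obtain ⟨l, hl⟩ := hl i a (Finset.mem_singleton_self a)
      have hrs := (hr i).isSelfAdjoint.star_eq
      have hrr := (hr i).isIdempotentElem.eq
      set d := r i * a * r i - (l : ℂ) • r i with hd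
      have hd1 : r i * d * r i = d := by
        rw [hd, mul_sub, sub_mul, mul_smul_comm, smul_mul_assoc, hrr, hrr, ← mul_assoc,
          ← mul_assoc, hrr, mul_assoc _ (r i), hrr]
      have hd2 : ∀ ζ, |SpecQ d ζ| ≤ ε * SpecQ (r i) ζ := fun ζ => by
        rw [← hd1, ← SpecQ_apply (hr i).isSelfAdjoint, SpecQ_proj (hr i)]
        exact (abs_SpecQ_le _ _).trans (mul_le_mul_of_nonneg_right hl (sq_nonneg _))
      have hsa : IsSelfAdjoint ((ε : ℂ) • r i - d) := by
        rw [IsSelfAdjoint, hd]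
        simp only [star_sub, star_smul, star_mul, hrs, has.star_eq, RCLike.star_def,
          Complex.conj_ofReal, mul_assoc]
      obtain ⟨b, hb, e⟩ := Spec_sq_of_nonneg hsa fun ζ => by
        rw [SpecQ_sub, SpecQ_smul]
        linarith [(abs_le.1 (hd2 ζ)).2]
      have h1 := (Complex.nonneg_iff.1 (hω b)).1
      rw [hb.star_eq, ← e, hd] at h1
      simp only [map_sub, map_smul, smul_eq_mul, Complex.sub_re, Complex.re_ofReal_mul] at h1
      have h2 := (Complex.nonneg_iff.1 (hω (r i))).1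
      rw [hrs, hrr] at h2
      have h3 := h (r i) (hr i) (hrf i)
      rw [← SpecQ_proj (hr i)] at h3
      have h4 := (abs_le.1 (hd2 ξ)).1
      rw [hd, SpecQ_sub, SpecQ_smul] at h4
      have h5 : 0 ≤ SpecQ (r i * a * r i) ξ := by
        rw [← SpecQ_apply (hr i).isSelfAdjoint, ha, SpecQ_star_mul]
        positivity
      have h6 : 0 ≤ SpecQ (r i) ξ := by rw [SpecQ_proj (hr i)]; positivity
      rcases le_total 0 (l + ε) with hle | hle
      · have := mul_le_mul_of_nonneg_left h3 hle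
        have h7 : (l + ε) * SpecQ (r i) ξ ≤ SpecQ (r i * a * r i) ξ + 2 * ε * SpecQ (r i) ξ := by
          linarith
        have := mul_le_mul_of_nonneg_left h7 hc
        linarith
      · have := mul_nonpos_of_nonpos_of_nonneg hle h2
        have : 0 ≤ c * (SpecQ (r i * a * r i) ξ + 2 * ε * SpecQ (r i) ξ) := by positivity
        linarith
    have hsa : ∑ i, r i * a * r i = a := by
      have : ∀ i, r i * a * r i = a * r i := fun i => by
        rw [← (hc' i).eq, mul_assoc, (hr i).isIdempotentElem.eq]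
      simp only [this, ← Finset.mul_sum, hsum, haf]
    have hQ : ∀ y : ι → Alg M, ∑ i, SpecQ (y i) ξ = SpecQ (∑ i, y i) ξ := fun y => by
      change ∑ i, (vecF M ξ ξ (y i)).re = (vecF M ξ ξ (∑ i, y i)).re
      rw [map_sum, Complex.re_sum]
    have h1 := Finset.sum_le_sum fun i (_ : i ∈ Finset.univ) => hone i
    rw [← Complex.re_sum, ← map_sum, ← Finset.mul_sum, Finset.sum_add_distrib, ← Finset.mul_sum,
      hQ, hQ, hsa, hsum, SpecQ_proj hf] at h1
    have h2 : SpecQ a ξ = ‖(x : H →L[ℂ] H) ξ‖ ^ 2 := SpecQ_star_mul x ξ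
    have h3 : ‖(f : H →L[ℂ] H) ξ‖ ^ 2 ≤ ‖ξ‖ ^ 2 := by
      gcongr; exact Spec_norm_proj_apply_le hf ξ
    have h4 := mul_le_mul_of_nonneg_left h3 (show 0 ≤ c * (2 * ε) by positivity)
    rw [h2] at h1
    linarith
  refine le_of_forall_pos_le_add fun δ hδ => ?_
  have hK : 0 < 2 * c * ‖ξ‖ ^ 2 + 1 := by positivity
  refine (key (δ / (2 * c * ‖ξ‖ ^ 2 + 1)) (by positivity)).trans (add_le_add_right ?_ _)
  rw [div_mul_eq_mul_div, div_le_iff₀ hK]
  nlinarith

/-- A dominated positive functional is a vector functional.  Recipe: Cauchy–Schwarz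
`‖ω x‖ = ‖ω (1⋆ x)‖ ≤ √(ω 1) √(ω (x⋆ x)) ≤ √(ω 1) √c ‖x ξ‖` for `x f = x`; so `x ξ ↦ ω x` is a
well defined bounded functional on the subspace `{x ξ | x f = x}` (range of a linear map); extend
it (`exists_extension_norm_eq`) and use `InnerProductSpace.toDual`. -/
theorem exists_riesz (f : Alg M) (ω : Alg M →L[ℂ] ℂ)
    (hω : ∀ y, 0 ≤ ω (star y * y)) (ξ : H) {c : ℝ} (hc : 0 ≤ c)
    (h : ∀ x, x * f = x → (ω (star x * x)).re ≤ c * ‖(x : H →L[ℂ] H) ξ‖ ^ 2) :
    ∃ η : H, ‖η‖ ^ 2 ≤ c * (ω 1).re ∧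
      ∀ x, x * f = x → ω x = ⟪η, (x : H →L[ℂ] H) ξ⟫_ℂ := by
  have h1 : 0 ≤ (ω 1).re := by simpa using (Complex.nonneg_iff.1 (hω 1)).1
  let S : Submodule ℂ (Alg M) := LinearMap.eqLocus (Rm f).toLinearMap LinearMap.id
  let T : S →ₗ[ℂ] H := (((ContinuousLinearMap.apply ℂ H ξ).comp
    (M.toStarSubalgebra.toSubalgebra.toSubmodule.subtypeL)).toLinearMap).comp S.subtype
  have hT : ∀ x : S, T x = ((x : Alg M) : H →L[ℂ] H) ξ := fun _ => rfl
  have hb : ∀ x : S, ‖ω x‖ ≤ √(c * (ω 1).re) * ‖T x‖ := fun x => by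
    refine le_of_sq_le_sq ?_ (by positivity)
    rw [mul_pow, Real.sq_sqrt (by positivity), hT]
    refine (Trace_cs ω hω x).trans ((mul_le_mul_of_nonneg_left (h x x.2) h1).trans (le_of_eq ?_))
    ring
  obtain ⟨g, hg⟩ := T.rangeRestrict.exists_rightInverse_of_surjective T.range_rangeRestrict
  have hg' : ∀ v, T (g v) = v := fun v => congrArg Subtype.val (LinearMap.congr_fun hg v)
  let φ : LinearMap.range T →L[ℂ] ℂ :=
    ((ω.toLinearMap.comp S.subtype).comp g).mkContinuous √(c * (ω 1).re) fun v => by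
      have := hb (g v)
      rwa [hg'] at this
  have hφ : ‖φ‖ ≤ √(c * (ω 1).re) := LinearMap.mkContinuous_norm_le _ (by positivity) _
  obtain ⟨G, hG1, hG2⟩ := exists_extension_norm_eq (LinearMap.range T) φ
  refine ⟨(InnerProductSpace.toDual ℂ H).symm G, ?_, fun x hx => ?_⟩
  · rw [LinearIsometryEquiv.norm_map, hG2, ← Real.sq_sqrt (show 0 ≤ c * (ω 1).re by positivity)]
    gcongr
  · rw [InnerProductSpace.toDual_symm_apply]
    let x' : S := ⟨x, hx⟩
    have e1 := hG1 ⟨T x', x', rfl⟩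
    have e2 := hb (g ⟨T x', x', rfl⟩ - x')
    rw [map_sub, hg', sub_self, norm_zero, mul_zero, norm_le_zero_iff, Submodule.coe_sub, map_sub,
      sub_eq_zero] at e2
    exact (e1.trans e2).symm

/-- The support of a normal trace.  Recipe: Zorn for a maximal set of pairwise orthogonal
projections `q ≤ f` with `τ q = 0`; `exists_orth_sum` gives their sum `w` (put `q = w⋆ w`),
`τ q = 0` by normality, `f' = f - q ≠ 0`.  If `y f' = y ≠ 0` and `τ (y⋆ y) = 0`, `exists_spec` and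
`exists_sq_of_lower` give `0 ≠ p ≤ f'` with `δ² τ p ≤ τ (p y⋆ y p) ≤ τ (y⋆ y) = 0`
(`τ (y⋆ y) = τ (p y⋆ y p) + τ ((f - p) y⋆ y (f - p))` by the trace property). -/
theorem exists_hasTr_of_trace {f : Alg M} (hf : IsStarProjection f) (τ : Alg M →L[ℂ] ℂ)
    (hn : IsNormal M τ) (hpos : ∀ y, y * f = y → 0 ≤ τ (star y * y)) (h0 : τ f ≠ 0)
    (htr : ∀ a b, f * a * f = a → f * b * f = b → τ (a * b) = τ (b * a)) :
    ∃ f', f' * f = f' ∧ HasTr M f' := by
  have hfs := hf.isSelfAdjoint.star_eq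
  have hff := hf.isIdempotentElem.eq
  have flip : ∀ {p q : Alg M}, IsStarProjection p → IsStarProjection q → ∀ {z : Alg M},
      star z = z → p * q = z → q * p = z := fun {p q} hp hq {z} hz e => by
    rw [← hz, ← e, star_mul, hp.isSelfAdjoint.star_eq, hq.isSelfAdjoint.star_eq]
  obtain ⟨𝓢, h𝓢⟩ := zorn_subset {𝓢 : Set (Alg M) |
      (∀ q ∈ 𝓢, IsStarProjection q ∧ q * f = q ∧ τ q = 0) ∧
        ∀ q ∈ 𝓢, ∀ q' ∈ 𝓢, q ≠ q' → q * q' = 0} fun c hc hch => by
    refine ⟨⋃₀ c, ⟨?_, ?_⟩, fun s hs => Set.subset_sUnion_of_mem hs⟩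
    · rintro q ⟨s, hs, hq⟩
      exact (hc hs).1 q hq
    · rintro q ⟨s, hs, hq⟩ q' ⟨s', hs', hq'⟩
      rcases hch.total hs hs' with h | h
      · exact (hc hs').2 q (h hq) q' hq'
      · exact (hc hs).2 q hq q' (h hq')
  obtain ⟨h1, h2⟩ := h𝓢.prop
  have hs : ∀ i : 𝓢, star (i : Alg M) = i := fun i => (h1 i i.2).1.isSelfAdjoint.star_eq
  have hi : ∀ i : 𝓢, (i : Alg M) * i = i := fun i => (h1 i i.2).1.isIdempotentElem.eq
  obtain ⟨w, hw, w1, w2, -, w4, 𝒰, -, w5⟩ := exists_orth_sum (fun i : 𝓢 => (i : Alg M))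
    (fun i => by rw [hs, hi, hi])
    (fun i j hij => by rw [hs]; exact h2 i i.2 j j.2 fun e => hij (Subtype.ext e))
    (fun i j hij => by rw [hs]; exact h2 i i.2 j j.2 fun e => hij (Subtype.ext e))
  set q := star w * w with hqd
  have hq : IsStarProjection q := proj_star_mul hw
  have hwf : w * f = w := by
    have := w4 (1 - f) fun i => by rw [mul_sub, mul_one, (h1 i i.2).2.1, sub_self]
    rw [mul_sub, mul_one, sub_eq_zero] at this
    exact this.symm
  have hqf : q * f = q := by rw [hqd, mul_assoc, hwf]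
  have hfq : f * q = q := flip hq hf hq.isSelfAdjoint.star_eq hqf
  have hτq : τ q = 0 := by
    have := (w5 τ hn).1
    simp only [hs, hi, fun i : 𝓢 => (h1 i i.2).2.2, Finset.sum_const_zero] at this
    exact tendsto_nhds_unique this tendsto_const_nhds
  have hqv : ∀ i : 𝓢, q * i = i := fun i => by
    have a1 := w1 i
    have a2 := congrArg star (w2 i)
    simp only [hs, hi, star_mul] at a1 a2
    rw [hqd, mul_assoc, a1, a2]
  have hf' : IsStarProjection (f - q) := hq.sub_of_mul_eq_left hf hqf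
  have hf'f : (f - q) * f = f - q := by rw [sub_mul, hff, hqf]
  have hff' : f * (f - q) = f - q := by rw [mul_sub, hff, hfq]
  have hf'v : ∀ v ∈ 𝓢, (f - q) * v = 0 := fun v hv => by
    rw [sub_mul, hqv ⟨v, hv⟩, flip (h1 v hv).1 hf (hs ⟨v, hv⟩) (h1 v hv).2.1, sub_self]
  have up : ∀ {y : Alg M}, y * (f - q) = y → y * f = y := fun {y} hy => by
    rw [← hy, mul_assoc, hf'f]
  refine ⟨f - q, hf'f, hf', fun e => h0 ?_, τ, hn, fun y hy => hpos y (up hy),
    fun y hy hτ => ?_, fun a b ha hb => htr a b ?_ ?_⟩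
  · rw [sub_eq_zero.1 e, hτq]
  · by_contra hy0
    have hn0 : 0 < ‖y‖ := norm_pos_iff.2 hy0
    obtain ⟨p, hp, hpe, hp1, hp2⟩ := exists_spec y hf' (δ := ‖y‖ / 2) (by positivity)
    obtain ⟨b, hb1, hb2⟩ := exists_sq_of_lower hp (by positivity) hp2
    have hps := hp.isSelfAdjoint.star_eq
    have hpf : p * f = p := up hpe
    have hyf : y * f = y := up hy
    have hfy : f * star y = star y := by rw [← hfs, ← star_mul, hyf]
    have cut : ∀ r : Alg M, IsStarProjection r → r * f = r →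
        τ (star y * y * r) = τ (star (y * r) * (y * r)) := fun r hr hrf => by
      have hfr : f * r = r := flip hr hf hr.isSelfAdjoint.star_eq hrf
      have := htr (star y * y * r) r
        (by rw [← mul_assoc, ← mul_assoc, hfy, mul_assoc _ r, hrf]) (by rw [hfr, hrf])
      rw [mul_assoc _ r, hr.isIdempotentElem.eq] at this
      rw [this, star_mul, hr.isSelfAdjoint.star_eq]
      simp only [mul_assoc]
    have hfp : IsStarProjection (f - p) := hp.sub_of_mul_eq_left hf hpf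
    have c1 := cut p hp hpf
    have c2 := cut (f - p) hfp (by rw [sub_mul, hff, hpf])
    have c3 := hpos (y * p) (by rw [mul_assoc, hpf])
    have c4 := hpos (y * (f - p)) (by rw [mul_assoc, sub_mul, hff, hpf])
    rw [mul_sub, map_sub, mul_assoc _ y f, hyf, hτ, c1] at c2
    have c5 : τ (star (y * p) * (y * p)) = 0 := le_antisymm (sub_nonneg.1 (c2 ▸ c4)) c3
    have c6 := hpos b (by rw [← hb1, mul_assoc, hpf])
    have c7 := hpos p hpf
    rw [hps, hp.isIdempotentElem.eq] at c7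
    rw [hb2, map_add, map_smul, smul_eq_mul] at c5
    have hδ : (0 : ℂ) < (((‖y‖ / 2) ^ 2 : ℝ) : ℂ) := by
      rw [Complex.zero_lt_real]; positivity
    have c8 : τ p = 0 := by
      have := (add_eq_zero_iff_of_nonneg (mul_nonneg hδ.le c7) c6).1 c5
      exact (mul_eq_zero.1 this.1).resolve_left hδ.ne'
    have hpv : ∀ v ∈ 𝓢, p * v = 0 := fun v hv => by rw [← hpe, mul_assoc, hf'v v hv, mul_zero]
    have hmem : p ∈ 𝓢 := by
      refine h𝓢.mem_of_prop_insert ⟨?_, ?_⟩
      · rintro v (rfl | hv)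
        exacts [⟨hp, hpf, c8⟩, h1 v hv]
      · rintro v (rfl | hv) v' (rfl | hv') hne
        exacts [absurd rfl hne, hpv v' hv', flip hp (h1 v hv).1 (star_zero _) (hpv v hv),
          h2 v hv v' hv' hne]
    have hp0 : p = 0 := by rw [← hp.isIdempotentElem.eq, hpv p hmem]
    rw [hp0, sub_zero, hy] at hp1
    linarith
  · rw [← ha, ← mul_assoc, ← mul_assoc, hff', mul_assoc _ (f - q), hf'f]
  · rw [← hb, ← mul_assoc, ← mul_assoc, hff', mul_assoc _ (f - q), hf'f]

/-- **Trace lemma.**  Recipe: for `IsCU f g` let `η g` be the vector of `exists_riesz` for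
`x ↦ ψ (g⋆ x g)` (`le_of_proj_le`), `‖η g‖² ≤ 2 re ψ f`.  Apply `var_inf`, `var_close` with
`U = {u // IsCU f u}`, `W = U →₀ ℝ`, `𝓚` = probability vectors,
`b u μ μ' = re ⟪∑ μ g • η (u g), ∑ μ' g • η (u g)⟫`; translates `mapDomain (h * ·) μ` of near
minimisers are near minimisers.  With `τ_μ x = ∑ μ g ψ (g⋆ x g)` one has
`τ_μ x = ⟪∑ μ g • η (u g), (u x u⋆) ξ⟫` for all `u` and `x = f x f`, so
`‖τ_{h μ} x - τ_μ x‖ ≤ √(16 δ) ‖x‖ ‖ξ‖`.  Let `η∞` be the weak limit of `∑ μ_n g • η g` along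
`hyperfilter ℕ` (`ulimL` of `innerSL`, `InnerProductSpace.toDual`) and
`τ = vecF M (f η∞) (f ξ)`, the pointwise limit of `τ_{μ_n}`: positive, `τ f = ψ f`,
`τ (h⋆ x h) = τ x`, hence tracial on `f M f` (`exists_four_cu`); `exists_hasTr_of_trace`. -/
theorem exists_hasTr {f : Alg M} (hf : IsStarProjection f) (ξ : H) (ψ : Alg M →L[ℂ] ℂ)
    (hψ : ∀ y, 0 ≤ ψ (star y * y)) (h0 : ψ f ≠ 0)
    (h : ∀ u r, IsCU f u → IsStarProjection r → r * f = r →
      (ψ (star u * r * u)).re ≤ 2 * ‖(r : H →L[ℂ] H) ξ‖ ^ 2) :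
    ∃ f', f' * f = f' ∧ HasTr M f' := by
  have hfs := hf.isSelfAdjoint.star_eq
  have hff := hf.isIdempotentElem.eq
  let U := {u : Alg M // IsCU f u}
  let o : U := ⟨f, IsCU.refl hf⟩
  let mu : U → U → U := fun u v => ⟨u * v, u.2.mul hf v.2⟩
  have : Nonempty U := ⟨o⟩
  have uf : ∀ u : U, (u : Alg M) * f = u := fun u => u.2.mul_unit hf
  have fu : ∀ u : U, f * (u : Alg M) = u := fun u => u.2.unit_mul hf
  have fu' : ∀ u : U, f * star (u : Alg M) = star (u : Alg M) := fun u => u.2.star.unit_mul hf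
  have uf' : ∀ u : U, star (u : Alg M) * f = star (u : Alg M) := fun u => u.2.star.mul_unit hf
  have xf : ∀ {x : Alg M}, f * x * f = x → x * f = x := fun {x} hx => by
    rw [← hx, mul_assoc, hff]
  have conj : ∀ (u : U) (x : Alg M), f * (star (u : Alg M) * x * u) * f = star (u : Alg M) * x * u :=
    fun u x => by rw [← mul_assoc, ← mul_assoc, fu', mul_assoc _ _ f, uf]
  have hη : ∀ g : U, ∃ η : H, ‖η‖ ^ 2 ≤ 2 * (ψ f).re ∧
      ∀ x, x * f = x → ψ (star (g : Alg M) * x * g) = ⟪η, (x : H →L[ℂ] H) ξ⟫_ℂ := by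
    intro g
    let ω : Alg M →L[ℂ] ℂ := ψ.comp ((Rm (g : Alg M)).comp (Lm (star (g : Alg M))))
    have hω0 : ∀ x, ω x = ψ (star (g : Alg M) * x * g) := fun _ => rfl
    have hω : ∀ y, 0 ≤ ω (star y * y) := fun y => by
      have := hψ (y * g)
      rw [star_mul] at this
      rw [hω0]
      simpa only [mul_assoc] using this
    obtain ⟨η, h1, h2⟩ := exists_riesz f ω hω ξ zero_le_two fun x hx =>
      le_of_proj_le hf ω hω ξ zero_le_two (fun r hr hrf => h g r g.2 hr hrf) hx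
    rw [hω0, mul_one, g.2.1] at h1
    exact ⟨η, h1, h2⟩
  choose η hη1 hη2 using hη
  let 𝓚 : Set (U → H) := {w | (∀ u, ‖w u‖ ≤ √(2 * (ψ f).re)) ∧
    (∀ (u : U) (x : Alg M), f * x * f = x → ⟪w u, (x : H →L[ℂ] H) ξ⟫_ℂ =
      ⟪w o, ((star (u : Alg M) * x * u : Alg M) : H →L[ℂ] H) ξ⟫_ℂ) ∧
    (∀ y : Alg M, y * f = y → 0 ≤ ⟪w o, ((star y * y : Alg M) : H →L[ℂ] H) ξ⟫_ℂ) ∧
    ⟪w o, (f : H →L[ℂ] H) ξ⟫_ℂ = ψ f}
  have lin : ∀ (w w' v : H) (a b : ℝ), ⟪a • w + b • w', v⟫_ℂ = a * ⟪w, v⟫_ℂ + b * ⟪w', v⟫_ℂ := by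
    intro w w' v a b
    rw [inner_add_left, ← Complex.coe_smul, ← Complex.coe_smul, inner_smul_left, inner_smul_left,
      Complex.conj_ofReal, Complex.conj_ofReal]
  have hconv : Convex ℝ 𝓚 := by
    rintro w ⟨a1, a2, a3, a4⟩ w' ⟨b1, b2, b3, b4⟩ a b ha hb hab
    refine ⟨fun u => ?_, fun u x hx => ?_, fun y hy => ?_, ?_⟩
    · have := convex_closedBall (0 : H) √(2 * (ψ f).re) (mem_closedBall_zero_iff.2 (a1 u))
        (mem_closedBall_zero_iff.2 (b1 u)) ha hb hab
      exact mem_closedBall_zero_iff.1 this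
    · simp only [Pi.add_apply, Pi.smul_apply, lin, a2 u x hx, b2 u x hx]
    · simp only [Pi.add_apply, Pi.smul_apply, lin]
      exact add_nonneg (mul_nonneg (Complex.zero_le_real.2 ha) (a3 y hy))
        (mul_nonneg (Complex.zero_le_real.2 hb) (b3 y hy))
    · simp only [Pi.add_apply, Pi.smul_apply, lin, a4, b4]
      rw [← add_mul, ← Complex.ofReal_add, hab, Complex.ofReal_one, one_mul]
  have hηK : η ∈ 𝓚 := by
    refine ⟨fun u => Real.le_sqrt_of_sq_le (hη1 u), fun u x hx => ?_, fun y hy => ?_, ?_⟩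
    · rw [← hη2 u x (xf hx), ← hη2 o _ (xf (conj u x))]
      exact congrArg ψ (by rw [hfs, conj])
    · rw [← hη2 o _ (by rw [mul_assoc, hy])]
      have := hψ (y * f)
      rw [star_mul] at this
      simpa only [mul_assoc] using this
    · rw [← hη2 o f hff]
      exact congrArg ψ (by rw [hfs, hff, hff])
  have hinv : ∀ w ∈ 𝓚, ∀ g : U, (fun u => w (mu u g)) ∈ 𝓚 := by
    rintro w ⟨a1, a2, a3, a4⟩ g
    have e : mu o g = g := Subtype.ext (fu g)
    refine ⟨fun u => a1 _, fun u x hx => ?_, fun y hy => ?_, ?_⟩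
    · simp only [e]
      rw [a2 _ x hx, a2 g _ (conj u x)]
      simp only [mu, star_mul, mul_assoc]
    · simp only [e]
      have hfy : f * star y = star y := by rw [← hfs, ← star_mul, hy]
      rw [a2 g _ (by rw [← mul_assoc, hfy, mul_assoc, hy])]
      have := a3 (y * g) (by rw [mul_assoc, uf])
      rw [star_mul] at this
      simpa only [mul_assoc] using this
    · simp only [e]
      rw [a2 g f (by rw [hff, hff]), uf', g.2.1, a4]
  let b : U → LinearMap.BilinForm ℝ (U → H) := fun u =>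
    LinearMap.mk₂ ℝ (fun w w' => (⟪w u, w' u⟫_ℂ).re)
      (fun _ _ _ => by simp only [Pi.add_apply, inner_add_left, Complex.add_re])
      (fun a _ _ => by
        rw [Pi.smul_apply, ← Complex.coe_smul, inner_smul_left, Complex.conj_ofReal,
          Complex.re_ofReal_mul, smul_eq_mul])
      (fun _ _ _ => by simp only [Pi.add_apply, inner_add_right, Complex.add_re])
      (fun a _ _ => by
        rw [Pi.smul_apply, ← Complex.coe_smul, inner_smul_right, Complex.re_ofReal_mul, smul_eq_mul])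
  have hb : ∀ u w, b u w w = ‖w u‖ ^ 2 := fun u w => inner_self_eq_norm_sq (𝕜 := ℂ) (w u)
  have hbpos : ∀ u w, 0 ≤ b u w w := fun u w => by rw [hb]; positivity
  obtain ⟨N₀, hN1, hN2⟩ := var_inf b hbpos ⟨η, hηK⟩ fun w hw =>
    ⟨√(2 * (ψ f).re) ^ 2, fun u => by rw [hb]; gcongr; exact hw.1 u⟩
  choose w hwK hw using fun n : ℕ => hN2 ((1 / ((n : ℝ) + 1)) ^ 2) (by positivity)
  have close : ∀ (n : ℕ) (g : U) (x : Alg M), f * x * f = x →
      ‖⟪w n o, (x : H →L[ℂ] H) ξ⟫_ℂ -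
        ⟪w n o, ((star (g : Alg M) * x * g : Alg M) : H →L[ℂ] H) ξ⟫_ℂ‖ ≤
        (4 * (‖x‖ * ‖ξ‖)) * (1 / ((n : ℝ) + 1)) := by
    intro n g x hx
    obtain ⟨u, hu⟩ := var_close b (fun u w w' => inner_re_symm (𝕜 := ℂ) (w u) (w' u)) hbpos hconv
      (show 0 < (1 / ((n : ℝ) + 1)) ^ 2 by positivity) hN1 (J := Bool)
      (fun j => if j then w n else fun u => w n (mu u g))
      (fun j => by cases j; exacts [hinv _ (hwK n) g, hwK n])
      (fun j u => by
        cases j
        · exact hw n (mu u g)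
        · exact hw n u)
    have h1 := hu true false
    rw [hb] at h1
    have h2 : ‖w n u - w n (mu u g)‖ ≤ 4 * (1 / ((n : ℝ) + 1)) := by
      refine le_of_sq_le_sq (h1.trans (le_of_eq ?_)) (by positivity)
      rw [Fintype.card_bool]
      push_cast
      ring
    set z : Alg M := u * x * star (u : Alg M) with hz
    have hz1 : f * z * f = z := by
      rw [hz, ← mul_assoc, ← mul_assoc, fu, mul_assoc _ _ f, uf']
    have hz2 : star (u : Alg M) * z * u = x := by
      rw [hz, ← mul_assoc, ← mul_assoc, u.2.1, mul_assoc _ _ (u : Alg M), u.2.1, hx]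
    have hz3 : ‖z‖ ≤ ‖x‖ := by
      have n1 := u.2.norm_le hf
      have n2 := u.2.star.norm_le hf
      calc ‖z‖ ≤ ‖(u : Alg M)‖ * ‖x‖ * ‖star (u : Alg M)‖ := norm_mul₃_le
        _ ≤ 1 * ‖x‖ * 1 := by gcongr
        _ = ‖x‖ := by ring
    have e1 := (hwK n).2.1 u z hz1
    have e2 := (hwK n).2.1 (mu u g) z hz1
    have e3 : star (mu u g : Alg M) * z * (mu u g : Alg M) = star (g : Alg M) * x * g := by
      rw [← hz2]
      simp only [mu, star_mul, mul_assoc]
    rw [hz2] at e1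
    rw [e3] at e2
    rw [← e1, ← e2, ← inner_sub_left]
    refine (norm_inner_le_norm _ _).trans ?_
    have h3 : ‖(z : H →L[ℂ] H) ξ‖ ≤ ‖x‖ * ‖ξ‖ := (Alg.norm_apply_le z ξ).trans (by gcongr)
    calc _ ≤ (4 * (1 / ((n : ℝ) + 1))) * (‖x‖ * ‖ξ‖) := by gcongr
      _ = _ := by ring
  let 𝒰 := hyperfilter ℕ
  have hF : ∀ n, ‖innerSL ℂ (w n o)‖ ≤ √(2 * (ψ f).re) := fun n => by
    rw [innerSL_apply_norm]; exact (hwK n).1 o
  let τ := vecF M ((InnerProductSpace.toDual ℂ H).symm (ulimL 𝒰 fun n => innerSL ℂ (w n o))) ξ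
  have hτ : ∀ x : Alg M, Tendsto (fun n => ⟪w n o, (x : H →L[ℂ] H) ξ⟫_ℂ) 𝒰 (𝓝 (τ x)) := fun x => by
    rw [vecF_apply, InnerProductSpace.toDual_symm_apply]
    exact tendsto_ulimL 𝒰 hF _
  have hτu : ∀ (g : U) (x : Alg M), f * x * f = x → τ x = τ (star (g : Alg M) * x * g) := by
    intro g x hx
    have t1 := ((hτ x).sub (hτ (star (g : Alg M) * x * g))).norm
    have t2 : Tendsto (fun n : ℕ => (4 * (‖x‖ * ‖ξ‖)) * (1 / ((n : ℝ) + 1))) 𝒰 (𝓝 0) := by
      have := tendsto_one_div_add_atTop_nhds_zero_nat (𝕜 := ℝ).const_mul (4 * (‖x‖ * ‖ξ‖))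
      rw [mul_zero] at this
      exact this.mono_left (hyperfilter_le_cofinite.trans Nat.cofinite_eq_atTop.le)
    exact sub_eq_zero.1 (norm_le_zero_iff.1 (le_of_tendsto_of_tendsto' t1 t2 fun n => close n g x hx))
  refine exists_hasTr_of_trace hf τ (isNormal_vecF _ _)
    (fun y hy => ge_of_tendsto' (hτ _) fun n => (hwK n).2.2.1 y hy) ?_ fun a b ha hb => ?_
  · have t1 := hτ f
    simp only [fun n => (hwK n).2.2.2] at t1
    rwa [tendsto_nhds_unique t1 tendsto_const_nhds]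
  · have hfa : f * a = a := by rw [← ha, ← mul_assoc, ← mul_assoc, hff]
    have hfb : f * b = b := by rw [← hb, ← mul_assoc, ← mul_assoc, hff]
    obtain ⟨u, c, hu, e, -⟩ := exists_four_cu hf hfb (xf hb)
    rw [e, Finset.mul_sum, Finset.sum_mul, map_sum, map_sum]
    refine Finset.sum_congr rfl fun i _ => ?_
    rw [mul_smul_comm, smul_mul_assoc, map_smul, map_smul, hτu ⟨u i, hu i⟩ (u i * a)
      (by rw [← mul_assoc, (hu i).unit_mul hf, mul_assoc, xf ha]), ← mul_assoc, (hu i).1, hfa]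

end

end Crest.Agent.R121
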