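import Crest.Agent.R121.Basic

/-!
# Row 121: cyclic, range and central support projections; polar decomposition; orthogonal sums
-/

open scoped InnerProductSpace ComplexOrder Topology
open Filter

set_option linter.unusedSectionVars false

namespace Crest.Agent.R121

noncomputable section

variable {H : Type*} [NormedAddCommGroup H] [InnerProductSpace ℂ H] [CompleteSpace H]
  {M : VonNeumannAlgebra H}

variable (M) in
/-- The closed span of `M' S`. -/
def cycSp (S : Set H) : Submodule ℂ H :=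
  (Submodule.span ℂ {v | ∃ y ∈ M.commutant, ∃ ξ ∈ S, v = y ξ}).topologicalClosure

instance (S : Set H) : CompleteSpace (cycSp M S) := by unfold cycSp; infer_instance

variable (M) in
/-- The projection onto the closed span of `M' S`; it lies in `M`. -/
def cyc (S : Set H) : Alg M :=
  ⟨(cycSp M S).starProjection, R124.starProjection_mem_vN M _ fun y hy x hx =>
    R124.apply_mem_closure_span y (by
      rintro _ ⟨y', hy', ξ, hξ, rfl⟩
      exact Submodule.le_topologicalClosure _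
        (Submodule.subset_span ⟨y * y', mul_mem hy hy', ξ, hξ, rfl⟩)) hx⟩

theorem cyc_proj (S : Set H) : IsStarProjection (cyc M S) :=
  Alg.isStarProjection_iff.2 isStarProjection_starProjection

theorem cyc_apply {S : Set H} {ξ : H} (hξ : ξ ∈ S) : (cyc M S : H →L[ℂ] H) ξ = ξ :=
  Submodule.starProjection_eq_self_iff.2 (Submodule.le_topologicalClosure _
    (Submodule.subset_span ⟨1, one_mem _, ξ, hξ, rfl⟩))

/-- Recipe: `ker x` is closed and contains `y ξ` (`x y ξ = y x ξ`). -/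
theorem mul_cyc_eq_zero {S : Set H} {x : Alg M} (h : ∀ ξ ∈ S, (x : H →L[ℂ] H) ξ = 0) :
    x * cyc M S = 0 := by
  have hle : cycSp M S ≤ LinearMap.ker ((x : H →L[ℂ] H) : H →ₗ[ℂ] H) := by
    refine Submodule.topologicalClosure_minimal _ (Submodule.span_le.2 ?_)
      (ContinuousLinearMap.isClosed_ker (x : H →L[ℂ] H))
    rintro _ ⟨y, hy, ξ, hξ, rfl⟩
    have e := congrArg (fun T : H →L[ℂ] H => T ξ) (R124.commute_of_mem_commutant hy x.2).eq
    change (x : H →L[ℂ] H) (y ξ) = 0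
    change y ((x : H →L[ℂ] H) ξ) = (x : H →L[ℂ] H) (y ξ) at e
    rw [← e, h ξ hξ, map_zero]
  exact Subtype.ext (ContinuousLinearMap.ext fun ξ =>
    hle (Submodule.starProjection_apply_mem (cycSp M S) ξ))

/-- Recipe: `R124.commute_starProjection`, `R124.apply_mem_closure_span`. -/
theorem commute_cyc {S : Set H} {a : Alg M} (h : ∀ ξ ∈ S, (a : H →L[ℂ] H) ξ ∈ S)
    (h' : ∀ ξ ∈ S, ((star a : Alg M) : H →L[ℂ] H) ξ ∈ S) : Commute a (cyc M S) := by
  have key : ∀ b : Alg M, (∀ ξ ∈ S, (b : H →L[ℂ] H) ξ ∈ S) →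
      ∀ x ∈ cycSp M S, (b : H →L[ℂ] H) x ∈ cycSp M S := fun b hb x hx =>
    R124.apply_mem_closure_span (b : H →L[ℂ] H) (by
      rintro _ ⟨y, hy, ξ, hξ, rfl⟩
      refine Submodule.le_topologicalClosure _ (Submodule.subset_span ⟨y, hy, _, hb ξ hξ, ?_⟩)
      exact (congrArg (fun T : H →L[ℂ] H => T ξ)
        (R124.commute_of_mem_commutant hy b.2).eq).symm) hx
  exact Subtype.ext (R124.commute_starProjection (cycSp M S) (a : H →L[ℂ] H) (key a h)
    (key (star a) h')).eq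

/-- The range projection. -/
def rp (x : Alg M) : Alg M := cyc M (Set.range (x : H →L[ℂ] H))

theorem rp_proj (x : Alg M) : IsStarProjection (rp x) := cyc_proj _

theorem rp_mul (x : Alg M) : rp x * x = x :=
  Subtype.ext (ContinuousLinearMap.ext fun ξ => cyc_apply (M := M) ⟨ξ, rfl⟩)

theorem mul_rp_eq_zero {x y : Alg M} (h : y * x = 0) : y * rp x = 0 :=
  mul_cyc_eq_zero (by
    rintro _ ⟨ξ, rfl⟩
    exact congrArg (fun T : Alg M => (T : H →L[ℂ] H) ξ) h)

theorem mul_rp_eq {x p : Alg M} (h : p * x = x) : p * rp x = rp x := by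
  have := mul_rp_eq_zero (x := x) (y := 1 - p) (by rw [sub_mul, one_mul, h, sub_self])
  rw [sub_mul, one_mul, sub_eq_zero] at this
  exact this.symm

theorem commute_rp {x a : Alg M} (h : Commute a x) (h' : Commute (star a) x) :
    Commute a (rp x) := by
  refine commute_cyc ?_ ?_
  · rintro _ ⟨ξ, rfl⟩
    exact ⟨_, (congrArg (fun T : Alg M => (T : H →L[ℂ] H) ξ) h.eq).symm⟩
  · rintro _ ⟨ξ, rfl⟩
    exact ⟨_, (congrArg (fun T : Alg M => (T : H →L[ℂ] H) ξ) h'.eq).symm⟩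

variable (M) in
/-- The central support of a set of elements. -/
def cen (𝓕 : Set (Alg M)) : Alg M :=
  cyc M {v | ∃ a : Alg M, ∃ f ∈ 𝓕, ∃ κ, v = ((a * f : Alg M) : H →L[ℂ] H) κ}

theorem cen_central (𝓕 : Set (Alg M)) : IsCentralProj M (cen M 𝓕) := by
  have key : ∀ b : Alg M, ∀ ξ ∈ {v | ∃ a : Alg M, ∃ f ∈ 𝓕, ∃ κ,
      v = ((a * f : Alg M) : H →L[ℂ] H) κ}, (b : H →L[ℂ] H) ξ ∈ {v | ∃ a : Alg M, ∃ f ∈ 𝓕, ∃ κ,
      v = ((a * f : Alg M) : H →L[ℂ] H) κ} := by
    rintro b _ ⟨a, f, hf, κ, rfl⟩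
    exact ⟨b * a, f, hf, κ, rfl⟩
  exact ⟨cyc_proj _, fun a => commute_cyc (key a) (key (star a))⟩

theorem cen_mul {𝓕 : Set (Alg M)} {f : Alg M} (hf : f ∈ 𝓕) (a : Alg M) :
    cen M 𝓕 * (a * f) = a * f := by
  exact Subtype.ext (ContinuousLinearMap.ext fun κ => cyc_apply (M := M) ⟨a, f, hf, κ, rfl⟩)

theorem mul_cen_eq_zero {𝓕 : Set (Alg M)} {x : Alg M} (h : ∀ a, ∀ f ∈ 𝓕, x * a * f = 0) :
    x * cen M 𝓕 = 0 := by
  refine mul_cyc_eq_zero ?_
  rintro _ ⟨a, f, hf, κ, rfl⟩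
  exact congrArg (fun T : Alg M => (T : H →L[ℂ] H) κ) (h a f hf)

/-- Recipe: `y (a f κ) = a f (y κ)` for `y` in the commutant, so the finite sums below form a
subspace containing the generators; use `Submodule.span_induction` and closure. -/
theorem cen_dense {𝓕 : Set (Alg M)} {ζ : H} (hζ : (cen M 𝓕 : H →L[ℂ] H) ζ = ζ) {ε : ℝ}
    (hε : 0 < ε) : ∃ (n : ℕ) (a f : Fin n → Alg M) (κ : Fin n → H), (∀ i, f i ∈ 𝓕) ∧
      ‖ζ - ∑ i, ((a i * f i : Alg M) : H →L[ℂ] H) (κ i)‖ ≤ ε := by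
  have hmem : ζ ∈ cycSp M {v | ∃ a : Alg M, ∃ f ∈ 𝓕, ∃ κ, v = ((a * f : Alg M) : H →L[ℂ] H) κ} :=
    Submodule.starProjection_eq_self_iff.1 hζ
  have hcl : ζ ∈ closure ((Submodule.span ℂ {v | ∃ y ∈ M.commutant, ∃ ξ ∈
      {v | ∃ a : Alg M, ∃ f ∈ 𝓕, ∃ κ, v = ((a * f : Alg M) : H →L[ℂ] H) κ}, v = y ξ} :
        Submodule ℂ H) : Set H) := hmem
  obtain ⟨η, hη, hd⟩ := Metric.mem_closure_iff.1 hcl ε hε
  obtain ⟨n, c, g, rfl⟩ := Submodule.mem_span_set'.1 hη
  have hg : ∀ i, ∃ a : Alg M, ∃ f ∈ 𝓕, ∃ κ, c i • (g i : H) = ((a * f : Alg M) : H →L[ℂ] H) κ := by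
    intro i
    obtain ⟨y, hy, _, ⟨a, f, hf, κ, rfl⟩, e⟩ := (g i).2
    refine ⟨a, f, hf, c i • y κ, ?_⟩
    rw [map_smul, e]
    exact congrArg (fun T : H →L[ℂ] H => c i • T κ)
      (R124.commute_of_mem_commutant hy (a * f).2).eq
  choose a f hf κ e using hg
  refine ⟨n, a, f, κ, hf, ?_⟩
  rw [← Finset.sum_congr rfl fun i _ => e i, ← dist_eq_norm]
  exact hd.le

/-- Polar decomposition (the partial isometry only).  Recipe: `R124.Halving_graph` applied to
the graph `{(|x| ζ, x ζ)}`, `|x| = CFC.sqrt (x⋆ x)` (commutes with the commutant); the operator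
`v` commutes with the commutant (`R124.Halving_ext`); `v⋆ v` is the projection onto the closure
of the range of `|x|`, which is `rp (star x)` (both are the complement of `ker x`; use
`mul_rp_eq` in both directions: `x⋆ = |x| v⋆`, `|x| = x⋆ v`). -/
theorem exists_polar (x : Alg M) :
    ∃ v : Alg M, star v * v = rp (star x) ∧ v * star v = rp x := by
  set X : H →L[ℂ] H := (x : H →L[ℂ] H) with hX
  have hXM : X ∈ M := x.2
  set s := cfc (fun t : ℝ => √t) (star X * X) with hs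
  have hsM : s ∈ M := R124.SqZero_cfc_mem M (mul_mem (star_mem hXM) hXM) _
  have hss : star s = s := (cfc_predicate (R := ℝ) _ _ : IsSelfAdjoint s).star_eq
  have hs2 : s * s = star X * X := by
    rw [hs, ← cfc_mul ..]
    conv_rhs => rw [← cfc_id' ℝ (star X * X)]
    exact cfc_congr fun t ht => Real.mul_self_sqrt (spectrum_star_mul_self_nonneg t ht)
  have app : ∀ {a b c : H →L[ℂ] H}, a * b = c → ∀ ζ, a (b ζ) = c ζ := fun h ζ =>
    congrArg (fun T : H →L[ℂ] H => T ζ) h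
  have adj : ∀ (a : H →L[ℂ] H) (ζ ξ : H), ⟪a ζ, ξ⟫_ℂ = ⟪ζ, star a ξ⟫_ℂ := fun a ζ ξ => by
    rw [ContinuousLinearMap.star_eq_adjoint, ContinuousLinearMap.adjoint_inner_right]
  have e1 : ∀ ζ ξ, ⟪X ζ, X ξ⟫_ℂ = ⟪s ζ, s ξ⟫_ℂ := fun ζ ξ => by
    rw [adj, adj, hss, app hs2]; rfl
  let L : H →ₗ[ℂ] H × H := LinearMap.prod (s : H →ₗ[ℂ] H) (X : H →ₗ[ℂ] H)
  obtain ⟨v, h1, h2⟩ := R124.Halving_graph (LinearMap.range L) (by
    rintro _ ⟨ζ, rfl⟩
    have := e1 ζ ζ
    rw [inner_self_eq_norm_sq_to_K, inner_self_eq_norm_sq_to_K] at this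
    exact (sq_eq_sq₀ (norm_nonneg _) (norm_nonneg _)).1 (by exact_mod_cast this))
  set D := (LinearMap.range L).map (LinearMap.fst ℂ H H) with hD
  have h1' : ∀ ζ, v (s ζ) = X ζ := fun ζ => h1 _ ⟨ζ, rfl⟩
  have hDs : ∀ ζ, s ζ ∈ D := fun ζ => ⟨_, ⟨ζ, rfl⟩, rfl⟩
  have hperp : ∀ {y : H →L[ℂ] H}, (∀ ζ, star y (s ζ) ∈ D) → ∀ a ∈ Dᗮ, y a ∈ Dᗮ := by
    rintro y hy a ha _ ⟨_, ⟨ζ, rfl⟩, rfl⟩
    rw [← ContinuousLinearMap.adjoint_inner_left]
    exact ha _ (hy ζ)
  have hvM : v ∈ M := by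
    refine R124.mem_vN_of_commute M fun y hy => ?_
    have c1 := app (R124.commute_of_mem_commutant hy hsM).eq
    have c2 := app (R124.commute_of_mem_commutant hy hXM).eq
    have c3 := app (R124.commute_of_mem_commutant (star_mem hy) hsM).eq
    refine R124.Halving_ext D ?_ fun a ha => ?_
    · rintro _ ⟨_, ⟨ζ, rfl⟩, rfl⟩
      change y (v (s ζ)) = v (y (s ζ))
      rw [h1', c1, c2]
      exact (h1' _).symm
    · change y (v a) = v (y a)
      rw [h2 a ha, map_zero, h2 _ (hperp (fun ζ => by rw [c3]; exact hDs _) a ha)]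
  have a2 : star v * X = s := ContinuousLinearMap.ext fun ζ => ext_inner_right ℂ fun ξ => by
    have : (innerSL ℂ (X ζ)).comp v = innerSL ℂ (s ζ) := by
      refine R124.Halving_ext D ?_ fun a ha => ?_
      · rintro _ ⟨_, ⟨ζ', rfl⟩, rfl⟩
        change ⟪X ζ, v (s ζ')⟫_ℂ = ⟪s ζ, s ζ'⟫_ℂ
        rw [h1', e1]
      · change ⟪X ζ, v a⟫_ℂ = ⟪s ζ, a⟫_ℂ
        rw [h2 a ha, inner_zero_right, ha _ (hDs ζ)]
    change ⟪star v (X ζ), ξ⟫_ℂ = _
    rw [adj, star_star]
    exact congrArg (fun T : H →L[ℂ] ℂ => T ξ) this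
  let V : Alg M := ⟨v, hvM⟩
  let S : Alg M := ⟨s, hsM⟩
  have b1 : V * S = x := Subtype.ext (ContinuousLinearMap.ext h1')
  have b2 : star V * x = S := Subtype.ext a2
  have b3 : star S = S := Subtype.ext hss
  have b4 : V * rp S = V := by
    have r1 : ∀ ζ, (rp S : H →L[ℂ] H) (s ζ) = s ζ := fun ζ =>
      congrArg (fun T : Alg M => (T : H →L[ℂ] H) ζ) (rp_mul S)
    have r2 : star (rp S : H →L[ℂ] H) = rp S :=
      congrArg Subtype.val (rp_proj S).isSelfAdjoint.star_eq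
    refine Subtype.ext (R124.Halving_ext D ?_ fun a ha => ?_)
    · rintro _ ⟨_, ⟨ζ, rfl⟩, rfl⟩
      change v ((rp S : H →L[ℂ] H) (s ζ)) = v (s ζ)
      rw [r1]
    · change v ((rp S : H →L[ℂ] H) a) = v a
      rw [h2 a ha, h2 _ (hperp (fun ζ => by rw [r2, r1]; exact hDs _) a ha)]
  have b5 : star V * V = rp S := by
    have := mul_rp_eq (x := S) (p := star V * V) (by rw [mul_assoc, b1, b2])
    rwa [mul_assoc, b4] at this
  have b6 : S * star V = star x := by rw [← b1, star_mul, b3]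
  have b7 : star x * V = S := by rw [← b3, ← b2, star_mul, star_star]
  have b8 : rp S = rp (star x) := by
    have k1 : rp S * rp (star x) = rp (star x) :=
      mul_rp_eq (by rw [← b6, ← mul_assoc, rp_mul])
    have k2 : rp (star x) * rp S = rp S :=
      mul_rp_eq (by rw [← b7, ← mul_assoc, rp_mul])
    have k3 := congrArg star k1
    rw [star_mul, (rp_proj _).isSelfAdjoint.star_eq, (rp_proj _).isSelfAdjoint.star_eq] at k3
    rw [← k2, k3]
  have b9 : rp x * V = V := by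
    have := mul_rp_eq_zero (x := S) (y := rp x * V - V)
      (by rw [sub_mul, mul_assoc, b1, rp_mul, sub_self])
    rwa [sub_mul, mul_assoc, b4, sub_eq_zero] at this
  refine ⟨V, b5.trans b8, ?_⟩
  have k1 := mul_rp_eq (x := x) (p := V * star V) (by rw [mul_assoc, b2, b1])
  have k2 := congrArg star b9
  rw [star_mul, (rp_proj _).isSelfAdjoint.star_eq] at k2
  rwa [mul_assoc, k2] at k1

/-- A nonzero element of `p M q` yields a nonzero partial isometry in `p M q`. -/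
theorem exists_partial_isometry {x p q : Alg M} (hq : IsStarProjection q) (hx : x ≠ 0)
    (hp : p * x = x) (hxq : x * q = x) :
    ∃ v : Alg M, v ≠ 0 ∧ v * star v * v = v ∧ p * v = v ∧ v * q = v := by
  obtain ⟨v, h1, h2⟩ := exists_polar x
  have h3 : v * rp (star x) = v := mul_eq_self_of_star_mul_self (rp_proj _) h1
  have h4 : v * star v * v = v := by rw [mul_assoc, h1, h3]
  refine ⟨v, fun h0 => hx ?_, h4, ?_, ?_⟩
  · rw [← rp_mul x, ← h2, h0, zero_mul, zero_mul]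
  · rw [← h4, h2, ← mul_assoc, mul_rp_eq hp]
  · have k1 : q * rp (star x) = rp (star x) := mul_rp_eq (by
      have := congrArg star hxq
      rwa [star_mul, hq.isSelfAdjoint.star_eq] at this)
    have k2 := congrArg star k1
    rw [star_mul, (rp_proj _).isSelfAdjoint.star_eq, hq.isSelfAdjoint.star_eq] at k2
    rw [← h3, mul_assoc, k2]

theorem proj_star_mul {v : Alg M} (hv : v * star v * v = v) : IsStarProjection (star v * v) :=
  ⟨by rw [IsIdempotentElem, mul_assoc, ← mul_assoc v, hv], IsSelfAdjoint.star_mul_self v⟩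

theorem proj_mul_star {v : Alg M} (hv : v * star v * v = v) : IsStarProjection (v * star v) :=
  ⟨by rw [IsIdempotentElem, ← mul_assoc, hv], IsSelfAdjoint.mul_star_self v⟩

/-- Sums of orthogonal families of partial isometries.  Recipe: `𝒰 = Ultrafilter.of atTop` on
`Finset I`, `w = wlim 𝒰 fun F => ∑ i ∈ F, v i` (finite sums are partial isometries, norm
`≤ 1`); `w * star (v j) * v j = v j` by `wlim_mul_right`, `wlim_congr` (eventually `j ∈ F`);
`star w * w = wlim (∑ star (v i) * w) = wlim (∑ star (v i) * v i)` etc. -/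
theorem exists_orth_sum {I : Type*} (v : I → Alg M) (hv : ∀ i, v i * star (v i) * v i = v i)
    (h₁ : ∀ i j, i ≠ j → star (v i) * v j = 0) (h₂ : ∀ i j, i ≠ j → v i * star (v j) = 0) :
    ∃ w : Alg M, w * star w * w = w ∧ (∀ i, w * (star (v i) * v i) = v i) ∧
      (∀ i, v i * star (v i) * w = v i) ∧
      (∀ y, (∀ i, y * v i = 0) → y * w = 0) ∧ (∀ y, (∀ i, v i * y = 0) → w * y = 0) ∧
      ∃ 𝒰 : Ultrafilter (Finset I), (𝒰 : Filter (Finset I)) ≤ atTop ∧
        ∀ ω, IsNormal M ω →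
          Tendsto (fun F : Finset I => ∑ i ∈ F, ω (star (v i) * v i)) 𝒰 (𝓝 (ω (star w * w))) ∧
          Tendsto (fun F : Finset I => ∑ i ∈ F, ω (v i * star (v i))) 𝒰 (𝓝 (ω (w * star w))) := by
  classical
  let 𝒰 : Ultrafilter (Finset I) := Ultrafilter.of atTop
  have h𝒰 : (𝒰 : Filter (Finset I)) ≤ atTop := Ultrafilter.of_le _
  have hev : ∀ j, ∀ᶠ F : Finset I in 𝒰, j ∈ F := fun j =>
    h𝒰 ((eventually_ge_atTop ({j} : Finset I)).mono fun F hF => hF (Finset.mem_singleton_self j))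
  have hv' : ∀ i, star (v i) * v i * star (v i) = star (v i) := fun i => by
    simpa [mul_assoc] using congrArg star (hv i)
  let S : Finset I → Alg M := fun F => ∑ i ∈ F, v i
  let P : Finset I → Alg M := fun F => ∑ i ∈ F, star (v i) * v i
  let Q : Finset I → Alg M := fun F => ∑ i ∈ F, v i * star (v i)
  have l1 : ∀ F j, j ∈ F → star (v j) * S F = star (v j) * v j := fun F j hj => by
    rw [Finset.mul_sum, Finset.sum_eq_single_of_mem j hj fun i _ hi => h₁ j i hi.symm]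
  have l2 : ∀ F j, j ∈ F → S F * star (v j) = v j * star (v j) := fun F j hj => by
    rw [Finset.sum_mul, Finset.sum_eq_single_of_mem j hj fun i _ hi => h₂ i j hi]
  have hP : ∀ F, star (S F) * S F = P F := fun F => by
    rw [star_sum, Finset.sum_mul]
    exact Finset.sum_congr rfl fun j hj => l1 F j hj
  have hQ : ∀ F, S F * star (S F) = Q F := fun F => by
    rw [star_sum, Finset.mul_sum]
    exact Finset.sum_congr rfl fun j hj => l2 F j hj
  have hS : ∀ F, S F * star (S F) * S F = S F := fun F => by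
    rw [hQ, Finset.sum_mul]
    exact Finset.sum_congr rfl fun j hj => by rw [mul_assoc, l1 F j hj, ← mul_assoc, hv]
  have nP : ∀ F, ‖P F‖ ≤ 1 := fun F => hP F ▸ (proj_star_mul (hS F)).norm_le
  have nQ : ∀ F, ‖Q F‖ ≤ 1 := fun F => hQ F ▸ (proj_mul_star (hS F)).norm_le
  have nS : ∀ F, ‖S F‖ ≤ 1 := fun F => by
    have h1 := CStarRing.norm_star_mul_self (x := S F)
    have h2 := nP F
    rw [← hP, h1] at h2
    nlinarith [norm_nonneg (S F)]
  have nS' : ∀ F, ‖star (S F)‖ ≤ 1 := fun F => by rw [norm_star]; exact nS F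
  have nl : ∀ (a : Alg M) F, ‖a * S F‖ ≤ ‖a‖ * 1 := fun a F =>
    (norm_mul_le _ _).trans (by gcongr; exact nS F)
  have nr : ∀ (a : Alg M) F, ‖S F * a‖ ≤ 1 * ‖a‖ := fun a F =>
    (norm_mul_le _ _).trans (by gcongr; exact nS F)
  set w := wlim 𝒰 S with hw
  have wl : ∀ a b : Alg M, (∀ᶠ F in 𝒰, a * S F = b) → a * w = b := fun a b hab => by
    rw [hw, ← wlim_mul_left 𝒰 nS, wlim_congr 𝒰 (nl a) (fun _ => le_refl ‖b‖) hab, wlim_const]
  have wr : ∀ a b : Alg M, (∀ᶠ F in 𝒰, S F * a = b) → w * a = b := fun a b hab => by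
    rw [hw, ← wlim_mul_right 𝒰 nS, wlim_congr 𝒰 (nr a) (fun _ => le_refl ‖b‖) hab, wlim_const]
  have m1 : ∀ j, star (v j) * w = star (v j) * v j := fun j =>
    wl _ _ ((hev j).mono fun F hF => l1 F j hF)
  have m2 : ∀ j, w * star (v j) = v j * star (v j) := fun j =>
    wr _ _ ((hev j).mono fun F hF => l2 F j hF)
  have m3 : ∀ j, w * (star (v j) * v j) = v j := fun j => by rw [← mul_assoc, m2, hv]
  have wP : star w * w = wlim 𝒰 P := by
    rw [hw, ← wlim_star 𝒰 nS, ← wlim_mul_right 𝒰 nS', ← hw]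
    congr 1
    funext F
    rw [star_sum, Finset.sum_mul]
    exact Finset.sum_congr rfl fun j _ => m1 j
  have wQ : w * star w = wlim 𝒰 Q := by
    conv_lhs => rw [hw, ← wlim_star 𝒰 nS, ← hw, ← wlim_mul_left 𝒰 nS']
    congr 1
    funext F
    rw [star_sum, Finset.mul_sum]
    exact Finset.sum_congr rfl fun j _ => m2 j
  refine ⟨w, ?_, m3, fun i => by rw [mul_assoc, m1, ← mul_assoc, hv], fun y hy => wl _ _ ?_,
    fun y hy => wr _ _ ?_, 𝒰, h𝒰, fun ω hω => ⟨?_, ?_⟩⟩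
  · rw [mul_assoc, wP, ← wlim_mul_left 𝒰 nP]
    conv_rhs => rw [hw]
    congr 1
    funext F
    rw [Finset.mul_sum]
    exact Finset.sum_congr rfl fun j _ => m3 j
  · exact Eventually.of_forall fun F => by
      rw [Finset.mul_sum]
      exact Finset.sum_eq_zero fun i _ => hy i
  · exact Eventually.of_forall fun F => by
      rw [Finset.sum_mul]
      exact Finset.sum_eq_zero fun i _ => hy i
  · rw [wP]
    simpa only [P, map_sum] using tendsto_wlim 𝒰 nP hω
  · rw [wQ]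
    simpa only [Q, map_sum] using tendsto_wlim 𝒰 nQ hω

end

end Crest.Agent.R121
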